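import Crest.Agent.R81.Sep

/-!
# R81 / AddSel

Selection of the kept lines in an adding stage.  Write `G a = grid (μ a) (-a₀) a₀`.
`touched (a, i) := ∃ a' ∈ A, a' ∉ B ∧ a' ≠ a ∧ ρ n a ≤ n a' ∧ ∃ i' ∈ G a', ∃ n : ℤ,
  |cen (a, i) + cen (a', i') - n| ≤ hw a + hw a' ∨ |cen (a, i) - cen (a', i') - n| ≤ hw a + hw a'`;
`K = A.biUnion (fun a => ((G a).filter (¬ touched (a, ·))).image (a, ·))`.
* missing: for each `(a', i')` and sign, `card_near_int` (`h = δ/P a`, `w = hw a + hw a' ≤ 1`,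
  `X = Lm λ`, `2w/h ≤ 2 Lm` by `lam'_le_step`) bounds the number of `i` by
  `C = (2 Lm λ + 3)(2 Lm + 1)`; `μ a' #(G a') ≤ 2` (`card_grid_le`) and `μ a ρ ≤ 2 Lm μ a'` (`μ_le`), so
  `ρ μ a #touched ≤ #A * 8 Lm C`.  For `b ∈ B`, `l b = -a₀`, `r b = a₀` (`Full`).
* added: only `q.1 ∉ B` occur; `ℓ λ' ρ ≤ ℓ λ' n ≤ μ Lm² λ` (`new_le`), so the sum times `ρ` is
  `≤ #A * 2 Lm² λ`.
* sep: for `q, q' ∈ K`: if both modes are in `B`, `sep_lines` with `s = B` on `{q, q'}`; if
  `q.1 = q'.1`, `sep_lines` with `s = {q.1}` (`ℓ ≤ Lm ≤ ρ ≤ n` for new modes, `Label.old` for old ones);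
  otherwise one of them is new, and by `hlac` one of `q`, `q'` would be touched by the other (for
  `t - t' = n` with the roles exchanged use `-n`).

Auxiliary lemmas: put them in the namespace `Crest.Agent.R81.AddSelAux` (avoid name clashes).
-/

set_option autoImplicit false

open MeasureTheory Set Filter Topology
open scoped InnerProductSpace ComplexConjugate

namespace Crest.Agent.R81

theorem add_select (σ : St) (D : FD) (hB : σ.B ⊆ D.A) (hfull : σ.Full) (hnp : NPar D.A) (L : LS)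
    (hL : L.OK σ.B D.A) {d ε₁ : ℝ} (Lm ρ : ℕ) (hρ : 0 < ρ) (hLρ : Lm ≤ ρ)
    (hLm : ∀ a ∈ D.A, ell L.N a ≤ Lm)
    (hlac : ∀ a ∈ D.A, a ∉ σ.B → ρ ≤ L.n a ∧ ∀ a' ∈ D.A, a' ≠ a →
      (ρ * L.n a' ≤ L.n a ∨ (a' ∉ σ.B ∧ ρ * L.n a ≤ L.n a')))
    (hsep : SepI σ.B (fun b => σ.θ b (-σ.a) - d) (fun b => σ.θ b σ.a + d))
    (hself : ∀ a ∈ D.A, SepI ({a} : Finset Md) (fun b => σ.θ b (-σ.a) - d) (fun b => σ.θ b σ.a + d))
    (hcen : ∀ a ∈ D.A, ∀ i : ℤ, |i * L.μ a| ≤ 1 / 2 →
      |L.cen (a, i) - σ.θ a (i * L.μ a)| ≤ d / 2)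
    (hhw : ∀ a ∈ D.A, L.hw a ≤ d / 2 ∧ L.hw a ≤ 1 / 2 ∧ L.μ a ≤ 1)
    (h1 : (D.A.card : ℝ) * (8 * Lm * ((2 * (Lm * L.lam) + 3) * (2 * Lm + 1))) ≤ ε₁ * ρ)
    (h2 : (D.A.card : ℝ) * (2 * (Lm : ℝ) ^ 2 * L.lam) ≤ ε₁ * ρ) :
    ∃ K, Kept σ D L ε₁ K K := by
  classical
  have ha0 := σ.prof.pos
  have ha1 := σ.prof.lt
  have hl := hL.lam_pos
  have hδ := hL.δ_pos
  have hρ' : (0 : ℝ) < ρ := by exact_mod_cast hρ
  let G : Md → Finset ℤ := fun a => grid (L.μ a) (-σ.a) σ.a
  let rel : Md × ℤ → Md × ℤ → Prop := fun q q' =>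
    (∃ n : ℤ, |L.cen q + L.cen q' - n| ≤ L.hw q.1 + L.hw q'.1) ∨
      ∃ n : ℤ, |L.cen q - L.cen q' - n| ≤ L.hw q.1 + L.hw q'.1
  let hi : Md → Finset Md := fun a => D.A.filter fun a' => a' ∉ σ.B ∧ a' ≠ a ∧ ρ * L.n a ≤ L.n a'
  let touched : Md × ℤ → Prop := fun q => ∃ a' ∈ hi q.1, ∃ i' ∈ G a', rel q (a', i')
  let K : Finset (Md × ℤ) := D.A.biUnion fun a =>
    ((G a).filter fun i => ¬ touched (a, i)).image fun i => (a, i)
  have hK : ∀ q : Md × ℤ, q ∈ K ↔ q.1 ∈ D.A ∧ q.2 ∈ G q.1 ∧ ¬ touched q := by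
    rintro ⟨a, i⟩
    simp only [K, Finset.mem_biUnion, Finset.mem_image, Finset.mem_filter, Prod.mk.injEq]
    constructor
    · rintro ⟨a', ha', i', ⟨h1, h2⟩, rfl, rfl⟩; exact ⟨ha', h1, h2⟩
    · rintro ⟨h1, h2, h3⟩; exact ⟨a, h1, i, ⟨h2, h3⟩, rfl, rfl⟩
  have hLm' : ∀ a ∈ D.A, (ell L.N a : ℝ) ≤ Lm := fun a ha => by exact_mod_cast hLm a ha
  have hG : ∀ a ∈ D.A, L.μ a * (G a).card ≤ 2 := fun a ha => by
    have := card_grid_le (hL.μ_pos ha) (show -σ.a ≤ σ.a by linarith)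
    have := (hhw a ha).2.2
    simp only [G]; linarith
  set C : ℝ := (2 * (Lm * L.lam) + 3) * (2 * Lm + 1) with hC
  have hC0 : 0 ≤ C := by positivity
  -- the number of lines touched by one point
  have hone : ∀ a ∈ D.A, ∀ a' ∈ D.A, ∀ c : ℝ,
      (((G a).filter fun i => ∃ n : ℤ, |L.cen (a, i) + c - n| ≤ L.hw a + L.hw a').card : ℝ) ≤ C := by
    intro a ha a' ha' c
    have hμ0 := hL.μ_pos ha
    have hell := hL.ell_pos' ha
    have hP : (0 : ℝ) < L.P a := by exact_mod_cast hL.P_pos ha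
    have hN : (1 : ℝ) ≤ L.N := by exact_mod_cast hL.N_pos
    have hw := hL.hw_pos ha
    have hw' := hL.hw_pos ha'
    have h1 := card_near_int (h := L.δ / L.P a) (w := L.hw a + L.hw a') (X := Lm * L.lam)
      (by positivity) (by positivity) (by positivity) (L.ϑ a + c)
      ((G a).filter fun i => ∃ n : ℤ, |L.cen (a, i) + c - n| ≤ L.hw a + L.hw a') fun i hi => by
        obtain ⟨h2, n, h3⟩ := Finset.mem_filter.1 hi
        obtain ⟨h4, h5⟩ := (mem_grid hμ0).1 h2
        refine ⟨?_, n, ?_⟩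
        · have h6 : |i * L.μ a| ≤ 1 := abs_le.2 ⟨by linarith, by linarith⟩
          have h7 : i * (L.δ / L.P a) = (i * L.μ a) * (ell L.N a * L.lam / L.N) := by
            rw [hL.step_eq ha]; ring
          rw [h7, abs_mul, abs_of_pos (by positivity : 0 < ell L.N a * L.lam / L.N)]
          have h8 : ell L.N a * L.lam / L.N ≤ Lm * L.lam :=
            (div_le_self (by positivity) hN).trans (by have := hLm' a ha; gcongr)
          have h9 : 0 ≤ ell L.N a * L.lam / L.N := by positivity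
          nlinarith [abs_nonneg (i * L.μ a)]
        · convert h3 using 2
          simp only [LS.cen]; ring
    have h2 : 2 * (L.hw a + L.hw a') / (L.δ / L.P a) ≤ 2 * Lm := by
      rw [div_le_iff₀ (by positivity)]
      have := hL.lam'_le_step ha
      have := hL.lam'_pos
      have := hLm' a ha
      have := hLm' a' ha'
      simp only [LS.hw]
      nlinarith
    refine h1.trans (mul_le_mul ?_ (by linarith) (by positivity) (by positivity))
    linarith [(hhw a ha).2.1, (hhw a' ha').2.1]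
  have hcount : ∀ a ∈ D.A, L.μ a * ((G a).filter fun i => (a, i) ∉ K).card ≤ ε₁ := by
    intro a ha
    have hμ0 := hL.μ_pos ha
    have hsub : ((G a).filter fun i => (a, i) ∉ K) ⊆ (hi a).biUnion fun a' => (G a').biUnion fun i' =>
        ((G a).filter fun i => ∃ n : ℤ, |L.cen (a, i) + L.cen (a', i') - n| ≤ L.hw a + L.hw a') ∪
        ((G a).filter fun i => ∃ n : ℤ, |L.cen (a, i) + -L.cen (a', i') - n| ≤ L.hw a + L.hw a') := by
      intro i hi'
      obtain ⟨h1, h2⟩ := Finset.mem_filter.1 hi'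
      have h3 : touched (a, i) := by
        by_contra h3; exact h2 ((hK _).2 ⟨ha, h1, h3⟩)
      obtain ⟨a', ha', i', hi'', h4⟩ := h3
      refine Finset.mem_biUnion.2 ⟨a', ha', Finset.mem_biUnion.2 ⟨i', hi'', ?_⟩⟩
      rcases h4 with h4 | h4
      · exact Finset.mem_union_left _ (Finset.mem_filter.2 ⟨h1, h4⟩)
      · exact Finset.mem_union_right _ (Finset.mem_filter.2 ⟨h1, by
          simpa only [sub_eq_add_neg] using h4⟩)
    have h1 : (((G a).filter fun i => (a, i) ∉ K).card : ℝ) ≤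
        ∑ a' ∈ hi a, (G a').card * (2 * C) := by
      refine (Nat.cast_le.2 ((Finset.card_le_card hsub).trans Finset.card_biUnion_le)).trans ?_
      push_cast
      refine Finset.sum_le_sum fun a' ha' => ?_
      refine (Nat.cast_le.2 Finset.card_biUnion_le).trans ?_
      push_cast
      rw [← nsmul_eq_mul, ← Finset.sum_const]
      refine Finset.sum_le_sum fun i' _ => ?_
      refine (Nat.cast_le.2 (Finset.card_union_le _ _)).trans ?_
      push_cast
      have hA' := (Finset.mem_filter.1 ha').1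
      linarith [hone a ha a' hA' (L.cen (a', i')), hone a ha a' hA' (-L.cen (a', i'))]
    have h2 : ρ * (L.μ a * ∑ a' ∈ hi a, (G a').card * (2 * C)) ≤ D.A.card * (8 * Lm * C) := by
      rw [← mul_assoc, Finset.mul_sum]
      calc _ ≤ ∑ _a' ∈ hi a, 8 * Lm * C := Finset.sum_le_sum fun a' ha' => by
            obtain ⟨hA', -, -, h5⟩ := Finset.mem_filter.1 ha'
            have h6 := hL.μ_le ha hA' h5
            have h7 := hG a' hA'
            have h8 := hLm' a' hA'
            have h9 := hL.μ_pos hA'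
            have h10 : ρ * L.μ a ≤ 2 * Lm * L.μ a' := by nlinarith
            calc ρ * L.μ a * ((G a').card * (2 * C)) ≤
                  2 * Lm * L.μ a' * ((G a').card * (2 * C)) := by gcongr
              _ = 4 * Lm * C * (L.μ a' * (G a').card) := by ring
              _ ≤ 4 * Lm * C * 2 := by gcongr
              _ = _ := by ring
        _ = (hi a).card * (8 * Lm * C) := by rw [Finset.sum_const, nsmul_eq_mul]
        _ ≤ _ := by gcongr; exact Finset.filter_subset _ _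
    have h3 := mul_le_mul_of_nonneg_left h1 hμ0.le
    apply le_of_mul_le_mul_left _ hρ'
    nlinarith
  have hn : ∀ a ∈ D.A, ell L.N a ≤ L.n a := fun a ha => by
    by_cases hb : a ∈ σ.B
    · exact (hL.label.old a hb).ge
    · have := (hlac a ha hb).1
      have := hLm a ha
      omega
  refine ⟨K, le_rfl, fun q hq => ⟨((hK q).1 hq).1, ((hK q).1 hq).2.1⟩,
    fun q hq q' hq' hp => hnp _ ((hK q).1 hq).1 _ ((hK q').1 hq').1 hp, hcount,
    fun b hb => ?_, ?_, ?_⟩
  · rw [(hfull b hb).1, (hfull b hb).2]; exact hcount b (hB hb)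
  · have hsub : K.filter (fun q => ¬ (q.1 ∈ σ.B ∧ q.2 ∈ grid (L.μ q.1) (σ.l q.1) (σ.r q.1))) ⊆
        (D.A.filter fun a => a ∉ σ.B).biUnion fun a => (G a).image fun i => (a, i) := by
      rintro ⟨a, i⟩ hq
      obtain ⟨h1, h2⟩ := Finset.mem_filter.1 hq
      obtain ⟨h3, h4, -⟩ := (hK _).1 h1
      refine Finset.mem_biUnion.2 ⟨a, Finset.mem_filter.2 ⟨h3, fun hb => h2 ⟨hb, ?_⟩⟩,
        Finset.mem_image.2 ⟨i, h4, rfl⟩⟩
      simp only
      rw [(hfull a hb).1, (hfull a hb).2]; exact h4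
    have hlam' := hL.lam'_pos
    have h3 : ∑ q ∈ (D.A.filter fun a => a ∉ σ.B).biUnion fun a => (G a).image fun i => (a, i),
        ell L.N q.1 * L.lam' =
        ∑ a ∈ D.A.filter (fun a => a ∉ σ.B), (G a).card * (ell L.N a * L.lam') := by
      rw [Finset.sum_biUnion]
      · refine Finset.sum_congr rfl fun a _ => ?_
        rw [Finset.sum_image fun _ _ _ _ h => (Prod.mk.inj h).2]
        simp
      · intro a _ a' _ hne
        simp only [Function.onFun, Finset.disjoint_left, Finset.mem_image]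
        rintro q ⟨i, -, rfl⟩ ⟨i', -, h⟩
        exact hne (Prod.mk.inj h).1.symm
    refine (Finset.sum_le_sum_of_subset_of_nonneg hsub fun q hq _ => ?_).trans ?_
    · obtain ⟨a, ha, hq⟩ := Finset.mem_biUnion.1 hq
      obtain ⟨i, -, rfl⟩ := Finset.mem_image.1 hq
      have := hL.ell_pos' (Finset.mem_filter.1 ha).1
      positivity
    · rw [h3]
      apply le_of_mul_le_mul_left _ hρ'
      rw [Finset.mul_sum]
      calc _ ≤ ∑ _a ∈ D.A.filter (fun a => a ∉ σ.B), 2 * (Lm : ℝ) ^ 2 * L.lam :=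
            Finset.sum_le_sum fun a ha => by
              obtain ⟨hA, hb⟩ := Finset.mem_filter.1 ha
              have h4 := hL.new_le hA
              have h5 : (ρ : ℝ) ≤ L.n a := by exact_mod_cast (hlac a hA hb).1
              have h6 := hL.ell_pos' hA
              have h7 := hG a hA
              have h8 := hLm' a hA
              have h9 := hL.μ_pos hA
              calc ρ * ((G a).card * (ell L.N a * L.lam'))
                    = (G a).card * (ell L.N a * L.lam' * ρ) := by ring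
                _ ≤ (G a).card * (ell L.N a * L.lam' * L.n a) := by gcongr
                _ ≤ (G a).card * (L.μ a * ((ell L.N a : ℝ) ^ 2 * L.lam)) := by gcongr
                _ = (L.μ a * (G a).card) * ((ell L.N a : ℝ) ^ 2 * L.lam) := by ring
                _ ≤ 2 * ((Lm : ℝ) ^ 2 * L.lam) := by gcongr
                _ = _ := by ring
        _ = (D.A.filter fun a => a ∉ σ.B).card * (2 * (Lm : ℝ) ^ 2 * L.lam) := by
            rw [Finset.sum_const, nsmul_eq_mul]
        _ ≤ D.A.card * (2 * (Lm : ℝ) ^ 2 * L.lam) := by gcongr; exact Finset.filter_subset _ _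
        _ ≤ _ := by linarith
  · intro q hq q' hq' t ht t' ht' n
    obtain ⟨h1, h2, h3⟩ := (hK q).1 hq
    obtain ⟨h1', h2', h3'⟩ := (hK q').1 hq'
    have useS : ∀ s : Finset Md, s ⊆ D.A → q.1 ∈ s → q'.1 ∈ s →
        SepI s (fun b => σ.θ b (-σ.a) - d) (fun b => σ.θ b σ.a + d) →
        t + t' ≠ n ∧ (t - t' = n → q = q' ∧ n = 0) := by
      intro s hs hqs hqs' hsep'
      have := sep_lines σ hL s hs (fun _ => -σ.a) (fun _ => σ.a)
        (fun _ _ => ⟨by linarith, by linarith⟩) hsep' (fun a ha => hcen a (hs ha))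
        (fun a ha => (hhw a (hs ha)).1) (fun a ha => hn a (hs ha)) {q, q'} (by
          intro p hp
          rcases Finset.mem_insert.1 hp with rfl | hp
          · exact ⟨hqs, h2⟩
          · rw [Finset.mem_singleton.1 hp]; exact ⟨hqs', h2'⟩)
      exact this q (by simp) q' (by simp) t ht t' ht' n
    by_cases hBB : q.1 ∈ σ.B ∧ q'.1 ∈ σ.B
    · exact useS σ.B hB hBB.1 hBB.2 hsep
    by_cases hqq : q.1 = q'.1
    · exact useS {q.1} (by simpa using h1) (by simp) (by simp [hqq]) (hself _ h1)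
    have hdich : q'.1 ∈ hi q.1 ∨ q.1 ∈ hi q'.1 := by
      simp only [hi, Finset.mem_filter]
      by_cases hb : q.1 ∈ σ.B
      · have hb' : q'.1 ∉ σ.B := fun h => hBB ⟨hb, h⟩
        rcases (hlac _ h1' hb').2 _ h1 hqq with h | h
        · exact Or.inl ⟨h1', hb', Ne.symm hqq, h⟩
        · exact absurd hb h.1
      · rcases (hlac _ h1 hb).2 _ h1' (Ne.symm hqq) with h | h
        · exact Or.inr ⟨h1, hb, hqq, h⟩
        · exact Or.inl ⟨h1', h.1, Ne.symm hqq, h.2⟩
    have hnot : ¬ (rel q q' ∧ rel q' q) := by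
      rintro ⟨r1, r2⟩
      rcases hdich with h | h
      · exact h3 ⟨q'.1, h, q'.2, h2', r1⟩
      · exact h3' ⟨q.1, h, q.2, h2, r2⟩
    refine ⟨fun e => hnot ⟨Or.inl ⟨n, ?_⟩, Or.inl ⟨n, ?_⟩⟩,
      fun e => (hnot ⟨Or.inr ⟨n, ?_⟩, Or.inr ⟨-n, ?_⟩⟩).elim⟩
    · exact abs_le.2 ⟨by linarith [ht.2, ht'.2], by linarith [ht.1, ht'.1]⟩
    · exact abs_le.2 ⟨by linarith [ht.2, ht'.2], by linarith [ht.1, ht'.1]⟩
    · exact abs_le.2 ⟨by linarith [ht.2, ht'.1], by linarith [ht.1, ht'.2]⟩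
    · push_cast
      exact abs_le.2 ⟨by linarith [ht.1, ht'.2], by linarith [ht.2, ht'.1]⟩

end Crest.Agent.R81
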