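import Crest.Agent.R81.GS
import Crest.Agent.R81.AddSel

/-!
# R81 / Add

The adding stage: all modes of the data are added to the state.
A common `d` from `SepI.thicken` for `σ.sep` (rewrite with `Full`, `SepI.mono`) and for all `SelfSep a`
(`Finset.eventually_all`, `th_mono`); `gs` with `ε`, `d/2`, `N₀ = 0`; `Lm = ∑ (ell N a).toNat`, `ρ` large
(`≥ 2`, `≥ Lm`, `h1`, `h2`); labels from `exists_label` (by `NPar`, `a ∉ B ↔ ∀ b ∈ B, ¬ Par a b` and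
`a' ≠ a ↔ ¬ Par a a'`); eventually in `δ` the smallness hypotheses of `add_select` hold.
`choose κ` from `Out.ratio`; `D'.A = σ'.B`, and by `Out.full`, `W_cut_smul`,
`W (cut (D'.F b) (-a') a') b = κ b • σ'.w b`.

Auxiliary lemmas: put them in the namespace `Crest.Agent.R81.AddAux` (avoid name clashes).
-/

set_option autoImplicit false

open MeasureTheory Set Filter Topology
open scoped InnerProductSpace ComplexConjugate

namespace Crest.Agent.R81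

theorem stageAdd (σ : St) (D : FD) (hB : σ.B ⊆ D.A) (hfull : σ.Full) (hnp : NPar D.A)
    (hself : ∀ a ∈ D.A, σ.SelfSep a) (k : ℕ) {ε : ℝ} (hε : 0 < ε) :
    ∃ (σ' : St) (κ : Md → ℂ), σ.Near k ε σ' ∧
      ‖Uc σ'.H⁻¹ (∑ b ∈ σ'.B, κ b • σ'.w b) - fv σ D‖ ≤ ε := by
  classical
  have hlam := σ.lam_pos
  have ha0 := σ.prof.pos
  have hsep0 : SepI σ.B (fun b => σ.θ b (-σ.a)) (fun b => σ.θ b σ.a) :=
    σ.sep.mono le_rfl fun b hb => by
      rw [(hfull b hb).1, (hfull b hb).2]; exact ⟨le_rfl, le_rfl⟩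
  have hmono : ∀ a ∈ D.A, σ.θ a (-σ.a) ≤ σ.θ a σ.a := fun a ha =>
    th_mono σ.φ σ.β hlam.le (D.pos a ha).fst_nonneg (by linarith)
  have t1 := hsep0.thicken fun b hb => hmono b (hB hb)
  have t2 : ∀ᶠ d in 𝓝[>] (0 : ℝ), ∀ a ∈ D.A,
      SepI ({a} : Finset Md) (fun b => σ.θ b (-σ.a) - d) (fun b => σ.θ b σ.a + d) :=
    (Finset.eventually_all _).2 fun a ha => SepI.thicken (hself a ha) fun b hb => by
      rw [Finset.mem_singleton.1 hb]; exact hmono a ha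
  obtain ⟨d, hsep, hss, hd⟩ := (t1.and (t2.and self_mem_nhdsWithin)).exists
  have hd : 0 < d := hd
  obtain ⟨ε₁, hε₁, N, -, hNpos, hbig, hgs⟩ := gs σ D hB k hε (half_pos hd) 0
  set Lm : ℕ := ∑ a ∈ D.A, (ell N a).toNat with hLm
  have hLm' : ∀ a ∈ D.A, ell N a ≤ Lm := fun a ha => by
    have h1 : (ell N a).toNat ≤ Lm :=
      Finset.single_le_sum (f := fun a => (ell N a).toNat) (fun _ _ => Nat.zero_le _) ha
    omega
  have r1 : ∀ C : ℝ, ∀ᶠ ρ : ℕ in atTop, C ≤ ε₁ * ρ := fun C =>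
    (tendsto_natCast_atTop_atTop.const_mul_atTop hε₁).eventually_ge_atTop C
  obtain ⟨ρ, hρ1, hρ2, hρ3, hρ4⟩ :=
    ((r1 ((D.A.card : ℝ) * (8 * Lm * ((2 * (Lm * σ.lam) + 3) * (2 * Lm + 1))))).and
    ((r1 ((D.A.card : ℝ) * (2 * (Lm : ℝ) ^ 2 * σ.lam))).and
    ((eventually_ge_atTop 2).and (eventually_ge_atTop Lm)))).exists
  obtain ⟨n, hn, hlac⟩ := exists_label hB D.pos σ.npar hbig ρ hρ3
  obtain ⟨Z, m, P, hZ, hm, hP, hev⟩ := hgs n hn
  have d1 : ∀ᶠ δ in 𝓝[>] (0 : ℝ), ∀ a ∈ D.A, ell N a * (Z / m) / 2 * δ ≤ min (d / 2) (1 / 2) :=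
    (Finset.eventually_all _).2 fun a _ => GSAux.ev_mul _ (by positivity)
  have d2 : ∀ᶠ δ in 𝓝[>] (0 : ℝ), ∀ a ∈ D.A, N / (ell N a * σ.lam * P a) * δ ≤ 1 :=
    (Finset.eventually_all _).2 fun a _ => GSAux.ev_mul _ one_pos
  obtain ⟨δ, ⟨ϑ, hcen, hout⟩, h1, h2, hδ⟩ :=
    (hev.and (d1.and (d2.and self_mem_nhdsWithin))).exists
  have hδ : 0 < δ := hδ
  set L : LS := ⟨N, Z, m, n, P, δ, ϑ, σ.lam⟩ with hLdef
  have hL : L.OK σ.B D.A := ⟨hNpos, hbig, hn, hZ, hm, hP, hδ, hlam, D.pos⟩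
  have hμ : ∀ a, L.μ a = N / (ell N a * σ.lam * P a) * δ := fun a => by
    simp only [LS.μ, hLdef]; ring
  have hhw : ∀ a, L.hw a = ell N a * (Z / m) / 2 * δ := fun a => by
    simp only [LS.hw, LS.lam', hLdef]; ring
  have hnew : ∀ a ∈ D.A, a ∉ σ.B ↔ ∀ b ∈ σ.B, ¬ Par a b := fun a ha =>
    ⟨fun h b hb hp => h (hnp a ha b (hB hb) hp ▸ hb), fun h hb => h a hb (par_refl a)⟩
  obtain ⟨K, hkept⟩ := add_select σ D hB hfull hnp L hL Lm ρ (by omega) hρ4 hLm'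
    (fun a ha haB => by
      obtain ⟨h3, h4⟩ := hlac a ha ((hnew a ha).1 haB)
      refine ⟨h3, fun a' ha' hne => ?_⟩
      rcases h4 a' ha' (fun hp => hne (hnp a ha a' ha' hp).symm) with h | h
      · exact Or.inl h
      · exact Or.inr ⟨(hnew a' ha').2 h.1, h.2⟩)
    hsep hss hcen
    (fun a ha => by
      rw [hhw, hμ]
      exact ⟨(h1 a ha).trans (min_le_left _ _), (h1 a ha).trans (min_le_right _ _), h2 a ha⟩)
    hρ1 hρ2
  obtain ⟨σ', D', ho⟩ := hout K K hkept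
  have hκ : ∀ b, ∃ κ : ℂ, b ∈ σ'.B → ∀ u, D'.F b u = κ * σ'.amp b u := fun b => by
    by_cases hb : b ∈ σ'.B
    · obtain ⟨κ, hκ⟩ := ho.ratio b hb
      exact ⟨κ, fun _ => hκ⟩
    · exact ⟨0, fun h => absurd h hb⟩
  choose κ hκ using hκ
  refine ⟨σ', κ, ho.near, ?_⟩
  have : ∑ b ∈ σ'.B, κ b • σ'.w b = ∑ a ∈ D'.A, W (cut (D'.F a) (-σ'.a) σ'.a) a := by
    rw [ho.A, ← ho.B]
    refine Finset.sum_congr rfl fun b hb => ?_
    rw [St.w, (ho.full b hb).1, (ho.full b hb).2, ← W_cut_smul (σ'.smooth b).continuous]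
    congr 2
    exact (funext (hκ b hb)).symm
  rw [this]
  exact ho.fv

end Crest.Agent.R81
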