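import Crest.Agent.R81.Basic

/-!
# R81 / Par

Integer geometry of modes and lines.
* `par_ln`: `det (ln q) (ln q') = ℓ (a'.1 + N R' i') - (a.1 + N R i) ℓ'` and
  `ℓ a'.1 - a.1 ℓ' = -det a a'`; so `N ∣ det a a'`, `|det a a'| < N` gives `Par a a'`, the labels and
  hence `R` agree, and `N R (ℓ i' - ℓ' i) = 0`.
* `par_ln_dvd`: `k = (ℓ / gcd ℓ ℓ').toNat` if `ℓ' < ℓ`, else `k = 2` (then the hypotheses are
  contradictory).  For parallel `L, L'` with positive first coordinates `L'.1 * sz L = L.1 * sz L'`; for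
  parallel `a, a'`: `ℓ' * a.1 = ℓ * a'.1`, `ℓ' * a.2 = ℓ * a'.2`, so `ℓ' * sz a = ℓ * sz a'`.
* `exists_label`: for positive modes `s a = (a.2 : ℚ) / sz a` is a complete invariant of the ray.  Put
  `n a = (ell N b).toNat` if `a` is parallel to some (unique, by transitivity of `Par` through a nonzero
  vector and `NPar B`) `b ∈ B`, and `n a = Lm * ρ ^ (1 + Encodable.encode (s a))` otherwise, where
  `Lm = 1 + ∑_{b ∈ B} (ell N b).toNat`.

Auxiliary lemmas: put them in the namespace `Crest.Agent.R81.ParAux` (avoid name clashes).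
-/

set_option autoImplicit false

open MeasureTheory Set Filter Topology
open scoped InnerProductSpace ComplexConjugate

namespace Crest.Agent.R81

namespace ParAux

theorem sz_pos {a : Md} (h : Pos a) : 0 < sz a := by
  rcases h with h | h
  · have := abs_pos.2 h.ne'; have := abs_nonneg a.2; simp only [sz]; linarith
  · have := abs_pos.2 h.2.ne'; have := abs_nonneg a.1; simp only [sz]; linarith

theorem sz_scale {a b : Md} {p q : ℤ} (hp : 0 ≤ p) (hq : 0 ≤ q) (h1 : p * a.1 = q * b.1)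
    (h2 : p * a.2 = q * b.2) : p * sz a = q * sz b := by
  have e1 : p * |a.1| = q * |b.1| := by
    have := congrArg abs h1; rwa [abs_mul, abs_mul, abs_of_nonneg hp, abs_of_nonneg hq] at this
  have e2 : p * |a.2| = q * |b.2| := by
    have := congrArg abs h2; rwa [abs_mul, abs_mul, abs_of_nonneg hp, abs_of_nonneg hq] at this
  simp only [sz]; linarith

/-- parallel positive modes are positive multiples of each other -/
theorem par_scale {a b : Md} (ha : Pos a) (hb : Pos b) (h : Par a b) :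
    sz b * a.1 = sz a * b.1 ∧ sz b * a.2 = sz a * b.2 := by
  have h : a.1 * b.2 = a.2 * b.1 := sub_eq_zero.1 h
  simp only [sz]
  rcases ha with ha | ⟨ha, ha'⟩ <;> rcases hb with hb | ⟨hb, hb'⟩
  · have e : a.1 * |b.2| = |a.2| * b.1 := by
      have := congrArg abs h; rwa [abs_mul, abs_mul, abs_of_pos ha, abs_of_pos hb] at this
    rw [abs_of_pos ha, abs_of_pos hb]
    refine ⟨by linarith, ?_⟩
    apply mul_left_cancel₀ ha.ne'
    linear_combination a.2 * e - (a.1 + |a.2|) * h
  · rw [hb, mul_zero] at h; nlinarith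
  · rw [ha, zero_mul] at h; nlinarith
  · simp only [ha, hb, abs_of_pos ha', abs_of_pos hb']; constructor <;> ring

/-- the invariant of a ray -/
def slope (a : Md) : ℚ × ℚ := ((a.1 : ℚ) / sz a, (a.2 : ℚ) / sz a)

theorem slope_eq_iff {a b : Md} (ha : Pos a) (hb : Pos b) : slope a = slope b ↔ Par a b := by
  have h1 : (0 : ℚ) < sz a := by exact_mod_cast sz_pos ha
  have h2 : (0 : ℚ) < sz b := by exact_mod_cast sz_pos hb
  simp only [slope, Prod.mk.injEq, div_eq_div_iff h1.ne' h2.ne']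
  constructor
  · rintro ⟨e1, e2⟩
    have e1' : a.1 * sz b = b.1 * sz a := by exact_mod_cast e1
    have e2' : a.2 * sz b = b.2 * sz a := by exact_mod_cast e2
    have h3 := sz_pos hb
    apply mul_left_cancel₀ h3.ne'
    simp only [det]
    linear_combination b.2 * e1' - b.1 * e2'
  · intro h
    obtain ⟨e1, e2⟩ := par_scale ha hb h
    constructor
    · have : a.1 * sz b = b.1 * sz a := by linarith
      exact_mod_cast this
    · have : a.2 * sz b = b.2 * sz a := by linarith
      exact_mod_cast this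

end ParAux

open ParAux

theorem Par.symm {a b : Md} (h : Par a b) : Par b a := by
  simp only [Par, det] at *; linarith

theorem par_refl (a : Md) : Par a a := by
  simp only [Par, det]; ring

theorem Pos.ne_zero {a : Md} (h : Pos a) : a ≠ 0 := by
  rintro rfl
  rcases h with h | h <;> simp at h

theorem Pos.fst_nonneg {a : Md} (h : Pos a) : 0 ≤ a.1 := by
  rcases h with h | h
  · exact h.le
  · exact h.1.ge

theorem Pos.add_ne_zero {a b : Md} (ha : Pos a) (hb : Pos b) : a + b ≠ 0 := by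
  intro h
  have h1 := congrArg Prod.fst h
  have h2 := congrArg Prod.snd h
  simp only [Prod.fst_add, Prod.snd_add, Prod.fst_zero, Prod.snd_zero] at h1 h2
  rcases ha with h3 | h3 <;> rcases hb with h4 | h4 <;> omega

theorem Par.trans {a b c : Md} (hb : b ≠ 0) (h : Par a b) (h' : Par b c) : Par a c := by
  simp only [Par, det] at *
  by_cases h1 : b.1 = 0
  · have h2 : b.2 ≠ 0 := fun h2 => hb (Prod.ext h1 h2)
    apply mul_left_cancel₀ h2
    linear_combination c.2 * h + a.2 * h'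
  · apply mul_left_cancel₀ h1
    linear_combination c.1 * h + a.1 * h'

theorem eq_of_par_sz {a b : Md} (ha : Pos a) (hb : Pos b) (h : Par a b) (hs : sz a = sz b) :
    a = b := by
  obtain ⟨e1, e2⟩ := par_scale ha hb h
  rw [hs] at e1 e2
  exact Prod.ext (mul_left_cancel₀ (sz_pos hb).ne' e1) (mul_left_cancel₀ (sz_pos hb).ne' e2)

theorem exists_nbig (A : Finset Md) : ∃ N₀ : ℕ, ∀ N : ℕ, N₀ ≤ N → 0 < N ∧ NBig A N := by
  have h : ∀ᶠ N : ℕ in atTop, ∀ a ∈ A, ∀ a' ∈ A, 2 * |a.2| < N ∧ |det a a'| < N := by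
    refine (Finset.eventually_all _).2 fun a _ => (Finset.eventually_all _).2 fun a' _ => ?_
    have t : Tendsto (fun N : ℕ => (N : ℤ)) atTop atTop := tendsto_natCast_atTop_atTop
    exact (t.eventually_gt_atTop _).and (t.eventually_gt_atTop _)
  obtain ⟨N₀, hN₀⟩ := eventually_atTop.1 (h.and (eventually_gt_atTop 0))
  exact ⟨N₀, fun N hN => ⟨(hN₀ N hN).2, (hN₀ N hN).1⟩⟩

theorem ell_pos {A : Finset Md} {N : ℕ} (hN : NBig A N) {a : Md} (ha : a ∈ A) (hp : Pos a) :
    0 < ell N a := by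
  have h1 := (hN a ha a ha).1
  have h2 := neg_abs_le a.2
  have h3 := abs_nonneg a.2
  simp only [ell]
  rcases hp with hp | hp
  · nlinarith
  · simp [hp.1, hp.2]

theorem ell_inj {A : Finset Md} {N : ℕ} (hN : NBig A N) {a a' : Md} (ha : a ∈ A) (ha' : a' ∈ A)
    (h : ell N a = ell N a') : a = a' := by
  have h1 := (hN a ha a ha).1
  have h2 := (hN a' ha' a' ha').1
  have h3 := abs_le.1 (le_refl |a.2|)
  have h4 := abs_le.1 (le_refl |a'.2|)
  simp only [ell] at h
  have h5 : a.1 = a'.1 := by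
    by_contra hne
    rcases lt_or_gt_of_ne hne with h6 | h6 <;> nlinarith
  exact Prod.ext h5 (by rw [h5] at h; linarith)

theorem ln_inj {L : LS} {B A : Finset Md} (h : L.OK B A) {q q' : Md × ℤ} (hq : q.1 ∈ A)
    (hq' : q'.1 ∈ A) (hl : L.ln q = L.ln q') : q = q' := by
  have h1 : q.1 = q'.1 := ell_inj h.big hq hq' (congrArg Prod.fst hl)
  have h2 := congrArg Prod.snd hl
  simp only [LS.ln, line, h1] at h2
  have h3 : (L.N : ℤ) * L.R q'.1 ≠ 0 := by
    have := h.N_pos; simp only [LS.R]; positivity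
  exact Prod.ext h1 (mul_left_cancel₀ h3 (by linarith))

theorem ln_fst_pos {L : LS} {B A : Finset Md} (h : L.OK B A) {q : Md × ℤ} (hq : q.1 ∈ A) :
    0 < (L.ln q).1 := by
  exact ell_pos h.big hq (h.pos _ hq)

theorem par_ln {L : LS} {B A : Finset Md} (h : L.OK B A) {q q' : Md × ℤ} (hq : q.1 ∈ A)
    (hq' : q'.1 ∈ A) (hp : Par (L.ln q) (L.ln q')) :
    Par q.1 q'.1 ∧ ell L.N q.1 * q'.2 = ell L.N q'.1 * q.2 := by
  simp only [Par, det, LS.ln, line] at hp
  have hN : (0 : ℤ) < L.N := by exact_mod_cast h.N_pos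
  have h1 : det q.1 q'.1 = L.N * (ell L.N q.1 * L.R q'.1 * q'.2 - L.R q.1 * q.2 * ell L.N q'.1) := by
    simp only [det, ell] at *
    linear_combination -hp
  have h2 : Par q.1 q'.1 := by
    refine Int.eq_zero_of_abs_lt_dvd (m := L.N) ⟨_, h1⟩ (h.big _ hq _ hq').2
  have h3 : L.R q.1 = L.R q'.1 := by simp only [LS.R, (h.label.par _ hq _ hq').2 h2]
  refine ⟨h2, ?_⟩
  rw [show det q.1 q'.1 = 0 from h2, h3] at h1
  have h4 : (L.N : ℤ) * L.R q'.1 ≠ 0 := by simp only [LS.R]; positivity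
  apply mul_left_cancel₀ h4
  linear_combination -h1

theorem npar_ln {L : LS} {B A : Finset Md} (h : L.OK B A) (K : Finset (Md × ℤ))
    (hK : ∀ q ∈ K, q.1 ∈ A) (hn : ∀ q ∈ K, ∀ q' ∈ K, Par q.1 q'.1 → q.1 = q'.1) :
    NPar (K.image L.ln) := by
  intro a ha a' ha' hp
  obtain ⟨q, hq, rfl⟩ := Finset.mem_image.1 ha
  obtain ⟨q', hq', rfl⟩ := Finset.mem_image.1 ha'
  obtain ⟨h1, h2⟩ := par_ln h (hK q hq) (hK q' hq') hp
  have h3 := hn q hq q' hq' h1
  rw [← h3] at h2
  have h4 := ell_pos h.big (hK q hq) (h.pos _ (hK q hq))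
  rw [Prod.ext h3 (mul_left_cancel₀ h4.ne' h2).symm]

theorem par_ln_dvd {L : LS} {B A : Finset Md} (h : L.OK B A) {a a' : Md} (ha : a ∈ A)
    (ha' : a' ∈ A) : ∃ k : ℕ, 2 ≤ k ∧ ∀ i i' : ℤ, Par (L.ln (a, i)) (L.ln (a', i')) →
      sz (L.ln (a', i')) < sz (L.ln (a, i)) → Par a a' ∧ sz a' < sz a ∧ (k : ℤ) ∣ i := by
  have hl := ell_pos h.big ha (h.pos _ ha)
  have hl' := ell_pos h.big ha' (h.pos _ ha')
  have key : ∀ i i' : ℤ, Par (L.ln (a, i)) (L.ln (a', i')) →
      sz (L.ln (a', i')) < sz (L.ln (a, i)) → ell L.N a' < ell L.N a := by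
    intro i i' hp hs
    have p1 : Pos (L.ln (a, i)) := Or.inl (ln_fst_pos h (q := (a, i)) ha)
    have p2 : Pos (L.ln (a', i')) := Or.inl (ln_fst_pos h (q := (a', i')) ha')
    have e := (par_scale p1 p2 hp).1
    change _ * ell L.N a = _ * ell L.N a' at e
    have := sz_pos p2
    nlinarith
  by_cases hlt : ell L.N a' < ell L.N a
  · have hg : 0 < Int.gcd (ell L.N a) (ell L.N a') := Int.gcd_pos_of_ne_zero_left _ hl.ne'
    obtain ⟨k, k', hco, hk, hk'⟩ := Int.exists_gcd_one hg
    set g : ℤ := (Int.gcd (ell L.N a) (ell L.N a') : ℤ) with hgdef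
    have hg' : 0 < g := by rw [hgdef]; exact_mod_cast hg
    have k'pos : 0 < k' := by nlinarith
    have kpos : k' < k := by nlinarith
    refine ⟨k.toNat, by omega, fun i i' hp hs => ?_⟩
    obtain ⟨h1, h2⟩ := par_ln h (q := (a, i)) (q' := (a', i')) ha ha' hp
    refine ⟨h1, ?_, ?_⟩
    · have h1' : a.1 * a'.2 = a.2 * a'.1 := sub_eq_zero.1 h1
      have e := sz_scale (a := a) (b := a') hl'.le hl.le
        (by simp only [ell]; linear_combination h1') (by simp only [ell]; linear_combination -L.N * h1')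
      have := sz_pos (h.pos _ ha)
      nlinarith
    · rw [Int.toNat_of_nonneg (by omega)]
      simp only at h2
      have h3 : k * i' = k' * i := by
        apply mul_left_cancel₀ hg'.ne'
        rw [hk, hk'] at h2
        linear_combination h2
      exact Int.dvd_of_dvd_mul_right_of_gcd_one ⟨i', h3.symm⟩ hco
  · exact ⟨2, le_rfl, fun i i' hp hs => absurd (key i i' hp hs) hlt⟩

theorem par_ln_unique {L : LS} {B A : Finset Md} (h : L.OK B A) {q : Md × ℤ} (hq : q.1 ∈ A)
    {a' : Md} (ha' : a' ∈ A) {i' i'' : ℤ} (h1 : Par (L.ln q) (L.ln (a', i')))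
    (h2 : Par (L.ln q) (L.ln (a', i''))) : i' = i'' := by
  have e1 := (par_ln h (q' := (a', i')) hq ha' h1).2
  have e2 := (par_ln h (q' := (a', i'')) hq ha' h2).2
  have hl := ell_pos h.big hq (h.pos _ hq)
  exact mul_left_cancel₀ hl.ne' (e1.trans e2.symm)

theorem exists_label {B A : Finset Md} (hBA : B ⊆ A) (hpos : ∀ a ∈ A, Pos a) (hB : NPar B) {N : ℕ}
    (hN : NBig A N) (ρ : ℕ) (hρ : 2 ≤ ρ) :
    ∃ n : Md → ℕ, Label B A N n ∧ ∀ a ∈ A, (∀ b ∈ B, ¬ Par a b) →
      ρ ≤ n a ∧ ∀ a' ∈ A, ¬ Par a a' →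
        (ρ * n a' ≤ n a ∨ ((∀ b ∈ B, ¬ Par a' b) ∧ ρ * n a ≤ n a')) := by
  classical
  set Lm : ℕ := 1 + ∑ b ∈ B, (ell N b).toNat with hLm
  have hLb : ∀ b ∈ B, (ell N b).toNat < Lm := fun b hb => by
    have := Finset.single_le_sum (f := fun b => (ell N b).toNat) (fun _ _ => Nat.zero_le _) hb
    omega
  have hell : ∀ b ∈ B, 0 < ell N b := fun b hb => ell_pos hN (hBA hb) (hpos _ (hBA hb))
  let n : Md → ℕ := fun a => if h : ∃ b ∈ B, Par a b then (ell N h.choose).toNat
    else Lm * ρ ^ (1 + Encodable.encode (slope a))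
  have hold : ∀ a ∈ A, ∀ b ∈ B, Par a b → n a = (ell N b).toNat := by
    intro a ha b hb hp
    have h : ∃ b ∈ B, Par a b := ⟨b, hb, hp⟩
    simp only [n, dif_pos h]
    rw [hB _ h.choose_spec.1 b hb (h.choose_spec.2.symm.trans (hpos a ha).ne_zero hp)]
  have hnew : ∀ a, (∀ b ∈ B, ¬ Par a b) → n a = Lm * ρ ^ (1 + Encodable.encode (slope a)) := by
    intro a h
    have h' : ¬ ∃ b ∈ B, Par a b := fun ⟨b, hb, hp⟩ => h b hb hp
    simp only [n, dif_neg h']
  have hL1 : 1 ≤ Lm := by omega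
  have hρL : ∀ c, ρ * Lm ≤ Lm * ρ ^ (1 + c) := fun c => by
    rw [mul_comm]
    exact Nat.mul_le_mul_left _ (Nat.le_self_pow (by omega) _)
  have hsplit : ∀ a, (∃ b ∈ B, Par a b) ∨ ∀ b ∈ B, ¬ Par a b := fun a => by
    by_cases h : ∃ b ∈ B, Par a b
    · exact Or.inl h
    · exact Or.inr fun b hb hp => h ⟨b, hb, hp⟩
  have hLρ : Lm ≤ ρ * Lm := Nat.le_mul_of_pos_left _ (by omega)
  refine ⟨n, ⟨fun a ha => ?_, fun a ha a' ha' => ?_, fun b hb => ?_⟩, fun a ha h => ⟨?_, ?_⟩⟩
  · rcases hsplit a with ⟨b, hb, hp⟩ | h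
    · rw [hold a ha b hb hp]; have := hell b hb; omega
    · rw [hnew a h]; have := hρL (Encodable.encode (slope a)); omega
  · rcases hsplit a with ⟨b, hb, hp⟩ | h <;> rcases hsplit a' with ⟨b', hb', hp'⟩ | h'
    · rw [hold a ha b hb hp, hold a' ha' b' hb' hp']
      constructor
      · intro e
        have e' : b = b' := ell_inj hN (hBA hb) (hBA hb') (by
          have := hell b hb; have := hell b' hb'; omega)
        subst e'
        exact hp.trans (hpos _ (hBA hb)).ne_zero hp'.symm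
      · intro e
        rw [hB b hb b' hb' ((hp.symm.trans (hpos a ha).ne_zero e).trans (hpos a' ha').ne_zero hp')]
    · rw [hold a ha b hb hp, hnew a' h']
      have := hLb b hb
      have := hρL (Encodable.encode (slope a'))
      exact ⟨fun e => by omega, fun e => absurd (e.symm.trans (hpos a ha).ne_zero hp) (h' b hb)⟩
    · rw [hold a' ha' b' hb' hp', hnew a h]
      have := hLb b' hb'
      have := hρL (Encodable.encode (slope a))
      exact ⟨fun e => by omega, fun e => absurd (e.trans (hpos a' ha').ne_zero hp') (h b' hb')⟩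
    · rw [hnew a h, hnew a' h', ← slope_eq_iff (hpos a ha) (hpos a' ha')]
      constructor
      · intro e
        have e1 := Nat.eq_of_mul_eq_mul_left (by omega) e
        have e2 := Nat.pow_right_injective hρ e1
        exact Encodable.encode_injective (by omega)
      · intro e; rw [e]
  · rw [hold b (hBA hb) b hb (par_refl b), Int.toNat_of_nonneg (hell b hb).le]
  · rw [hnew a h]
    have := hρL (Encodable.encode (slope a))
    nlinarith
  · intro a' ha' hnp
    rw [hnew a h]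
    rcases hsplit a' with ⟨b', hb', hp'⟩ | h'
    · left
      rw [hold a' ha' b' hb' hp']
      exact (Nat.mul_le_mul_left _ (hLb b' hb').le).trans (hρL _)
    · rw [hnew a' h']
      have hne : Encodable.encode (slope a) ≠ Encodable.encode (slope a') := fun e =>
        hnp ((slope_eq_iff (hpos a ha) (hpos a' ha')).1 (Encodable.encode_injective e))
      have key : ∀ c c' : ℕ, c < c' → ρ * (Lm * ρ ^ (1 + c)) ≤ Lm * ρ ^ (1 + c') := by
        intro c c' hc
        calc ρ * (Lm * ρ ^ (1 + c)) = Lm * ρ ^ (1 + c + 1) := by ring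
          _ ≤ _ := Nat.mul_le_mul_left _ (Nat.pow_le_pow_right (by omega) (by omega))
      rcases lt_or_gt_of_ne hne with h1 | h1
      · exact Or.inr ⟨h', key _ _ h1⟩
      · exact Or.inl (key _ _ h1)

end Crest.Agent.R81
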