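import Crest.Agent.R81.Basic

/-!
# R81 / Trig

Uniform density of trigonometric polynomials on the torus (Stone-Weierstrass).
Either imitate `span_fourier_closure_eq_top` (`Mathlib/Analysis/Fourier/AddCircle.lean`): the span of the
characters `chr n` (as elements of `C(TT, ℂ)`) is a star subalgebra separating points,
`ContinuousMap.starSubalgebra_topologicalClosure_eq_top_of_separatesPoints`; or transport
`UnitAddTorus.span_mFourier_closure_eq_top` along the homeomorphism `TT ≃ₜ (Fin 3 → S1)`.
Then `Finsupp.mem_span_range_iff_exists_finsupp`.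

Auxiliary lemmas: put them in the namespace `Crest.Agent.R81.TrigAux` (avoid name clashes).
-/

set_option autoImplicit false

open MeasureTheory Set Filter Topology
open scoped InnerProductSpace ComplexConjugate

namespace Crest.Agent.R81

theorem exists_trig (h : C(TT, ℂ)) {ε : ℝ} (hε : 0 < ε) :
    ∃ (s : Finset (ℤ × Md)) (q : ℤ × Md → ℂ), ∀ z, ‖h z - ∑ n ∈ s, q n * chr n z‖ ≤ ε := by
  let h' : C(UnitAddTorus (Fin 3), ℂ) := h.comp ⟨fun w => (w 0, w 1, w 2), by fun_prop⟩
  have h1 : h' ∈ closure (Submodule.span ℂ (range (UnitAddTorus.mFourier (d := Fin 3))) :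
      Set C(UnitAddTorus (Fin 3), ℂ)) := by
    rw [← Submodule.topologicalClosure_coe, UnitAddTorus.span_mFourier_closure_eq_top]
    trivial
  obtain ⟨p, hp, hd⟩ := Metric.mem_closure_iff.1 h1 ε hε
  obtain ⟨c, rfl⟩ := Finsupp.mem_span_range_iff_exists_finsupp.1 hp
  let ι : (Fin 3 → ℤ) → ℤ × Md := fun n => (n 0, n 1, n 2)
  have hι : Function.Injective ι := fun n n' h => by
    simp only [ι, Prod.mk.injEq] at h
    funext i
    fin_cases i
    · exact h.1
    · exact h.2.1
    · exact h.2.2
  classical
  refine ⟨c.support.image ι, fun n => c ![n.1, n.2.1, n.2.2], fun z => ?_⟩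
  have h2 := (ContinuousMap.dist_apply_le_dist (f := h') ![z.1, z.2.1, z.2.2]).trans hd.le
  rw [dist_eq_norm] at h2
  rw [Finset.sum_image fun x _ y _ h => hι h]
  rw [Finsupp.sum, ContinuousMap.coe_sum, Finset.sum_apply] at h2
  refine le_of_eq_of_le (congrArg _ (congrArg₂ _ rfl ?_)) h2
  refine Finset.sum_congr rfl fun n _ => ?_
  have e : ![n 0, n 1, n 2] = n := by
    funext i
    fin_cases i <;> rfl
  simp [ι, e, chr, UnitAddTorus.mFourier, Fin.prod_univ_three]

end Crest.Agent.R81
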