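import Crest.Agent.R81.WApi
import Crest.Agent.R81.Trig
import Crest.Agent.R81.Par

/-!
# R81 / Approx

Approximation of a real function by data on positive modes.
Let `h = (cx f) ∘ H`, `s, q` from `exists_trig h ε`, `S = s.image Prod.snd`,
`Pa a x = ∑_{n ∈ s, n.2 = a} q n * e (n.1 x)` (smooth, bounded), so `∑ q n chr n = ∑_{a ∈ S} wv (Pa a) a`
(`Pa a = 0` for `a ∉ S`).
* zero mode: `‖W (Pa 0) 0‖² = ⟪W (Pa 0) 0, ∑_a W (Pa a) a⟫ ≤ (ε + ε) ‖W (Pa 0) 0‖` (`inner_W`, `hz`), so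
  `‖W (cut (Pa 0) ..) 0‖ ≤ ‖W (Pa 0) 0‖ ≤ 2 ε`.
* `qc = ∑_{a ∈ S} W (cut (Pa a) (-a₀) a₀) a` is a.e. `1_{|x| ≤ a₀} p`, so `cC h - qc` is the sum of a function
  bounded by `ε` and one bounded by `‖f‖ 1_{|x| > a₀}` whose norm is `≤ ‖f‖ √(1 - 2 a₀)` (compare with
  `W (indicator (Icc ..)ᶜ ‖f‖) 0`, `norm_W_sq`, `Lp.norm_le_norm_of_ae_le`).
* `A = B ∪ (S ∪ S.image (-·)).filter Pos`, `F a x = (Pa a x + conj (Pa (-a) x))/2`; by `Re2_W_neg`,
  `Re2 (∑_{a ∈ A} W (cut (F a)) a) = (1/2) Re2 (qc - W (cut (Pa 0)) 0)`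
  (every nonzero `a` satisfies exactly one of `Pos a`, `Pos (-a)`).
* `Ur H (cR f) = (1/2) Re2 (cC h)` (`Re2_cC_cx`, `Ur_Re2`, `Uc_cC`) and `Ur H` is an isometry.

Auxiliary lemmas: put them in the namespace `Crest.Agent.R81.ApproxAux` (avoid name clashes).
-/

set_option autoImplicit false

open MeasureTheory Set Filter Topology
open scoped InnerProductSpace ComplexConjugate

namespace Crest.Agent.R81

namespace ApproxAux

theorem sum_W_coe (s : Finset Md) {A : Md → ℝ → ℂ} (hA : ∀ a, Good (A a)) :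
    (∑ a ∈ s, W (A a) a : L2) =ᵐ[volume] fun z => ∑ a ∈ s, wv (A a) a z := by
  classical
  induction s using Finset.induction_on with
  | empty =>
    simp only [Finset.sum_empty]
    exact Lp.coeFn_zero ℂ 2 (volume : Measure TT)
  | insert a s ha ih =>
    simp only [Finset.sum_insert ha]
    filter_upwards [Lp.coeFn_add (W (A a) a) (∑ a ∈ s, W (A a) a), W_coe (hA a) a, ih]
      with z h1 h2 h3
    rw [h1, Pi.add_apply, h2, h3]

theorem good_sum {ι : Type} (s : Finset ι) {A : ι → ℝ → ℂ} (hA : ∀ i, Good (A i)) :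
    Good fun x => ∑ i ∈ s, A i x := by
  classical
  induction s using Finset.induction_on with
  | empty => simpa using good_const 0
  | insert a s ha ih =>
    simp only [Finset.sum_insert ha]
    exact (hA a).add ih

theorem pos_trich (a : Md) : a = 0 ∨ Pos a ∨ Pos (-a) := by
  obtain ⟨a1, a2⟩ := a
  simp only [Pos, Prod.ext_iff, Prod.fst_neg, Prod.snd_neg, Prod.fst_zero, Prod.snd_zero]
  omega

theorem sum_split {E : Type} [AddCommMonoid E] (A : Finset Md) (hA : ∀ a ∈ A, Pos a) (w : Md → E) :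
    ∑ a ∈ insert 0 (A ∪ A.image fun a => -a), w a = w 0 + ∑ a ∈ A, (w a + w (-a)) := by
  rw [Finset.sum_insert, Finset.sum_union, Finset.sum_image fun a _ b _ h => neg_injective h,
    Finset.sum_add_distrib]
  · rw [Finset.disjoint_left]
    intro a ha ha'
    obtain ⟨b, hb, rfl⟩ := Finset.mem_image.1 ha'
    exact (hA _ ha).add_ne_zero (hA _ hb) (neg_add_cancel b)
  · intro h
    rcases Finset.mem_union.1 h with h | h
    · exact (hA _ h).ne_zero rfl
    · obtain ⟨b, hb, h⟩ := Finset.mem_image.1 h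
      exact (hA _ hb).ne_zero (neg_eq_zero.1 h)

theorem norm_out {a : ℝ} (h0 : 0 < a) (h1 : a < 1 / 2) {ε C : ℝ} (hε : 0 ≤ ε) (hC : 0 ≤ C) (u : L2)
    (hu : ∀ᵐ z, ‖u z‖ ≤ if rep z.1 ∈ Icc (-a) a then ε else C) :
    ‖u‖ ≤ C * Real.sqrt (1 - 2 * a) + ε := by
  let c : ℝ → ℂ := fun x => C - cut (fun _ => (C : ℂ)) (-a) a x
  have hc : Good c := (good_const _).sub (good_cut continuous_const _ _)
  have h2 : ‖u‖ ≤ ‖W (fun x => c x + ε) 0‖ := by
    refine Lp.norm_le_norm_of_ae_le ?_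
    filter_upwards [hu, W_coe (hc.add (good_const (ε : ℂ))) 0] with z h1 h2
    rw [h2, WApiAux.norm_wv]
    refine h1.trans ?_
    by_cases hz : rep z.1 ∈ Icc (-a) a
    · simp [c, cut, hz, abs_of_nonneg hε]
    · simp only [c, cut, hz, if_false, indicator_of_notMem hz, sub_zero]
      rw [← Complex.ofReal_add, Complex.norm_real, Real.norm_eq_abs, abs_of_nonneg (by positivity)]
      linarith
  rw [W_add hc (good_const _)] at h2
  refine h2.trans ((norm_add_le _ _).trans (add_le_add ?_ ?_))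
  · refine (abs_le_of_sq_le_sq' (le_of_eq ?_) (by positivity)).2
    rw [norm_W_sq hc, mul_pow, Real.sq_sqrt (by linarith)]
    have h3 : ∀ x, ‖c x‖ ^ 2 = C ^ 2 - indicator (Icc (-a) a) (fun _ => C ^ 2) x := by
      intro x
      by_cases hx : x ∈ Icc (-a) a <;> simp [c, cut, hx]
    simp only [h3]
    rw [intervalIntegral.integral_sub intervalIntegrable_const, integral_indicator_Icc _
      (by linarith) (by linarith) h1]
    · simp
      ring
    · exact ⟨(integrable_const _).indicator measurableSet_Icc,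
        (integrable_const _).indicator measurableSet_Icc⟩
  · refine (abs_le_of_sq_le_sq' (le_of_eq ?_) hε).2
    rw [norm_W_sq (good_const _)]
    simp
    norm_num

end ApproxAux

open ApproxAux in
theorem approx (σ : St) (f : C(TT, ℝ)) {ε : ℝ} (hε : 0 < ε)
    (hz : ∀ A : ℝ → ℂ, Good A → ‖⟪W A 0, Uc σ.H (cC (cx f))⟫_ℂ‖ ≤ ε * ‖W A 0‖) :
    ∃ D : FD, σ.B ⊆ D.A ∧ ‖cR f - Re2 (fv σ D)‖ ≤ ‖f‖ * Real.sqrt (1 - 2 * σ.a) + 3 * ε := by
  classical
  let h : C(TT, ℂ) := (cx f).comp ⟨σ.H.1, NG_continuous σ.H⟩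
  have hh : Uc σ.H (cC (cx f)) = cC h := Uc_cC _ _
  have hhf : ∀ z, ‖h z‖ ≤ ‖f‖ := fun z => by
    simpa [h, cx] using f.norm_coe_le_norm (σ.H.1 z)
  rw [hh] at hz
  obtain ⟨s, q, hs⟩ := exists_trig h hε
  let Pa : Md → ℝ → ℂ := fun a x => ∑ n ∈ s.filter (fun n => n.2 = a), q n * e (n.1 * x)
  have hPs : ∀ a, ContDiff ℝ (⊤ : ℕ∞) (Pa a) := fun a =>
    ContDiff.sum fun n _ => contDiff_const.mul (contDiff_e.comp (by fun_prop))
  have hPc : ∀ a, Continuous (Pa a) := fun a => (hPs a).continuous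
  have hPg : ∀ a, Good (Pa a) := fun a =>
    good_sum _ fun n => (good_const _).mul (good_e (by fun_prop))
  let A : Finset Md := σ.B ∪ (s.image Prod.snd ∪ s.image fun n => -n.2).filter Pos
  have hA : ∀ a ∈ A, Pos a := by
    intro a ha
    rcases Finset.mem_union.1 ha with ha | ha
    · exact Or.inl (σ.pos a ha)
    · exact (Finset.mem_filter.1 ha).2
  let S : Finset Md := insert 0 (A ∪ A.image fun a => -a)
  have hS : ∀ n ∈ s, n.2 ∈ S := by
    intro n hn
    rcases pos_trich n.2 with h | h | h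
    · rw [h]
      exact Finset.mem_insert_self _ _
    · refine Finset.mem_insert_of_mem (Finset.mem_union_left _ (Finset.mem_union_right _ ?_))
      exact Finset.mem_filter.2 ⟨Finset.mem_union_left _ (Finset.mem_image_of_mem _ hn), h⟩
    · refine Finset.mem_insert_of_mem (Finset.mem_union_right _ (Finset.mem_image.2
        ⟨-n.2, Finset.mem_union_right _ ?_, neg_neg _⟩))
      exact Finset.mem_filter.2 ⟨Finset.mem_union_right _
        (Finset.mem_image_of_mem (fun n : ℤ × Md => -n.2) hn), h⟩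
  have hp : ∀ z, ∑ a ∈ S, wv (Pa a) a z = ∑ n ∈ s, q n * chr n z := by
    intro z
    rw [← Finset.sum_fiberwise_of_maps_to hS]
    refine Finset.sum_congr rfl fun a _ => ?_
    simp only [wv, Pa, Finset.sum_mul]
    refine Finset.sum_congr rfl fun n hn => ?_
    rw [← fourier_coe, coe_rep, chr, (Finset.mem_filter.1 hn).2]
    ring
  let D : FD :=
    { A := A
      F := fun a x => (1 / 2 : ℝ) * (Pa a x + conj (Pa (-a) x))
      smooth := fun a => contDiff_const.mul ((hPs a).add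
        (Complex.conjCLE.contDiff.comp (hPs (-a))))
      pos := hA }
  refine ⟨D, Finset.subset_union_left, ?_⟩
  let w : Md → L2 := fun a => W (cut (Pa a) (-σ.a) σ.a) a
  have hwg : ∀ a, Good (cut (Pa a) (-σ.a) σ.a) := fun a => good_cut (hPc a) _ _
  -- zero mode
  have h0 : ‖w 0‖ ≤ 2 * ε := by
    have e1 : ‖cC h - ∑ a ∈ S, W (Pa a) a‖ ≤ ε := by
      refine KoopAux.norm_le_of_ae _ hε.le ?_
      filter_upwards [Lp.coeFn_sub (cC h) (∑ a ∈ S, W (Pa a) a), cC_coe h, sum_W_coe S hPg]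
        with z h1 h2 h3
      rw [h1, Pi.sub_apply, h2, h3, hp]
      exact hs z
    have e2 : ⟪w 0, ∑ a ∈ S, W (Pa a) a⟫_ℂ = ⟪w 0, w 0⟫_ℂ := by
      rw [inner_sum, Finset.sum_eq_single 0]
      · simp only [w]
        rw [inner_W (hwg 0) (hPg 0), inner_W (hwg 0) (hwg 0), if_pos rfl, if_pos rfl]
        congr 1
        funext x
        by_cases hx : x ∈ Icc (-σ.a) σ.a <;> simp [cut, hx]
      · intro b _ hb
        simp only [w]
        rw [inner_W (hwg 0) (hPg b), if_neg (Ne.symm hb)]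
      · intro h
        exact absurd (Finset.mem_insert_self _ _) h
    have e3 : ‖w 0‖ ^ 2 ≤ 2 * ε * ‖w 0‖ := by
      have e4 : ⟪w 0, w 0⟫_ℂ = ⟪w 0, cC h⟫_ℂ - ⟪w 0, cC h - ∑ a ∈ S, W (Pa a) a⟫_ℂ := by
        rw [inner_sub_right, e2]
        ring
      have e5 : ‖⟪w 0, w 0⟫_ℂ‖ = ‖w 0‖ ^ 2 := by
        rw [inner_self_eq_norm_sq_to_K]
        simp
      have e6 := hz _ (hwg 0)
      have e7 := (norm_inner_le_norm (𝕜 := ℂ) (w 0) (cC h - ∑ a ∈ S, W (Pa a) a)).trans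
        (mul_le_mul_of_nonneg_left e1 (norm_nonneg _))
      rw [← e5, e4]
      refine (norm_sub_le _ _).trans ?_
      change _ ≤ ε * ‖w 0‖ at e6
      linarith
    by_cases hw : ‖w 0‖ = 0
    · rw [hw]
      positivity
    · have : 0 < ‖w 0‖ := lt_of_le_of_ne (norm_nonneg _) (Ne.symm hw)
      nlinarith
  have h1 : ‖cC h - ∑ a ∈ S, w a‖ ≤ ‖f‖ * Real.sqrt (1 - 2 * σ.a) + ε := by
    refine norm_out σ.prof.pos σ.prof.lt hε.le (norm_nonneg _) _ ?_
    filter_upwards [Lp.coeFn_sub (cC h) (∑ a ∈ S, w a), cC_coe h, sum_W_coe S hwg]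
      with z h1 h2 h3
    rw [h1, Pi.sub_apply, h2, h3]
    split_ifs with hz
    · have : ∑ a ∈ S, wv (cut (Pa a) (-σ.a) σ.a) a z = ∑ a ∈ S, wv (Pa a) a z :=
        Finset.sum_congr rfl fun a _ => by simp only [wv, cut, indicator_of_mem hz]
      rw [this, hp]
      exact hs z
    · have : ∑ a ∈ S, wv (cut (Pa a) (-σ.a) σ.a) a z = 0 :=
        Finset.sum_eq_zero fun a _ => by simp only [wv, cut, indicator_of_notMem hz, zero_mul]
      rw [this, sub_zero]
      exact hhf z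
  have h2 : Re2 (∑ a ∈ A, W (cut (D.F a) (-σ.a) σ.a) a) =
      (1 / 2 : ℝ) • Re2 (∑ a ∈ S, w a - w 0) := by
    rw [sum_split A hA, add_sub_cancel_left, map_sum, map_sum, Finset.smul_sum]
    refine Finset.sum_congr rfl fun a _ => ?_
    have e1 : cut (D.F a) (-σ.a) σ.a = fun x => ((1 / 2 : ℝ) : ℂ) *
        (cut (Pa a) (-σ.a) σ.a x + conj (cut (Pa (-a)) (-σ.a) σ.a x)) := by
      funext x
      by_cases hx : x ∈ Icc (-σ.a) σ.a <;> simp [cut, hx, D]
    have e2 := Re2_W_neg (hwg (-a)) (-a)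
    rw [neg_neg] at e2
    rw [e1, W_smul ((hwg a).add (hwg (-a)).conj), W_add (hwg a) (hwg (-a)).conj, Re2_ofReal_smul,
      map_add, map_add, e2]
  have h3 : Ur σ.H (cR f) = (1 / 2 : ℝ) • Re2 (cC h) := by
    rw [← hh, ← Ur_Re2, Re2_cC_cx, map_smul, smul_smul]
    norm_num
  have h4 : Ur σ.H (Re2 (fv σ D)) = (1 / 2 : ℝ) • Re2 (∑ a ∈ S, w a - w 0) := by
    rw [Ur_Re2, fv, ← Uc_mul, inv_mul_cancel, Uc_one, h2]
  rw [← (Ur σ.H).norm_map, map_sub, h3, h4, ← smul_sub, ← map_sub, norm_smul]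
  have h5 := norm_Re2_le (cC h - (∑ a ∈ S, w a - w 0))
  have h6 : ‖cC h - (∑ a ∈ S, w a - w 0)‖ ≤ ‖cC h - ∑ a ∈ S, w a‖ + ‖w 0‖ := by
    rw [← sub_add]
    exact norm_add_le _ _
  rw [Real.norm_eq_abs, abs_of_pos (by norm_num)]
  linarith

end Crest.Agent.R81
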