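import Crest.Agent.R81.Basic

/-!
# R81 / Arc

Arcs on the circle.
For an interval `[α, β]` with `β - α < 1` (this follows from `SepI` with `b = b'`, `n = 1`), the map
`t ↦ ↑t` is injective on it and `∫ z in (↑) '' Icc α β, f z = ∫ t in α..β, f ↑t`: write the left side as
`∫ z, indicator .. f z = ∫ t in α..α+1, indicator .. f ↑t` (`UnitAddCircle.intervalIntegral_preimage α`)
and compare on `Ioc α (α + 1)` (up to the point `α + 1`).  The negative arc is the image of
`Icc (-β) (-α)`; `intervalIntegral.integral_comp_neg`.  Images of compact sets are closed, so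
measurable.  `SepI` gives pairwise disjointness (`coe_eq_coe_iff`); `integral_biUnion_finset`,
`setIntegral_union`.
`len_le`: `f = 1`.  `corr_le`: the sum is `∫_U fourier k = -∫_{Uᶜ} fourier k` (`integral_fourier`,
`integral_add_compl`), of norm at most `volume.real Uᶜ = 1 - 2 ∑ (β - α)`.

Auxiliary lemmas: put them in the namespace `Crest.Agent.R81.ArcAux` (avoid name clashes).
-/

set_option autoImplicit false

open MeasureTheory Set Filter Topology
open scoped InnerProductSpace ComplexConjugate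

namespace Crest.Agent.R81

namespace ArcAux

theorem meas_pos (α β : ℝ) : MeasurableSet ((fun t : ℝ => (t : S1)) '' Icc α β) :=
  (isCompact_Icc.image (by fun_prop)).isClosed.measurableSet

theorem meas_neg (α β : ℝ) : MeasurableSet ((fun t : ℝ => ((-t : ℝ) : S1)) '' Icc α β) :=
  (isCompact_Icc.image (by fun_prop)).isClosed.measurableSet

theorem arc_pos {E : Type} [NormedAddCommGroup E] [NormedSpace ℝ E] {α β : ℝ} (hle : α ≤ β)
    (hlt : β - α < 1) (f : S1 → E) :
    ∫ z in (fun t : ℝ => (t : S1)) '' Icc α β, f z = ∫ t in α..β, f (t : S1) := by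
  rw [← integral_indicator (meas_pos α β), ← UnitAddCircle.intervalIntegral_preimage α,
    intervalIntegral.integral_of_le (by linarith), intervalIntegral.integral_of_le hle,
    integral_Ioc_eq_integral_Ioo, setIntegral_congr_fun measurableSet_Ioo
      (g := indicator (Ioc α β) fun t : ℝ => f (t : S1)) fun t ht => ?_,
    setIntegral_indicator measurableSet_Ioc,
    inter_eq_right.2 (Ioc_subset_Ioo_right (by linarith))]
  by_cases h : t ∈ Ioc α β
  · rw [indicator_of_mem h]
    exact indicator_of_mem (mem_image_of_mem _ (Ioc_subset_Icc_self h)) _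
  · rw [indicator_of_notMem h]
    refine indicator_of_notMem ?_ _
    rintro ⟨t', ht', e⟩
    obtain ⟨n, hn⟩ := coe_eq_coe_iff.1 e
    have h1 : (-1 : ℝ) < n := by linarith [ht.2, ht'.1]
    have h2 : (n : ℝ) < 1 := by linarith [ht.1, ht'.2]
    have h3 : n = 0 := by
      have : (-1 : ℤ) < n := by exact_mod_cast h1
      have : n < 1 := by exact_mod_cast h2
      omega
    rw [h3, Int.cast_zero, add_zero] at hn
    exact h ⟨ht.1, hn ▸ ht'.2⟩

theorem arc_neg {E : Type} [NormedAddCommGroup E] [NormedSpace ℝ E] {α β : ℝ} (hle : α ≤ β)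
    (hlt : β - α < 1) (f : S1 → E) :
    ∫ z in (fun t : ℝ => ((-t : ℝ) : S1)) '' Icc α β, f z = ∫ t in α..β, f ((-t : ℝ) : S1) := by
  rw [intervalIntegral.integral_comp_neg fun t : ℝ => f (t : S1),
    ← arc_pos (by linarith) (by linarith), ← image_neg_Icc, image_image]

theorem len_lt {ι : Type} {s : Finset ι} {α β : ι → ℝ} (h : SepI s α β) {b : ι} (hb : b ∈ s) :
    β b - α b < 1 := by
  by_contra hc
  have := ((h b hb b hb (α b + 1) ⟨by linarith, by linarith⟩ (α b) ⟨le_rfl, by linarith⟩ 1).2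
    (by simp)).2
  omega

theorem real_arcs {ι : Type} {s : Finset ι} {α β : ι → ℝ} (h : SepI s α β)
    (hle : ∀ b ∈ s, α b ≤ β b)
    (key : ∫ _ in arcs s α β, (1 : ℝ) =
      ∑ b ∈ s, ((∫ _ in α b..β b, (1 : ℝ)) + ∫ _ in α b..β b, (1 : ℝ))) :
    volume.real (arcs s α β) = 2 * ∑ b ∈ s, (β b - α b) := by
  simpa [Finset.sum_add_distrib, two_mul] using key

end ArcAux

open ArcAux

theorem measurableSet_arcs {ι : Type} (s : Finset ι) (α β : ι → ℝ) :
    MeasurableSet (arcs s α β) := by
  exact s.measurableSet_biUnion fun b _ => (meas_pos _ _).union (meas_neg _ _)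

theorem integral_arcs {ι E : Type} [NormedAddCommGroup E] [NormedSpace ℝ E] {s : Finset ι}
    {α β : ι → ℝ} (h : SepI s α β) (hle : ∀ b ∈ s, α b ≤ β b) {f : S1 → E}
    (hf : Integrable f volume) :
    ∫ z in arcs s α β, f z =
      ∑ b ∈ s, ((∫ t in α b..β b, f (t : S1)) + ∫ t in α b..β b, f ((-t : ℝ) : S1)) := by
  have d1 : ∀ b ∈ s, ∀ b' ∈ s, Disjoint ((fun t : ℝ => (t : S1)) '' Icc (α b) (β b))
      ((fun t : ℝ => ((-t : ℝ) : S1)) '' Icc (α b') (β b')) := by
    intro b hb b' hb'
    rw [Set.disjoint_left]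
    rintro _ ⟨t, ht, rfl⟩ ⟨t', ht', e⟩
    obtain ⟨n, hn⟩ := coe_eq_coe_iff.1 e.symm
    exact (h b hb b' hb' t ht t' ht' n).1 (by linarith)
  rw [arcs, integral_biUnion_finset s (fun b _ => (meas_pos _ _).union (meas_neg _ _))
    (fun b hb b' hb' hne => ?_) fun b _ => hf.integrableOn]
  · refine Finset.sum_congr rfl fun b hb => ?_
    rw [setIntegral_union (d1 b hb b hb) (meas_neg _ _) hf.integrableOn hf.integrableOn,
      arc_pos (hle b hb) (len_lt h hb), arc_neg (hle b hb) (len_lt h hb)]
  · refine disjoint_union_left.2 ⟨disjoint_union_right.2 ⟨?_, d1 b hb b' hb'⟩,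
      disjoint_union_right.2 ⟨(d1 b' hb' b hb).symm, ?_⟩⟩
    · rw [Set.disjoint_left]
      rintro _ ⟨t, ht, rfl⟩ ⟨t', ht', e⟩
      obtain ⟨n, hn⟩ := coe_eq_coe_iff.1 e.symm
      exact hne ((h b hb b' hb' t ht t' ht' n).2 (by linarith)).1
    · rw [Set.disjoint_left]
      rintro _ ⟨t, ht, rfl⟩ ⟨t', ht', e⟩
      obtain ⟨n, hn⟩ := coe_eq_coe_iff.1 e
      exact hne ((h b hb b' hb' t ht t' ht' n).2 (by linarith)).1

theorem len_le {ι : Type} {s : Finset ι} {α β : ι → ℝ} (h : SepI s α β)
    (hle : ∀ b ∈ s, α b ≤ β b) : 2 * ∑ b ∈ s, (β b - α b) ≤ 1 := by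
  rw [← real_arcs h hle (integral_arcs h hle (f := fun _ => (1 : ℝ)) (integrable_const _))]
  exact measureReal_le_one

theorem corr_le {ι : Type} {s : Finset ι} {α β : ι → ℝ} (h : SepI s α β)
    (hle : ∀ b ∈ s, α b ≤ β b) {k : ℤ} (hk : k ≠ 0) :
    |2 * (∑ b ∈ s, ∫ t in α b..β b, e (k * t)).re| ≤ 1 - 2 * ∑ b ∈ s, (β b - α b) := by
  have hc : Continuous fun z : S1 => (fourier k z).re := by fun_prop
  have hf : Integrable (fun z : S1 => (fourier k z).re) volume :=
    hc.integrable_of_hasCompactSupport (HasCompactSupport.of_compactSpace _)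
  have h1 := integral_arcs h hle hf
  have h2 : ∀ b, ((∫ t in α b..β b, (fourier k (t : S1)).re) +
      ∫ t in α b..β b, (fourier k ((-t : ℝ) : S1)).re) = 2 * (∫ t in α b..β b, e (k * t)).re := by
    intro b
    have : (∫ t in α b..β b, e (k * t)).re = ∫ t in α b..β b, (e (k * t)).re :=
      (Complex.reCLM.intervalIntegral_comp_comm (Continuous.intervalIntegrable (by fun_prop) _ _)).symm
    simp only [fourier_coe, mul_neg, e_neg, Complex.conj_re, this, two_mul]
  have h3 : ∫ z : S1, (fourier k z).re = 0 := by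
    have := Complex.reCLM.integral_comp_comm (μ := (volume : Measure S1)) (φ := fun z => fourier k z)
      ((fourier k).continuous.integrable_of_hasCompactSupport (HasCompactSupport.of_compactSpace _))
    rw [integral_fourier, if_neg hk, map_zero] at this
    exact this
  have h4 := integral_add_compl (measurableSet_arcs s α β) hf
  have h5 := norm_setIntegral_le_of_norm_le_const (μ := (volume : Measure S1))
    (s := (arcs s α β)ᶜ) (f := fun z : S1 => (fourier k z).re) (C := 1) (measure_lt_top _ _)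
    fun z _ => (Complex.abs_re_le_norm _).trans (by simp [fourier_apply])
  rw [probReal_compl_eq_one_sub (measurableSet_arcs s α β), one_mul,
    real_arcs h hle (integral_arcs h hle (f := fun _ => (1 : ℝ)) (integrable_const _))] at h5
  simp only [h2, ← Finset.mul_sum, ← Complex.re_sum] at h1
  rw [← h1, eq_neg_of_add_eq_zero_left (h4.trans h3), abs_neg]
  exact h5

theorem sum_integral_le {ι : Type} {s : Finset ι} {α β : ι → ℝ} (h : SepI s α β)
    (hle : ∀ b ∈ s, α b ≤ β b) {f : S1 → ℝ} (hf : Integrable f volume) (h0 : ∀ z, 0 ≤ f z) :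
    ∑ b ∈ s, ∫ t in α b..β b, f (t : S1) ≤ ∫ z, f z := by
  refine le_trans ?_ (setIntegral_le_integral (s := arcs s α β) hf (Eventually.of_forall h0))
  rw [integral_arcs h hle hf]
  exact Finset.sum_le_sum fun b hb => le_add_of_nonneg_right
    (intervalIntegral.integral_nonneg (hle b hb) fun _ _ => h0 _)

end Crest.Agent.R81
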