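import Crest.Agent.R81.Gauss

/-!
# R81 / Arith

Arithmetic choice of the phases.
Let `Lb = A.image n` be the set of labels, `rp t ∈ A` a mode with label `t`, `Z = Z₁!` where `Z₁ ≥ 2`
bounds all labels and all `|det a a'|`.  `R t = Z t + 1` are odd and pairwise coprime (a prime dividing
`R t` and `R t'` does not divide `Z` but divides `Z (t - t')`, hence `t - t'`, hence `Z₁!`), and `R t` is
coprime to every nonzero `det a a'` (which divides `Z`).  `m = ∏_{t ∈ Lb} R t`,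
`P a = ∏_{t ∈ Lb.erase (n a)} R t`.  Put `ν t = (-(rp t).2, (rp t).1)`, so that
`a · ν t = -det a (rp t)`, which vanishes iff `t = n a`.  With `w = ∑_t ν t / R t ∈ ℝ²`,
`a · w = u a / P a` where `u a = ∑_{t ≠ n a} (-det a (rp t)) ∏_{t' ≠ t, n a} R t'` is coprime to each
`R t`, hence to `P a` (`IsCoprime.prod_right`).  For `j : ℤ` let `j' = j % m`,
`w₁ = j'² w.1`, `w₂ = j'² w.2`, `Θ j = (w₁ + ⌊N w₂ - w₁⌋)/N`.  Then `N Θ j = w₁ + integer`,
`Θ j = w₂ - fract (N w₂ - w₁)/N`, so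
`ell N a * Θ j = a.1 w₁ + a.2 w₂ + integer - a.2 fract(..)/N`, and `e (u j'²/P) = e (u j²/P)` as
`P ∣ m`.  `z a j = e (u a j²/P a)`; conclude with `norm_e_sub_e` and `gauss_dft`.

Auxiliary lemmas: put them in the namespace `Crest.Agent.R81.ArithAux` (avoid name clashes).
-/

set_option autoImplicit false

open MeasureTheory Set Filter Topology
open scoped InnerProductSpace ComplexConjugate

namespace Crest.Agent.R81

namespace ArithAux

theorem cop_sum (s : Finset ℕ) (R c : ℕ → ℤ) (h1 : ∀ t ∈ s, ∀ t' ∈ s, t ≠ t' → IsCoprime (R t) (R t'))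
    (h2 : ∀ t ∈ s, IsCoprime (c t) (R t)) :
    IsCoprime (∑ t ∈ s, c t * ∏ t' ∈ s.erase t, R t') (∏ t ∈ s, R t) := by
  refine IsCoprime.prod_right fun t ht => ?_
  rw [← Finset.add_sum_erase s _ ht]
  obtain ⟨k, hk⟩ : R t ∣ ∑ x ∈ s.erase t, c x * ∏ t' ∈ s.erase x, R t' :=
    Finset.dvd_sum fun x hx => Dvd.dvd.mul_left (Finset.dvd_prod_of_mem R
      (Finset.mem_erase.2 ⟨(Finset.ne_of_mem_erase hx).symm, ht⟩)) _
  rw [hk]
  refine IsCoprime.add_mul_left_left ((h2 t ht).mul_left (IsCoprime.prod_left fun x hx => ?_)) k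
  exact h1 x (Finset.mem_of_mem_erase hx) t ht (Finset.ne_of_mem_erase hx)

theorem sum_div (s : Finset ℕ) (R c : ℕ → ℝ) (h : ∀ t, R t ≠ 0) :
    (∑ t ∈ s, c t * ∏ t' ∈ s.erase t, R t') / ∏ t ∈ s, R t = ∑ t ∈ s, c t / R t := by
  rw [Finset.sum_div]
  refine Finset.sum_congr rfl fun t ht => ?_
  have h1 : ∏ t' ∈ s.erase t, R t' ≠ 0 := Finset.prod_ne_zero_iff.2 fun x _ => h x
  have h2 := h t
  rw [← Finset.mul_prod_erase s R ht]
  field_simp

theorem cop_of_le {Z₁ : ℕ} {d : ℤ} (h0 : d ≠ 0) (h1 : d.natAbs ≤ Z₁) (t : ℕ) :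
    IsCoprime d ((Z₁.factorial * t + 1 : ℕ) : ℤ) := by
  obtain ⟨c, hc⟩ : d ∣ (Z₁.factorial : ℤ) :=
    Int.natAbs_dvd.1 (Int.natCast_dvd_natCast.2 (Nat.dvd_factorial (Int.natAbs_pos.2 h0) h1))
  refine ⟨-(c * t), 1, ?_⟩
  push_cast
  rw [hc]
  ring

theorem cop_R {Z₁ t t' : ℕ} (h : t ≠ t') (h1 : t ≤ Z₁) (h2 : t' ≤ Z₁) :
    IsCoprime ((Z₁.factorial * t + 1 : ℕ) : ℤ) ((Z₁.factorial * t' + 1 : ℕ) : ℤ) := by
  have a1 : IsCoprime ((Z₁.factorial * t + 1 : ℕ) : ℤ) (Z₁.factorial : ℤ) :=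
    ⟨1, -t, by push_cast; ring⟩
  have a2 : IsCoprime ((Z₁.factorial * t + 1 : ℕ) : ℤ) ((t' : ℤ) - t) :=
    (cop_of_le (by omega) (by omega) t).symm
  have := (a1.mul_right a2).add_mul_left_right 1
  have e : (Z₁.factorial : ℤ) * ((t' : ℤ) - t) + ((Z₁.factorial * t + 1 : ℕ) : ℤ) * 1 =
      ((Z₁.factorial * t' + 1 : ℕ) : ℤ) := by
    push_cast
    ring
  rwa [e] at this

end ArithAux

theorem arith (A : Finset Md) (N : ℕ) (hN : 0 < N) (n : Md → ℕ)
    (hpar : ∀ a ∈ A, ∀ a' ∈ A, n a = n a' ↔ Par a a') :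
    ∃ (Z m : ℕ) (P : Md → ℕ) (Θ : ℤ → ℝ) (z : Md → ℤ → ℂ), 0 < Z ∧ 0 < m ∧
      Function.Periodic Θ (m : ℤ) ∧ ∀ a ∈ A, P a * (Z * n a + 1) = m ∧
        (∀ j, ‖e (ell N a * Θ j) - z a j‖ ≤ 2 * Real.pi * |(a.2 : ℝ)| / N) ∧
        ∀ i : ℤ, ‖dft m (z a) ((Z * n a + 1 : ℕ) * i)‖ = 1 / Real.sqrt (P a) := by
  classical
  obtain ⟨Z₁, hZ2, hZn, hZd⟩ : ∃ Z₁ : ℕ, 2 ≤ Z₁ ∧ (∀ a ∈ A, n a ≤ Z₁) ∧
      ∀ a ∈ A, ∀ a' ∈ A, (det a a').natAbs ≤ Z₁ := by
    refine ⟨2 + A.sup n + (A ×ˢ A).sup fun p => (det p.1 p.2).natAbs, by omega, fun a ha => ?_,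
      fun a ha a' ha' => ?_⟩
    · have := Finset.le_sup (f := n) ha
      omega
    · have : (det a a').natAbs ≤ (A ×ˢ A).sup fun p => (det p.1 p.2).natAbs :=
        Finset.le_sup (f := fun p : Md × Md => (det p.1 p.2).natAbs) (b := (a, a'))
          (Finset.mem_product.2 ⟨ha, ha'⟩)
      omega
  have hrp : ∀ t : ℕ, ∃ b : Md, t ∈ A.image n → b ∈ A ∧ n b = t := fun t => by
    by_cases h : t ∈ A.image n
    · obtain ⟨b, hb, e⟩ := Finset.mem_image.1 h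
      exact ⟨b, fun _ => ⟨hb, e⟩⟩
    · exact ⟨0, fun h' => absurd h' h⟩
  choose rp hrp using hrp
  set Lb := A.image n with hLb
  set R : ℕ → ℕ := fun t => Z₁.factorial * t + 1 with hR
  have hR0 : ∀ t, 0 < R t := fun t => Nat.succ_pos _
  have hRo : ∀ t, Odd (R t) := fun t =>
    ((even_iff_two_dvd.2 (Nat.dvd_factorial two_pos hZ2)).mul_right t).add_one
  set m : ℕ := ∏ t ∈ Lb, R t with hm
  set P : Md → ℕ := fun a => ∏ t ∈ Lb.erase (n a), R t with hP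
  set u : Md → ℤ := fun a => ∑ t ∈ Lb.erase (n a),
    (-det a (rp t)) * ∏ t' ∈ (Lb.erase (n a)).erase t, (R t' : ℤ) with hu
  set w₁ : ℝ := ∑ t ∈ Lb, (-(rp t).2 : ℝ) / R t with hw₁
  set w₂ : ℝ := ∑ t ∈ Lb, ((rp t).1 : ℝ) / R t with hw₂
  have hN' : (0 : ℝ) < N := by exact_mod_cast hN
  refine ⟨Z₁.factorial, m, P, fun j => (((j % m : ℤ) : ℝ) ^ 2 * w₁ +
    ⌊N * (((j % m : ℤ) : ℝ) ^ 2 * w₂) - ((j % m : ℤ) : ℝ) ^ 2 * w₁⌋) / N,
    fun a j => e (u a * (j : ℝ) ^ 2 / P a), Nat.factorial_pos _,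
    Finset.prod_pos fun t _ => hR0 t, fun j => by simp only [Int.add_emod_right],
    fun a ha => ?_⟩
  have hna : n a ∈ Lb := Finset.mem_image_of_mem n ha
  have hPR : P a * R (n a) = m := Finset.prod_erase_mul Lb R hna
  have hP0 : 0 < P a := Finset.prod_pos fun t _ => hR0 t
  have hP0' : (0 : ℝ) < P a := by exact_mod_cast hP0
  refine ⟨hPR, fun j => ?_, fun i => ?_⟩
  · have h1 : (u a : ℝ) / P a = a.1 * w₁ + a.2 * w₂ := by
      have := ArithAux.sum_div (Lb.erase (n a)) (fun t => (R t : ℝ)) (fun t => -det a (rp t))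
        fun t => by exact_mod_cast (hR0 t).ne'
      simp only [hu, hP]
      push_cast
      rw [this, Finset.sum_erase, hw₁, hw₂, Finset.mul_sum, Finset.mul_sum, ← Finset.sum_add_distrib]
      · refine Finset.sum_congr rfl fun t _ => ?_
        simp only [det]
        push_cast
        ring
      · have : det a (rp (n a)) = 0 := (hpar a ha _ (hrp _ hna).1).1 (hrp _ hna).2.symm
        simp [this]
    set j' : ℝ := ((j % m : ℤ) : ℝ) with hj'
    have h2 : j' = j - (P a * R (n a)) * (j / m : ℤ) := by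
      rw [hj', Int.emod_def, ← hPR]
      push_cast
      ring
    set y : ℝ := N * (j' ^ 2 * w₂) - j' ^ 2 * w₁ with hy
    have h3 : (ell N a : ℝ) * ((j' ^ 2 * w₁ + ⌊y⌋) / N) =
        (u a * (j : ℝ) ^ 2 / P a - a.2 * Int.fract y / N) +
          (a.1 * ⌊y⌋ + u a * (-2 * j * R (n a) * (j / m) + P a * R (n a) ^ 2 * (j / m) ^ 2) : ℤ) := by
      have e1 : (u a : ℝ) * j' ^ 2 / P a = u a * (j : ℝ) ^ 2 / P a +
          u a * (-2 * j * R (n a) * (j / m : ℤ) + P a * R (n a) ^ 2 * (j / m : ℤ) ^ 2) := by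
        rw [h2]
        field_simp
        ring
      have e2 : (j' ^ 2 * w₁ + ⌊y⌋) / N = j' ^ 2 * w₂ - Int.fract y / N := by
        rw [Int.fract, hy]
        field_simp
        ring
      have e3 : (ell N a : ℝ) * ((j' ^ 2 * w₁ + ⌊y⌋) / N) =
          a.1 * (j' ^ 2 * w₁ + ⌊y⌋) + a.2 * ((j' ^ 2 * w₁ + ⌊y⌋) / N) := by
        simp only [ell]
        push_cast
        field_simp
      have e4 : (u a : ℝ) * j' ^ 2 / P a = j' ^ 2 * (a.1 * w₁ + a.2 * w₂) := by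
        rw [← h1]
        ring
      rw [e3, e2]
      push_cast
      linear_combination e1 - e4
    rw [h3, e_add_int]
    refine (norm_e_sub_e _ _).trans ?_
    rw [sub_sub_cancel_left, abs_neg, abs_div, abs_mul, abs_of_pos hN',
      abs_of_nonneg (Int.fract_nonneg y), mul_div_assoc (2 * Real.pi)]
    gcongr
    exact mul_le_of_le_one_right (abs_nonneg _) (Int.fract_lt_one y).le
  · refine gauss_dft (P a) (R (n a)) m hPR (hR0 _) ?_ (u a) ?_ i
    · exact Finset.prod_induction _ Odd (fun _ _ => Odd.mul) odd_one fun t _ => hRo t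
    · have := ArithAux.cop_sum (Lb.erase (n a)) (fun t => (R t : ℤ)) (fun t => -det a (rp t))
        (fun t ht t' ht' htt => ArithAux.cop_R htt
          ((hrp t (Finset.mem_of_mem_erase ht)).2 ▸ hZn _ (hrp t (Finset.mem_of_mem_erase ht)).1)
          ((hrp t' (Finset.mem_of_mem_erase ht')).2 ▸ hZn _ (hrp t' (Finset.mem_of_mem_erase ht')).1))
        (fun t ht => by
          obtain ⟨b1, b2⟩ := hrp t (Finset.mem_of_mem_erase ht)
          refine ArithAux.cop_of_le (neg_ne_zero.2 fun h0 => Finset.ne_of_mem_erase ht ?_)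
            (by rw [Int.natAbs_neg]; exact hZd a ha _ b1) t
          rw [← b2]
          exact ((hpar a ha _ b1).2 h0).symm)
      simp only [hP, Nat.cast_prod]
      exact this

end Crest.Agent.R81
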