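import Crest.Agent.R81.Defs

/-!
# R81 / Basic

Elementary API for `e`, `rep`, `pr`, lifts.

Auxiliary lemmas: put them in the namespace `Crest.Agent.R81.BasicAux` (avoid name clashes).
-/

set_option autoImplicit false

open MeasureTheory Set Filter Topology
open scoped InnerProductSpace ComplexConjugate

namespace Crest.Agent.R81

theorem e_add (s t : ℝ) : e (s + t) = e s * e t := by
  simp only [e]; rw [← Complex.exp_add]; congr 1; push_cast; ring

theorem e_zero : e 0 = 1 := by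
  simp [e]

theorem e_int (n : ℤ) : e n = 1 := by
  simp only [e]
  have := Complex.exp_int_mul_two_pi_mul_I n
  rw [← this]; congr 1; push_cast; ring

theorem e_add_int (t : ℝ) (n : ℤ) : e (t + n) = e t := by
  rw [e_add, e_int, mul_one]

theorem norm_e (t : ℝ) : ‖e t‖ = 1 := by
  simp only [e]
  have : (2 * Real.pi * Complex.I * t : ℂ) = ((2 * Real.pi * t : ℝ) : ℂ) * Complex.I := by
    push_cast; ring
  rw [this, Complex.norm_exp_ofReal_mul_I]

theorem e_neg (t : ℝ) : e (-t) = conj (e t) := by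
  simp only [e]
  rw [← Complex.exp_conj]; congr 1
  simp [Complex.conj_ofReal, map_ofNat]

theorem e_mul_e_neg (t : ℝ) : e t * e (-t) = 1 := by
  rw [← e_add, add_neg_cancel, e_zero]

theorem contDiff_e : ContDiff ℝ (⊤ : ℕ∞) e := by
  unfold e
  exact (Complex.contDiff_exp (𝕜 := ℝ)).comp (contDiff_const.mul Complex.ofRealCLM.contDiff)

@[fun_prop] theorem continuous_e : Continuous e := by
  exact contDiff_e.continuous

theorem norm_e_sub_e (s t : ℝ) : ‖e s - e t‖ ≤ 2 * Real.pi * |s - t| := by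
  have h1 : e s - e t = e t * (e (s - t) - 1) := by
    rw [mul_sub, ← e_add]; simp
  rw [h1, norm_mul, norm_e, one_mul]
  have h2 : e (s - t) = Complex.exp (Complex.I * ((2 * Real.pi * (s - t) : ℝ) : ℂ)) := by
    simp only [e]; congr 1; push_cast; ring
  rw [h2]
  refine (Real.norm_exp_I_mul_ofReal_sub_one_le).trans ?_
  rw [Real.norm_eq_abs, abs_mul, abs_of_pos (by positivity : (0 : ℝ) < 2 * Real.pi)]

theorem e_eq_one_iff (t : ℝ) : e t = 1 ↔ ∃ n : ℤ, t = n := by
  constructor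
  · intro h
    obtain ⟨n, hn⟩ := Complex.exp_eq_one_iff.1 h
    refine ⟨n, ?_⟩
    have h2 : (2 * Real.pi * Complex.I : ℂ) ≠ 0 := Complex.two_pi_I_ne_zero
    have : (t : ℂ) = n := by
      apply mul_left_cancel₀ h2
      rw [hn]; ring
    exact_mod_cast this
  · rintro ⟨n, rfl⟩; exact e_int n

theorem fourier_coe (n : ℤ) (x : ℝ) : fourier n (x : S1) = e (n * x) := by
  rw [fourier_coe_apply]; simp only [e]; congr 1; push_cast; ring

theorem coe_eq_coe_iff {x y : ℝ} : (x : S1) = (y : S1) ↔ ∃ n : ℤ, x = y + n := by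
  rw [← sub_eq_zero, ← AddCircle.coe_sub, AddCircle.coe_eq_zero_iff]
  constructor
  · rintro ⟨n, hn⟩; exact ⟨n, by simp at hn; linarith⟩
  · rintro ⟨n, hn⟩; exact ⟨n, by simp; linarith⟩

theorem coe_add_int (x : ℝ) (n : ℤ) : ((x + n : ℝ) : S1) = (x : S1) := by
  exact coe_eq_coe_iff.2 ⟨n, rfl⟩

theorem coe_rep (z : S1) : ((rep z : ℝ) : S1) = z := by
  exact AddCircle.coe_equivIoc

theorem rep_mem (z : S1) : rep z ∈ Ioc (-1 / 2 : ℝ) (1 / 2) := by
  have := (AddCircle.equivIoc 1 (-1 / 2) z).2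
  exact ⟨this.1, this.2.trans (by norm_num)⟩

theorem rep_coe {x : ℝ} (hx : x ∈ Ioc (-1 / 2 : ℝ) (1 / 2)) : rep (x : S1) = x := by
  have hx' : x ∈ Ioc (-1 / 2 : ℝ) (-1 / 2 + 1) := by
    convert hx using 2
    norm_num
  simp only [rep]
  rw [AddCircle.equivIoc_coe_eq hx']

theorem exists_int_rep (x : ℝ) : ∃ j : ℤ, x = j + rep (x : S1) := by
  obtain ⟨n, hn⟩ := coe_eq_coe_iff.1 (coe_rep (x : S1)).symm
  exact ⟨n, by linarith⟩

theorem measurable_rep : Measurable rep := by
  exact measurable_subtype_coe.comp (AddCircle.measurableEquivIoc 1 (-1 / 2)).measurable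

theorem integral_S1 {E : Type} [NormedAddCommGroup E] [NormedSpace ℝ E] (f : S1 → E) :
    ∫ z, f z = ∫ x in (-1 / 2 : ℝ)..(1 / 2), f (x : S1) := by
  rw [← UnitAddCircle.intervalIntegral_preimage (-1 / 2) f]
  norm_num

theorem integral_rep {E : Type} [NormedAddCommGroup E] [NormedSpace ℝ E] (f : ℝ → E) :
    ∫ z : S1, f (rep z) = ∫ x in (-1 / 2 : ℝ)..(1 / 2), f x := by
  rw [integral_S1, intervalIntegral.integral_of_le (by norm_num),
    intervalIntegral.integral_of_le (by norm_num)]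
  exact setIntegral_congr_fun measurableSet_Ioc fun x hx => by simp only [rep_coe hx]

theorem integral_fourier (n : ℤ) : ∫ z : S1, fourier n z = if n = 0 then 1 else 0 := by
  split_ifs with h
  · subst h; simp
  · have h1 := integral_add_right_eq_self (μ := (volume : Measure S1)) (fun z : S1 => fourier n z)
      (((1 : ℝ) / 2 / n : ℝ) : S1)
    have h2 : ∀ z : S1, fourier n (z + (((1 : ℝ) / 2 / n : ℝ) : S1)) = -fourier n z :=
      fun z => fourier_add_half_inv_index h one_pos z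
    simp only [h2, integral_neg] at h1
    linear_combination (-1 / 2 : ℂ) * h1

theorem pr_rep (z : TT) : pr (rep z.1, rep z.2.1, rep z.2.2) = z := by
  simp [pr, coe_rep]

theorem pr_surjective : Function.Surjective pr := by
  exact fun z => ⟨_, pr_rep z⟩

theorem pr_add (x y : R3) : pr (x + y) = pr x + pr y := by
  simp [pr]

theorem pr_sub (x y : R3) : pr (x - y) = pr x - pr y := by
  simp [pr]

theorem pr_zero : pr 0 = 0 := by
  simp [pr]

theorem pr_eq_iff {x y : R3} :
    pr x = pr y ↔ ∃ n₁ n₂ n₃ : ℤ, x.1 = y.1 + n₁ ∧ x.2.1 = y.2.1 + n₂ ∧ x.2.2 = y.2.2 + n₃ := by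
  simp only [pr, Prod.mk.injEq, coe_eq_coe_iff]
  constructor
  · rintro ⟨⟨a, ha⟩, ⟨b, hb⟩, c, hc⟩; exact ⟨a, b, c, ha, hb, hc⟩
  · rintro ⟨a, b, c, ha, hb, hc⟩; exact ⟨⟨a, ha⟩, ⟨b, hb⟩, c, hc⟩

theorem continuous_pr : Continuous pr := by
  unfold pr
  fun_prop

theorem isOpenQuotientMap_pr : IsOpenQuotientMap pr := by
  have h : IsOpenQuotientMap (fun x : ℝ => (x : S1)) := QuotientAddGroup.isOpenQuotientMap_mk
  exact h.prodMap (h.prodMap h)

theorem norm_pr_le (x : R3) : ‖pr x‖ ≤ ‖x‖ := by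
  have h : ∀ x : ℝ, ‖(x : S1)‖ ≤ ‖x‖ := fun x => QuotientAddGroup.norm_mk_le_norm
  simp only [pr, Prod.norm_def]
  exact max_le_max (h _) (max_le_max (h _) (h _))

theorem Lifts.continuous {T : TT → TT} {F : R3 → R3} (h : Lifts T F) : Continuous T := by
  rw [← isOpenQuotientMap_pr.continuous_comp_iff]
  have : T ∘ pr = pr ∘ F := funext h.2
  rw [this]
  exact continuous_pr.comp h.1.continuous

theorem NG_continuous (T : NG) : Continuous (T.1 : TT → TT) := by
  obtain ⟨F, hF⟩ := T.2.1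
  exact hF.continuous

theorem NG_mp (T : NG) : MeasurePreserving (T.1 : TT → TT) volume volume := by
  exact T.2.2.2.1

theorem NG_lifts (T : NG) : ∃ F, Lifts T.1 F := by
  exact T.2.1

theorem NG_mul_apply (S T : NG) (z : TT) : (S * T).1 z = S.1 (T.1 z) := by
  rfl

theorem NG_inv_apply (T : NG) (z : TT) : (T⁻¹).1 (T.1 z) = z := by
  simp

theorem NG_apply_inv (T : NG) (z : TT) : T.1 ((T⁻¹).1 z) = z := by
  simp

theorem exists_descend (F : R3 → R3) (h : ∀ x x', pr x = pr x' → pr (F x) = pr (F x')) :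
    ∃ T : TT → TT, ∀ x, T (pr x) = pr (F x) := by
  exact ⟨fun z => pr (F (rep z.1, rep z.2.1, rep z.2.2)), fun x => h _ _ (pr_rep _)⟩

end Crest.Agent.R81
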