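import Crest.Agent.R81.WApi

/-!
# R81 / Bessel

Fourier coefficients of a comb `Φ (j + x) = z j * B x` (`x ∈ (-1/2, 1/2]`), `m`-periodic.
Core computation: `∫_{-1/2}^{m - 1/2} Φ X e (-(κ X/m)) dX = ∑_{j < m} ∫_{-1/2}^{1/2} z j B x e(-(κ (j + x)/m))
= m * dft m z κ * ∫ B x e (-(κ x/m))` (`intervalIntegral.sum_integral_adjacent_intervals`,
`integral_comp_add_left`, `integral_congr_ae`/`integral_congr_Ioc`).  Note `Φ X = z j * B (X - j)` with
`j = ⌈X - 1/2⌉`, so `Φ` is measurable, bounded on bounded sets and `m`-periodic.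
`comb_coeff`: substitute `X = u + M s` (`integral_comp_add_mul`), the integrand
`Φ X e (-(κ X/m))` is `m`-periodic: `Function.Periodic.intervalIntegral_add_zsmul_eq`,
`Function.Periodic.intervalIntegral_add_eq`.
`comb_bessel`: take `Φ X = z ⌈X - 1/2⌉ * B (X - ⌈X - 1/2⌉)` on `(-1/2, m - 1/2]`; its `fourierCoeffOn`
(`fourierCoeffOn_eq_integral`) is the product in the statement; apply `hasSum_sq_fourierCoeffOn` and
`sum_le_hasSum`; `∫ ‖Φ‖² = ∑ ‖z j‖² ∫ ‖B‖²`.

Auxiliary lemmas: put them in the namespace `Crest.Agent.R81.BesselAux` (avoid name clashes).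
-/

set_option autoImplicit false

open MeasureTheory Set Filter Topology
open scoped InnerProductSpace ComplexConjugate

namespace Crest.Agent.R81

namespace BesselAux

theorem sub_ceil_mem (X : ℝ) : X - (⌈X - 1 / 2⌉ : ℤ) ∈ Ioc (-1 / 2 : ℝ) (1 / 2) := by
  have h1 := Int.le_ceil (X - 1 / 2)
  have h2 := Int.ceil_lt_add_one (X - 1 / 2)
  constructor <;> linarith

theorem ceil_eq (j : ℤ) {x : ℝ} (hx : x ∈ Ioc (-1 / 2 : ℝ) (1 / 2)) : ⌈(j : ℝ) + x - 1 / 2⌉ = j := by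
  rw [Int.ceil_eq_iff]
  constructor <;> linarith [hx.1, hx.2]

theorem comb_eq {z : ℤ → ℂ} {B Φ : ℝ → ℂ}
    (hΦ : ∀ (j : ℤ) (x : ℝ), x ∈ Ioc (-1 / 2 : ℝ) (1 / 2) → Φ (j + x) = z j * B x) (X : ℝ) :
    Φ X = z ⌈X - 1 / 2⌉ * B (X - (⌈X - 1 / 2⌉ : ℤ)) := by
  rw [← hΦ _ _ (sub_ceil_mem X), add_sub_cancel]

theorem comb_good {m : ℕ} (hm : 0 < m) {z : ℤ → ℂ} (hz : Function.Periodic z (m : ℤ)) {B Φ : ℝ → ℂ}
    (hB : Good B)
    (hΦ : ∀ (j : ℤ) (x : ℝ), x ∈ Ioc (-1 / 2 : ℝ) (1 / 2) → Φ (j + x) = z j * B x) : Good Φ := by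
  have hc : Measurable fun X : ℝ => (⌈X - 1 / 2⌉ : ℤ) := (measurable_id.sub_const _).ceil
  have h1 : Good fun X : ℝ => z ⌈X - 1 / 2⌉ := by
    refine ⟨(measurable_of_countable z).comp hc, ∑ i ∈ Finset.range m, ‖z i‖, fun X => ?_⟩
    show ‖z ⌈X - 1 / 2⌉‖ ≤ _
    set j := ⌈X - 1 / 2⌉
    have hm' : (0 : ℤ) < m := by exact_mod_cast hm
    have e1 : z j = z ((j % m).toNat : ℕ) := by
      rw [Int.toNat_of_nonneg (Int.emod_nonneg _ hm'.ne'), ← hz.int_mul (j / m) (j % m)]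
      congr 1
      simp [Int.emod_add_ediv_mul]
    rw [e1]
    refine Finset.single_le_sum (f := fun i : ℕ => ‖z i‖) (fun _ _ => norm_nonneg _) ?_
    rw [Finset.mem_range, Int.toNat_lt (Int.emod_nonneg _ hm'.ne')]
    exact Int.emod_lt_of_pos _ hm'
  have h2 : Good fun X : ℝ => B (X - (⌈X - 1 / 2⌉ : ℤ)) := by
    obtain ⟨hB1, C, hC⟩ := hB
    exact ⟨hB1.comp (measurable_id.sub ((measurable_of_countable (fun n : ℤ => (n : ℝ))).comp hc)),
      C, fun X => hC _⟩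
  have : Φ = fun X => z ⌈X - 1 / 2⌉ * B (X - (⌈X - 1 / 2⌉ : ℤ)) := funext (comb_eq hΦ)
  rw [this]
  exact h1.mul h2

theorem pieces {E : Type} [NormedAddCommGroup E] [NormedSpace ℝ E] {G : ℝ → E}
    (hG : ∀ s t, IntervalIntegrable G volume s t) (m : ℕ) :
    ∫ X in (-1 / 2 : ℝ)..(-1 / 2 + m), G X =
      ∑ j ∈ Finset.range m, ∫ x in (-1 / 2 : ℝ)..(1 / 2), G (j + x) := by
  have h := intervalIntegral.sum_integral_adjacent_intervals (f := G) (μ := volume)
    (a := fun k : ℕ => (-1 / 2 : ℝ) + k) (n := m) fun k _ => hG _ _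
  simp only [Nat.cast_zero, add_zero] at h
  rw [← h]
  refine Finset.sum_congr rfl fun j _ => ?_
  rw [intervalIntegral.integral_comp_add_left]
  congr 1
  · ring
  · push_cast
    ring

theorem core {m : ℕ} (hm : 0 < m) {z : ℤ → ℂ} {B Φ : ℝ → ℂ} (hG : Good Φ)
    (hΦ : ∀ (j : ℤ) (x : ℝ), x ∈ Ioc (-1 / 2 : ℝ) (1 / 2) → Φ (j + x) = z j * B x) (κ : ℤ) :
    ∫ X in (-1 / 2 : ℝ)..(-1 / 2 + m), Φ X * e (-(κ * X / m)) =
      m * (dft m z κ * ∫ x in (-1 / 2 : ℝ)..(1 / 2), B x * e (-(κ * x / m))) := by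
  have hm' : (m : ℂ) ≠ 0 := by exact_mod_cast hm.ne'
  rw [pieces (fun s t => (hG.mul (good_e (by fun_prop))).intervalIntegrable s t), dft, ← mul_assoc,
    ← mul_assoc, mul_one_div_cancel hm', one_mul, Finset.sum_mul]
  refine Finset.sum_congr rfl fun j _ => ?_
  rw [← intervalIntegral.integral_const_mul, intervalIntegral.integral_of_le (by norm_num),
    intervalIntegral.integral_of_le (by norm_num)]
  refine setIntegral_congr_fun measurableSet_Ioc fun x hx => ?_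
  have h1 := hΦ j x hx
  rw [Int.cast_natCast] at h1
  have h2 : e (-(κ * (j + x) / m)) = e (-(κ * j / m)) * e (-(κ * x / m)) := by
    rw [← e_add]
    congr 1
    ring
  simp only [h1, h2]
  ring

end BesselAux

open BesselAux in
theorem comb_coeff (m N : ℕ) (hm : 0 < m) (hN : 0 < N) (z : ℤ → ℂ)
    (hz : Function.Periodic z (m : ℤ)) {B : ℝ → ℂ} (hB : Good B) (Φ : ℝ → ℂ)
    (hΦ : ∀ (j : ℤ) (x : ℝ), x ∈ Ioc (-1 / 2 : ℝ) (1 / 2) → Φ (j + x) = z j * B x) (u : ℝ) (κ : ℤ) :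
    ∫ s in (-1 / 2 : ℝ)..(1 / 2), Φ (u + (m * N : ℕ) * s) * e (-(N * κ * s)) =
      e (κ * u / m) * (dft m z κ * ∫ x in (-1 / 2 : ℝ)..(1 / 2), B x * e (-(κ * x / m))) := by
  have hm' : (m : ℝ) ≠ 0 := by exact_mod_cast hm.ne'
  have hN' : (N : ℝ) ≠ 0 := by exact_mod_cast hN.ne'
  have hG := comb_good hm hz hB hΦ
  set G : ℝ → ℂ := fun X => Φ X * e (-(κ * X / m)) with hGdef
  have hGi : ∀ s t, IntervalIntegrable G volume s t := fun s t =>
    (hG.mul (good_e (by fun_prop))).intervalIntegrable s t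
  have hper : Function.Periodic G (m : ℝ) := by
    intro X
    have h1 : Φ (X + m) = Φ X := by
      have h2 := hΦ (⌈X - 1 / 2⌉ + m) _ (sub_ceil_mem X)
      rw [hz, ← comb_eq hΦ X] at h2
      rw [← h2]
      congr 1
      push_cast
      ring
    have h2 : e (-(κ * (X + m) / m)) = e (-(κ * X / m)) := by
      rw [← e_add_int (-(κ * X / m)) (-κ)]
      congr 1
      push_cast
      field_simp
      ring
    simp only [hGdef, h1, h2]
  have h1 : ∀ s : ℝ, Φ (u + (m * N : ℕ) * s) * e (-(N * κ * s)) =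
      e (κ * u / m) * G (u + (m * N : ℕ) * s) := by
    intro s
    simp only [hGdef]
    rw [mul_left_comm, ← e_add]
    congr 2
    push_cast
    field_simp
    ring
  simp only [h1]
  rw [intervalIntegral.integral_const_mul, intervalIntegral.integral_comp_add_mul G
    (by push_cast; exact mul_ne_zero hm' hN')]
  congr 1
  have h2 : u + (m * N : ℕ) * (1 / 2 : ℝ) = u + (m * N : ℕ) * (-1 / 2 : ℝ) + (N : ℤ) • (m : ℝ) := by
    simp only [zsmul_eq_mul]
    push_cast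
    ring
  rw [h2, hper.intervalIntegral_add_zsmul_eq _ _ hGi, hper.intervalIntegral_add_eq _ (-1 / 2),
    core hm hG hΦ]
  have hm'' : (m : ℂ) ≠ 0 := by exact_mod_cast hm.ne'
  have hN'' : (N : ℂ) ≠ 0 := by exact_mod_cast hN.ne'
  simp only [zsmul_eq_mul, Complex.real_smul]
  push_cast
  field_simp

open BesselAux in
theorem comb_bessel (m : ℕ) (hm : 0 < m) (z : ℤ → ℂ) {B : ℝ → ℂ} (hB : Good B) (s : Finset ℤ) :
    ∑ κ ∈ s, ‖dft m z κ * ∫ x in (-1 / 2 : ℝ)..(1 / 2), B x * e (-(κ * x / m))‖ ^ 2 ≤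
      (1 / m) * (∑ j ∈ Finset.range m, ‖z j‖ ^ 2) * ∫ x in (-1 / 2 : ℝ)..(1 / 2), ‖B x‖ ^ 2 := by
  have hm' : (0 : ℝ) < m := by exact_mod_cast hm
  let z' : ℤ → ℂ := fun j => z (j % m)
  have hz' : Function.Periodic z' (m : ℤ) := fun j => by simp [z']
  have hzz : ∀ j ∈ Finset.range m, z' j = z j := by
    intro j hj
    simp only [z']
    rw [Int.emod_eq_of_lt (by positivity) (by exact_mod_cast Finset.mem_range.1 hj)]
  have hd : ∀ κ, dft m z κ = dft m z' κ := by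
    intro κ
    unfold dft
    congr 1
    exact Finset.sum_congr rfl fun j hj => by rw [hzz j hj]
  let Φ : ℝ → ℂ := fun X => z' ⌈X - 1 / 2⌉ * B (X - (⌈X - 1 / 2⌉ : ℤ))
  have hΦ : ∀ (j : ℤ) (x : ℝ), x ∈ Ioc (-1 / 2 : ℝ) (1 / 2) → Φ (j + x) = z' j * B x := by
    intro j x hx
    simp only [Φ, ceil_eq j hx, add_sub_cancel_left]
  have hG := comb_good hm hz' hB hΦ
  have hab : (-1 / 2 : ℝ) < -1 / 2 + m := by linarith
  have hL2 : MemLp Φ 2 (volume.restrict (Ioc (-1 / 2 : ℝ) (-1 / 2 + m))) := by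
    obtain ⟨h1, C, hC⟩ := hG
    exact MemLp.of_bound h1.aestronglyMeasurable C (Eventually.of_forall hC)
  have hs := sum_le_hasSum s (fun _ _ => sq_nonneg _) (hasSum_sq_fourierCoeffOn hab hL2)
  have hc : ∀ κ : ℤ, fourierCoeffOn hab Φ κ =
      dft m z κ * ∫ x in (-1 / 2 : ℝ)..(1 / 2), B x * e (-(κ * x / m)) := by
    intro κ
    rw [fourierCoeffOn_eq_integral]
    have h1 : ∀ x : ℝ, fourier (-κ) (x : AddCircle (-1 / 2 + (m : ℝ) - -1 / 2)) • Φ x =
        Φ x * e (-(κ * x / m)) := by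
      intro x
      rw [fourier_coe_apply, smul_eq_mul, mul_comm, e]
      congr 2
      push_cast
      ring
    simp only [h1]
    rw [core hm hG hΦ, ← hd, add_sub_cancel_left]
    have hm'' : (m : ℂ) ≠ 0 := by exact_mod_cast hm.ne'
    simp only [Complex.real_smul]
    push_cast
    field_simp
  simp only [hc] at hs
  refine hs.trans (le_of_eq ?_)
  rw [pieces (fun s t => hG.intervalIntegrable_normSq s t), add_sub_cancel_left, smul_eq_mul,
    mul_assoc, one_div (m : ℝ), Finset.sum_mul]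
  congr 1
  refine Finset.sum_congr rfl fun j hj => ?_
  rw [← intervalIntegral.integral_const_mul, intervalIntegral.integral_of_le (by norm_num),
    intervalIntegral.integral_of_le (by norm_num)]
  refine setIntegral_congr_fun measurableSet_Ioc fun x hx => ?_
  have h1 := hΦ j x hx
  rw [Int.cast_natCast] at h1
  simp only [h1, hzz j hj, norm_mul, mul_pow]

end Crest.Agent.R81
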