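import Crest.Agent.R81.Spec

/-!
# R81 / Build

Construction of the new state and data from the analytic inputs.
`choose τB` from `hLB`, `τF` from `hLF` (extend by `1` outside `B`, `A`).  Let
`idx b = Function.invFunOn L.ln {q | q.1 ∈ D.A} b` (so `idx (L.ln q) = q` for `q.1 ∈ D.A` by `ln_inj`,
`Set.InjOn.leftInvOn_invFunOn`).  For `q = (a, i)`, `x = i μ a`, `old q := a ∈ B ∧ i ∈ grid (μ a) (l a) (r a)`:
* `cB q = if old q then τB a i * √(ℓ λ'/(a.1 λ)) * amp a x else √(ℓ λ')`, `‖cB q‖² = ℓ λ' > 0`;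
* `cF q = τF a i * √(μ a) * F a x`;
* `amp' b u = cB (idx b) * e ((idx b).2 * u / P (idx b).1)`, `F' b u = cF (idx b) * e (..)`,
  `l' = -a'`, `r' = a'`, `B' = KB.image ln`, `A' = KF.image ln`, `H' = H K`.
`sep`: `SepI.image` with `hfreq` (`ℓ λ' a' ≤ hw`).  `npar_ln`, `ln_fst_pos`.
Vector estimates: `Gp' - Gp = Uc H⁻¹ (Uc K⁻¹ (gp' - Uc K gp))`, so the norm is `‖gp' - Uc K gp‖`.
`gp' = ∑_{q ∈ KB} W (cut (amp' (ln q)) ..) (ln q)` (`Finset.sum_image`), split `KB` into old and added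
lines; group the old ones by `a` (`I a = (grid ..).filter ((a, ·) ∈ KB)`, `grid \ I a` is the filter in
`Kept.missB`; `Finset.sum_fiberwise_of_maps_to`/`sum_sigma'`/`sum_biUnion`).  For `b ∈ B`:
`‖Uc K (w b) - ∑_{I b} W(τ √μ amp ..)‖ ≤ ε₂` and the change of normalisation costs
`∑_{I b} 2a' μ b.1 λ (1 - √ρ)² ≤ 2 b.1 λ (1 - ρ)² ≤ ε₂²` (`ρ = ℓ λ'/(μ b.1 λ)`, `|1 - √ρ| ≤ |1 - ρ|`,
`card_grid_le`, `norm_sum_W_sq`); the added lines have total squared norm `≤ ε₁` (`Kept.added`).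
The `F` part is the same without renormalisation.

Auxiliary lemmas: put them in the namespace `Crest.Agent.R81.BuildAux` (avoid name clashes).
-/

set_option autoImplicit false

open MeasureTheory Set Filter Topology
open scoped InnerProductSpace ComplexConjugate

namespace Crest.Agent.R81

namespace BuildAux

theorem norm_pull (H K : NG) (g g' : L2) :
    ‖Uc (H * K)⁻¹ g' - Uc H⁻¹ g‖ = ‖g' - Uc K g‖ := by
  rw [mul_inv_rev, Uc_mul, ← map_sub, LinearIsometry.norm_map, ← (Uc K).norm_map, map_sub,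
    ← Uc_mul, inv_mul_cancel, Uc_one]

/-- a line vector -/
noncomputable def wl (L : LS) (a' : ℝ) (c : ℂ) (q : Md × ℤ) : L2 :=
  W (cut (fun u => c * e (q.2 * u / L.P q.1)) (-a') a') (L.ln q)

theorem wl_sub (L : LS) (a' : ℝ) (c c' : ℂ) (q : Md × ℤ) :
    wl L a' c q - wl L a' c' q = wl L a' (c - c') q := by
  unfold wl
  rw [← W_cut_sub (by fun_prop) (by fun_prop)]
  simp only [sub_mul]

theorem norm_wl_sq (L : LS) {a' : ℝ} (h0 : 0 < a') (h1 : a' < 1 / 2) (c : ℂ) (q : Md × ℤ) :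
    ‖wl L a' c q‖ ^ 2 ≤ ‖c‖ ^ 2 := by
  unfold wl
  rw [norm_W_cut_sq (by fun_prop) (by linarith) (by linarith) h1]
  simp only [norm_mul, norm_e, mul_one, intervalIntegral.integral_const, smul_eq_mul]
  exact mul_le_of_le_one_left (by positivity) (by linarith)

theorem norm_sum_wl_sq {L : LS} {B A : Finset Md} (hL : L.OK B A) {a' : ℝ} (h0 : 0 < a')
    (h1 : a' < 1 / 2) (S : Finset (Md × ℤ)) (hS : ∀ q ∈ S, q.1 ∈ A) (c : Md × ℤ → ℂ) :
    ‖∑ q ∈ S, wl L a' (c q) q‖ ^ 2 ≤ ∑ q ∈ S, ‖c q‖ ^ 2 := by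
  have := norm_sum_W_sq S L.ln (fun q hq q' hq' h => ln_inj hL (hS q hq) (hS q' hq') h)
    (A := fun q => cut (fun u => c q * e (q.2 * u / L.P q.1)) (-a') a')
    (fun q _ => good_cut (by fun_prop) _ _)
  unfold wl
  rw [this]
  exact Finset.sum_le_sum fun q _ => norm_wl_sq L h0 h1 (c q) q

theorem sq_one_sub_sqrt {ρ : ℝ} (h : 0 ≤ ρ) : (Real.sqrt ρ - 1) ^ 2 ≤ (1 - ρ) ^ 2 := by
  have h1 := Real.sq_sqrt h
  have h2 := Real.sqrt_nonneg ρ
  have h3 : (1 - ρ) ^ 2 = (Real.sqrt ρ - 1) ^ 2 * (1 + Real.sqrt ρ) ^ 2 := by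
    conv_lhs => rw [← h1]
    ring
  rw [h3]
  exact le_mul_of_one_le_right (sq_nonneg _) (by nlinarith)

end BuildAux

open BuildAux in
theorem build (σ : St) (D : FD) (hB : σ.B ⊆ D.A) (L : LS) (hL : L.OK σ.B D.A)
    (hlam : L.lam = σ.lam) (K S' : NG) {a' φ' β' : ℝ} {Ω₁ : ℝ → ℝ} (hprof : IsProf a' Ω₁)
    (hS : IsShear S'.1 Ω₁ φ' L.lam' β')
    (hfreq : ∀ q : Md × ℤ, q.1 ∈ D.A → ∃ n : ℤ, ∀ u : ℝ,
      th φ' L.lam' β' (L.ln q) u = L.cen q + ell L.N q.1 * L.lam' * u + n)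
    (hK : KShape K.1 L.N) (k : ℕ) {ε ε₁ ε₂ : ℝ}
    (hclose : Close2 k ε σ.T (σ.H * K * S' * (σ.H * K)⁻¹)) (hwide : 1 - 2 * a' ≤ ε)
    (hε₂ : 0 ≤ ε₂)
    (hLB : ∀ b ∈ σ.B, LineOK K L.N (L.R b) (L.P b) (L.μ b) a' (σ.amp b) (σ.l b) (σ.r b) b ε₁ ε₂)
    (hLF : ∀ a ∈ D.A, LineOK K L.N (L.R a) (L.P a) (L.μ a) a' (D.F a) (-σ.a) σ.a a ε₁ ε₂)
    (hμ : ∀ b ∈ σ.B, L.μ b ≤ 1)
    (hratio : ∀ b ∈ σ.B,
      2 * (b.1 * L.lam) * (1 - ell L.N b * L.lam' / (L.μ b * (b.1 * L.lam))) ^ 2 ≤ ε₂ ^ 2)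
    (hsmall : 2 * D.A.card * ε₂ + Real.sqrt ε₁ ≤ ε)
    (KB KF : Finset (Md × ℤ)) (hkept : Kept σ D L ε₁ KB KF) :
    ∃ σ' D', Out σ D L k ε KB KF σ' D' := by
  classical
  choose! τB hτB1 hτB2 using hLB
  choose! τF hτF1 hτF2 using hLF
  have ha0 := hprof.pos
  have ha1 := hprof.lt
  have hl' := hL.lam'_pos
  have hKB : ∀ q ∈ KB, q.1 ∈ D.A := fun q hq => (hkept.mem q (hkept.sub hq)).1
  have hKF : ∀ q ∈ KF, q.1 ∈ D.A := fun q hq => (hkept.mem q hq).1
  let idx : Md → Md × ℤ := Function.invFunOn L.ln {q | q.1 ∈ D.A}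
  have hinj : Set.InjOn L.ln {q | q.1 ∈ D.A} := fun q hq q' hq' h => ln_inj hL hq hq' h
  have hidx : ∀ q : Md × ℤ, q.1 ∈ D.A → idx (L.ln q) = q := fun q hq =>
    hinj.leftInvOn_invFunOn hq
  let old : Md × ℤ → Prop := fun q => q.1 ∈ σ.B ∧ q.2 ∈ grid (L.μ q.1) (σ.l q.1) (σ.r q.1)
  let cB : Md × ℤ → ℂ := fun q =>
    if old q then τB q.1 q.2 * (Real.sqrt (ell L.N q.1 * L.lam' / (q.1.1 * L.lam)) : ℂ) *
      σ.amp q.1 (q.2 * L.μ q.1) else (Real.sqrt (ell L.N q.1 * L.lam') : ℂ)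
  let cF : Md × ℤ → ℂ := fun q => τF q.1 q.2 * (Real.sqrt (L.μ q.1) : ℂ) * D.F q.1 (q.2 * L.μ q.1)
  have hb1 : ∀ b ∈ σ.B, (0 : ℝ) < b.1 * L.lam := fun b hb =>
    mul_pos (by exact_mod_cast σ.pos b hb) hL.lam_pos
  have hcB : ∀ q : Md × ℤ, q.1 ∈ D.A → ‖cB q‖ ^ 2 = ell L.N q.1 * L.lam' := by
    intro q hq
    have h1 : 0 < (ell L.N q.1 : ℝ) * L.lam' := mul_pos (hL.ell_pos' hq) hl'
    by_cases ho : old q
    · have h2 := hb1 _ ho.1
      simp only [cB, if_pos ho, norm_mul, mul_pow, hτB1 _ ho.1, σ.norm_amp _ ho.1, Complex.norm_real,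
        Real.norm_eq_abs, sq_abs]
      rw [Real.sq_sqrt (by positivity), ← hlam, one_pow, one_mul, div_mul_cancel₀ _ h2.ne']
    · simp only [cB, if_neg ho, Complex.norm_real, Real.norm_eq_abs, sq_abs]
      exact Real.sq_sqrt h1.le
  have hsm : ∀ (c : ℂ) (q : Md × ℤ),
      ContDiff ℝ (⊤ : ℕ∞) fun u : ℝ => c * e (q.2 * u / L.P q.1) := fun c q =>
    contDiff_const.mul (contDiff_e.comp (by fun_prop))
  let σ' : St :=
    { H := σ.H * K, S := S', a := a', Ω := Ω₁, φ := φ', lam := L.lam', β := β'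
      B := KB.image L.ln, l := fun _ => -a', r := fun _ => a'
      amp := fun b u => cB (idx b) * e ((idx b).2 * u / L.P (idx b).1)
      prof := hprof, lam_pos := hl', shear := hS
      pos := fun b hb => by
        obtain ⟨q, hq, rfl⟩ := Finset.mem_image.1 hb
        exact ln_fst_pos hL (hKB q hq)
      npar := npar_ln hL KB hKB hkept.npar
      lr := fun b _ => ⟨le_rfl, by linarith, le_rfl⟩
      smooth := fun b => hsm _ _
      norm_amp := fun b hb x => by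
        obtain ⟨q, hq, rfl⟩ := Finset.mem_image.1 hb
        rw [hidx q (hKB q hq), norm_mul, norm_e, mul_one, hcB q (hKB q hq)]
        rfl
      sep := hkept.sep.image L.ln _ _ fun q hq => by
        obtain ⟨n, hn⟩ := hfreq q (hKB q hq)
        have h1 : 0 < (ell L.N q.1 : ℝ) * L.lam' := mul_pos (hL.ell_pos' (hKB q hq)) hl'
        refine ⟨n, ?_, ?_⟩
        · simp only [hn, LS.hw]
          nlinarith
        · simp only [hn, LS.hw]
          nlinarith }
  let D' : FD :=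
    { A := KF.image L.ln
      F := fun b u => cF (idx b) * e ((idx b).2 * u / L.P (idx b).1)
      smooth := fun b => hsm _ _
      pos := fun b hb => by
        obtain ⟨q, hq, rfl⟩ := Finset.mem_image.1 hb
        exact Or.inl (ln_fst_pos hL (hKF q hq)) }
  have hsq := Real.sqrt_nonneg ε₁
  have hcard : (0 : ℝ) ≤ D.A.card * ε₂ := by positivity
  refine ⟨σ', D', rfl, rfl, ⟨hclose, ?_⟩, ?_, fun b _ => ⟨rfl, rfl⟩, hwide, rfl, hfreq, ?_, ?_,
    ⟨K, rfl, hK⟩⟩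
  · -- the state vector
    show ‖Uc (σ.H * K)⁻¹ σ'.gp - Uc σ.H⁻¹ σ.gp‖ ≤ ε
    rw [norm_pull]
    have e1 : σ'.gp = ∑ q ∈ KB, wl L a' (cB q) q := by
      show ∑ b ∈ KB.image L.ln, σ'.w b = _
      rw [Finset.sum_image fun q hq q' hq' h => hinj (hKB q hq) (hKB q' hq') h]
      refine Finset.sum_congr rfl fun q hq => ?_
      show W (cut (fun u => cB (idx (L.ln q)) *
        e ((idx (L.ln q)).2 * u / L.P (idx (L.ln q)).1)) (-a') a') (L.ln q) = _
      rw [hidx q (hKB q hq)]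
      rfl
    let I : Md → Finset ℤ := fun b => (grid (L.μ b) (σ.l b) (σ.r b)).filter fun i => (b, i) ∈ KB
    have e2 : ∑ q ∈ KB.filter old, wl L a' (cB q) q =
        ∑ b ∈ σ.B, ∑ i ∈ I b, wl L a' (cB (b, i)) (b, i) := by
      refine Finset.sum_finset_product' _ σ.B I (fun q => ?_)
        (f := fun b i => wl L a' (cB (b, i)) (b, i))
      simp only [Finset.mem_filter, old, I]
      tauto
    have e3 : ‖∑ q ∈ KB.filter (fun q => ¬ old q), wl L a' (cB q) q‖ ≤ Real.sqrt ε₁ := by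
      refine Real.le_sqrt_of_sq_le ((norm_sum_wl_sq hL ha0 ha1 _
        (fun q hq => hKB q (Finset.mem_filter.1 hq).1) cB).trans ?_)
      rw [Finset.sum_congr rfl fun q hq => hcB q (hKB q (Finset.mem_filter.1 hq).1)]
      convert hkept.added
    have e4 : ∀ b ∈ σ.B, ‖∑ i ∈ I b, wl L a' (cB (b, i)) (b, i) - Uc K (σ.w b)‖ ≤ 2 * ε₂ := by
      intro b hb
      have hμ0 := hL.μ_pos (hB hb)
      have h2 := hb1 b hb
      have h3 : 0 < (ell L.N b : ℝ) * L.lam' := mul_pos (hL.ell_pos' (hB hb)) hl'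
      have f1 := hτB2 b hb (I b) (Finset.filter_subset _ _) (by
        have := hkept.missB b hb
        rw [← Finset.filter_not]
        convert this)
      let c₀ : Md × ℤ → ℂ := fun q => τB b q.2 * (Real.sqrt (L.μ b) : ℂ) * σ.amp b (q.2 * L.μ b)
      have f2 : ‖Uc K (σ.w b) - ∑ i ∈ I b, wl L a' (c₀ (b, i)) (b, i)‖ ≤ ε₂ := f1
      have f3 : ‖∑ i ∈ I b, wl L a' (cB (b, i)) (b, i) - ∑ i ∈ I b, wl L a' (c₀ (b, i)) (b, i)‖ ≤
          ε₂ := by
        rw [← Finset.sum_sub_distrib]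
        simp only [wl_sub]
        have g1 := norm_sum_wl_sq hL ha0 ha1 ((I b).image fun i => (b, i)) (fun q hq => by
          obtain ⟨i, -, rfl⟩ := Finset.mem_image.1 hq
          exact hB hb) (fun q => cB q - c₀ q)
        rw [Finset.sum_image (fun i _ j _ h => (Prod.mk.inj h).2),
          Finset.sum_image (fun i _ j _ h => (Prod.mk.inj h).2)] at g1
        refine abs_le_of_sq_le_sq' (g1.trans ?_) hε₂ |>.2
        set ρ : ℝ := ell L.N b * L.lam' / (L.μ b * (b.1 * L.lam)) with hρ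
        have hρ0 : 0 ≤ ρ := by positivity
        have g2 : ∀ i ∈ I b, ‖cB (b, i) - c₀ (b, i)‖ ^ 2 ≤ L.μ b * ((b.1 * L.lam) * (1 - ρ) ^ 2) := by
          intro i hi
          have ho : old (b, i) := ⟨hb, (Finset.mem_filter.1 hi).1⟩
          have g3 : Real.sqrt (ell L.N b * L.lam' / (b.1 * L.lam)) =
              Real.sqrt (L.μ b) * Real.sqrt ρ := by
            rw [← Real.sqrt_mul hμ0.le, hρ]
            congr 1
            field_simp
          have g4 : cB (b, i) - c₀ (b, i) = τB b i *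
              ((Real.sqrt (L.μ b) * (Real.sqrt ρ - 1) : ℝ) : ℂ) * σ.amp b (i * L.μ b) := by
            simp only [cB, c₀, if_pos ho, g3]
            push_cast
            ring
          rw [g4, norm_mul, norm_mul, hτB1 b hb, one_mul, mul_pow, σ.norm_amp b hb, Complex.norm_real,
            Real.norm_eq_abs, sq_abs, mul_pow, Real.sq_sqrt hμ0.le, ← hlam, mul_assoc]
          refine mul_le_mul_of_nonneg_left ?_ hμ0.le
          rw [mul_comm]
          exact mul_le_mul_of_nonneg_left (sq_one_sub_sqrt hρ0) h2.le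
        refine (Finset.sum_le_card_nsmul _ _ _ g2).trans (le_trans ?_ (hratio b hb))
        rw [nsmul_eq_mul, ← mul_assoc, mul_assoc 2]
        refine mul_le_mul_of_nonneg_right ?_ (by positivity)
        have g5 := card_grid_le hμ0 (σ.lr b hb).2.1
        have g6 : ((I b).card : ℝ) ≤ (grid (L.μ b) (σ.l b) (σ.r b)).card := by
          exact_mod_cast Finset.card_filter_le _ _
        have g7 := σ.lr b hb
        have g8 := σ.prof.lt
        have g9 := hμ b hb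
        nlinarith
      have := norm_sub_le_norm_sub_add_norm_sub (∑ i ∈ I b, wl L a' (cB (b, i)) (b, i))
        (∑ i ∈ I b, wl L a' (c₀ (b, i)) (b, i)) (Uc K (σ.w b))
      rw [norm_sub_rev] at f2
      linarith
    have e5 : ‖∑ b ∈ σ.B, ∑ i ∈ I b, wl L a' (cB (b, i)) (b, i) - Uc K σ.gp‖ ≤
        2 * D.A.card * ε₂ := by
      rw [St.gp, map_sum, ← Finset.sum_sub_distrib]
      refine (norm_sum_le _ _).trans ((Finset.sum_le_card_nsmul _ _ _ e4).trans ?_)
      have : (σ.B.card : ℝ) ≤ D.A.card := by exact_mod_cast Finset.card_le_card hB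
      rw [nsmul_eq_mul]
      nlinarith
    rw [e1, ← Finset.sum_filter_add_sum_filter_not KB old, e2, add_sub_right_comm]
    exact (norm_add_le _ _).trans (by linarith)
  · -- the data
    show ‖Uc (σ.H * K)⁻¹ (∑ a ∈ KF.image L.ln, W (cut (D'.F a) (-a') a') a) -
      Uc σ.H⁻¹ (∑ a ∈ D.A, W (cut (D.F a) (-σ.a) σ.a) a)‖ ≤ ε
    rw [norm_pull]
    have e1 : ∑ a ∈ KF.image L.ln, W (cut (D'.F a) (-a') a') a = ∑ q ∈ KF, wl L a' (cF q) q := by
      rw [Finset.sum_image fun q hq q' hq' h => hinj (hKF q hq) (hKF q' hq') h]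
      refine Finset.sum_congr rfl fun q hq => ?_
      show W (cut (fun u => cF (idx (L.ln q)) *
        e ((idx (L.ln q)).2 * u / L.P (idx (L.ln q)).1)) (-a') a') (L.ln q) = _
      rw [hidx q (hKF q hq)]
      rfl
    let I : Md → Finset ℤ := fun b => (grid (L.μ b) (-σ.a) σ.a).filter fun i => (b, i) ∈ KF
    have e2 : ∑ q ∈ KF, wl L a' (cF q) q =
        ∑ b ∈ D.A, ∑ i ∈ I b, wl L a' (cF (b, i)) (b, i) := by
      refine Finset.sum_finset_product' _ D.A I (fun q => ?_)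
        (f := fun b i => wl L a' (cF (b, i)) (b, i))
      simp only [Finset.mem_filter, I]
      exact ⟨fun h => ⟨(hkept.mem q h).1, (hkept.mem q h).2, h⟩, fun h => h.2.2⟩
    have e4 : ∀ b ∈ D.A, ‖∑ i ∈ I b, wl L a' (cF (b, i)) (b, i) -
        Uc K (W (cut (D.F b) (-σ.a) σ.a) b)‖ ≤ ε₂ := by
      intro b hb
      rw [norm_sub_rev]
      exact hτF2 b hb (I b) (Finset.filter_subset _ _) (by
        have := hkept.missF b hb
        rw [← Finset.filter_not]
        convert this)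
    rw [e1, e2, map_sum, ← Finset.sum_sub_distrib]
    refine (norm_sum_le _ _).trans ((Finset.sum_le_card_nsmul _ _ _ e4).trans ?_)
    rw [nsmul_eq_mul]
    linarith
  · intro q hq u
    show ‖cF (idx (L.ln q)) * e ((idx (L.ln q)).2 * u / L.P (idx (L.ln q)).1)‖ ^ 2 = _
    rw [hidx q (hKF q hq), norm_mul, norm_e, mul_one]
    simp only [cF, norm_mul, hτF1 _ (hKF q hq), one_mul, mul_pow, Complex.norm_real,
      Real.norm_eq_abs, sq_abs, Real.sq_sqrt (hL.μ_pos (hKF q hq)).le]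
  · intro b hb
    obtain ⟨q, hq, rfl⟩ := Finset.mem_image.1 hb
    have h1 : cB q ≠ 0 := by
      intro h
      have := hcB q (hKB q hq)
      rw [h] at this
      have h1 : 0 < (ell L.N q.1 : ℝ) * L.lam' := mul_pos (hL.ell_pos' (hKB q hq)) hl'
      simp only [norm_zero] at this
      linarith
    refine ⟨cF q / cB q, fun u => ?_⟩
    show cF (idx (L.ln q)) * e ((idx (L.ln q)).2 * u / L.P (idx (L.ln q)).1) =
      cF q / cB q * (cB (idx (L.ln q)) * e ((idx (L.ln q)).2 * u / L.P (idx (L.ln q)).1))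
    rw [hidx q (hKB q hq)]
    field_simp

end Crest.Agent.R81
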