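import Crest.Agent.R81.Arc

/-!
# R81 / Cap1

One-dimensional capture: a real trigonometric polynomial approximating prescribed constants on the
arcs and `0` elsewhere, in `L²`.
Let `ψ₁ : S1 → ℂ`, `ψ₁ = ∑_{b ∈ s} (indicator (arc b) (κ b) + indicator (-arc b) (conj (κ b)))`: bounded,
measurable, `ψ₁ (-z) = conj (ψ₁ z)`.  Trigonometric polynomials are dense in `L²`
(`span_fourierLp_closure_eq_top`, for `haarAddCircle`; `AddCircle.volume_eq_smul_haarAddCircle`; or use
`fourierBasis`/`hasSum_fourier_series_L2`; or approximate by a continuous function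
(`MemLp.exists_boundedContinuous_eLpNorm_sub_le`, `ContinuousMap.toLp_denseRange`) and use
`span_fourier_closure_eq_top`).  Given `p = ∑ c k • fourier k` with `∫ ‖p - ψ₁‖² ≤ η`, the symmetrisation
`p₁ z = (p z + conj (p (-z)))/2 = ∑ (re (c k)) fourier k z` satisfies
`‖p₁ - ψ₁‖² ≤ (‖(p - ψ₁) z‖² + ‖(p - ψ₁)(-z)‖²)/2`, so `∫ ‖p₁ - ψ₁‖² ≤ η` (`integral_neg_eq_self`).
For `b ∈ s'`, `t ∈ [α' b, β' b]`: `ψ₁ ↑t = if b ∈ s then κ b else 0` by `SepI s'`.  Conclude with
`sum_integral_le`.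

Auxiliary lemmas: put them in the namespace `Crest.Agent.R81.Cap1Aux` (avoid name clashes).
-/

set_option autoImplicit false

open MeasureTheory Set Filter Topology
open scoped InnerProductSpace ComplexConjugate

namespace Crest.Agent.R81

namespace Cap1Aux

theorem norm_sq_L2 (F : Lp ℂ 2 (volume : Measure S1)) : ‖F‖ ^ 2 = ∫ z, ‖F z‖ ^ 2 := by
  rw [← inner_self_eq_norm_sq (𝕜 := ℂ), L2.inner_def, ← integral_re (L2.integrable_inner F F)]
  simp only [inner_self_eq_norm_sq]

theorem memLp_cont {g : S1 → ℂ} (hg : Continuous g) : MemLp g 2 volume :=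
  hg.memLp_of_hasCompactSupport (HasCompactSupport.of_compactSpace _)

theorem dense_trig {ψ : S1 → ℂ} (hψ : MemLp ψ 2 volume) {η : ℝ} (hη : 0 < η) :
    ∃ c : ℤ →₀ ℂ, ∫ z, ‖(c.sum fun k a => a * fourier k z) - ψ z‖ ^ 2 ≤ η := by
  have h := (ContinuousMap.toLp_denseRange ℂ (volume : Measure S1) ℂ (p := 2)
    (by norm_num)).topologicalClosure_map_submodule span_fourier_closure_eq_top
  have h1 : hψ.toLp ψ ∈ closure _ := (Submodule.eq_top_iff'.1 h (hψ.toLp ψ) :)
  obtain ⟨_, ⟨g, hg, rfl⟩, h2⟩ := Metric.mem_closure_iff.1 h1 (√η) (Real.sqrt_pos.2 hη)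
  obtain ⟨c, rfl⟩ := Finsupp.mem_span_range_iff_exists_finsupp.1 hg
  refine ⟨c, ?_⟩
  rw [dist_comm, dist_eq_norm] at h2
  have h3 := pow_le_pow_left₀ (norm_nonneg _) h2.le 2
  rw [Real.sq_sqrt hη.le, norm_sq_L2] at h3
  refine le_of_eq_of_le (integral_congr_ae ?_) h3
  filter_upwards [Lp.coeFn_sub (ContinuousMap.toLp 2 volume ℂ (c.sum fun k a => a • fourier k))
    (hψ.toLp ψ), ContinuousMap.coeFn_toLp (p := 2) (𝕜 := ℂ) volume
      (c.sum fun k a => a • (fourier k : C(S1, ℂ))), hψ.coeFn_toLp] with z h4 h5 h6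
  erw [h4]
  rw [Pi.sub_apply, h5, h6]
  simp [Finsupp.sum, ContinuousMap.sum_apply]

theorem conj_fourier (k : ℤ) (z : S1) : conj (fourier k (-z)) = fourier k z := by
  rw [← coe_rep z, ← AddCircle.coe_neg, fourier_coe, fourier_coe, mul_neg, e_neg, Complex.conj_conj]

theorem dense_real {ψ : S1 → ℂ} (hψ : MemLp ψ 2 volume) (hs : ∀ z, conj (ψ (-z)) = ψ z) {η : ℝ}
    (hη : 0 < η) : ∃ c : ℤ →₀ ℝ, ∫ z, ‖(c.sum fun k a => a * fourier k z) - ψ z‖ ^ 2 ≤ η := by
  obtain ⟨c, hc⟩ := dense_trig hψ hη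
  refine ⟨c.mapRange Complex.re Complex.zero_re, le_trans ?_ hc⟩
  set D : S1 → ℂ := fun z => (c.sum fun k a => a * fourier k z) - ψ z with hD
  have hD2 : Integrable (fun z => ‖D z‖ ^ 2) volume := by
    have : MemLp D 2 volume := (memLp_cont (by unfold Finsupp.sum; fun_prop)).sub hψ
    exact (memLp_two_iff_integrable_sq_norm this.1).1 this
  have e1 : ∀ z, ((c.mapRange Complex.re Complex.zero_re).sum fun k a => (a : ℂ) * fourier k z) -
      ψ z = (D z + conj (D (-z))) / 2 := by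
    intro z
    rw [Finsupp.sum_mapRange_index (by simp)]
    simp only [hD, Finsupp.sum, map_sub, map_sum, map_mul, conj_fourier, hs, Complex.re_eq_add_conj,
      div_mul_eq_mul_div, add_mul, ← Finset.sum_div, Finset.sum_add_distrib]
    ring
  have e2 : ∫ z, ‖D z‖ ^ 2 = ∫ z, (‖D z‖ ^ 2 + ‖D (-z)‖ ^ 2) / 2 := by
    rw [integral_div, integral_add hD2 hD2.comp_neg,
      integral_neg_eq_self (fun z => ‖D z‖ ^ 2) volume]
    ring
  rw [e2]
  refine integral_mono_of_nonneg (Eventually.of_forall fun z => by positivity)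
    ((hD2.add hD2.comp_neg).div_const 2) (Eventually.of_forall fun z => ?_)
  beta_reduce
  rw [e1, norm_div, div_pow, Complex.norm_two]
  have h1 := norm_add_le (D z) (conj (D (-z)))
  rw [Complex.norm_conj] at h1
  have h2 := pow_le_pow_left₀ (norm_nonneg _) h1 2
  nlinarith [sq_nonneg (‖D z‖ - ‖D (-z)‖)]

end Cap1Aux

open Cap1Aux ArcAux in
theorem cap1D {ι : Type} [DecidableEq ι] (s : Finset ι) (α β : ι → ℝ) (κ : ι → ℂ) {η : ℝ}
    (hη : 0 < η) :
    ∃ c : ℤ →₀ ℝ, ∀ (s' : Finset ι) (α' β' : ι → ℝ), s ⊆ s' →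
      (∀ b ∈ s, α' b = α b ∧ β' b = β b) → (∀ b ∈ s', α' b ≤ β' b) → SepI s' α' β' →
      ∑ b ∈ s', ∫ t in α' b..β' b, ‖trig c t - (if b ∈ s then κ b else 0)‖ ^ 2 ≤ η := by
  let P : ι → Set S1 := fun b => (fun t : ℝ => (t : S1)) '' Icc (α b) (β b)
  let N : ι → Set S1 := fun b => (fun t : ℝ => ((-t : ℝ) : S1)) '' Icc (α b) (β b)
  let ψ : S1 → ℂ := fun z => ∑ b ∈ s,
    ((P b).indicator (fun _ => κ b) z + (N b).indicator (fun _ => conj (κ b)) z)
  have hψ : MemLp ψ 2 volume := by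
    refine memLp_finset_sum s fun b _ => ?_
    have h1 : MemLp ((P b).indicator fun _ => κ b) 2 volume :=
      (memLp_const _).indicator (meas_pos _ _)
    have h2 : MemLp ((N b).indicator fun _ => conj (κ b)) 2 volume :=
      (memLp_const _).indicator (meas_neg _ _)
    exact h1.add h2
  have hPN : ∀ b z, -z ∈ N b ↔ z ∈ P b := fun b z => by
    simp only [P, N, mem_image, AddCircle.coe_neg, neg_inj]
  have hs : ∀ z, conj (ψ (-z)) = ψ z := fun z => by
    simp only [ψ, map_sum]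
    refine Finset.sum_congr rfl fun b _ => ?_
    have h1 := hPN b z
    have h2 := hPN b (-z)
    rw [neg_neg] at h2
    by_cases a : z ∈ P b <;> by_cases a' : z ∈ N b <;>
      simp [indicator, a, a', h1, ← h2, add_comm]
  obtain ⟨c, hc⟩ := dense_real hψ hs hη
  refine ⟨c, fun s' α' β' hss hαβ hle hsep => le_trans (le_of_eq ?_) ((sum_integral_le hsep hle
    (f := fun z => ‖(c.sum fun k a => a * fourier k z) - ψ z‖ ^ 2) ?_
    fun z => by positivity).trans hc)⟩
  · refine Finset.sum_congr rfl fun b hb => intervalIntegral.integral_congr fun t ht => ?_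
    rw [uIcc_of_le (hle b hb)] at ht
    have : ψ (t : S1) = if b ∈ s then κ b else 0 := by
      rw [← Finset.sum_ite_eq]
      refine Finset.sum_congr rfl fun b' hb' => ?_
      obtain ⟨e1, e2⟩ := hαβ b' hb'
      have h1 : (t : S1) ∉ N b' := by
        rintro ⟨t', ht', e⟩
        obtain ⟨n, hn⟩ := coe_eq_coe_iff.1 e.symm
        exact (hsep b hb b' (hss hb') t ht t' (by rwa [e1, e2]) n).1 (by linarith)
      rw [indicator_of_notMem h1, add_zero]
      split_ifs with h
      · subst h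
        exact indicator_of_mem (show (t : S1) ∈ P b from ⟨t, by rwa [← e1, ← e2], rfl⟩) _
      · refine indicator_of_notMem ?_ _
        rintro ⟨t', ht', e⟩
        obtain ⟨n, hn⟩ := coe_eq_coe_iff.1 e.symm
        exact h ((hsep b hb b' (hss hb') t ht t' (by rwa [e1, e2]) n).2 (by linarith)).1
    simp only [this, trig, fourier_coe]
  · have : MemLp (fun z => (c.sum fun k a => (a : ℂ) * fourier k z) - ψ z) 2 volume :=
      (memLp_cont (by unfold Finsupp.sum; fun_prop)).sub hψ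
    exact (memLp_two_iff_integrable_sq_norm this.1).1 this

end Crest.Agent.R81
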