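import Crest.Agent.R81.Spec
import Crest.Agent.R81.Cap1

/-!
# R81 / Capture

Capture of a combination of the modes of a state by a real polynomial in the Koopman operator,
uniformly over all extensions of the state.
Take `c` from `cap1D σ.B (θ l) (θ r) κ (η²/4)`.  With `κ' b = if b ∈ σ.B then κ b else 0`,
`∑_{b ∈ B} κ b • σ.w b = ∑_{b ∈ B'} W (cut (κ' b * amp' b) ..) b`; by `poly_G` the difference is
`Re2 (Uc H⁻¹ (∑_{B'} W (cut ((κ' b - trig c (θ b x)) * amp' b x) ..) b))`, and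
`‖W ..‖² = ∫_l^r ‖trig c (θ b x) - κ' b‖² b.1 λ dx = ∫_{θ l}^{θ r} ‖trig c t - κ' b‖² dt`
(`intervalIntegral.integral_comp_mul_add`).  `norm_Re2_le`, `norm_sum_W_sq`, `norm_W_cut_sq`.

Auxiliary lemmas: put them in the namespace `Crest.Agent.R81.CaptureAux` (avoid name clashes).
-/

set_option autoImplicit false

open MeasureTheory Set Filter Topology
open scoped InnerProductSpace ComplexConjugate

namespace Crest.Agent.R81

theorem continuous_trig (c : ℤ →₀ ℝ) : Continuous (trig c) := by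
  unfold trig Finsupp.sum
  exact continuous_finsetSum _ fun k _ =>
    continuous_const.mul (continuous_e.comp (continuous_const.mul continuous_id))

theorem capture (σ : St) (κ : Md → ℂ) {η : ℝ} (hη : 0 < η) :
    ∃ c : ℤ →₀ ℝ, ∀ σ' : St, σ.Ext σ' →
      ‖Re2 (Uc σ.H⁻¹ (∑ b ∈ σ.B, κ b • σ.w b)) - poly c σ'.T σ'.G‖ ≤ η := by
  classical
  obtain ⟨c, hc⟩ := cap1D σ.B (fun b => σ.θ b (σ.l b)) (fun b => σ.θ b (σ.r b)) κ
    (show 0 < (η / 2) ^ 2 by positivity)
  refine ⟨c, fun σ' h => ?_⟩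
  have h1 := hc σ'.B (fun b => σ'.θ b (σ'.l b)) (fun b => σ'.θ b (σ'.r b)) h.sub
    (fun b hb => by simp only [h.θ, h.l b hb, h.r b hb, and_self])
    (fun b hb => th_mono σ'.φ σ'.β σ'.lam_pos.le (σ'.pos b hb).le (σ'.lr b hb).2.1) σ'.sep
  set κ' : Md → ℂ := fun b => if b ∈ σ.B then κ b else 0 with hκ'
  have h2 : ∑ b ∈ σ.B, κ b • σ.w b = ∑ b ∈ σ'.B, κ' b • σ'.w b := by
    rw [← Finset.sum_sdiff h.sub, Finset.sum_eq_zero (s := σ'.B \ σ.B) fun b hb => by
      simp only [hκ', if_neg (Finset.mem_sdiff.1 hb).2, zero_smul], zero_add]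
    exact Finset.sum_congr rfl fun b hb => by simp only [hκ', if_pos hb, h.w hb]
  have hcont : ∀ b, Continuous fun x => trig c (σ'.θ b x) * σ'.amp b x := fun b =>
    ((continuous_trig c).comp (SpecAux.continuous_θ σ' b)).mul (σ'.smooth b).continuous
  have hcont' : ∀ b, Continuous fun x => κ' b * σ'.amp b x := fun b =>
    continuous_const.mul (σ'.smooth b).continuous
  rw [σ'.poly_G, h2, h.H, ← map_sub, ← map_sub, ← Finset.sum_sub_distrib]
  have h3 : ∀ b ∈ σ'.B, κ' b • σ'.w b -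
      W (cut (fun x => trig c (σ'.θ b x) * σ'.amp b x) (σ'.l b) (σ'.r b)) b =
      W (cut (fun x => κ' b * σ'.amp b x - trig c (σ'.θ b x) * σ'.amp b x) (σ'.l b) (σ'.r b)) b :=
    fun b _ => by rw [W_cut_sub (hcont' b) (hcont b), W_cut_smul (σ'.smooth b).continuous, St.w]
  rw [Finset.sum_congr rfl h3]
  refine (norm_Re2_le _).trans ?_
  rw [LinearIsometry.norm_map]
  have h4 : ‖∑ b ∈ σ'.B, W (cut (fun x => κ' b * σ'.amp b x - trig c (σ'.θ b x) * σ'.amp b x)
      (σ'.l b) (σ'.r b)) b‖ ^ 2 ≤ (η / 2) ^ 2 := by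
    have hcs : ∀ b, Continuous fun x => κ' b * σ'.amp b x - trig c (σ'.θ b x) * σ'.amp b x :=
      fun b => (hcont' b).sub (hcont b)
    rw [norm_sum_W_sq _ (fun b => b) (fun _ _ _ _ h => h) fun b _ => good_cut (hcs b) _ _]
    refine le_trans (le_of_eq (Finset.sum_congr rfl fun b hb => ?_)) h1
    rw [norm_W_cut_sq (hcs b) (SpecAux.lo σ' hb) (σ'.lr b hb).2.1
      (SpecAux.hi σ' hb)]
    have h5 := SpecAux.integral_subst σ' hb fun t => ((‖trig c t - κ' b‖ ^ 2 : ℝ) : ℂ)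
    simp only [← Complex.ofReal_mul, intervalIntegral.integral_ofReal, Complex.ofReal_inj] at h5
    rw [← h5]
    congr 1
    funext x
    rw [← sub_mul, norm_mul, mul_pow, σ'.norm_amp b hb, norm_sub_rev]
  have := (pow_le_pow_iff_left₀ (norm_nonneg _) (by positivity) two_ne_zero).1 h4
  linarith

end Crest.Agent.R81
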