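import Crest.Agent.R81.Basic

/-!
# R81 / Chirp

Stationary phase for chirps, uniformly in the stationary point.
Plan: `A` is a Schwartz function, so `𝓕 A` is integrable (e.g. `HasCompactSupport.toSchwartzMap` /
`SchwartzMap.fourierTransformCLM`, or two integrations by parts).  For `Re b > 0` the Gaussian
`x ↦ cexp (-π b (x - t)²)` is the Fourier transform of `η ↦ b^{-1/2} cexp (-π η²/b) e(η t)` up to
sign (`fourier_gaussian_pi`, `fourierIntegral_gaussian_pi'`), so by the multiplication formula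
(`VectorFourier.integral_fourierIntegral_smul_eq_flip`, `Real.integral_fourierIntegral_smul_eq_flip`..)
`∫ A x cexp (-π b (x - t)²) = b^{-1/2} ∫ 𝓕 A η cexp (-π η²/b) e (η t)`.
Let `b = c - 2 γ i`, `c → 0+` (dominated convergence on both sides; `‖cexp (-π η²/b)‖ ≤ 1`; continuity
of `cpow` on the slit plane).  With `ζ = √(2γ) (-2γ i)^{-1/2}` (norm one) and Fourier inversion
`A t = ∫ 𝓕 A η e (η t)`, the error is at most `∫ ‖𝓕 A η‖ ‖cexp (-π η²/(-2γ i)) - 1‖`, independent of
`t`, which tends to `0` as `γ → ∞` by dominated convergence.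
(One can avoid the limit `c → 0` by comparing directly with `c = c(γ)` tiny:
`‖cexp (-π c y²) - 1‖ ≤ π c y²` on the support, `√(2γ) c → 0`; take e.g. `c = γ⁻¹`, `ζ` normalised.)

Auxiliary lemmas: put them in the namespace `Crest.Agent.R81.ChirpAux` (avoid name clashes).
-/

set_option autoImplicit false

open MeasureTheory Set Filter Topology
open scoped InnerProductSpace ComplexConjugate

namespace Crest.Agent.R81

namespace ChirpAux

open Complex FourierTransform Real

theorem fourier_gauss {b : ℂ} (hb : 0 < b.re) (t η : ℝ) :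
    𝓕 (fun x : ℝ => cexp (-π * b * (x - t) ^ 2)) η =
      (b⁻¹) ^ (1 / 2 : ℂ) * (cexp (-π * b⁻¹ * η ^ 2) * e (-(η * t))) := by
  have hb0 : b ≠ 0 := by
    rintro rfl
    simp at hb
  have hπ : (π : ℂ) ≠ 0 := ofReal_ne_zero.2 pi_ne_zero
  have h : (-↑π * b).re < 0 := by
    simpa only [neg_mul, neg_re, re_ofReal_mul, neg_lt_zero] using mul_pos pi_pos hb
  simp_rw [fourier_real_eq_integral_exp_smul, smul_eq_mul, ← Complex.exp_add]
  have (x : ℝ) : ↑(-2 * π * x * η) * I + -π * b * (x - t) ^ 2 =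
      -π * b * x ^ 2 + (-2 * π * I * η + 2 * π * b * t) * x + (-π * b * t ^ 2) := by
    push_cast; ring
  simp_rw [this, integral_cexp_quadratic h]
  congr 1
  · congr 1
    field_simp
  · rw [e, ← Complex.exp_add]
    congr 1
    push_cast
    field_simp
    ring_nf
    simp only [I_sq]
    ring

theorem integrable_gauss {b : ℂ} (hb : 0 < b.re) (t : ℝ) :
    Integrable fun x : ℝ => cexp (-π * b * (x - t) ^ 2) := by
  have h : 0 < (↑π * b).re := by
    simpa only [re_ofReal_mul] using mul_pos pi_pos hb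
  have := (integrable_cexp_neg_mul_sq h).comp_sub_right t
  simpa [neg_mul] using this

theorem mult_formula {B : ℝ → ℂ} (hB : Integrable B) {b : ℂ} (hb : 0 < b.re) (t : ℝ) :
    ∫ x, 𝓕 B x * cexp (-π * b * (x - t) ^ 2) =
      (b⁻¹) ^ (1 / 2 : ℂ) * ∫ η, B η * (cexp (-π * b⁻¹ * η ^ 2) * e (-(η * t))) := by
  have h1 : ∫ x, 𝓕 B x * cexp (-π * b * (x - t) ^ 2) =
      ∫ η, B η * 𝓕 (fun x : ℝ => cexp (-π * b * (x - t) ^ 2)) η := by
    simpa using! (VectorFourier.integral_fourierIntegral_smul_eq_flip (L := innerₗ ℝ)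
      Real.continuous_fourierChar continuous_inner hB (integrable_gauss hb t))
  rw [h1, ← integral_const_mul]
  congr 1
  funext η
  rw [fourier_gauss hb]
  ring

theorem norm_gauss_le {b : ℂ} (hb : 0 ≤ b.re) (y : ℝ) : ‖cexp (-π * b * (y : ℂ) ^ 2)‖ ≤ 1 := by
  rw [Complex.norm_exp, Real.exp_le_one_iff]
  have : (-π * b * (y : ℂ) ^ 2).re = -(π * b.re * y ^ 2) := by
    rw [← ofReal_pow]
    simp only [mul_re, neg_re, ofReal_re, neg_im, ofReal_im]
    ring
  rw [this]
  have := pi_pos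
  have : 0 ≤ π * b.re * y ^ 2 := by positivity
  linarith

theorem exact_formula {B : ℝ → ℂ} (hB : Integrable B) (hA : Integrable (𝓕 B)) {γ : ℝ}
    (hγ : 0 < γ) (t : ℝ) :
    ∫ x, 𝓕 B x * e (γ * (x - t) ^ 2) =
      ((-(2 * γ) * I)⁻¹) ^ (1 / 2 : ℂ) * ∫ η, B η * (e (-(η ^ 2 / (4 * γ))) * e (-(η * t))) := by
  set b : ℝ → ℂ := fun c => c + -(2 * γ) * I with hb
  have hbre : ∀ c, (b c).re = c := fun c => by simp [hb]
  have hb0 : b 0 = -(2 * γ) * I := by simp [hb]
  have hγ' : (γ : ℂ) ≠ 0 := ofReal_ne_zero.2 hγ.ne'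
  have hbne : b 0 ≠ 0 := by
    rw [hb0]
    simp [hγ']
  have hbc : Continuous b := by
    simp only [hb]
    fun_prop
  have hbt : Tendsto b (𝓝[>] 0) (𝓝 (b 0)) := hbc.continuousAt.tendsto.mono_left nhdsWithin_le_nhds
  have hL : Tendsto (fun c => ∫ x, 𝓕 B x * cexp (-π * b c * (x - t) ^ 2)) (𝓝[>] 0)
      (𝓝 (∫ x, 𝓕 B x * cexp (-π * b 0 * (x - t) ^ 2))) := by
    refine tendsto_integral_filter_of_dominated_convergence (fun x => ‖𝓕 B x‖) ?_ ?_ hA.norm ?_
    · exact Eventually.of_forall fun c =>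
        hA.1.mul (Continuous.aestronglyMeasurable (by fun_prop))
    · filter_upwards [self_mem_nhdsWithin] with c (hc : 0 < c)
      refine Eventually.of_forall fun x => ?_
      rw [norm_mul]
      refine mul_le_of_le_one_right (norm_nonneg _) ?_
      have := norm_gauss_le (b := b c) (by rw [hbre]; exact hc.le) (x - t)
      simpa using this
    · refine Eventually.of_forall fun x => ?_
      exact (((hbt.const_mul _).mul_const _).cexp).const_mul _
  have hR : Tendsto (fun c => ∫ η, B η * (cexp (-π * (b c)⁻¹ * η ^ 2) * e (-(η * t)))) (𝓝[>] 0)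
      (𝓝 (∫ η, B η * (cexp (-π * (b 0)⁻¹ * η ^ 2) * e (-(η * t))))) := by
    refine tendsto_integral_filter_of_dominated_convergence (fun x => ‖B x‖) ?_ ?_ hB.norm ?_
    · exact Eventually.of_forall fun c =>
        hB.1.mul (Continuous.aestronglyMeasurable (by fun_prop))
    · filter_upwards [self_mem_nhdsWithin] with c (hc : 0 < c)
      refine Eventually.of_forall fun x => ?_
      rw [norm_mul, norm_mul, norm_e, mul_one]
      refine mul_le_of_le_one_right (norm_nonneg _) (norm_gauss_le ?_ x)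
      rw [inv_re, hbre]
      exact div_nonneg hc.le (normSq_nonneg _)
    · refine Eventually.of_forall fun x => ?_
      exact (((((hbt.inv₀ hbne).const_mul _).mul_const _).cexp).mul_const _).const_mul _
  have hP : Tendsto (fun c => ((b c)⁻¹) ^ (1 / 2 : ℂ)) (𝓝[>] 0) (𝓝 (((b 0)⁻¹) ^ (1 / 2 : ℂ))) := by
    refine (hbt.inv₀ hbne).cpow tendsto_const_nhds ?_
    refine Or.inr ?_
    rw [inv_im]
    refine div_ne_zero ?_ (by simpa using hbne)
    simp [hb0, hγ.ne']
  have hEq := tendsto_nhds_unique_of_eventuallyEq hL (hP.mul hR) (by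
    filter_upwards [self_mem_nhdsWithin] with c (hc : 0 < c)
    exact mult_formula hB (by rw [hbre]; exact hc) t)
  rw [hb0] at hEq
  convert hEq using 4 with x η
  · rw [e]
    congr 1
    push_cast
    ring
  · congr 2
    rw [e]
    congr 1
    push_cast
    field_simp
    ring_nf
    simp only [I_sq]
    ring

end ChirpAux

open ChirpAux Complex FourierTransform Real in
theorem chirp_tendsto (A : ℝ → ℂ) (hA : ContDiff ℝ (⊤ : ℕ∞) A) (hs : HasCompactSupport A) {ε : ℝ}
    (hε : 0 < ε) :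
    ∀ᶠ γ : ℝ in atTop, ∃ ζ : ℂ, ‖ζ‖ = 1 ∧ ∀ t : ℝ,
      ‖(Real.sqrt (2 * γ) : ℂ) * (∫ x, A x * e (γ * (x - t) ^ 2)) - ζ * A t‖ ≤ ε := by
  let A' : SchwartzMap ℝ ℂ := hs.toSchwartzMap hA
  let B : SchwartzMap ℝ ℂ := 𝓕⁻ A'
  have hAB : 𝓕 (B : ℝ → ℂ) = A := by
    rw [← SchwartzMap.fourier_coe]
    have : 𝓕 B = A' := by simp [B]
    rw [this]
    rfl
  have hB : Integrable (B : ℝ → ℂ) := B.integrable
  have hAi : Integrable (𝓕 (B : ℝ → ℂ)) := by
    rw [hAB]
    exact A'.integrable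
  have hB2 : Integrable fun x : ℝ => ‖x‖ ^ 2 * ‖B x‖ := B.integrable_pow_mul volume 2
  set C : ℝ := ∫ x : ℝ, ‖x‖ ^ 2 * ‖B x‖ with hC
  filter_upwards [eventually_gt_atTop 0, eventually_ge_atTop (2 * π * C / 4 / ε)] with γ hγ hγ2
  set κ : ℂ := ((-(2 * γ) * I)⁻¹) ^ (1 / 2 : ℂ) with hκ
  have hκn : ‖κ‖ ^ 2 = (2 * γ)⁻¹ := by
    have : κ ^ 2 = (-(2 * γ) * I)⁻¹ := by
      simp [hκ]
    rw [← norm_pow, this]
    simp [abs_of_pos hγ]
  have hζ : ‖(Real.sqrt (2 * γ) : ℂ) * κ‖ = 1 := by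
    rw [← sq_eq_sq₀ (norm_nonneg _) zero_le_one, norm_mul, mul_pow, hκn, norm_real, Real.norm_eq_abs,
      sq_abs, sq_sqrt (by positivity)]
    field_simp
  refine ⟨_, hζ, fun t => ?_⟩
  have h1 := exact_formula hB hAi hγ t
  rw [hAB] at h1
  have h2 : A t = ∫ η, B η * e (-(η * t)) := by
    rw [← hAB, fourier_real_eq_integral_exp_smul]
    congr 1
    funext η
    rw [smul_eq_mul, mul_comm, e]
    congr 2
    push_cast
    ring
  have hi1 : Integrable fun η : ℝ => B η * (e (-(η ^ 2 / (4 * γ))) * e (-(η * t))) :=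
    hB.mul_bdd (c := 1) (Continuous.aestronglyMeasurable (by fun_prop))
      (Eventually.of_forall fun η => by simp [norm_e])
  have hi2 : Integrable fun η : ℝ => B η * e (-(η * t)) :=
    hB.mul_bdd (c := 1) (Continuous.aestronglyMeasurable (by fun_prop))
      (Eventually.of_forall fun η => by simp [norm_e])
  rw [h1, h2, ← mul_assoc, ← mul_sub, norm_mul, hζ, one_mul, ← integral_sub hi1 hi2]
  calc _ ≤ ∫ η : ℝ, 2 * π / (4 * γ) * (‖η‖ ^ 2 * ‖B η‖) := by
        refine norm_integral_le_of_norm_le (hB2.const_mul _) (Eventually.of_forall fun η => ?_)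
        have h3 : B η * (e (-(η ^ 2 / (4 * γ))) * e (-(η * t))) - B η * e (-(η * t)) =
            B η * e (-(η * t)) * (e (-(η ^ 2 / (4 * γ))) - e 0) := by
          rw [e_zero]
          ring
        rw [h3, norm_mul, norm_mul, norm_e, mul_one]
        have h4 := norm_e_sub_e (-(η ^ 2 / (4 * γ))) 0
        rw [sub_zero, abs_neg, abs_of_nonneg (by positivity)] at h4
        refine (mul_le_mul_of_nonneg_left h4 (norm_nonneg _)).trans (le_of_eq ?_)
        rw [Real.norm_eq_abs, sq_abs]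
        ring
    _ = 2 * π * C / 4 / γ := by
        rw [integral_const_mul, ← hC]
        field_simp
    _ ≤ ε := by
        rw [div_le_iff₀ hγ]
        rw [div_le_iff₀ hε] at hγ2
        linarith

end Crest.Agent.R81
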