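import Crest.Agent.R81.Basic

/-!
# R81 / Prof

Smooth periodic profiles.
Key lemma (`periodize`): if `χ : ℝ → ℝ` is smooth and vanishes for `|x| ≥ a₁` with `a₁ < 1/2`, and
`c : ℤ → ℝ`, then `X ↦ c (round X) * χ (X - round X)` is smooth: near a point `X₀` with
`|X₀ - j| < 1/2` it equals `c j * χ (X - j)`; near a half-integer it vanishes identically
(`|X - round X| ≥ a₁` there).  Take for `χ` a cut-off equal to `1` on a neighbourhood
`[-a₂, a₂]` (`a < a₂ < a₁`) of `[-a, a]` (`exists_cutoff`, e.g.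
`Real.smoothTransition ((x - l)/η) * Real.smoothTransition ((r - x)/η)`).
`Ω X = χ(X - round X) (X - round X)² / 2`; `Ψ X = Θ (round X) χ (X - round X)`.
Useful: `round_add_intCast`, `round_eq_iff`/`round_eq`, `abs_sub_round`.

Auxiliary lemmas: put them in the namespace `Crest.Agent.R81.ProfAux` (avoid name clashes).
-/

set_option autoImplicit false

open MeasureTheory Set Filter Topology
open scoped InnerProductSpace ComplexConjugate

namespace Crest.Agent.R81

theorem exists_cutoff (l r η : ℝ) (hη : 0 < η) :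
    ∃ χ : ℝ → ℝ, ContDiff ℝ (⊤ : ℕ∞) χ ∧ (∀ x, 0 ≤ χ x ∧ χ x ≤ 1) ∧ (∀ x ∉ Icc l r, χ x = 0) ∧
      ∀ x ∈ Icc (l + η) (r - η), χ x = 1 := by
  refine ⟨fun x => Real.smoothTransition ((x - l) / η) * Real.smoothTransition ((r - x) / η),
    ?_, fun x => ⟨?_, ?_⟩, fun x hx => ?_, fun x hx => ?_⟩
  · exact (Real.smoothTransition.contDiff.comp ((contDiff_id.sub contDiff_const).div_const η)).mul
      (Real.smoothTransition.contDiff.comp ((contDiff_const.sub contDiff_id).div_const η))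
  · exact mul_nonneg (Real.smoothTransition.nonneg _) (Real.smoothTransition.nonneg _)
  · exact mul_le_one₀ (Real.smoothTransition.le_one _) (Real.smoothTransition.nonneg _)
      (Real.smoothTransition.le_one _)
  · rw [mem_Icc, not_and_or, not_le, not_le] at hx
    rcases hx with hx | hx
    · beta_reduce
      rw [Real.smoothTransition.zero_of_nonpos (div_nonpos_of_nonpos_of_nonneg (by linarith) hη.le),
        zero_mul]
    · beta_reduce
      rw [Real.smoothTransition.zero_of_nonpos (x := (r - x) / η)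
        (div_nonpos_of_nonpos_of_nonneg (by linarith) hη.le), mul_zero]
  · beta_reduce
    rw [Real.smoothTransition.one_of_one_le ((one_le_div hη).2 (by linarith [hx.1])),
      Real.smoothTransition.one_of_one_le ((one_le_div hη).2 (by linarith [hx.2])), mul_one]

namespace ProfAux

theorem round_of_abs_lt {X : ℝ} {j : ℤ} (h : |X - j| < 1 / 2) : round X = j := by
  rw [abs_lt] at h
  exact round_eq_iff.2 ⟨by linarith [h.1], by linarith [h.2]⟩

theorem periodize {χ : ℝ → ℝ} (hχ : ContDiff ℝ (⊤ : ℕ∞) χ) {a₁ : ℝ} (ha : a₁ < 1 / 2)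
    (h0 : ∀ x, a₁ < |x| → χ x = 0) (c : ℤ → ℝ) :
    ContDiff ℝ (⊤ : ℕ∞) fun X : ℝ => c (round X) * χ (X - round X) := by
  refine contDiff_iff_contDiffAt.2 fun X₀ => ?_
  rcases (abs_sub_round X₀).lt_or_eq with h | h
  · have h1 : ∀ᶠ X : ℝ in 𝓝 X₀, |X - round X₀| < 1 / 2 :=
      ContinuousAt.eventually_lt (by fun_prop) continuousAt_const h
    have h2 : ContDiff ℝ (⊤ : ℕ∞) fun X : ℝ => c (round X₀) * χ (X - round X₀) :=
      contDiff_const.mul (hχ.comp (contDiff_id.sub contDiff_const))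
    refine h2.contDiffAt.congr_of_eventuallyEq (h1.mono fun X hX => ?_)
    simp only [round_of_abs_lt hX]
  · have h1 : ∀ᶠ X : ℝ in 𝓝 X₀, a₁ < ‖(X : UnitAddCircle)‖ :=
      ContinuousAt.eventually_lt continuousAt_const (by fun_prop)
        (by rw [UnitAddCircle.norm_eq, h]; exact ha)
    refine (contDiffAt_const (c := (0 : ℝ))).congr_of_eventuallyEq (h1.mono fun X hX => ?_)
    rw [UnitAddCircle.norm_eq] at hX
    simp only [h0 _ hX, mul_zero]

theorem cutoff {a : ℝ} (h1 : a < 1 / 2) :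
    ∃ (χ : ℝ → ℝ) (a₁ a₂ : ℝ), ContDiff ℝ (⊤ : ℕ∞) χ ∧ a < a₂ ∧ a₂ < 1 / 2 ∧ a₁ < 1 / 2 ∧
      (∀ x, a₁ < |x| → χ x = 0) ∧ ∀ x, |x| < a₂ → χ x = 1 := by
  obtain ⟨χ, c1, -, c2, c3⟩ := exists_cutoff (-(a + 2 * ((1 / 2 - a) / 3))) (a + 2 * ((1 / 2 - a) / 3))
    ((1 / 2 - a) / 3) (by linarith)
  refine ⟨χ, a + 2 * ((1 / 2 - a) / 3), a + (1 / 2 - a) / 3, c1, by linarith, by linarith,
    by linarith, fun x hx => c2 x fun h => ?_, fun x hx => c3 x ?_⟩
  · exact absurd (abs_le.2 h) (not_le.2 hx)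
  · rw [abs_lt] at hx
    exact ⟨by linarith [hx.1], by linarith [hx.2]⟩

end ProfAux

theorem exists_prof {a : ℝ} (h0 : 0 < a) (h1 : a < 1 / 2) : ∃ Ω, IsProf a Ω := by
  obtain ⟨χ, a₁, a₂, c1, c2, c3, c4, c5, c6⟩ := ProfAux.cutoff h1
  have hs := ProfAux.periodize (χ := fun x => χ x * (x ^ 2 / 2))
    (c1.mul ((contDiff_id.pow 2).div_const 2)) c4 (fun x hx => by simp only [c5 x hx, zero_mul])
    fun _ => 1
  have hv : ∀ x : ℝ, |x| < a₂ →
      1 * (χ (x - round x) * ((x - round x) ^ 2 / 2)) = x ^ 2 / 2 := fun x hx => by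
    have : round x = 0 := ProfAux.round_of_abs_lt (by simpa using hx.trans c3)
    simp [this, c6 x hx]
  refine ⟨_, h0, h1, hs, fun x => ?_, fun x hx => hv x ((abs_le.2 hx).trans_lt c2), fun x hx => ?_⟩
  · simp only [round_add_one, Int.cast_add, Int.cast_one, add_sub_add_right_eq_sub]
  · have h2 : ∀ᶠ y in 𝓝 x, |y| < a₂ :=
      ContinuousAt.eventually_lt (by fun_prop) continuousAt_const ((abs_le.2 hx).trans_lt c2)
    rw [Filter.EventuallyEq.deriv_eq (f := fun y : ℝ => y ^ 2 / 2) (h2.mono hv)]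
    have : HasDerivAt (fun y : ℝ => y ^ 2 / 2) x x := by
      simpa using (hasDerivAt_pow 2 x).div_const 2
    exact this.deriv

theorem exists_psi {a : ℝ} (h0 : 0 < a) (h1 : a < 1 / 2) (m : ℕ) (Θ : ℤ → ℝ)
    (hΘ : Function.Periodic Θ (m : ℤ)) :
    ∃ Ψ : ℝ → ℝ, ContDiff ℝ (⊤ : ℕ∞) Ψ ∧ Function.Periodic Ψ (m : ℝ) ∧
      ∀ (j : ℤ) (x : ℝ), |x| ≤ a → Ψ (j + x) = Θ j := by
  obtain ⟨χ, a₁, a₂, c1, c2, c3, c4, c5, c6⟩ := ProfAux.cutoff h1
  refine ⟨_, ProfAux.periodize c1 c4 c5 Θ, fun x => ?_, fun j x hx => ?_⟩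
  · simp only [round_add_natCast, Int.cast_add, Int.cast_natCast, add_sub_add_right_eq_sub, hΘ _]
  · have : round ((j : ℝ) + x) = j :=
      ProfAux.round_of_abs_lt (by rw [add_sub_cancel_left]; linarith)
    simp only [this, add_sub_cancel_left, c6 x (hx.trans_lt c2), mul_one]

end Crest.Agent.R81
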