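import Crest.Agent.R81.Basic

/-!
# R81 / Riem

Grids, Riemann sums and counting.
`riemann`: uniform continuity of `h` on `[l - 1, r + 1]`; compare `μ h (i μ)` with
`∫_{iμ}^{(i+1)μ} h`, sum (`intervalIntegral.sum_integral_adjacent_intervals`-type lemma or induction), and
bound the two end pieces by `μ sup |h|`; if the grid is empty then `r - l < μ`.
`riemann_sub`: the `i` divisible by `k` are `k i'` with `i' ∈ grid (k μ) l r`.  For `k ≤ k₀` use
`riemann` at mesh `k μ`: the sum is `(1/k) (∫ h + small)`.  For `k > k₀` use `card_grid_le` at mesh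
`k μ`: the sum is at most `sup h * ((r - l)/k + μ)`.
`card_near_int`: the integer `n` lies in an interval of length `2X + 2w`, and for each `n` the `i` lie in
an interval of length `2w/h` (`Finset.card_le_mul_card_image`-type argument or `biUnion`;
`Int.card_Icc`).

Auxiliary lemmas: put them in the namespace `Crest.Agent.R81.RiemAux` (avoid name clashes).
-/

set_option autoImplicit false

open MeasureTheory Set Filter Topology
open scoped InnerProductSpace ComplexConjugate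

namespace Crest.Agent.R81

theorem mem_grid {μ l r : ℝ} (hμ : 0 < μ) {i : ℤ} : i ∈ grid μ l r ↔ l ≤ i * μ ∧ i * μ ≤ r := by
  rw [grid, Finset.mem_Icc, Int.ceil_le, Int.le_floor, div_le_iff₀ hμ, le_div_iff₀ hμ]

theorem card_grid_le {μ l r : ℝ} (hμ : 0 < μ) (hlr : l ≤ r) :
    μ * ((grid μ l r).card : ℝ) ≤ r - l + μ := by
  have h1 := Int.le_ceil (l / μ)
  have h2 := Int.floor_le (r / μ)
  have h3 : l / μ ≤ r / μ := div_le_div_of_nonneg_right hlr hμ.le
  have h4 : ((grid μ l r).card : ℝ) ≤ r / μ - l / μ + 1 := by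
    rw [grid, Int.card_Icc]
    rcases le_total 0 (⌊r / μ⌋ + 1 - ⌈l / μ⌉) with h | h
    · rw [← Int.cast_natCast, Int.toNat_of_nonneg h]
      push_cast
      linarith
    · rw [Int.toNat_of_nonpos h]
      push_cast
      linarith
  refine (mul_le_mul_of_nonneg_left h4 hμ.le).trans (le_of_eq ?_)
  field_simp

namespace RiemAux

theorem sum_adj {h : ℝ → ℝ} (hh : Continuous h) (μ : ℝ) {A C : ℤ} (hAC : A ≤ C) :
    ∑ i ∈ Finset.Ico A C, ∫ x in (i * μ)..((i + 1) * μ), h x = ∫ x in (A * μ)..(C * μ), h x := by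
  induction C, hAC using Int.le_induction with
  | base => simp
  | succ C hC ih =>
    rw [← Finset.sum_Ico_add_eq_sum_Ico_add_one hC, ih, Int.cast_add, Int.cast_one,
      intervalIntegral.integral_add_adjacent_intervals (hh.intervalIntegrable _ _)
        (hh.intervalIntegrable _ _)]

theorem exists_bound {h : ℝ → ℝ} (hh : Continuous h) (a b : ℝ) :
    ∃ M, 0 < M ∧ ∀ x ∈ Icc a b, ‖h x‖ ≤ M := by
  obtain ⟨M, hM⟩ := isCompact_Icc.exists_bound_of_continuousOn (hh.continuousOn (s := Icc a b))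
  exact ⟨max M 1, by positivity, fun x hx => (hM x hx).trans (le_max_left _ _)⟩

theorem ev_lt {δ : ℝ} (hδ : 0 < δ) : ∀ᶠ μ in 𝓝[>] (0 : ℝ), 0 < μ ∧ μ < δ :=
  Ioo_mem_nhdsGT hδ

theorem filter_dvd {μ l r : ℝ} (hμ : 0 < μ) {k : ℕ} (hk : 0 < k) :
    (grid μ l r).filter (fun i => (k : ℤ) ∣ i) = (grid (k * μ) l r).image fun i : ℤ => k * i := by
  have hk' : (0 : ℝ) < k := by exact_mod_cast hk
  ext i
  simp only [Finset.mem_filter, Finset.mem_image, mem_grid hμ, mem_grid (mul_pos hk' hμ)]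
  constructor
  · rintro ⟨h, j, rfl⟩
    refine ⟨j, ?_, rfl⟩
    push_cast at h
    constructor <;> linarith [h.1, h.2]
  · rintro ⟨j, h, rfl⟩
    refine ⟨?_, dvd_mul_right _ _⟩
    push_cast
    constructor <;> linarith [h.1, h.2]

theorem sum_filter_dvd (h : ℝ → ℝ) {μ l r : ℝ} (hμ : 0 < μ) {k : ℕ} (hk : 0 < k) :
    ∑ i ∈ (grid μ l r).filter (fun i => (k : ℤ) ∣ i), h (i * μ) =
      ∑ i ∈ grid (k * μ) l r, h (i * (k * μ)) := by
  rw [filter_dvd hμ hk, Finset.sum_image fun a _ b _ e =>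
    mul_left_cancel₀ (by exact_mod_cast hk.ne') e]
  refine Finset.sum_congr rfl fun i _ => ?_
  push_cast
  ring_nf

end RiemAux

open RiemAux

theorem riemann {h : ℝ → ℝ} (hh : Continuous h) {l r : ℝ} (hlr : l ≤ r) {ε : ℝ} (hε : 0 < ε) :
    ∀ᶠ μ in 𝓝[>] (0 : ℝ), |μ * ∑ i ∈ grid μ l r, h (i * μ) - ∫ x in l..r, h x| ≤ ε := by
  obtain ⟨M, hM0, hM⟩ := exists_bound hh l (r + 1)
  have hL : 0 < r - l + 1 := by linarith
  obtain ⟨δ, hδ, hu⟩ := Metric.uniformContinuousOn_iff.1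
    (isCompact_Icc.uniformContinuousOn_of_continuous (hh.continuousOn (s := Icc l (r + 1))))
    (ε / (2 * (r - l + 1))) (by positivity)
  filter_upwards [ev_lt hδ, ev_lt one_pos, ev_lt (show 0 < ε / (4 * M) by positivity)]
    with μ ⟨hμ, h1⟩ ⟨_, h2⟩ ⟨_, h3⟩
  have hAC : ⌈l / μ⌉ ≤ ⌊r / μ⌋ + 1 :=
    (Int.ceil_mono (div_le_div_of_nonneg_right hlr hμ.le)).trans (Int.ceil_le_floor_add_one _)
  have a1 : l ≤ ⌈l / μ⌉ * μ := (div_le_iff₀ hμ).1 (Int.le_ceil _)
  have a2 : (⌈l / μ⌉ : ℝ) * μ ≤ l + μ := by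
    have := (Int.ceil_lt_add_one (l / μ)).le
    rwa [div_add_one hμ.ne', le_div_iff₀ hμ] at this
  have a3 : r ≤ ((⌊r / μ⌋ + 1 : ℤ) : ℝ) * μ := by
    push_cast
    exact (div_le_iff₀ hμ).1 (Int.lt_floor_add_one _).le
  have a4 : ((⌊r / μ⌋ + 1 : ℤ) : ℝ) * μ ≤ r + μ := by
    have := (le_div_iff₀ hμ).1 (Int.floor_le (r / μ))
    push_cast
    linarith
  have e1 : ∫ x in l..r, h x = (∫ x in l..(⌈l / μ⌉ * μ), h x) +
      ∑ i ∈ grid μ l r, (∫ x in (i * μ)..((i + 1) * μ), h x) -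
      ∫ x in r..(((⌊r / μ⌋ + 1 : ℤ) : ℝ) * μ), h x := by
    rw [grid, ← Finset.Ico_add_one_right_eq_Icc, sum_adj hh μ hAC,
      intervalIntegral.integral_add_adjacent_intervals (hh.intervalIntegrable _ _)
        (hh.intervalIntegrable _ _), eq_sub_iff_add_eq,
      intervalIntegral.integral_add_adjacent_intervals (hh.intervalIntegrable _ _)
        (hh.intervalIntegrable _ _)]
  have b1 : |∫ x in l..(⌈l / μ⌉ * μ), h x| ≤ M * μ := by
    rw [← Real.norm_eq_abs]
    refine (intervalIntegral.norm_integral_le_of_norm_le_const (C := M) fun x hx => ?_).trans ?_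
    · rw [uIoc_of_le a1] at hx
      exact hM x ⟨hx.1.le, by linarith [hx.2]⟩
    · rw [abs_of_nonneg (by linarith)]
      exact mul_le_mul_of_nonneg_left (by linarith) hM0.le
  have b2 : |∫ x in r..(((⌊r / μ⌋ + 1 : ℤ) : ℝ) * μ), h x| ≤ M * μ := by
    rw [← Real.norm_eq_abs]
    refine (intervalIntegral.norm_integral_le_of_norm_le_const (C := M) fun x hx => ?_).trans ?_
    · rw [uIoc_of_le a3] at hx
      exact hM x ⟨by linarith [hx.1], by linarith [hx.2]⟩
    · rw [abs_of_nonneg (by linarith)]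
      exact mul_le_mul_of_nonneg_left (by linarith) hM0.le
  have b3 : ∀ i ∈ grid μ l r, |μ * h (i * μ) - ∫ x in (i * μ)..((i + 1) * μ), h x| ≤
      ε / (2 * (r - l + 1)) * μ := by
    intro i hi
    rw [mem_grid hμ] at hi
    have e : μ * h (i * μ) - ∫ x in (i * μ)..((i + 1) * μ), h x =
        ∫ x in (i * μ)..((i + 1) * μ), (h (i * μ) - h x) := by
      rw [intervalIntegral.integral_sub (continuous_const.intervalIntegrable _ _)
        (hh.intervalIntegrable _ _), intervalIntegral.integral_const, smul_eq_mul]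
      ring
    rw [e, ← Real.norm_eq_abs]
    refine (intervalIntegral.norm_integral_le_of_norm_le_const (C := ε / (2 * (r - l + 1)))
      fun x hx => ?_).trans (le_of_eq ?_)
    · rw [uIoc_of_le (by linarith)] at hx
      refine (hu _ ⟨hi.1, by linarith [hi.2]⟩ x ⟨by linarith [hx.1, hi.1],
        by linarith [hx.2, hi.2]⟩ ?_).le
      rw [Real.dist_eq, abs_lt]
      constructor <;> linarith [hx.1, hx.2]
    · rw [abs_of_nonneg (by linarith)]
      ring
  have b4 : |μ * ∑ i ∈ grid μ l r, h (i * μ) -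
      ∑ i ∈ grid μ l r, ∫ x in (i * μ)..((i + 1) * μ), h x| ≤ ε / 2 := by
    rw [Finset.mul_sum, ← Finset.sum_sub_distrib]
    refine (Finset.abs_sum_le_sum_abs _ _).trans ((Finset.sum_le_card_nsmul _ _ _ b3).trans ?_)
    rw [nsmul_eq_mul, mul_left_comm, mul_comm _ μ]
    refine (mul_le_mul_of_nonneg_left ((card_grid_le hμ hlr).trans
      (show _ ≤ r - l + 1 by linarith)) (by positivity)).trans (le_of_eq ?_)
    field_simp
  have b5 : M * μ ≤ ε / 4 := by
    rw [lt_div_iff₀ (by positivity)] at h3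
    linarith
  rw [e1, abs_le] at *
  constructor <;> linarith [b1.1, b1.2, b2.1, b2.2, b4.1, b4.2]

theorem riemann_sub {h : ℝ → ℝ} (hh : Continuous h) (h0 : ∀ x, 0 ≤ h x) {l r : ℝ} (hlr : l ≤ r)
    {ε : ℝ} (hε : 0 < ε) :
    ∀ᶠ μ in 𝓝[>] (0 : ℝ), ∀ k : ℕ, 2 ≤ k →
      μ * ∑ i ∈ (grid μ l r).filter (fun i => (k : ℤ) ∣ i), h (i * μ) ≤
        (∫ x in l..r, h x) / 2 + ε := by
  obtain ⟨M, hM0, hM⟩ := exists_bound hh l r
  have hI : 0 ≤ ∫ x in l..r, h x := intervalIntegral.integral_nonneg hlr fun x _ => h0 x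
  obtain ⟨k0, hk0⟩ := exists_nat_ge (2 * M * (r - l) / ε)
  have key : ∀ᶠ μ in 𝓝[>] (0 : ℝ), ∀ k ∈ Finset.Icc 1 k0,
      |(k * μ) * ∑ i ∈ grid (k * μ) l r, h (i * (k * μ)) - ∫ x in l..r, h x| ≤ ε := by
    refine (eventually_all_finset _).2 fun k hk => ?_
    have hk' : (0 : ℝ) < k := by exact_mod_cast (Finset.mem_Icc.1 hk).1
    have : Tendsto (fun μ : ℝ => k * μ) (𝓝[>] 0) (𝓝[>] 0) := by
      refine tendsto_nhdsWithin_iff.2 ⟨?_, ?_⟩
      · have : Tendsto (fun μ : ℝ => k * μ) (𝓝 0) (𝓝 (k * 0)) := tendsto_id.const_mul _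
        rw [mul_zero] at this
        exact this.mono_left nhdsWithin_le_nhds
      · filter_upwards [self_mem_nhdsWithin] with μ hμ using mul_pos hk' hμ
    exact this.eventually (riemann hh hlr hε)
  filter_upwards [key, ev_lt (show 0 < ε / (2 * M) by positivity)] with μ h1 ⟨hμ, h2⟩ k hk
  have hk' : (2 : ℝ) ≤ k := by exact_mod_cast hk
  rw [sum_filter_dvd h hμ (by omega)]
  rcases le_or_gt k k0 with hc | hc
  · have h3 := (abs_le.1 (h1 k (Finset.mem_Icc.2 ⟨by omega, hc⟩))).2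
    have h4 : 0 ≤ μ * ∑ i ∈ grid (k * μ) l r, h (i * (k * μ)) :=
      mul_nonneg hμ.le (Finset.sum_nonneg fun _ _ => h0 _)
    nlinarith
  · have hkμ : 0 < k * μ := by positivity
    have h3 := Finset.sum_le_card_nsmul (grid (k * μ) l r) (fun i => h (i * (k * μ))) M
      fun i hi => (le_abs_self _).trans (hM _ ((mem_grid hkμ).1 hi))
    have h4 := card_grid_le hkμ hlr
    rw [nsmul_eq_mul] at h3
    have h5 : (k0 : ℝ) ≤ k := by exact_mod_cast hc.le
    have h6 : 2 * M * (r - l) ≤ k * ε := (div_le_iff₀ hε).1 (hk0.trans h5)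
    rw [lt_div_iff₀ (by positivity)] at h2
    have h7 : μ * (((grid (k * μ) l r).card : ℝ) * M) ≤ ε := by
      refine le_of_mul_le_mul_left ?_ (show (0 : ℝ) < k by linarith)
      nlinarith [mul_le_mul_of_nonneg_left h4 hM0.le]
    linarith [mul_le_mul_of_nonneg_left h3 hμ.le]

theorem card_near_int {h w X : ℝ} (hh : 0 < h) (hw : 0 ≤ w) (hX : 0 ≤ X) (c : ℝ) (s : Finset ℤ)
    (hs : ∀ i ∈ s, |i * h| ≤ X ∧ ∃ n : ℤ, |c + i * h - n| ≤ w) :
    (s.card : ℝ) ≤ (2 * X + 2 * w + 1) * (2 * w / h + 1) := by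
  have h1 : s ⊆ (grid 1 (c - X - w) (c + X + w)).biUnion
      fun n => grid h (n - c - w) (n - c + w) := by
    intro i hi
    obtain ⟨a, n, b⟩ := hs i hi
    rw [abs_le] at a b
    refine Finset.mem_biUnion.2 ⟨n, (mem_grid one_pos).2 ?_, (mem_grid hh).2 ?_⟩ <;>
      constructor <;> linarith [a.1, a.2, b.1, b.2]
  have h2 : ((grid 1 (c - X - w) (c + X + w)).card : ℝ) ≤ 2 * X + 2 * w + 1 := by
    have := card_grid_le one_pos (show c - X - w ≤ c + X + w by linarith)
    linarith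
  have h3 : ∀ n : ℤ, ((grid h (n - c - w) (n - c + w)).card : ℝ) ≤ 2 * w / h + 1 := fun n => by
    have := card_grid_le hh (show n - c - w ≤ n - c + w by linarith)
    rw [div_add_one hh.ne', le_div_iff₀ hh]
    linarith
  have h4 : (s.card : ℝ) ≤ ∑ n ∈ grid 1 (c - X - w) (c + X + w),
      ((grid h (n - c - w) (n - c + w)).card : ℝ) := by
    exact_mod_cast (Finset.card_le_card h1).trans Finset.card_biUnion_le
  refine h4.trans ((Finset.sum_le_card_nsmul _ _ _ fun n _ => h3 n).trans ?_)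
  rw [nsmul_eq_mul]
  exact mul_le_mul_of_nonneg_right h2 (by positivity)

end Crest.Agent.R81
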