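import Crest.Agent.R81.Bessel
import Crest.Agent.R81.Chirp
import Crest.Agent.R81.Riem
import Crest.Agent.R81.Prof

/-!
# R81 / Comb

The one-dimensional comb estimate.  Let `C ≥ sup_{[-1,1]} ‖A‖`, `χ` from `exists_cutoff l r η`,
`A₀ = χ A`.  With `μ = 1/(2γP)`, `x_i = i μ`:
`chirp A₀ γ (i/P) = e (-(γ x_i²)) ∫ A₀ x e (γ (x - x_i)²)` (complete the square: `2 γ x_i = i/P`; the
interval integral is the integral over `ℝ` since `A₀` vanishes off `[l, r]`), so by `chirp_tendsto`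
`‖√(2γ) chirp - ζ e(-(γ x_i²)) A₀ x_i‖ ≤ ε₂`.  Put `τ i = √P dft m z (R i) * ζ * e (-(γ x_i²))`
(norm one); `1/(√P √(2γ)) = √μ`.  Split
`dft w * chirp - D i = dft (w - z) * chirp + (dft z * chirp - τ √μ A₀ x_i) + τ √μ (A₀ - A) x_i`,
`‖a + b + c‖² ≤ 3(..)`:
* first: `comb_bessel` with `B x = A₀ x * e (γ x²)` and the injective image `I.image (R * ·)`:
  `≤ ε₁² C²`;
* second: `≤ μ #I ε₂² ≤ (1 + μ) ε₂²` (`card_grid_le`);
* third: only `x_i ∈ [l, l + η] ∪ [r - η, r]` contribute: `≤ 2 (η + μ) C²`.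
The last two inequalities: `riemann` for `‖A‖²` at mesh `μ → 0+`, and the missing points cost `ε₁ C²`.

Auxiliary lemmas: put them in the namespace `Crest.Agent.R81.CombAux` (avoid name clashes).
-/

set_option autoImplicit false

open MeasureTheory Set Filter Topology
open scoped InnerProductSpace ComplexConjugate

namespace Crest.Agent.R81

namespace CombAux

theorem int_edge {h : ℝ → ℝ} (hh : Continuous h) {l r η C : ℝ} (hlr : l ≤ r) (hη : 0 < η)
    (hC : ∀ x ∈ Icc l r, h x ≤ C) (hC0 : 0 ≤ C) (h0 : ∀ x ∈ Icc (l + η) (r - η), h x = 0) :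
    ∫ x in l..r, h x ≤ 2 * η * C := by
  have key : ∀ s t, l ≤ s → s ≤ t → t ≤ r → ∫ x in s..t, h x ≤ (t - s) * C := by
    intro s t h1 h2 h3
    have := intervalIntegral.integral_mono_on h2 (hh.intervalIntegrable s t)
      (intervalIntegrable_const (μ := volume) (c := C))
      fun x hx => hC x ⟨h1.trans hx.1, hx.2.trans h3⟩
    simpa using this
  by_cases hc : r - l ≤ 2 * η
  · exact (key l r le_rfl hlr le_rfl).trans (mul_le_mul_of_nonneg_right hc hC0)
  · rw [← intervalIntegral.integral_add_adjacent_intervals (hh.intervalIntegrable l (l + η))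
      (hh.intervalIntegrable _ r), ← intervalIntegral.integral_add_adjacent_intervals
      (hh.intervalIntegrable (l + η) (r - η)) (hh.intervalIntegrable _ r)]
    have h1 := key l (l + η) le_rfl (by linarith) (by linarith)
    have h2 := key (r - η) r (by linarith) (by linarith) le_rfl
    have h3 : ∫ x in (l + η)..(r - η), h x = 0 := by
      rw [intervalIntegral.integral_congr (g := fun _ => 0)]
      · simp
      · intro x hx
        rw [uIcc_of_le (by linarith)] at hx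
        exact h0 x hx
    rw [h3]
    linarith

theorem chirp_eq {A₀ : ℝ → ℂ} {l r : ℝ} (hl : -1 / 2 < l) (hr : r < 1 / 2)
    (h0 : ∀ x ∉ Icc l r, A₀ x = 0) (γ t : ℝ) :
    chirp A₀ γ (2 * γ * t) = e (-(γ * t ^ 2)) * ∫ x, A₀ x * e (γ * (x - t) ^ 2) := by
  unfold chirp
  rw [← integral_const_mul, intervalIntegral.integral_eq_integral_of_support_subset]
  · congr 1
    funext x
    rw [mul_left_comm, ← e_add]
    congr 2
    ring
  · intro x hx
    by_contra h
    refine hx ?_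
    show A₀ x * _ = 0
    rw [h0 x fun h' => h ⟨by linarith [h'.1], by linarith [h'.2]⟩, zero_mul]

theorem norm_add3 (a b c : ℂ) : ‖a + b + c‖ ^ 2 ≤ 3 * (‖a‖ ^ 2 + ‖b‖ ^ 2 + ‖c‖ ^ 2) := by
  have h := norm_add₃_le (a := a) (b := b) (c := c)
  have h1 : ‖a + b + c‖ ^ 2 ≤ (‖a‖ + ‖b‖ + ‖c‖) ^ 2 := by gcongr
  nlinarith [sq_nonneg (‖a‖ - ‖b‖), sq_nonneg (‖a‖ - ‖c‖), sq_nonneg (‖b‖ - ‖c‖)]

end CombAux

open CombAux in
theorem comb1D (A : ℝ → ℂ) (hA : ContDiff ℝ (⊤ : ℕ∞) A) {l r : ℝ} (hl : -1 / 2 < l) (hlr : l ≤ r)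
    (hr : r < 1 / 2) {ε : ℝ} (hε : 0 < ε) :
    ∃ A₀ : ℝ → ℂ, Continuous A₀ ∧ (∀ x ∉ Icc l r, A₀ x = 0) ∧
      (∫ x in l..r, ‖A x - A₀ x‖ ^ 2) ≤ ε ∧ (∫ x in l..r, ‖A₀ x‖ ^ 2) ≤ (∫ x in l..r, ‖A x‖ ^ 2) ∧
      ∃ ε₁ : ℝ, 0 < ε₁ ∧ ∀ (m P R : ℕ) (w z : ℤ → ℂ), 0 < m → P * R = m →
        (∀ j, ‖w j - z j‖ ≤ ε₁) → (∀ i : ℤ, ‖dft m z (R * i)‖ = 1 / Real.sqrt P) →
        ∀ᶠ γ : ℝ in atTop, ∀ μ : ℝ, μ = 1 / (2 * γ * P) →
          ∃ τ : ℤ → ℂ, (∀ i, ‖τ i‖ = 1) ∧ ∀ I : Finset ℤ, I ⊆ grid μ l r →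
            μ * ((grid μ l r \ I).card : ℝ) ≤ ε₁ →
            (∑ i ∈ I, ‖dft m w (R * i) * chirp A₀ γ (i / P) -
                τ i * (Real.sqrt μ : ℂ) * A (i * μ)‖ ^ 2) ≤ ε ∧
            (∫ x in l..r, ‖A x‖ ^ 2) - ε ≤ μ * ∑ i ∈ I, ‖A (i * μ)‖ ^ 2 ∧
            μ * ∑ i ∈ I, ‖A (i * μ)‖ ^ 2 ≤ (∫ x in l..r, ‖A x‖ ^ 2) + ε := by
  obtain ⟨C, hC⟩ := (isCompact_Icc (a := l) (b := r)).exists_bound_of_continuousOn
    hA.continuous.continuousOn
  have hC0 : 0 ≤ C := (norm_nonneg _).trans (hC l ⟨le_rfl, hlr⟩)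
  set t : ℝ := ε / (12 * (C ^ 2 + 1)) with ht
  have ht0 : 0 < t := by positivity
  have htC : t * C ^ 2 ≤ ε / 12 := by
    have : t * (C ^ 2 + 1) = ε / 12 := by
      rw [ht]
      field_simp
    nlinarith
  obtain ⟨χ, hχs, hχ01, hχ0, hχ1⟩ := exists_cutoff l r (t / 2) (half_pos ht0)
  let A₀ : ℝ → ℂ := fun x => χ x * A x
  have hA₀s : ContDiff ℝ (⊤ : ℕ∞) A₀ := (Complex.ofRealCLM.contDiff.comp hχs).mul hA
  have hA₀c := hA₀s.continuous
  have hAc := hA.continuous
  have hA₀0 : ∀ x ∉ Icc l r, A₀ x = 0 := fun x hx => by simp [A₀, hχ0 x hx]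
  have hA₀le : ∀ x, ‖A₀ x‖ ≤ ‖A x‖ := fun x => by
    simp only [A₀, norm_mul, Complex.norm_real, Real.norm_eq_abs, abs_of_nonneg (hχ01 x).1]
    exact mul_le_of_le_one_left (norm_nonneg _) (hχ01 x).2
  have hA₀C : ∀ x, ‖A₀ x‖ ≤ C := fun x => by
    by_cases hx : x ∈ Icc l r
    · exact (hA₀le x).trans (hC x hx)
    · rw [hA₀0 x hx, norm_zero]
      exact hC0
  have hcs : HasCompactSupport A₀ := HasCompactSupport.intro isCompact_Icc hA₀0
  have hedge : ∫ x in l..r, ‖A x - A₀ x‖ ^ 2 ≤ ε / 12 := by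
    refine (int_edge (by fun_prop) hlr (half_pos ht0) (C := C ^ 2) (fun x hx => ?_) (by positivity)
      (fun x hx => by simp [A₀, hχ1 x hx])).trans (by linarith)
    have h1 : A x - A₀ x = ((1 - χ x : ℝ) : ℂ) * A x := by
      simp only [A₀]
      push_cast
      ring
    have h2 : ‖A x - A₀ x‖ ≤ C := by
      rw [h1, norm_mul, Complex.norm_real, Real.norm_eq_abs, abs_of_nonneg (by linarith [hχ01 x])]
      exact (mul_le_of_le_one_left (norm_nonneg _) (by linarith [hχ01 x])).trans (hC x hx)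
    gcongr
  refine ⟨A₀, hA₀c, hA₀0, by linarith, intervalIntegral.integral_mono_on hlr
    (Continuous.intervalIntegrable (by fun_prop) _ _) (Continuous.intervalIntegrable (by fun_prop) _ _)
    (fun x _ => by have := hA₀le x; gcongr), min 1 t, lt_min one_pos ht0,
    fun m P R w z hm hPR hwz hz => ?_⟩
  have hε₁ : 0 < min 1 t := lt_min one_pos ht0
  have hε₁C : min 1 t * C ^ 2 ≤ ε / 12 :=
    (mul_le_mul_of_nonneg_right (min_le_right _ _) (by positivity)).trans htC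
  have hP : 0 < P := Nat.pos_of_ne_zero (by rintro rfl; simp at hPR; omega)
  have hR : 0 < R := Nat.pos_of_ne_zero (by rintro rfl; simp at hPR; omega)
  have hP' : (0 : ℝ) < P := by exact_mod_cast hP
  have hR' : (0 : ℝ) < R := by exact_mod_cast hR
  have hm' : (0 : ℝ) < m := by exact_mod_cast hm
  have hμt : Tendsto (fun γ : ℝ => 1 / (2 * γ * P)) atTop (𝓝[>] 0) := by
    simp only [one_div]
    exact tendsto_inv_atTop_nhdsGT_zero.comp
      ((tendsto_id.const_mul_atTop two_pos).atTop_mul_const hP')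
  have hε12 : 0 < ε / 12 := by positivity
  filter_upwards [eventually_gt_atTop 0,
    chirp_tendsto A₀ hA₀s hcs (Real.sqrt_pos.2 (by positivity : 0 < ε / 24)),
    hμt.eventually (riemann (h := fun x => ‖A x‖ ^ 2) (by fun_prop) hlr hε12),
    hμt.eventually (riemann (h := fun x => ‖A x - A₀ x‖ ^ 2) (by fun_prop) hlr hε12),
    hμt.eventually (nhdsWithin_le_nhds (Iic_mem_nhds one_pos))] with γ hγ hch hr1 hr2 hμ1 μ hμ
  rw [← hμ] at hr1 hr2 hμ1
  obtain ⟨ζ, hζ, hch⟩ := hch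
  have hμ0 : 0 < μ := by rw [hμ]; positivity
  have hsP : 0 < Real.sqrt P := Real.sqrt_pos.2 hP'
  let τ : ℤ → ℂ := fun i => (Real.sqrt P : ℂ) * dft m z (R * i) * ζ * e (-(γ * (i * μ) ^ 2))
  have hτ : ∀ i, ‖τ i‖ = 1 := fun i => by
    simp only [τ, norm_mul, hz, hζ, norm_e, Complex.norm_real, Real.norm_eq_abs, abs_of_pos hsP]
    field_simp
  refine ⟨τ, hτ, fun I hI hmiss => ⟨?_, ?_, ?_⟩⟩
  · have hsplit : ∀ i : ℤ, dft m w (R * i) * chirp A₀ γ (i / P) -
        τ i * (Real.sqrt μ : ℂ) * A (i * μ) =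
        dft m (fun j => w j - z j) (R * i) * chirp A₀ γ (i / P) +
          (dft m z (R * i) * chirp A₀ γ (i / P) - τ i * (Real.sqrt μ : ℂ) * A₀ (i * μ)) +
          -(τ i * (Real.sqrt μ : ℂ) * (A (i * μ) - A₀ (i * μ))) := by
      intro i
      have : dft m (fun j => w j - z j) (R * i) = dft m w (R * i) - dft m z (R * i) := by
        simp only [dft, sub_mul, Finset.sum_sub_distrib, mul_sub]
      rw [this]
      ring
    have h1 : ∑ i ∈ I, ‖dft m (fun j => w j - z j) (R * i) * chirp A₀ γ (i / P)‖ ^ 2 ≤ ε / 12 := by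
      have hB : Good fun x => A₀ x * e (γ * x ^ 2) :=
        (good_of_supp hA₀c hA₀0).mul (good_e (by fun_prop))
      have h := comb_bessel m hm (fun j => w j - z j) hB (I.image fun i => R * i)
      rw [Finset.sum_image fun i _ j _ h =>
        mul_left_cancel₀ (by exact_mod_cast hR.ne' : (R : ℤ) ≠ 0) h] at h
      have e1 : ∀ i : ℤ, ∫ x in (-1 / 2 : ℝ)..(1 / 2), A₀ x * e (γ * x ^ 2) *
          e (-(((R * i : ℤ) : ℝ) * x / m)) = chirp A₀ γ (i / P) := by
        intro i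
        unfold chirp
        congr 1
        funext x
        rw [mul_assoc, ← e_add, ← hPR]
        congr 2
        push_cast
        field_simp
        ring
      simp only [e1] at h
      refine h.trans ?_
      have e2 : ∑ j ∈ Finset.range m, ‖w j - z j‖ ^ 2 ≤ m * min 1 t := by
        have := Finset.sum_le_card_nsmul (Finset.range m) (fun j : ℕ => ‖w j - z j‖ ^ 2) (min 1 t)
          fun j _ => by
            have h1 := hwz j
            have h2 := min_le_left 1 t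
            nlinarith [norm_nonneg (w j - z j)]
        simpa using this
      have e3 : ∫ x in (-1 / 2 : ℝ)..(1 / 2), ‖A₀ x * e (γ * x ^ 2)‖ ^ 2 ≤ C ^ 2 := by
        have := intervalIntegral.integral_mono_on (a := -1 / 2) (b := 1 / 2) (by norm_num)
          (hB.intervalIntegrable_normSq _ _) (intervalIntegrable_const (μ := volume) (c := C ^ 2))
          fun x _ => by
            rw [norm_mul, norm_e, mul_one]
            have := hA₀C x
            gcongr
        refine this.trans (le_of_eq ?_)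
        simp
        ring
      have e4 : 1 / (m : ℝ) * ∑ j ∈ Finset.range m, ‖w j - z j‖ ^ 2 ≤ min 1 t := by
        rw [one_div, inv_mul_le_iff₀ hm']
        exact e2
      exact (mul_le_mul e4 e3 (intervalIntegral.integral_nonneg (by norm_num)
        fun _ _ => sq_nonneg _) hε₁.le).trans hε₁C
    have h2 : ∑ i ∈ I, ‖dft m z (R * i) * chirp A₀ γ (i / P) -
        τ i * (Real.sqrt μ : ℂ) * A₀ (i * μ)‖ ^ 2 ≤ ε / 12 := by
      have e1 : ∀ i ∈ I, ‖dft m z (R * i) * chirp A₀ γ (i / P) -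
          τ i * (Real.sqrt μ : ℂ) * A₀ (i * μ)‖ ^ 2 ≤ μ * (ε / 24) := by
        intro i _
        have f1 : (i : ℝ) / P = 2 * γ * (i * μ) := by
          rw [hμ]
          field_simp
        have f2 : Real.sqrt P * Real.sqrt μ * Real.sqrt (2 * γ) = 1 := by
          rw [← Real.sqrt_mul hP'.le, ← Real.sqrt_mul (by positivity), hμ]
          have : (P : ℝ) * (1 / (2 * γ * P)) * (2 * γ) = 1 := by field_simp
          rw [this, Real.sqrt_one]
        have f2' : (Real.sqrt P : ℂ) * (Real.sqrt μ : ℂ) * (Real.sqrt (2 * γ) : ℂ) = 1 := by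
          exact_mod_cast f2
        have f3 : dft m z (R * i) * chirp A₀ γ (i / P) - τ i * (Real.sqrt μ : ℂ) * A₀ (i * μ) =
            (Real.sqrt P : ℂ) * dft m z (R * i) * e (-(γ * (i * μ) ^ 2)) * (Real.sqrt μ : ℂ) *
              ((Real.sqrt (2 * γ) : ℂ) * (∫ x, A₀ x * e (γ * (x - i * μ) ^ 2)) -
                ζ * A₀ (i * μ)) := by
          rw [f1, chirp_eq hl hr hA₀0]
          simp only [τ]
          linear_combination (-(dft m z (R * i) * e (-(γ * (i * μ) ^ 2)) *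
            ∫ x, A₀ x * e (γ * (x - i * μ) ^ 2))) * f2'
        rw [f3]
        simp only [norm_mul, hz, norm_e, Complex.norm_real, Real.norm_eq_abs, abs_of_pos hsP,
          mul_one_div_cancel hsP.ne', one_mul, mul_pow, sq_abs, Real.sq_sqrt hμ0.le]
        refine mul_le_mul_of_nonneg_left ?_ hμ0.le
        rw [← Real.sq_sqrt (by positivity : 0 ≤ ε / 24)]
        have := hch (i * μ)
        gcongr
      refine (Finset.sum_le_card_nsmul _ _ _ e1).trans ?_
      have e2 := card_grid_le hμ0 hlr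
      have e3 : (I.card : ℝ) ≤ (grid μ l r).card := by exact_mod_cast Finset.card_le_card hI
      have e4 : μ * I.card ≤ 2 := by
        have : μ ≤ 1 := hμ1
        nlinarith
      rw [nsmul_eq_mul]
      nlinarith
    have h3 : ∑ i ∈ I, ‖-(τ i * (Real.sqrt μ : ℂ) * (A (i * μ) - A₀ (i * μ)))‖ ^ 2 ≤ ε / 6 := by
      simp only [norm_neg, norm_mul, hτ, one_mul, mul_pow, Complex.norm_real, Real.norm_eq_abs,
        sq_abs, Real.sq_sqrt hμ0.le, ← Finset.mul_sum]
      have e1 : ∑ i ∈ I, ‖A (i * μ) - A₀ (i * μ)‖ ^ 2 ≤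
          ∑ i ∈ grid μ l r, ‖A (i * μ) - A₀ (i * μ)‖ ^ 2 :=
        Finset.sum_le_sum_of_subset_of_nonneg hI fun _ _ _ => sq_nonneg _
      have e2 := (abs_le.1 hr2).2
      nlinarith
    simp only [hsplit]
    refine (Finset.sum_le_sum fun i _ => norm_add3 _ _ _).trans ?_
    rw [← Finset.mul_sum, Finset.sum_add_distrib, Finset.sum_add_distrib]
    linarith
  · have e1 := Finset.sum_sdiff hI (f := fun i : ℤ => ‖A (i * μ)‖ ^ 2)
    have e2 : ∑ i ∈ grid μ l r \ I, ‖A (i * μ)‖ ^ 2 ≤ (grid μ l r \ I).card * C ^ 2 := by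
      have := Finset.sum_le_card_nsmul (grid μ l r \ I) (fun i : ℤ => ‖A (i * μ)‖ ^ 2) (C ^ 2)
        fun i hi => by
          have := hC _ ((mem_grid hμ0).1 (Finset.mem_sdiff.1 hi).1)
          gcongr
      simpa using this
    have e3 := (abs_le.1 hr1).1
    have e4 : μ * ((grid μ l r \ I).card * C ^ 2) ≤ ε / 12 := by
      rw [← mul_assoc]
      exact (mul_le_mul_of_nonneg_right hmiss (by positivity)).trans hε₁C
    have e5 := mul_le_mul_of_nonneg_left e2 hμ0.le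
    rw [← e1, mul_add] at e3
    linarith
  · have e1 : ∑ i ∈ I, ‖A (i * μ)‖ ^ 2 ≤ ∑ i ∈ grid μ l r, ‖A (i * μ)‖ ^ 2 :=
      Finset.sum_le_sum_of_subset_of_nonneg hI fun _ _ _ => sq_nonneg _
    have e2 := (abs_le.1 hr1).2
    have e5 := mul_le_mul_of_nonneg_left e1 hμ0.le
    linarith

end Crest.Agent.R81
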