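import Crest.Agent.R81.Shear

/-!
# R81 / Conj

The conjugation formula `K S' K⁻¹` and `K S'⁻¹ K⁻¹` in coordinates (pure algebra).
With `s = y₁ - N y₂`, `u = x - M s`, `v = y₂ - V u s` one has `K (pr (u, v, s)) = pr (x, y₁, y₂)`
(`congr`/`ring`), hence `K⁻¹ (pr (x, y₁, y₂)) = pr (u, v, s)`; apply the shear formula (`IsShear`,
`shear_inv_apply`) and the formula for `K` again.

Auxiliary lemmas: put them in the namespace `Crest.Agent.R81.ConjAux` (avoid name clashes).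
-/

set_option autoImplicit false

open MeasureTheory Set Filter Topology
open scoped InnerProductSpace ComplexConjugate

namespace Crest.Agent.R81

theorem conj_apply (K S' : NG) (N M : ℕ) (V : ℝ → ℝ → ℝ) {Ω' : ℝ → ℝ} {φ' lam' β' : ℝ}
    (hK : ∀ u v s : ℝ, K.1 (pr (u, v, s)) = pr (u + M * s, N * (v + V u s) + s, v + V u s))
    (hS : IsShear S'.1 Ω' φ' lam' β') (x y₁ y₂ u s D : ℝ) (hs : s = y₁ - N * y₂)
    (hu : u = x - M * s) (hD : D = (φ' + lam' * deriv Ω' u) + V u (s + β') - V u s) :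
    (K * S' * K⁻¹).1 (pr (x, y₁, y₂)) = pr (x + M * β', y₁ + N * D + β', y₂ + D) := by
  have h1 : K.1 (pr (u, y₂ - V u s, s)) = pr (x, y₁, y₂) := by
    rw [hK]; congr 1; subst hu hs; ext <;> simp
  have h2 : (K⁻¹).1 (pr (x, y₁, y₂)) = pr (u, y₂ - V u s, s) := by rw [← h1, NG_inv_apply]
  rw [NG_mul_apply, NG_mul_apply, h2, hS, hK]
  congr 1
  subst hD hu hs
  ext <;> simp only <;> ring

theorem conj_inv_apply (K S' : NG) (N M : ℕ) (V : ℝ → ℝ → ℝ) {Ω' : ℝ → ℝ} {φ' lam' β' : ℝ}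
    (hK : ∀ u v s : ℝ, K.1 (pr (u, v, s)) = pr (u + M * s, N * (v + V u s) + s, v + V u s))
    (hS : IsShear S'.1 Ω' φ' lam' β') (x y₁ y₂ u s D : ℝ) (hs : s = y₁ - N * y₂)
    (hu : u = x - M * s) (hD : D = -(φ' + lam' * deriv Ω' u) + V u (s - β') - V u s) :
    (K * S'⁻¹ * K⁻¹).1 (pr (x, y₁, y₂)) = pr (x - M * β', y₁ + N * D - β', y₂ + D) := by
  have h1 : K.1 (pr (u, y₂ - V u s, s)) = pr (x, y₁, y₂) := by
    rw [hK]; congr 1; subst hu hs; ext <;> simp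
  have h2 : (K⁻¹).1 (pr (x, y₁, y₂)) = pr (u, y₂ - V u s, s) := by rw [← h1, NG_inv_apply]
  rw [NG_mul_apply, NG_mul_apply, h2, shear_inv_apply S' hS, hK]
  congr 1
  subst hD hu hs
  ext <;> simp only <;> ring

end Crest.Agent.R81
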