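import Crest.Agent.R81.Koop

/-!
# R81 / Cont

Strong continuity of the Koopman representation in the uniform topology.
One step: approximate `G` by `cR f` (`ContinuousMap.toLp_denseRange`), `f` is uniformly continuous on the
compact space `TT`, `‖Ur T' (cR f) - Ur T (cR f)‖ ≤ sup |f ∘ T' - f ∘ T|` (`Ur_cR`, `norm_cR_le`); or use
`Lp.compMeasurePreserving_continuous`.  Powers: `Ur (T^(k+1)) G = Ur T (Ur (T^k) G)` (`zpow_add_one`,
`Ur_mul`), `Ur (T^(k-1)) G = Ur T⁻¹ (Ur (T^k) G)`; `Int.induction_on`, triangle inequality, isometry;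
`Close0 t T T' ↔ Close0 t T⁻¹ T'⁻¹`.

Auxiliary lemmas: put them in the namespace `Crest.Agent.R81.ContAux` (avoid name clashes).
-/

set_option autoImplicit false

open MeasureTheory Set Filter Topology
open scoped InnerProductSpace ComplexConjugate

namespace Crest.Agent.R81

theorem Close0.symm {t : ℝ} {T T' : NG} (h : Close0 t T T') : Close0 t T' T := by
  intro z
  rw [dist_comm, dist_comm ((T'⁻¹).1 z)]
  exact h z

theorem Close0.mono {t t' : ℝ} {T T' : NG} (h : Close0 t T T') (ht : t ≤ t') : Close0 t' T T' :=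
  fun z => ⟨(h z).1.trans ht, (h z).2.trans ht⟩

namespace ContAux

theorem one_step (T : NG) (G : L2R) {η : ℝ} (hη : 0 < η) :
    ∃ t : ℝ, 0 < t ∧ ∀ T' : NG, (∀ z, dist (T.1 z) (T'.1 z) ≤ t) → ‖Ur T' G - Ur T G‖ ≤ η := by
  obtain ⟨f, hf⟩ := (ContinuousMap.toLp_denseRange ℝ (volume : Measure TT) ℝ
    (p := 2) (by simp)).exists_dist_lt G (ε := η / 3) (by positivity)
  have hf' : ‖G - cR f‖ ≤ η / 3 := by rw [← dist_eq_norm]; exact hf.le
  obtain ⟨δ, hδ, h⟩ := Metric.uniformContinuous_iff.1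
    (CompactSpace.uniformContinuous_of_continuous f.continuous) (η / 3) (by positivity)
  refine ⟨δ / 2, by positivity, fun T' hT => ?_⟩
  have h1 : ‖Ur T' (cR f) - Ur T (cR f)‖ ≤ η / 3 := by
    rw [Ur_cR, Ur_cR, cR, cR, ← map_sub]
    refine (norm_cR_le _).trans ((ContinuousMap.norm_le _ (by positivity)).2 fun z => ?_)
    rw [ContinuousMap.sub_apply, ← dist_eq_norm, dist_comm]
    exact (h ((hT z).trans_lt (half_lt_self hδ))).le
  have e : Ur T' G - Ur T G =
      Ur T' (G - cR f) + (Ur T' (cR f) - Ur T (cR f)) - Ur T (G - cR f) := by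
    simp only [map_sub]; abel
  rw [e]
  refine (norm_sub_le _ _).trans ((add_le_add_left (norm_add_le _ _) _).trans ?_)
  rw [LinearIsometry.norm_map, LinearIsometry.norm_map]
  linarith

theorem step (A A' : NG) (G G' : L2R) :
    ‖Ur A' G' - Ur A G‖ ≤ ‖G' - G‖ + ‖Ur A' G - Ur A G‖ := by
  have := norm_sub_le_norm_sub_add_norm_sub (Ur A' G') (Ur A' G) (Ur A G)
  rwa [← map_sub, LinearIsometry.norm_map] at this

end ContAux

open ContAux

theorem ur_cont (T : NG) (G : L2R) (k : ℤ) {η : ℝ} (hη : 0 < η) :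
    ∃ t : ℝ, 0 < t ∧ ∀ T' : NG, Close0 t T T' → ‖Ur (T' ^ k) G - Ur (T ^ k) G‖ ≤ η := by
  induction k using Int.induction_on generalizing η with
  | zero => exact ⟨1, one_pos, fun T' _ => by simp [hη.le]⟩
  | succ k ih =>
    obtain ⟨t₁, h₁, H₁⟩ := ih (half_pos hη)
    obtain ⟨t₂, h₂, H₂⟩ := one_step T (Ur (T ^ (k : ℤ)) G) (half_pos hη)
    refine ⟨min t₁ t₂, lt_min h₁ h₂, fun T' h => ?_⟩
    rw [zpow_add_one, zpow_add_one, Ur_mul, Ur_mul]
    have a := H₁ T' (h.mono (min_le_left _ _))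
    have b := H₂ T' fun z => (h.mono (min_le_right _ _) z).1
    linarith [step T T' (Ur (T ^ (k : ℤ)) G) (Ur (T' ^ (k : ℤ)) G)]
  | pred k ih =>
    obtain ⟨t₁, h₁, H₁⟩ := ih (half_pos hη)
    obtain ⟨t₂, h₂, H₂⟩ := one_step T⁻¹ (Ur (T ^ (-k : ℤ)) G) (half_pos hη)
    refine ⟨min t₁ t₂, lt_min h₁ h₂, fun T' h => ?_⟩
    rw [zpow_sub_one, zpow_sub_one, Ur_mul, Ur_mul]
    have a := H₁ T' (h.mono (min_le_left _ _))
    have b := H₂ T'⁻¹ fun z => (h.mono (min_le_right _ _) z).2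
    linarith [step T⁻¹ T'⁻¹ (Ur (T ^ (-k : ℤ)) G) (Ur (T' ^ (-k : ℤ)) G)]

theorem poly_cont (T : NG) (G : L2R) (c : ℤ →₀ ℝ) {η : ℝ} (hη : 0 < η) :
    ∃ t : ℝ, 0 < t ∧ ∀ T' : NG, Close0 t T T' → ‖poly c T' G - poly c T G‖ ≤ η := by
  classical
  have : ∀ (s : Finset ℤ) {η : ℝ}, 0 < η → ∃ t : ℝ, 0 < t ∧ ∀ T' : NG, Close0 t T T' →
      ‖∑ k ∈ s, c k • Ur (T' ^ k) G - ∑ k ∈ s, c k • Ur (T ^ k) G‖ ≤ η := by
    intro s
    induction s using Finset.induction_on with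
    | empty => exact fun hη => ⟨1, one_pos, fun T' _ => by simp [hη.le]⟩
    | insert k s hk ih =>
      intro η hη
      obtain ⟨t₁, h₁, H₁⟩ := ih (half_pos hη)
      obtain ⟨t₂, h₂, H₂⟩ := ur_cont T G k (η := η / 2 / (|c k| + 1)) (by positivity)
      refine ⟨min t₁ t₂, lt_min h₁ h₂, fun T' h => ?_⟩
      rw [Finset.sum_insert hk, Finset.sum_insert hk, add_sub_add_comm, ← smul_sub]
      refine (norm_add_le _ _).trans ?_
      have a := H₁ T' (h.mono (min_le_left _ _))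
      have b := H₂ T' (h.mono (min_le_right _ _))
      rw [le_div_iff₀ (by positivity)] at b
      rw [norm_smul, Real.norm_eq_abs]
      nlinarith [norm_nonneg (Ur (T' ^ k) G - Ur (T ^ k) G)]
  exact this c.support hη

end Crest.Agent.R81
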