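import Crest.Agent.R81.Fam

/-!
# R81 / Conv

Convergence of a rapidly converging sequence of nice diffeomorphisms.
`limit_map`: `choose D n` from `Close n (t n) (T n) (T (n+1))`; `F = F₀ + ∑' n, D n` is smooth by
`contDiff_tsum_of_eventually` (for each order `j`, eventually `‖iteratedFDeriv j (D n) x‖ ≤ t n`, and `t` is
summable since `t n ≤ t 0 / 2^n`).  `T n (pr x) = pr (F₀ x + ∑_{j < n} D j x)` converges to `pr (F x)`;
define `T∞ z = pr (F (rep z.1, rep z.2.1, rep z.2.2))`, the limit of `T n z` (uniqueness of limits gives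
`T∞ (pr x) = pr (F x)`), and `dist (T n z) (T∞ z) ≤ ∑_{j ≥ n} t j ≤ 2 t n` (induction:
`dist (T n z) (T (n + j) z) ≤ 2 t n - 2 t (n + j)`.. and `le_of_tendsto`).
`mp_of_limit`: for continuous `f : TT → ℝ`, `∫ f ∘ T n = ∫ f` and `∫ f ∘ T n → ∫ f ∘ T∞` (dominated
convergence); `MeasureTheory.ext_of_forall_integral_eq_of_IsFiniteMeasure`.
`exists_limit`: apply `limit_map` to `T n` and `(T n)⁻¹`; `T∞ (S∞ z) = lim T n ((T n)⁻¹ z) = z` by uniform
convergence and continuity of `T∞`.

Auxiliary lemmas: put them in the namespace `Crest.Agent.R81.ConvAux` (avoid name clashes).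
-/

set_option autoImplicit false

open MeasureTheory Set Filter Topology
open scoped InnerProductSpace ComplexConjugate

namespace Crest.Agent.R81

namespace ConvAux

theorem le_pow {t : ℕ → ℝ} (ht : ∀ n, t (n + 1) ≤ t n / 2) (n : ℕ) : t n ≤ t 0 * (1 / 2) ^ n := by
  induction n with
  | zero => simp
  | succ n ih => rw [pow_succ]; linarith [ht n]

theorem summable {t : ℕ → ℝ} (ht0 : ∀ n, 0 ≤ t n) (ht : ∀ n, t (n + 1) ≤ t n / 2) : Summable t :=
  Summable.of_nonneg_of_le ht0 (le_pow ht) (summable_geometric_two.mul_left _)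

theorem tendsto_of_dist {t : ℕ → ℝ} (ht0 : ∀ n, 0 ≤ t n) (ht : ∀ n, t (n + 1) ≤ t n / 2)
    {u : ℕ → TT} {a : TT} (h : ∀ n, dist (u n) a ≤ 2 * t n) : Tendsto u atTop (𝓝 a) := by
  rw [tendsto_iff_dist_tendsto_zero]
  refine squeeze_zero (fun _ => dist_nonneg) h ?_
  simpa using (summable ht0 ht).tendsto_atTop_zero.const_mul 2

end ConvAux

open ConvAux

theorem limit_map (T : ℕ → TT → TT) (F₀ : R3 → R3) (h0 : Lifts (T 0) F₀) (t : ℕ → ℝ)
    (ht0 : ∀ n, 0 ≤ t n) (ht : ∀ n, t (n + 1) ≤ t n / 2)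
    (hc : ∀ n, Close n (t n) (T n) (T (n + 1))) :
    ∃ (S : TT → TT) (F : R3 → R3), Lifts S F ∧ ∀ n z, dist (T n z) (S z) ≤ 2 * t n := by
  have hd : ∀ n z, dist (T n z) (T (n + 1) z) ≤ t n := fun n => (hc n).dist_le
  choose D hD hT using hc
  have hs := summable ht0 ht
  have hF : ContDiff ℝ (⊤ : ℕ∞) fun x => ∑' n, D n x := by
    refine contDiff_tsum_of_eventually (v := fun _ n => t n) (fun n => (hD n).1)
      (fun _ _ => hs) fun k _ => ?_
    rw [Nat.cofinite_eq_atTop]
    filter_upwards [eventually_ge_atTop k] with n hn using (hD n).2 k hn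
  have h1 : ∀ n x, T n (pr x) = pr (F₀ x + ∑ j ∈ Finset.range n, D j x) := by
    intro n x
    induction n with
    | zero => simp [h0.2]
    | succ n ih => rw [hT, ih, Finset.sum_range_succ, ← pr_add, add_assoc]
  have h2 : ∀ x, Tendsto (fun n => T n (pr x)) atTop (𝓝 (pr (F₀ x + ∑' n, D n x))) := by
    intro x
    simp only [h1]
    have : Summable fun n => D n x :=
      hs.of_norm_bounded fun n => by simpa using (hD n).2 0 (Nat.zero_le _) x
    exact (continuous_pr.tendsto _).comp (this.hasSum.tendsto_sum_nat.const_add _)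
  obtain ⟨S, hS⟩ := exists_descend (fun x => F₀ x + ∑' n, D n x) fun x x' h =>
    tendsto_nhds_unique (h2 x) (h ▸ h2 x')
  refine ⟨S, _, ⟨h0.1.add hF, hS⟩, fun n z => ?_⟩
  obtain ⟨x, rfl⟩ := pr_surjective z
  have h3 : ∀ j, dist (T n (pr x)) (T (j + n) (pr x)) ≤ 2 * t n - 2 * t (j + n) := by
    intro j
    induction j with
    | zero => simp
    | succ j ih =>
      rw [add_right_comm]
      linarith [dist_triangle (T n (pr x)) (T (j + n) (pr x)) (T (j + n + 1) (pr x)),
        hd (j + n) (pr x), ht (j + n)]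
  rw [hS]
  refine le_of_tendsto' (tendsto_const_nhds.dist ((tendsto_add_atTop_iff_nat n).2 (h2 x)))
    fun j => ?_
  linarith [h3 j, ht0 (j + n)]

theorem mp_of_limit (T : ℕ → TT → TT) (hT : ∀ n, MeasurePreserving (T n) volume volume)
    (S : TT → TT) (hS : Continuous S) (h : ∀ z, Tendsto (fun n => T n z) atTop (𝓝 (S z))) :
    MeasurePreserving S volume volume := by
  refine ⟨hS.measurable, ext_of_forall_integral_eq_of_IsFiniteMeasure fun f => ?_⟩
  rw [integral_map hS.aemeasurable f.continuous.aestronglyMeasurable]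
  have h1 : ∀ n, ∫ z, f (T n z) = ∫ z, f z := fun n => by
    rw [← integral_map (hT n).measurable.aemeasurable f.continuous.aestronglyMeasurable,
      (hT n).map_eq]
  have h2 : Tendsto (fun n => ∫ z, f (T n z)) atTop (𝓝 (∫ z, f (S z))) :=
    tendsto_integral_of_dominated_convergence (fun _ => ‖f‖)
      (fun n => (f.continuous.measurable.comp (hT n).measurable).aestronglyMeasurable)
      (integrable_const _) (fun n => ae_of_all _ fun z => f.norm_coe_le_norm _)
      (ae_of_all _ fun z => (f.continuous.tendsto _).comp (h z))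
  simp only [h1] at h2
  exact tendsto_nhds_unique h2 tendsto_const_nhds

theorem exists_limit (T : ℕ → NG) (t : ℕ → ℝ) (ht0 : ∀ n, 0 ≤ t n)
    (ht : ∀ n, t (n + 1) ≤ t n / 2) (hc : ∀ n, Close2 n (t n) (T n) (T (n + 1))) :
    ∃ S : NG, ∀ n, Close0 (2 * t n) (T n) S := by
  obtain ⟨F₀, h0⟩ := NG_lifts (T 0)
  obtain ⟨G₀, h0'⟩ := NG_lifts (T 0)⁻¹
  obtain ⟨A, F, hA, dA⟩ := limit_map (fun n => (T n).1) F₀ h0 t ht0 ht fun n => (hc n).1
  obtain ⟨B, G, hB, dB⟩ := limit_map (fun n => ((T n)⁻¹).1) G₀ h0' t ht0 ht fun n => (hc n).2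
  have inv : ∀ (A B : TT → TT) (a b : ℕ → TT → TT), Continuous A →
      (∀ n z, dist (a n z) (A z) ≤ 2 * t n) → (∀ n z, dist (b n z) (B z) ≤ 2 * t n) →
      (∀ n z, a n (b n z) = z) → ∀ z, A (B z) = z := by
    intro A B a b cA dA dB hab z
    have h1 : Tendsto (fun n => A (b n z)) atTop (𝓝 (A (B z))) :=
      (cA.tendsto _).comp (tendsto_of_dist ht0 ht fun n => dB n z)
    have h2 : Tendsto (fun n => A (b n z)) atTop (𝓝 z) :=
      tendsto_of_dist ht0 ht fun n => by
        have := dA n (b n z)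
        rwa [hab, dist_comm] at this
    exact tendsto_nhds_unique h1 h2
  let E : Equiv.Perm TT :=
    { toFun := A
      invFun := B
      left_inv := inv B A _ _ hB.continuous dB dA fun n => NG_inv_apply (T n)
      right_inv := inv A B _ _ hA.continuous dA dB fun n => NG_apply_inv (T n) }
  refine ⟨⟨E, ⟨F, hA⟩, ⟨G, hB⟩, ?_, ?_⟩, fun n z => ⟨dA n z, dB n z⟩⟩
  · exact mp_of_limit _ (fun n => NG_mp (T n)) A hA.continuous
      fun z => tendsto_of_dist ht0 ht fun n => dA n z
  · exact mp_of_limit _ (fun n => NG_mp (T n)⁻¹) B hB.continuous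
      fun z => tendsto_of_dist ht0 ht fun n => dB n z

end Crest.Agent.R81
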