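import Crest.Agent.R81.Sep

/-!
# R81 / DeSel

Selection of the kept lines in a de-parallelising stage.
`bad (a, i) := ∃ n : ℤ, |2 cen (a, i) - n| ≤ 2 hw a`;
`KF = A.biUnion (fun a => ((grid (μ a) (-a₀) a₀).filter (¬ bad (a, ·))).image (a, ·))`,
`KB = KF.filter (q.1 ∈ B ∧ q.2 ∈ grid (μ q.1) (l q.1) (r q.1))`.
The missing indices are bad; `card_near_int` with `h = 2 δ/P`, `c = 2 ϑ a`, `w = 2 hw ≤ 1`, `X = ℓ λ`
(`step_eq`, `|i μ| ≤ 1/2`, `N ≥ 1`), `2 w/h = ℓ λ'/(δ/P) ≤ ℓ` (`lam'_le_step`).  `added` is an empty sum.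
`sep`: `sep_lines` with `s = B` (`Label.old`).  The singleton statement: `t + t' = n` would make `q` bad;
`t - t' = n` gives `|n| ≤ 2 hw < 1`.

Auxiliary lemmas: put them in the namespace `Crest.Agent.R81.DeSelAux` (avoid name clashes).
-/

set_option autoImplicit false

open MeasureTheory Set Filter Topology
open scoped InnerProductSpace ComplexConjugate

namespace Crest.Agent.R81

theorem de_select (σ : St) (D : FD) (hB : σ.B ⊆ D.A) (L : LS) (hL : L.OK σ.B D.A) {d ε₁ : ℝ}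
    (hε₁ : 0 ≤ ε₁)
    (hsep : SepI σ.B (fun b => σ.θ b (σ.l b) - d) (fun b => σ.θ b (σ.r b) + d))
    (hcen : ∀ a ∈ D.A, ∀ i : ℤ, |i * L.μ a| ≤ 1 / 2 →
      |L.cen (a, i) - σ.θ a (i * L.μ a)| ≤ d / 2)
    (hhw : ∀ a ∈ D.A, L.hw a ≤ d / 2 ∧ L.hw a < 1 / 2)
    (hμ : ∀ a ∈ D.A, L.μ a * ((2 * (ell L.N a * L.lam) + 3) * (ell L.N a + 1)) ≤ ε₁) :
    ∃ KB KF, Kept σ D L ε₁ KB KF ∧
      (∀ q ∈ KB, q.1 ∈ σ.B ∧ q.2 ∈ grid (L.μ q.1) (σ.l q.1) (σ.r q.1)) ∧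
      ∀ q ∈ KF, SepI ({q} : Finset (Md × ℤ)) (fun q => L.cen q - L.hw q.1)
        (fun q => L.cen q + L.hw q.1) := by
  classical
  have ha0 := σ.prof.pos
  have ha1 := σ.prof.lt
  let bad : Md × ℤ → Prop := fun q => ∃ n : ℤ, |2 * L.cen q - n| ≤ 2 * L.hw q.1
  let KF : Finset (Md × ℤ) := D.A.biUnion fun a =>
    ((grid (L.μ a) (-σ.a) σ.a).filter fun i => ¬ bad (a, i)).image fun i => (a, i)
  have hKF : ∀ q : Md × ℤ, q ∈ KF ↔ q.1 ∈ D.A ∧ q.2 ∈ grid (L.μ q.1) (-σ.a) σ.a ∧ ¬ bad q := by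
    rintro ⟨a, i⟩
    simp only [KF, Finset.mem_biUnion, Finset.mem_image, Finset.mem_filter, Prod.mk.injEq]
    constructor
    · rintro ⟨a', ha', i', ⟨h1, h2⟩, rfl, rfl⟩; exact ⟨ha', h1, h2⟩
    · rintro ⟨h1, h2, h3⟩; exact ⟨a, h1, i, ⟨h2, h3⟩, rfl, rfl⟩
  let KB : Finset (Md × ℤ) :=
    KF.filter fun q => q.1 ∈ σ.B ∧ q.2 ∈ grid (L.μ q.1) (σ.l q.1) (σ.r q.1)
  have hcount : ∀ a ∈ D.A, ∀ s : Finset ℤ,
      (∀ i ∈ s, i ∈ grid (L.μ a) (-σ.a) σ.a ∧ bad (a, i)) → L.μ a * s.card ≤ ε₁ := by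
    intro a ha s hs
    have hμ0 := hL.μ_pos ha
    have hell := hL.ell_pos' ha
    have hP : (0 : ℝ) < L.P a := by exact_mod_cast hL.P_pos ha
    have hδ := hL.δ_pos
    have hl := hL.lam_pos
    have hN : (1 : ℝ) ≤ L.N := by exact_mod_cast hL.N_pos
    have hw := hL.hw_pos ha
    have h1 := card_near_int (h := 2 * (L.δ / L.P a)) (w := 2 * L.hw a) (X := ell L.N a * L.lam)
      (by positivity) (by positivity) (by positivity) (2 * L.ϑ a) s fun i hi => by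
        obtain ⟨h2, n, h3⟩ := hs i hi
        obtain ⟨h4, h5⟩ := (mem_grid hμ0).1 h2
        refine ⟨?_, n, ?_⟩
        · have h6 : |i * L.μ a| ≤ 1 / 2 := abs_le.2 ⟨by linarith, by linarith⟩
          have h7 : i * (2 * (L.δ / L.P a)) = 2 * (i * L.μ a) * (ell L.N a * L.lam / L.N) := by
            rw [hL.step_eq ha]; ring
          rw [h7, abs_mul, abs_mul, abs_of_pos (by positivity : 0 < ell L.N a * L.lam / L.N),
            abs_two]
          have h8 : ell L.N a * L.lam / L.N ≤ ell L.N a * L.lam :=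
            div_le_self (by positivity) hN
          have h9 : 0 ≤ ell L.N a * L.lam / L.N := by positivity
          nlinarith [abs_nonneg (i * L.μ a)]
        · convert h3 using 2
          simp only [LS.cen]; ring
    have h2 : 2 * (2 * L.hw a) / (2 * (L.δ / L.P a)) ≤ ell L.N a := by
      rw [div_le_iff₀ (by positivity)]
      have := hL.lam'_le_step ha
      simp only [LS.hw]
      nlinarith
    have h3 : (s.card : ℝ) ≤ (2 * (ell L.N a * L.lam) + 3) * (ell L.N a + 1) := by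
      refine h1.trans (mul_le_mul ?_ (by linarith) (by positivity) (by positivity))
      linarith [(hhw a ha).2]
    exact (mul_le_mul_of_nonneg_left h3 hμ0.le).trans (hμ a ha)
  have hold : ∀ q ∈ KB, q.1 ∈ σ.B ∧ q.2 ∈ grid (L.μ q.1) (σ.l q.1) (σ.r q.1) :=
    fun q hq => (Finset.mem_filter.1 hq).2
  refine ⟨KB, KF, ⟨Finset.filter_subset _ _, fun q hq => ⟨((hKF q).1 hq).1, ((hKF q).1 hq).2.1⟩,
    fun q hq q' hq' hp => σ.npar _ (hold q hq).1 _ (hold q' hq').1 hp, fun a ha => ?_,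
    fun b hb => ?_, ?_, ?_⟩, hold, fun q hq => ?_⟩
  · refine hcount a ha _ fun i hi => ?_
    obtain ⟨h1, h2⟩ := Finset.mem_filter.1 hi
    refine ⟨h1, ?_⟩
    by_contra h3
    exact h2 ((hKF _).2 ⟨ha, h1, h3⟩)
  · refine hcount b (hB hb) _ fun i hi => ?_
    obtain ⟨h1, h2⟩ := Finset.mem_filter.1 hi
    have hμ0 := hL.μ_pos (hB hb)
    have h4 : i ∈ grid (L.μ b) (-σ.a) σ.a := by
      obtain ⟨h5, h6⟩ := (mem_grid hμ0).1 h1
      exact (mem_grid hμ0).2 ⟨(σ.lr b hb).1.trans h5, h6.trans (σ.lr b hb).2.2⟩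
    refine ⟨h4, ?_⟩
    by_contra h3
    exact h2 (Finset.mem_filter.2 ⟨(hKF _).2 ⟨hB hb, h4, h3⟩, hb, h1⟩)
  · rw [Finset.filter_false_of_mem fun q hq => not_not.2 (hold q hq)]
    simpa using hε₁
  · refine sep_lines σ hL σ.B hB σ.l σ.r (fun b hb => ?_) hsep (fun b hb => hcen b (hB hb))
      (fun b hb => (hhw b (hB hb)).1) (fun b hb => (hL.label.old b hb).ge) KB hold
    have := σ.lr b hb
    constructor <;> linarith
  · obtain ⟨h1, -, h3⟩ := (hKF q).1 hq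
    intro b hb b' hb' t ht t' ht' n
    rw [Finset.mem_singleton] at hb hb'
    subst hb hb'
    refine ⟨fun e => h3 ⟨n, abs_le.2 ⟨by linarith [ht.2, ht'.2], by linarith [ht.1, ht'.1]⟩⟩,
      fun e => ⟨rfl, ?_⟩⟩
    have h4 := (hhw _ h1).2
    have h5 : (n : ℝ) < 1 := by linarith [ht.2, ht'.1]
    have h6 : (-1 : ℝ) < n := by linarith [ht.1, ht'.2]
    have h7 : n < 1 := by exact_mod_cast h5
    have h8 : -1 < n := by exact_mod_cast h6
    omega

end Crest.Agent.R81
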