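import Crest.Agent.R81.Drop

/-!
# R81 / Gam

The dominated mass decreases by the factor `3/4` in a stage that adds no line.
Put `g (a, i) = μ a ‖F a (i μ a)‖² + if a ∈ B ∧ i ∈ grid (μ a) (l a) (r a) then 3/2 (μ a (a.1 λ)) else 0`.
For `q ∈ KF`: `mass σ' D' (ln q) ≤ g q` (`Out.normF`, `2a' ≤ 1`, `Out.full`, `Out.lam`; if
`ln q ∈ σ'.B` then `q ∈ KB` by `ln_inj`, and `old_le`).
`Gam σ' D' = ∑_{q ∈ KF} ∑_{q' ∈ KF} [Par (ln q) (ln q') ∧ sz (ln q') < sz (ln q)] mass (ln q)`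
(`Finset.sum_image`).  `choose kk` from `par_ln_dvd`.  For fixed `q = (a, i)` the map `q' ↦ q'.1` is
injective on the admissible `q'` (`par_ln_unique`) with image in
`{a' ∈ A | Par a a' ∧ sz a' < sz a ∧ kk a a' ∣ i}`.  Hence
`Gam σ' D' ≤ ∑_a ∑_{a'} [Par a a' ∧ sz a' < sz a] ∑_{i ∈ grid (μ a) (-a) a, kk ∣ i} g (a, i)` and the inner sum is
`≤ (∫‖F a‖²)/2 + η + [a ∈ B] 3/2 (massB a/2 + η) ≤ 3/4 mass + 3 η`.

Auxiliary lemmas: put them in the namespace `Crest.Agent.R81.GamAux` (avoid name clashes).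
-/

set_option autoImplicit false

open MeasureTheory Set Filter Topology
open scoped InnerProductSpace ComplexConjugate

namespace Crest.Agent.R81

theorem gam_le (σ : St) (D : FD) (hB : σ.B ⊆ D.A) (L : LS) (hL : L.OK σ.B D.A)
    (hlam : L.lam = σ.lam) {ε ε₁ : ℝ} {k : ℕ} {KB KF : Finset (Md × ℤ)}
    (hkept : Kept σ D L ε₁ KB KF)
    (hold : ∀ q ∈ KB, q.1 ∈ σ.B ∧ q.2 ∈ grid (L.μ q.1) (σ.l q.1) (σ.r q.1))
    {σ' : St} {D' : FD} (hout : Out σ D L k ε KB KF σ' D') {η : ℝ} (hη : 0 ≤ η)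
    (hF : ∀ a ∈ D.A, ∀ j : ℕ, 2 ≤ j →
      L.μ a * ∑ i ∈ (grid (L.μ a) (-σ.a) σ.a).filter (fun i => (j : ℤ) ∣ i),
        ‖D.F a (i * L.μ a)‖ ^ 2 ≤ (∫ x in (-σ.a)..σ.a, ‖D.F a x‖ ^ 2) / 2 + η)
    (hG : ∀ b ∈ σ.B, ∀ j : ℕ, 2 ≤ j →
      L.μ b * ∑ _i ∈ (grid (L.μ b) (σ.l b) (σ.r b)).filter (fun i => (j : ℤ) ∣ i),
        (b.1 * σ.lam) ≤ σ.massB b / 2 + η) :
    Gam σ' D' ≤ 3 / 4 * Gam σ D + 3 * η * (D.A.card : ℝ) ^ 2 := by
  classical
  have ha0 := σ.prof.pos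
  have hl := σ.lam_pos
  let old : Md × ℤ → Prop := fun q => q.1 ∈ σ.B ∧ q.2 ∈ grid (L.μ q.1) (σ.l q.1) (σ.r q.1)
  let g : Md × ℤ → ℝ := fun q => L.μ q.1 * ‖D.F q.1 (q.2 * L.μ q.1)‖ ^ 2 +
    if old q then 3 / 2 * (L.μ q.1 * (q.1.1 * σ.lam)) else 0
  have hA : ∀ q ∈ KF, q.1 ∈ D.A := fun q hq => (hkept.mem q hq).1
  have hg0 : ∀ q : Md × ℤ, q.1 ∈ D.A → 0 ≤ g q := fun q hq => by
    have := hL.μ_pos hq
    have : (0 : ℝ) ≤ q.1.1 := by exact_mod_cast (D.pos _ hq).fst_nonneg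
    simp only [g]
    split_ifs <;> positivity
  have hmass : ∀ q ∈ KF, mass σ' D' (L.ln q) ≤ g q := by
    intro q hq
    have hμ := hL.μ_pos (hA q hq)
    have h0 := σ'.prof.pos
    have h1 := σ'.prof.lt
    simp only [mass, g, hout.normF q hq, intervalIntegral.integral_const, smul_eq_mul]
    refine add_le_add ?_ ?_
    · have : 0 ≤ L.μ q.1 * ‖D.F q.1 (q.2 * L.μ q.1)‖ ^ 2 := by positivity
      nlinarith
    · by_cases hb : L.ln q ∈ σ'.B
      · have hb' := hb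
        rw [hout.B] at hb'
        obtain ⟨q', hq', he⟩ := Finset.mem_image.1 hb'
        obtain rfl : q' = q := ln_inj hL (hA _ (hkept.sub hq')) (hA q hq) he
        have ho : old q' := hold q' hq'
        rw [if_pos hb, if_pos ho, St.massB, (hout.full _ hb).1, (hout.full _ hb).2, hout.lam]
        have h2 := hL.old_le hB ho.1 (σ.pos _ ho.1)
        rw [hlam] at h2
        have h3 := mul_pos (hL.ell_pos' (hA _ hq)) hL.lam'_pos
        change _ * ((ell L.N q'.1 : ℝ) * L.lam') ≤ _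
        nlinarith
      · rw [if_neg hb]
        have : (0 : ℝ) ≤ q.1.1 := by exact_mod_cast (D.pos _ (hA q hq)).fst_nonneg
        split_ifs <;> positivity
  have hkk : ∀ a a' : Md, ∃ k : ℕ, 2 ≤ k ∧ (a ∈ D.A → a' ∈ D.A → ∀ i i' : ℤ,
      Par (L.ln (a, i)) (L.ln (a', i')) → sz (L.ln (a', i')) < sz (L.ln (a, i)) →
      Par a a' ∧ sz a' < sz a ∧ (k : ℤ) ∣ i) := by
    intro a a'
    by_cases h : a ∈ D.A ∧ a' ∈ D.A
    · obtain ⟨k, h1, h2⟩ := par_ln_dvd hL h.1 h.2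
      exact ⟨k, h1, fun _ _ => h2⟩
    · exact ⟨2, le_rfl, fun h1 h2 => absurd ⟨h1, h2⟩ h⟩
  choose kk hkk2 hkk using hkk
  have hinj : Set.InjOn L.ln KF := fun q hq q' hq' h => ln_inj hL (hA q hq) (hA q' hq') h
  -- step 1
  have s1 : Gam σ' D' ≤ ∑ q ∈ KF, ∑ a' ∈ D.A,
      if (Par q.1 a' ∧ sz a' < sz q.1) ∧ (kk q.1 a' : ℤ) ∣ q.2 then g q else 0 := by
    simp only [Gam, hout.A]
    rw [Finset.sum_image hinj]
    refine Finset.sum_le_sum fun q hq => ?_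
    rw [Finset.sum_image hinj, ← Finset.sum_filter, ← Finset.sum_filter, Finset.sum_const,
      Finset.sum_const, nsmul_eq_mul, nsmul_eq_mul]
    refine mul_le_mul ?_ (hmass q hq) (mass_nonneg _ _ _) (by positivity)
    refine Nat.cast_le.2 (Finset.card_le_card_of_injOn Prod.fst (fun q' hq' => ?_)
      fun q' hq' q'' hq'' h => ?_)
    · obtain ⟨h1, h2, h3⟩ := Finset.mem_filter.1 hq'
      obtain ⟨h4, h5, h6⟩ := hkk q.1 q'.1 (hA q hq) (hA q' h1) q.2 q'.2 h2 h3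
      exact Finset.mem_coe.2 (Finset.mem_filter.2 ⟨hA q' h1, ⟨h4, h5⟩, h6⟩)
    · obtain ⟨h1, h2, -⟩ := Finset.mem_filter.1 hq'
      obtain ⟨-, h2', -⟩ := Finset.mem_filter.1 hq''
      obtain ⟨a', i'⟩ := q'
      obtain ⟨a'', i''⟩ := q''
      simp only at h
      subst h
      rw [par_ln_unique hL (hA q hq) (hA _ h1) h2 h2']
  -- step 2
  have s2 : ∀ f : Md × ℤ → ℝ, (∀ q : Md × ℤ, q.1 ∈ D.A → 0 ≤ f q) →
      ∑ q ∈ KF, f q ≤ ∑ a ∈ D.A, ∑ i ∈ grid (L.μ a) (-σ.a) σ.a, f (a, i) := by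
    intro f hf
    rw [← Finset.sum_fiberwise_of_maps_to hA]
    refine Finset.sum_le_sum fun a ha => ?_
    have hsub : KF.filter (fun q => q.1 = a) ⊆ (grid (L.μ a) (-σ.a) σ.a).image fun i => (a, i) := by
      rintro ⟨a', i⟩ hq
      obtain ⟨h1, rfl⟩ := Finset.mem_filter.1 hq
      exact Finset.mem_image.2 ⟨i, (hkept.mem _ h1).2, rfl⟩
    refine (Finset.sum_le_sum_of_subset_of_nonneg hsub fun q hq _ => ?_).trans ?_
    · obtain ⟨i, -, rfl⟩ := Finset.mem_image.1 hq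
      exact hf _ ha
    · rw [Finset.sum_image fun _ _ _ _ h => (Prod.mk.inj h).2]
  -- step 3
  have s3 : ∀ a ∈ D.A, ∀ j : ℕ, 2 ≤ j →
      ∑ i ∈ grid (L.μ a) (-σ.a) σ.a, (if (j : ℤ) ∣ i then g (a, i) else 0) ≤
        3 / 4 * mass σ D a + 3 * η := by
    intro a ha j hj
    have hμ := hL.μ_pos ha
    have h1 := hF a ha j hj
    have h0 : 0 ≤ ∫ x in (-σ.a)..σ.a, ‖D.F a x‖ ^ 2 :=
      intervalIntegral.integral_nonneg (by linarith) fun _ _ => by positivity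
    rw [← Finset.sum_filter]
    simp only [g, Finset.sum_add_distrib, ← Finset.mul_sum, mass]
    by_cases hb : a ∈ σ.B
    · have h2 := hG a hb j hj
      have h3 : ∑ i ∈ (grid (L.μ a) (-σ.a) σ.a).filter (fun i => (j : ℤ) ∣ i),
          (if old (a, i) then 3 / 2 * (L.μ a * (a.1 * σ.lam)) else 0) ≤
          3 / 2 * (L.μ a * ∑ _i ∈ (grid (L.μ a) (σ.l a) (σ.r a)).filter (fun i => (j : ℤ) ∣ i),
            (a.1 * σ.lam)) := by
        rw [← Finset.sum_filter, Finset.mul_sum, Finset.mul_sum]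
        have : (0 : ℝ) ≤ a.1 := by exact_mod_cast (D.pos _ ha).fst_nonneg
        refine Finset.sum_le_sum_of_subset_of_nonneg (fun i hi => ?_) fun _ _ _ => by positivity
        obtain ⟨h4, h5⟩ := Finset.mem_filter.1 hi
        exact Finset.mem_filter.2 ⟨h5.2, (Finset.mem_filter.1 h4).2⟩
      rw [if_pos hb]
      linarith
    · have h3 : ∑ i ∈ (grid (L.μ a) (-σ.a) σ.a).filter (fun i => (j : ℤ) ∣ i),
          (if old (a, i) then 3 / 2 * (L.μ a * (a.1 * σ.lam)) else 0) = 0 :=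
        Finset.sum_eq_zero fun i _ => if_neg fun h => hb h.1
      rw [if_neg hb, h3]
      linarith
  refine s1.trans ((s2 _ fun q hq => Finset.sum_nonneg fun _ _ => ?_).trans ?_)
  · split_ifs
    · exact hg0 q hq
    · exact le_rfl
  calc _ ≤ ∑ a ∈ D.A, ∑ a' ∈ D.A,
        (3 / 4 * (if Par a a' ∧ sz a' < sz a then mass σ D a else 0) + 3 * η) := by
        refine Finset.sum_le_sum fun a ha => ?_
        rw [Finset.sum_comm]
        refine Finset.sum_le_sum fun a' _ => ?_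
        by_cases hp : Par a a' ∧ sz a' < sz a
        · simp only [hp, true_and, if_true, and_self]
          exact s3 a ha _ (hkk2 a a')
        · simp only [hp, false_and, if_false, Finset.sum_const_zero]
          positivity
    _ = _ := by
        simp only [Finset.sum_add_distrib, ← Finset.mul_sum, Gam, Finset.sum_const, nsmul_eq_mul]
        ring

end Crest.Agent.R81
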