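import Crest.Agent.R81.GS
import Crest.Agent.R81.Gam
import Crest.Agent.R81.DeSel

/-!
# R81 / De

The de-parallelising stage.
`d` from `σ.sep.thicken` (`th_mono`); `gs` with `ε` and `d/2`; labels from `exists_label` (`ρ = 2`);
`η = ε/(3 (#A² + 1))`.  For fixed `N Z m n P`, `μ a = δ * c a` with `c a > 0` and `hw a = δ * c' a` do not
depend on `ϑ`; eventually in `δ` the hypotheses of `de_select` and `gam_le` hold (`riemann_sub` composed
with `Tendsto (fun δ => δ * c) (𝓝[>] 0) (𝓝[>] 0)`; for `hG` take the constant function `b.1 λ`).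
`SelfSep` of `ln q`: `SepI.image` with `Out.freq` (`Finset.image_singleton`; `ℓ λ' a' ≤ hw`).

Auxiliary lemmas: put them in the namespace `Crest.Agent.R81.DeAux` (avoid name clashes).
-/

set_option autoImplicit false

open MeasureTheory Set Filter Topology
open scoped InnerProductSpace ComplexConjugate

namespace Crest.Agent.R81

namespace DeAux

theorem tendsto_mul {c : ℝ} (hc : 0 < c) :
    Tendsto (fun δ : ℝ => δ * c) (𝓝[>] 0) (𝓝[>] 0) := by
  refine tendsto_nhdsWithin_iff.2 ⟨?_, ?_⟩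
  · have h : Tendsto (fun δ : ℝ => δ * c) (𝓝 0) (𝓝 (0 * c)) :=
      (continuous_id.mul continuous_const).tendsto 0
    rw [zero_mul] at h
    exact h.mono_left nhdsWithin_le_nhds
  · filter_upwards [self_mem_nhdsWithin] with δ hδ
    exact mul_pos hδ hc

end DeAux

open DeAux GSAux

theorem stageDe (σ : St) (D : FD) (hB : σ.B ⊆ D.A) (k : ℕ) {ε : ℝ} (hε : 0 < ε) (N₀ : ℕ) :
    ∃ (σ' : St) (D' : FD), σ'.B ⊆ D'.A ∧ σ.Near k ε σ' ∧ ‖fv σ' D' - fv σ D‖ ≤ ε ∧ σ'.Full ∧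
      1 - 2 * σ'.a ≤ ε ∧ Gam σ' D' ≤ 3 / 4 * Gam σ D + ε ∧ (∀ a ∈ D'.A, σ'.SelfSep a) ∧
      ∃ (K : NG) (N : ℕ), N₀ ≤ N ∧ σ'.H = σ.H * K ∧ KShape K.1 N := by
  classical
  have hlam := σ.lam_pos
  have ha0 := σ.prof.pos
  have hth := σ.sep.thicken fun b hb =>
    th_mono σ.φ σ.β hlam.le (σ.pos b hb).le (σ.lr b hb).2.1
  obtain ⟨d, hsep, hd⟩ := (hth.and self_mem_nhdsWithin).exists
  have hd : 0 < d := hd
  obtain ⟨ε₁, hε₁, N, hN0, hNpos, hbig, hgs⟩ := gs σ D hB k hε (half_pos hd) N₀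
  obtain ⟨n, hn, -⟩ := exists_label hB D.pos σ.npar hbig 2 le_rfl
  obtain ⟨Z, m, P, hZ, hm, hP, hev⟩ := hgs n hn
  set η : ℝ := ε / (3 * ((D.A.card : ℝ) ^ 2 + 1)) with hηdef
  have hη : 0 < η := by positivity
  have hell : ∀ a ∈ D.A, (0 : ℝ) < ell N a := fun a ha => by
    exact_mod_cast ell_pos hbig ha (D.pos a ha)
  have hPpos : ∀ a ∈ D.A, (0 : ℝ) < P a := fun a ha => by
    have := hP a ha
    have : 0 < P a := Nat.pos_of_ne_zero fun h => by rw [h] at this; omega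
    exact_mod_cast this
  have hN' : (0 : ℝ) < N := by exact_mod_cast hNpos
  set c : Md → ℝ := fun a => N / (ell N a * σ.lam * P a) with hc
  have hcpos : ∀ a ∈ D.A, 0 < c a := fun a ha => by
    have := hell a ha; have := hPpos a ha; simp only [hc]; positivity
  have d1 : ∀ᶠ δ in 𝓝[>] (0 : ℝ), ∀ a ∈ D.A, ell N a * (Z / m) / 2 * δ ≤ min (d / 2) (1 / 4) :=
    (Finset.eventually_all _).2 fun a _ => ev_mul _ (by positivity)
  have d2 : ∀ᶠ δ in 𝓝[>] (0 : ℝ), ∀ a ∈ D.A,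
      c a * ((2 * (ell N a * σ.lam) + 3) * (ell N a + 1)) * δ ≤ ε₁ :=
    (Finset.eventually_all _).2 fun a _ => ev_mul _ hε₁
  have d3 : ∀ᶠ δ in 𝓝[>] (0 : ℝ), ∀ a ∈ D.A, ∀ j : ℕ, 2 ≤ j →
      δ * c a * ∑ i ∈ (grid (δ * c a) (-σ.a) σ.a).filter (fun i => (j : ℤ) ∣ i),
        ‖D.F a (i * (δ * c a))‖ ^ 2 ≤ (∫ x in (-σ.a)..σ.a, ‖D.F a x‖ ^ 2) / 2 + η := by
    refine (Finset.eventually_all _).2 fun a ha => ?_
    exact (tendsto_mul (hcpos a ha)).eventually
      (riemann_sub (h := fun x => ‖D.F a x‖ ^ 2) ((D.smooth a).continuous.norm.pow 2)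
        (fun x => by positivity) (by linarith) hη)
  have d4 : ∀ᶠ δ in 𝓝[>] (0 : ℝ), ∀ b ∈ σ.B, ∀ j : ℕ, 2 ≤ j →
      δ * c b * ∑ _i ∈ (grid (δ * c b) (σ.l b) (σ.r b)).filter (fun i => (j : ℤ) ∣ i),
        (b.1 * σ.lam) ≤ σ.massB b / 2 + η := by
    refine (Finset.eventually_all _).2 fun b hb => ?_
    have hb1 : (0 : ℝ) < b.1 := by exact_mod_cast σ.pos b hb
    have := (tendsto_mul (hcpos b (hB hb))).eventually
      (riemann_sub (h := fun _ => b.1 * σ.lam) continuous_const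
        (fun x => by positivity) (σ.lr b hb).2.1 hη)
    rw [intervalIntegral.integral_const, smul_eq_mul] at this
    exact this
  obtain ⟨δ, ⟨ϑ, hcen, hout⟩, h1, h2, h3, h4, hδ⟩ :=
    (hev.and (d1.and (d2.and (d3.and (d4.and self_mem_nhdsWithin))))).exists
  have hδ : 0 < δ := hδ
  set L : LS := ⟨N, Z, m, n, P, δ, ϑ, σ.lam⟩ with hLdef
  have hL : L.OK σ.B D.A := ⟨hNpos, hbig, hn, hZ, hm, hP, hδ, hlam, D.pos⟩
  have hμ : ∀ a, L.μ a = δ * c a := fun a => by simp only [LS.μ, hLdef, hc]; ring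
  have hhw : ∀ a, L.hw a = ell N a * (Z / m) / 2 * δ := fun a => by
    simp only [LS.hw, LS.lam', hLdef]; ring
  obtain ⟨KB, KF, hkept, hold, hss⟩ := de_select σ D hB L hL hε₁.le hsep hcen
    (fun a ha => by
      have := h1 a ha
      rw [hhw]
      exact ⟨this.trans (min_le_left _ _), (this.trans (min_le_right _ _)).trans_lt (by norm_num)⟩)
    (fun a ha => by
      have := h2 a ha
      rw [hμ]
      change δ * c a * ((2 * (ell N a * σ.lam) + 3) * (ell N a + 1)) ≤ ε₁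
      linarith)
  obtain ⟨σ', D', ho⟩ := hout KB KF hkept
  have hG := gam_le σ D hB L hL rfl hkept hold ho hη.le
    (fun a ha => by rw [hμ]; exact h3 a ha) (fun b hb => by rw [hμ]; exact h4 b hb)
  refine ⟨σ', D', ?_, ho.near, ho.fv, ho.full, ho.wide, hG.trans ?_, fun a ha => ?_, ?_⟩
  · rw [ho.B, ho.A]; exact Finset.image_subset_image hkept.sub
  · have : 3 * η * (D.A.card : ℝ) ^ 2 ≤ ε := by
      rw [hηdef, mul_div_assoc', div_mul_eq_mul_div, div_le_iff₀ (by positivity)]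
      nlinarith [sq_nonneg (D.A.card : ℝ)]
    linarith
  · rw [ho.A] at ha
    obtain ⟨q, hq, rfl⟩ := Finset.mem_image.1 ha
    have hqA := (hkept.mem q hq).1
    have := (hss q hq).image L.ln (fun c => σ'.θ c (-σ'.a)) (fun c => σ'.θ c σ'.a) (by
      intro q' hq'
      rw [Finset.mem_singleton.1 hq']
      obtain ⟨j, hj⟩ := ho.freq q hqA
      refine ⟨j, ?_, ?_⟩
      · simp only [hj, LS.hw]
        have h5 := mul_pos (hL.ell_pos' hqA) hL.lam'_pos
        have h6 := σ'.prof.lt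
        nlinarith
      · simp only [hj, LS.hw]
        have h5 := mul_pos (hL.ell_pos' hqA) hL.lam'_pos
        have h6 := σ'.prof.lt
        nlinarith)
    simpa [St.SelfSep] using this
  · obtain ⟨K, hK1, hK2⟩ := ho.shape
    exact ⟨K, N, hN0, hK1, hK2⟩

end Crest.Agent.R81
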