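import Mathlib

/-!
# Row 81 (S0108): a smooth volume preserving diffeomorphism of `T³` with simple Lebesgue spectrum

Approximation by conjugation with *shears* in place of rotations.

A **state** `σ` consists of a nice diffeomorphism `H`, a shear
`S (x, y₁, y₂) = (x, y₁ + φ + λ Ω'(x), y₂ + β)` (`Ω' x = x` on `[-a, a]`) and a vector
`gp = ∑_{b ∈ B} amp_b(x) 1_{[l_b, r_b]}(x) e(b · y)`.  The Koopman operator of `S` multiplies the
mode `b` by `e(θ_b x)`, `θ_b x = b₁ (φ + λ x) + b₂ β`; since `|amp_b|² = b₁ λ`, the spectral measure of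
the mode `b` is Lebesgue measure on the arc `[θ_b l_b, θ_b r_b]`; the arcs and their negatives are
pairwise disjoint modulo `1`.  Hence `G = 2 Re (gp ∘ H⁻¹)` has, for `T = H S H⁻¹`, a spectral measure
that is Lebesgue measure restricted to a set of co-measure `gap = 1 - ‖G‖²`.

A **stage** replaces `H` by `H K`, `K (u, v, s) = (u + M s, N (v + V) + s, v + V)`, and `S` by a much
slower shear `S'` with `K S' K⁻¹` close to `S`; every mode `a` breaks up into *lines*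
`(N a₁ + a₂, a₁ + N R i)` whose arcs form a comb (chirp + Gauss sum).  Old modes of `B` get filling
combs, new modes get sparse combs: this is how a given function is captured into the cyclic space.
All definitions used by the files of `R81/` are here.
-/

set_option autoImplicit false

open MeasureTheory Set Filter Topology

namespace Crest.Agent.R81

/-- the circle `ℝ/ℤ` -/
abbrev S1 : Type := UnitAddCircle
/-- the three-torus as a product -/
abbrev TT : Type := S1 × S1 × S1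
/-- its universal cover (sup norm) -/
abbrev R3 : Type := ℝ × ℝ × ℝ
/-- Fourier modes in the last two coordinates -/
abbrev Md : Type := ℤ × ℤ

instance instProbS1 : IsProbabilityMeasure (volume : Measure S1) :=
  ⟨by rw [AddCircle.measure_univ]; simp⟩

instance instProbS1S1 : IsProbabilityMeasure (volume : Measure (S1 × S1)) := by
  rw [Measure.volume_eq_prod]; infer_instance

instance instProbTT : IsProbabilityMeasure (volume : Measure TT) := by
  rw [Measure.volume_eq_prod]; infer_instance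

/-- covering projection -/
def pr (x : R3) : TT := ((x.1 : S1), (x.2.1 : S1), (x.2.2 : S1))

/-- the representative in `(-1/2, 1/2]` -/
noncomputable def rep (z : S1) : ℝ := (AddCircle.equivIoc 1 (-1 / 2) z : ℝ)

/-- `e t = exp (2 π i t)` -/
noncomputable def e (t : ℝ) : ℂ := Complex.exp (2 * Real.pi * Complex.I * t)

/-! ### Nice diffeomorphisms and their Koopman operators -/

/-- `F` is a smooth lift of `T` -/
def Lifts (T : TT → TT) (F : R3 → R3) : Prop :=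
  ContDiff ℝ (⊤ : ℕ∞) F ∧ ∀ x, T (pr x) = pr (F x)

/-- smooth measure preserving permutations with smooth measure preserving inverse -/
def NG : Subgroup (Equiv.Perm TT) where
  carrier := {T | (∃ F, Lifts T F) ∧ (∃ F, Lifts T.symm F) ∧
    MeasurePreserving T volume volume ∧ MeasurePreserving T.symm volume volume}
  mul_mem' := by
    rintro S T ⟨⟨F, hF, hF'⟩, ⟨G, hG, hG'⟩, h1, h2⟩ ⟨⟨F₁, hF₁, hF₁'⟩, ⟨G₁, hG₁, hG₁'⟩, h3, h4⟩
    refine ⟨⟨F ∘ F₁, hF.comp hF₁, fun x => ?_⟩, ⟨G₁ ∘ G, hG₁.comp hG, fun x => ?_⟩,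
      h1.comp h3, h4.comp h2⟩
    · simp [hF₁', hF']
    · change T.symm (S.symm (pr x)) = _
      simp [hG₁', hG']
  one_mem' := ⟨⟨id, contDiff_id, fun _ => rfl⟩, ⟨id, contDiff_id, fun _ => rfl⟩,
    MeasurePreserving.id _, MeasurePreserving.id _⟩
  inv_mem' := by
    rintro T ⟨h1, h2, h3, h4⟩
    exact ⟨h2, h1, h4, h3⟩

/-- complex `L²` -/
abbrev L2 : Type := Lp ℂ 2 (volume : Measure TT)
/-- real `L²` -/
abbrev L2R : Type := Lp ℝ 2 (volume : Measure TT)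

/-- Koopman operator `f ↦ f ∘ T` on complex `L²` -/
noncomputable def Uc (T : NG) : L2 →ₗᵢ[ℂ] L2 :=
  Lp.compMeasurePreservingₗᵢ ℂ (T.1 : TT → TT) T.2.2.2.1

/-- Koopman operator `f ↦ f ∘ T` on real `L²` -/
noncomputable def Ur (T : NG) : L2R →ₗᵢ[ℝ] L2R :=
  Lp.compMeasurePreservingₗᵢ ℝ (T.1 : TT → TT) T.2.2.2.1

/-- `f ↦ 2 Re f` -/
noncomputable def Re2 : L2 →L[ℝ] L2R :=
  (2 : ℝ) • Complex.reCLM.compLpL 2 (volume : Measure TT)

/-- a real continuous function as an element of real `L²` -/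
noncomputable def cR (f : C(TT, ℝ)) : L2R := ContinuousMap.toLp 2 volume ℝ f

/-- a complex continuous function as an element of complex `L²` -/
noncomputable def cC (f : C(TT, ℂ)) : L2 := ContinuousMap.toLp 2 volume ℂ f

/-- complexification of a real continuous function -/
noncomputable def cx (f : C(TT, ℝ)) : C(TT, ℂ) :=
  ⟨fun z => (f z : ℂ), Complex.continuous_ofReal.comp f.continuous⟩

open Classical in
/-- the class of `f` in `L²` (junk value `0`) -/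
noncomputable def mk (f : TT → ℂ) : L2 := if h : MemLp f 2 volume then h.toLp f else 0

/-- the function `A(x) e(b · y)` -/
noncomputable def wv (A : ℝ → ℂ) (b : Md) (z : TT) : ℂ :=
  A (rep z.1) * fourier b.1 z.2.1 * fourier b.2 z.2.2

/-- the vector `A(x) e(b · y)` -/
noncomputable def W (A : ℝ → ℂ) (b : Md) : L2 := mk (wv A b)

/-- bounded measurable amplitudes -/
def Good (A : ℝ → ℂ) : Prop := Measurable A ∧ ∃ C : ℝ, ∀ x, ‖A x‖ ≤ C

/-- `A 1_{[l, r]}` -/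
noncomputable def cut (A : ℝ → ℂ) (l r : ℝ) : ℝ → ℂ := indicator (Icc l r) A

/-- characters of the torus -/
noncomputable def chr (n : ℤ × Md) (z : TT) : ℂ :=
  fourier n.1 z.1 * fourier n.2.1 z.2.1 * fourier n.2.2 z.2.2

/-! ### `C^k` closeness -/

/-- a smooth map with derivatives of order `≤ k` bounded by `ε` -/
def Sm (k : ℕ) (ε : ℝ) (D : R3 → R3) : Prop :=
  ContDiff ℝ (⊤ : ℕ∞) D ∧ ∀ j ≤ k, ∀ x, ‖iteratedFDeriv ℝ j D x‖ ≤ ε

/-- `T' = T + D` with `D` small in `C^k` -/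
def Close (k : ℕ) (ε : ℝ) (T T' : TT → TT) : Prop :=
  ∃ D, Sm k ε D ∧ ∀ x, T' (pr x) = T (pr x) + pr (D x)

/-- closeness of the maps and of their inverses -/
def Close2 (k : ℕ) (ε : ℝ) (T T' : NG) : Prop :=
  Close k ε T.1 T'.1 ∧ Close k ε (T⁻¹).1 (T'⁻¹).1

/-- uniform closeness of the maps and of their inverses -/
def Close0 (ε : ℝ) (T T' : NG) : Prop :=
  ∀ z, dist (T.1 z) (T'.1 z) ≤ ε ∧ dist ((T⁻¹).1 z) ((T'⁻¹).1 z) ≤ ε

/-! ### Modes -/

/-- determinant of two modes -/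
def det (a b : Md) : ℤ := a.1 * b.2 - a.2 * b.1
/-- parallel modes -/
def Par (a b : Md) : Prop := det a b = 0
instance (a b : Md) : Decidable (Par a b) := inferInstanceAs (Decidable (det a b = 0))
/-- the positive half of `ℤ² \ 0` -/
def Pos (a : Md) : Prop := 0 < a.1 ∨ (a.1 = 0 ∧ 0 < a.2)
/-- size of a mode -/
def sz (a : Md) : ℤ := |a.1| + |a.2|
/-- pairwise non-parallel -/
def NPar (A : Finset Md) : Prop := ∀ a ∈ A, ∀ a' ∈ A, Par a a' → a = a'

/-- the closed intervals `[α b, β b]` (`b ∈ s`) and their negatives are pairwise disjoint modulo `1`,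
and each of them is shorter than `1` -/
def SepI {ι : Type} (s : Finset ι) (α β : ι → ℝ) : Prop :=
  ∀ b ∈ s, ∀ b' ∈ s, ∀ t ∈ Icc (α b) (β b), ∀ t' ∈ Icc (α b') (β b'), ∀ n : ℤ,
    t + t' ≠ n ∧ (t - t' = n → b = b' ∧ n = 0)

/-- the union of the arcs and their negatives on the circle -/
def arcs {ι : Type} (s : Finset ι) (α β : ι → ℝ) : Set S1 :=
  ⋃ b ∈ s, ((fun t : ℝ => (t : S1)) '' Icc (α b) (β b) ∪
    (fun t : ℝ => ((-t : ℝ) : S1)) '' Icc (α b) (β b))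

/-- the real trigonometric polynomial `∑ c_k e(k t)` -/
noncomputable def trig (c : ℤ →₀ ℝ) (t : ℝ) : ℂ := c.sum fun k ck => (ck : ℂ) * e (k * t)

/-! ### States -/

/-- a smooth periodic profile, quadratic on `[-a, a]` -/
structure IsProf (a : ℝ) (Ω : ℝ → ℝ) : Prop where
  pos : 0 < a
  lt : a < 1 / 2
  smooth : ContDiff ℝ (⊤ : ℕ∞) Ω
  per : Function.Periodic Ω 1
  val : ∀ x ∈ Icc (-a) a, Ω x = x ^ 2 / 2
  der : ∀ x ∈ Icc (-a) a, deriv Ω x = x

/-- `S` is the shear with profile `Ω` -/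
def IsShear (S : TT → TT) (Ω : ℝ → ℝ) (φ lam β : ℝ) : Prop :=
  ∀ x y₁ y₂ : ℝ, S (pr (x, y₁, y₂)) = pr (x, y₁ + (φ + lam * deriv Ω x), y₂ + β)

/-- frequency of the mode `b` at `x` -/
def th (φ lam β : ℝ) (b : Md) (x : ℝ) : ℝ := b.1 * (φ + lam * x) + b.2 * β

/-- a state of the construction -/
structure St where
  H : NG
  S : NG
  a : ℝ
  Ω : ℝ → ℝ
  φ : ℝ
  lam : ℝ
  β : ℝ
  B : Finset Md
  l : Md → ℝ
  r : Md → ℝ
  amp : Md → ℝ → ℂ
  prof : IsProf a Ω
  lam_pos : 0 < lam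
  shear : IsShear S.1 Ω φ lam β
  pos : ∀ b ∈ B, 0 < b.1
  npar : NPar B
  lr : ∀ b ∈ B, -a ≤ l b ∧ l b ≤ r b ∧ r b ≤ a
  smooth : ∀ b, ContDiff ℝ (⊤ : ℕ∞) (amp b)
  norm_amp : ∀ b ∈ B, ∀ x, ‖amp b x‖ ^ 2 = b.1 * lam
  sep : SepI B (fun b => th φ lam β b (l b)) (fun b => th φ lam β b (r b))

namespace St

/-- frequency function -/
def θ (σ : St) (b : Md) (x : ℝ) : ℝ := th σ.φ σ.lam σ.β b x
/-- the mode `b` of the state vector -/
noncomputable def w (σ : St) (b : Md) : L2 := W (cut (σ.amp b) (σ.l b) (σ.r b)) b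
/-- the state vector in shear coordinates -/
noncomputable def gp (σ : St) : L2 := ∑ b ∈ σ.B, σ.w b
/-- the diffeomorphism -/
def T (σ : St) : NG := σ.H * σ.S * σ.H⁻¹
/-- the complex state vector -/
noncomputable def Gp (σ : St) : L2 := Uc σ.H⁻¹ σ.gp
/-- the real state vector -/
noncomputable def G (σ : St) : L2R := Re2 σ.Gp
/-- the co-measure of the spectral support -/
noncomputable def gap (σ : St) : ℝ := 1 - ‖σ.G‖ ^ 2
/-- spectral mass (= arc length) of a mode -/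
def massB (σ : St) (b : Md) : ℝ := (σ.r b - σ.l b) * (b.1 * σ.lam)
/-- all intervals are `[-a, a]` -/
def Full (σ : St) : Prop := ∀ b ∈ σ.B, σ.l b = -σ.a ∧ σ.r b = σ.a
/-- the full arc of the mode `b` does not meet its negative and is shorter than `1` -/
def SelfSep (σ : St) (b : Md) : Prop :=
  SepI ({b} : Finset Md) (fun c => σ.θ c (-σ.a)) (fun c => σ.θ c σ.a)
/-- closeness of states -/
def Near (k : ℕ) (ε : ℝ) (σ σ' : St) : Prop :=
  Close2 k ε σ.T σ'.T ∧ ‖σ'.Gp - σ.Gp‖ ≤ ε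
/-- `σ'` is `σ` with more modes -/
structure Ext (σ σ' : St) : Prop where
  H : σ'.H = σ.H
  S : σ'.S = σ.S
  a : σ'.a = σ.a
  φ : σ'.φ = σ.φ
  lam : σ'.lam = σ.lam
  β : σ'.β = σ.β
  sub : σ.B ⊆ σ'.B
  l : ∀ b ∈ σ.B, σ'.l b = σ.l b
  r : ∀ b ∈ σ.B, σ'.r b = σ.r b
  amp : ∀ b ∈ σ.B, σ'.amp b = σ.amp b

end St

/-- a finite family of smooth amplitudes on positive modes (the function to be captured) -/
structure FD where
  A : Finset Md
  F : Md → ℝ → ℂ
  smooth : ∀ a, ContDiff ℝ (⊤ : ℕ∞) (F a)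
  pos : ∀ a ∈ A, Pos a

/-- the vector of the data `D` in the coordinates of `σ` -/
noncomputable def fv (σ : St) (D : FD) : L2 :=
  Uc σ.H⁻¹ (∑ a ∈ D.A, W (cut (D.F a) (-σ.a) σ.a) a)

/-- total mass carried by the mode `a` -/
noncomputable def mass (σ : St) (D : FD) (a : Md) : ℝ :=
  (∫ x in (-σ.a)..σ.a, ‖D.F a x‖ ^ 2) + if a ∈ σ.B then σ.massB a else 0

/-- mass of the dominated modes, with multiplicity -/
noncomputable def Gam (σ : St) (D : FD) : ℝ :=
  ∑ a ∈ D.A, ∑ a' ∈ D.A, if Par a a' ∧ sz a' < sz a then mass σ D a else 0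

/-! ### Stages -/

/-- the shape of the conjugacy of a stage -/
def KShape (K : TT → TT) (N : ℕ) : Prop :=
  ∃ (M : ℕ) (V : ℝ → ℝ → ℝ), 0 < M ∧ ∀ u v s : ℝ,
    K (pr (u, v, s)) = pr (u + M * s, N * (v + V u s) + s, v + V u s)

/-- the shape of the conjugacy of a stage, with the chirp `g x²` and the phases `Θ` -/
def KForm (K : TT → TT) (N m : ℕ) (a a' g : ℝ) (Θ : ℤ → ℝ) : Prop :=
  ∃ V : ℝ → ℝ → ℝ, (∀ u v s : ℝ,
    K (pr (u, v, s)) = pr (u + (m * N : ℕ) * s, N * (v + V u s) + s, v + V u s)) ∧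
    ∀ (u s x : ℝ) (j : ℤ), |u| ≤ a' → |x| ≤ a → u + (m * N : ℕ) * s = j + x →
      V u s = g * x ^ 2 + Θ j

/-- first coordinate of the lines of `a` -/
def ell (N : ℕ) (a : Md) : ℤ := N * a.1 + a.2

/-- the `i`-th line of the mode `a` -/
def line (N R : ℕ) (a : Md) (i : ℤ) : Md := (ell N a, a.1 + N * R * i)

/-- `N` is large with respect to the finite set `A` -/
def NBig (A : Finset Md) (N : ℕ) : Prop :=
  ∀ a ∈ A, ∀ a' ∈ A, 2 * |a.2| < N ∧ |det a a'| < N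

/-- admissible labels of the rays -/
structure Label (B A : Finset Md) (N : ℕ) (n : Md → ℕ) : Prop where
  one_le : ∀ a ∈ A, 1 ≤ n a
  par : ∀ a ∈ A, ∀ a' ∈ A, n a = n a' ↔ Par a a'
  old : ∀ b ∈ B, (n b : ℤ) = ell N b

/-- the integers `i` with `i μ ∈ [l, r]` (for `μ > 0`) -/
noncomputable def grid (μ l r : ℝ) : Finset ℤ := Finset.Icc ⌈l / μ⌉ ⌊r / μ⌋

/-- normalised discrete Fourier transform -/
noncomputable def dft (m : ℕ) (z : ℤ → ℂ) (κ : ℤ) : ℂ :=
  (1 / m : ℂ) * ∑ j ∈ Finset.range m, z j * e (-(κ * j / m))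

/-- chirp transform -/
noncomputable def chirp (A : ℝ → ℂ) (γ ξ : ℝ) : ℂ :=
  ∫ x in (-1 / 2 : ℝ)..(1 / 2), A x * e (γ * x ^ 2 - ξ * x)

/-- the pull back under `K` of the mode `A 1_{[l, r]} e(b · y)` is approximated by its lines -/
def LineOK (K : NG) (N R P : ℕ) (μ a' : ℝ) (A : ℝ → ℂ) (l r : ℝ) (b : Md) (ε₁ ε : ℝ) : Prop :=
  ∃ τ : ℤ → ℂ, (∀ i, ‖τ i‖ = 1) ∧ ∀ I : Finset ℤ, I ⊆ grid μ l r →
    μ * ((grid μ l r \ I).card : ℝ) ≤ ε₁ →
    ‖Uc K (W (cut A l r) b) - ∑ i ∈ I, W (cut (fun u => τ i * (Real.sqrt μ : ℂ) * A (i * μ) *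
      e (i * u / P)) (-a') a') (line N R b i)‖ ≤ ε

/-- the parameters of a system of lines -/
structure LS where
  N : ℕ
  Z : ℕ
  m : ℕ
  n : Md → ℕ
  P : Md → ℕ
  δ : ℝ
  ϑ : Md → ℝ
  lam : ℝ

namespace LS

/-- period of the comb -/
def R (L : LS) (a : Md) : ℕ := L.Z * L.n a + 1
/-- the line with index `q = (a, i)` -/
def ln (L : LS) (q : Md × ℤ) : Md := line L.N (L.R q.1) q.1 q.2
/-- mesh: the line `(a, i)` sits over the point `i μ` -/
noncomputable def μ (L : LS) (a : Md) : ℝ := L.δ * L.N / (ell L.N a * L.lam * L.P a)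
/-- the new slope -/
noncomputable def lam' (L : LS) : ℝ := L.δ * L.Z / L.m
/-- centre of the arc of a line (modulo `1`) -/
noncomputable def cen (L : LS) (q : Md × ℤ) : ℝ := L.ϑ q.1 + q.2 * (L.δ / L.P q.1)
/-- bound for the half length of the arc of a line -/
noncomputable def hw (L : LS) (a : Md) : ℝ := ell L.N a * L.lam' / 2

/-- the standing hypotheses on a system of lines -/
structure OK (L : LS) (B A : Finset Md) : Prop where
  N_pos : 0 < L.N
  big : NBig A L.N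
  label : Label B A L.N L.n
  Z_pos : 0 < L.Z
  m_pos : 0 < L.m
  PR : ∀ a ∈ A, L.P a * L.R a = L.m
  δ_pos : 0 < L.δ
  lam_pos : 0 < L.lam
  pos : ∀ a ∈ A, Pos a

end LS

open Classical in
/-- admissible choices of kept lines: `KB` for the state vector, `KF` for the data -/
structure Kept (σ : St) (D : FD) (L : LS) (ε₁ : ℝ) (KB KF : Finset (Md × ℤ)) : Prop where
  sub : KB ⊆ KF
  mem : ∀ q ∈ KF, q.1 ∈ D.A ∧ q.2 ∈ grid (L.μ q.1) (-σ.a) σ.a
  npar : ∀ q ∈ KB, ∀ q' ∈ KB, Par q.1 q'.1 → q.1 = q'.1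
  missF : ∀ a ∈ D.A,
    L.μ a * ((grid (L.μ a) (-σ.a) σ.a).filter fun i => (a, i) ∉ KF).card ≤ ε₁
  missB : ∀ b ∈ σ.B,
    L.μ b * ((grid (L.μ b) (σ.l b) (σ.r b)).filter fun i => (b, i) ∉ KB).card ≤ ε₁
  added : ∑ q ∈ KB.filter (fun q => ¬ (q.1 ∈ σ.B ∧ q.2 ∈ grid (L.μ q.1) (σ.l q.1) (σ.r q.1))),
    ell L.N q.1 * L.lam' ≤ ε₁
  sep : SepI KB (fun q => L.cen q - L.hw q.1) (fun q => L.cen q + L.hw q.1)

/-- the state and data produced by a stage from the kept lines -/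
structure Out (σ : St) (D : FD) (L : LS) (k : ℕ) (ε : ℝ) (KB KF : Finset (Md × ℤ))
    (σ' : St) (D' : FD) : Prop where
  B : σ'.B = KB.image L.ln
  A : D'.A = KF.image L.ln
  near : σ.Near k ε σ'
  fv : ‖fv σ' D' - fv σ D‖ ≤ ε
  full : σ'.Full
  wide : 1 - 2 * σ'.a ≤ ε
  lam : σ'.lam = L.lam'
  freq : ∀ q : Md × ℤ, q.1 ∈ D.A → ∃ n : ℤ, ∀ u : ℝ,
    σ'.θ (L.ln q) u = L.cen q + ell L.N q.1 * L.lam' * u + n
  normF : ∀ q ∈ KF, ∀ u, ‖D'.F (L.ln q) u‖ ^ 2 = L.μ q.1 * ‖D.F q.1 (q.2 * L.μ q.1)‖ ^ 2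
  ratio : ∀ b ∈ σ'.B, ∃ κ : ℂ, ∀ u, D'.F b u = κ * σ'.amp b u
  shape : ∃ K : NG, σ'.H = σ.H * K ∧ KShape K.1 L.N

/-- conclusion of the general stage lemma for the system of lines `L` -/
def GSout (σ : St) (D : FD) (k : ℕ) (ε ε₁ d : ℝ) (L : LS) : Prop :=
  (∀ a ∈ D.A, ∀ i : ℤ, |i * L.μ a| ≤ 1 / 2 → |L.cen (a, i) - σ.θ a (i * L.μ a)| ≤ d) ∧
  ∀ KB KF, Kept σ D L ε₁ KB KF → ∃ σ' D', Out σ D L k ε KB KF σ' D'

/-- the polynomial `∑ c_k U_T^k` applied to `G` -/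
noncomputable def poly (c : ℤ →₀ ℝ) (T : NG) (G : L2R) : L2R :=
  c.sum fun k ck => ck • Ur (T ^ k) G

end Crest.Agent.R81
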