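import Crest.Agent.R81.Spec

/-!
# R81 / Drop

Dropping the dominated modes.  `A' = A.filter (¬ ∃ a' ∈ A, Par a a' ∧ sz a' < sz a)`, `B' = B ∩ A'`
(`σ' = { σ with B := .., pos := .., ..}`, `SepI.mono`).  `NPar A'` by `eq_of_par_sz`.  Each dominated
`a` contributes at least `mass σ D a` to `Gam` (all terms are nonnegative, `Finset.single_le_sum`), and
`mass ≥ massB` on `B`, `mass ≥ ∫ ‖F‖²`.  `St.Ext.norm_Gp`, `norm_sum_W_sq`, `norm_W_cut_sq`.

Auxiliary lemmas: put them in the namespace `Crest.Agent.R81.DropAux` (avoid name clashes).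
-/

set_option autoImplicit false

open MeasureTheory Set Filter Topology
open scoped InnerProductSpace ComplexConjugate

namespace Crest.Agent.R81

theorem mass_nonneg (σ : St) (D : FD) (a : Md) : 0 ≤ mass σ D a := by
  have h0 : 0 ≤ ∫ x in (-σ.a)..σ.a, ‖D.F a x‖ ^ 2 :=
    intervalIntegral.integral_nonneg (by linarith [σ.prof.pos]) fun _ _ => by positivity
  simp only [mass]
  split_ifs with h
  · linarith [σ.massB_nonneg h]
  · linarith

theorem Gam_nonneg (σ : St) (D : FD) : 0 ≤ Gam σ D := by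
  refine Finset.sum_nonneg fun a _ => Finset.sum_nonneg fun a' _ => ?_
  split_ifs
  · exact mass_nonneg _ _ _
  · exact le_rfl

theorem drop (σ : St) (D : FD) (hB : σ.B ⊆ D.A) :
    ∃ (σ' : St) (D' : FD), σ'.Ext σ ∧ σ'.B ⊆ D'.A ∧ D'.A ⊆ D.A ∧ NPar D'.A ∧
      ‖σ'.Gp - σ.Gp‖ ^ 2 ≤ Gam σ D ∧ ‖fv σ' D' - fv σ D‖ ^ 2 ≤ Gam σ D := by
  classical
  let dom : Md → Prop := fun a => ∃ a' ∈ D.A, Par a a' ∧ sz a' < sz a
  let A' := D.A.filter fun a => ¬ dom a
  let B' := σ.B.filter fun a => ¬ dom a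
  have hsub : B' ⊆ σ.B := Finset.filter_subset _ _
  let σ' : St := { σ with
    B := B'
    pos := fun b hb => σ.pos b (hsub hb)
    npar := fun a ha a' ha' => σ.npar a (hsub ha) a' (hsub ha')
    lr := fun b hb => σ.lr b (hsub hb)
    norm_amp := fun b hb => σ.norm_amp b (hsub hb)
    sep := σ.sep.mono hsub fun _ _ => ⟨le_rfl, le_rfl⟩ }
  let D' : FD := ⟨A', D.F, D.smooth, fun a ha => D.pos a (Finset.mem_filter.1 ha).1⟩
  have hext : σ'.Ext σ := ⟨rfl, rfl, rfl, rfl, rfl, rfl, hsub, fun _ _ => rfl, fun _ _ => rfl,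
    fun _ _ => rfl⟩
  have hG : ∑ a ∈ D.A.filter dom, mass σ D a ≤ Gam σ D := by
    rw [Finset.sum_filter]
    refine Finset.sum_le_sum fun a _ => ?_
    have h0 : ∀ a' ∈ D.A, 0 ≤ if Par a a' ∧ sz a' < sz a then mass σ D a else 0 := fun a' _ => by
      split_ifs
      · exact mass_nonneg _ _ _
      · exact le_rfl
    split_ifs with h
    · obtain ⟨a', ha', h⟩ := h
      have := Finset.single_le_sum h0 ha'
      rwa [if_pos h] at this
    · exact Finset.sum_nonneg h0
  have hF0 : ∀ a, 0 ≤ ∫ x in (-σ.a)..σ.a, ‖D.F a x‖ ^ 2 := fun a =>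
    intervalIntegral.integral_nonneg (by linarith [σ.prof.pos]) fun _ _ => by positivity
  refine ⟨σ', D', hext, fun b hb => ?_, Finset.filter_subset _ _, fun a ha a' ha' hp => ?_, ?_, ?_⟩
  · obtain ⟨h1, h2⟩ := Finset.mem_filter.1 hb
    exact Finset.mem_filter.2 ⟨hB h1, h2⟩
  · obtain ⟨h1, h2⟩ := Finset.mem_filter.1 ha
    obtain ⟨h1', h2'⟩ := Finset.mem_filter.1 ha'
    refine eq_of_par_sz (D.pos a h1) (D.pos a' h1') hp ?_
    by_contra hne
    rcases lt_or_gt_of_ne hne with h | h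
    · exact h2' ⟨a, h1, hp.symm, h⟩
    · exact h2 ⟨a', h1', hp, h⟩
  · rw [norm_sub_rev, hext.norm_Gp]
    refine le_trans ?_ hG
    have hs : σ.B \ B' ⊆ D.A.filter dom := fun b hb => by
      obtain ⟨h1, h2⟩ := Finset.mem_sdiff.1 hb
      refine Finset.mem_filter.2 ⟨hB h1, ?_⟩
      by_contra h3
      exact h2 (Finset.mem_filter.2 ⟨h1, h3⟩)
    refine le_trans (Finset.sum_le_sum fun b hb => ?_)
      (Finset.sum_le_sum_of_subset_of_nonneg hs fun _ _ _ => mass_nonneg _ _ _)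
    simp only [mass, if_pos (Finset.mem_sdiff.1 hb).1]
    linarith [hF0 b]
  · have h1 : fv σ D - fv σ' D' =
        Uc σ.H⁻¹ (∑ a ∈ D.A.filter dom, W (cut (D.F a) (-σ.a) σ.a) a) := by
      simp only [fv]
      rw [← Finset.sum_filter_add_sum_filter_not D.A dom, map_add]
      exact add_sub_cancel_right _ _
    rw [norm_sub_rev, h1, LinearIsometry.norm_map, norm_sum_W_sq _ (fun b => b) (fun _ _ _ _ h => h)
      fun a _ => good_cut (D.smooth a).continuous _ _]
    refine le_trans (Finset.sum_le_sum fun a _ => ?_) hG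
    have h2 := σ.prof.pos
    have h3 := σ.prof.lt
    rw [norm_W_cut_sq (D.smooth a).continuous (by linarith) (by linarith) h3]
    simp only [mass]
    split_ifs with h
    · linarith [σ.massB_nonneg h]
    · linarith

end Crest.Agent.R81
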