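import Crest.Agent.R81.Basic

/-!
# R81 / Fam

`C^k` closeness and smooth families.
`fam_close`: let `FH`, `GH` be lifts of `H`, `H⁻¹` and
`D p x = FH (Fam (p, GH x)) - FH (Fam (p₀, GH x))`, jointly smooth, `D p₀ = 0`.
* `T'(pr x) = T(pr x) + pr (D p x)` for the conjugated maps (`pr_sub`).
* Periodicity: for `n ∈ ℤ³` and fixed `x`, `p ↦ D p (x + n) - D p x` is continuous with
  `pr (..) = 0`, i.e. each coordinate is an integer; it vanishes at `p₀`; a normed space is
  preconnected, so it vanishes identically (`IsPreconnected.constant`-type lemmas, e.g.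
  `IsPreconnected.intermediate_value` or discreteness of the range of `Int.cast`).
  Hence `iteratedFDeriv j (D p) (x + n) = iteratedFDeriv j (D p) x` (`iteratedFDeriv_comp_add_right`).
* `(p, x) ↦ iteratedFDeriv j (D p) x` is continuous: `D p = D̃ ∘ (x ↦ (p, 0) + inr x)`, use
  `iteratedFDeriv_comp_add_left` and `ContinuousLinearMap.iteratedFDeriv_comp_right`; only the bound
  `‖iteratedFDeriv j (D p) x‖` small is needed.  It vanishes at `p = p₀`.  Tube lemma on the compact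
  cube (`IsCompact.eventually_forall_of_forall_eventually`), finitely many `j ≤ k`.

Auxiliary lemmas: put them in the namespace `Crest.Agent.R81.FamAux` (avoid name clashes).
-/

set_option autoImplicit false

open MeasureTheory Set Filter Topology
open scoped InnerProductSpace ComplexConjugate

namespace Crest.Agent.R81

namespace FamAux

theorem int_valued_zero {P : Type} [TopologicalSpace P] [PreconnectedSpace P] {h : P → ℝ}
    (hc : Continuous h) (hi : ∀ p, ∃ n : ℤ, h p = n) {p₀ : P} (h0 : h p₀ = 0) (p : P) : h p = 0 := by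
  by_contra hne
  obtain ⟨n, hn⟩ := hi p
  have hn0 : n ≠ 0 := by
    rintro rfl
    exact hne (by simpa using hn)
  have h1 : (1 : ℝ) ≤ |h p| := by
    rw [hn]
    exact_mod_cast Int.one_le_abs hn0
  have := intermediate_value_univ p₀ p (f := fun q => |h q|) hc.abs
  obtain ⟨q, hq⟩ := this (show (1 / 2 : ℝ) ∈ Icc (|h p₀|) (|h p|) from
    ⟨by rw [h0]; norm_num, by linarith⟩)
  obtain ⟨m, hm⟩ := hi q
  simp only [hm] at hq
  have h2 : (2 * |m| : ℤ) = 1 := by
    have : (2 * |(m : ℝ)|) = 1 := by linarith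
    exact_mod_cast this
  omega

theorem pr_valued_zero {P : Type} [TopologicalSpace P] [PreconnectedSpace P] {g : P → R3}
    (hc : Continuous g) (hi : ∀ p, pr (g p) = 0) {p₀ : P} (h0 : g p₀ = 0) (p : P) : g p = 0 := by
  have h : ∀ p, ∃ n₁ n₂ n₃ : ℤ, (g p).1 = n₁ ∧ (g p).2.1 = n₂ ∧ (g p).2.2 = n₃ := by
    intro p
    have := pr_eq_iff.1 ((hi p).trans pr_zero.symm)
    simpa using this
  refine Prod.ext ?_ (Prod.ext ?_ ?_)
  · exact int_valued_zero (h := fun p => (g p).1) hc.fst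
      (fun p => by obtain ⟨a, b, c, h1, -, -⟩ := h p; exact ⟨a, h1⟩) (p₀ := p₀) (by simp [h0]) p
  · exact int_valued_zero (h := fun p => (g p).2.1) hc.snd.fst
      (fun p => by obtain ⟨a, b, c, -, h1, -⟩ := h p; exact ⟨b, h1⟩) (p₀ := p₀) (by simp [h0]) p
  · exact int_valued_zero (h := fun p => (g p).2.2) hc.snd.snd
      (fun p => by obtain ⟨a, b, c, -, -, h1⟩ := h p; exact ⟨c, h1⟩) (p₀ := p₀) (by simp [h0]) p

theorem iter_slice {P : Type} [NormedAddCommGroup P] [NormedSpace ℝ P] {D : P × R3 → R3}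
    (hD : ContDiff ℝ (⊤ : ℕ∞) D) (j : ℕ) (p : P) (x : R3) :
    iteratedFDeriv ℝ j (fun x => D (p, x)) x =
      (iteratedFDeriv ℝ j D (p, x)).compContinuousLinearMap
        (fun _ => ContinuousLinearMap.inr ℝ P R3) := by
  have h1 : (fun x => D (p, x)) =
      (fun z => D (((p, 0) : P × R3) + z)) ∘ ContinuousLinearMap.inr ℝ P R3 := by
    funext x
    simp
  have h2 : ContDiff ℝ (⊤ : ℕ∞) (fun z => D (((p, 0) : P × R3) + z)) :=
    hD.comp (contDiff_const.add contDiff_id)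
  rw [h1, ContinuousLinearMap.iteratedFDeriv_comp_right _ h2 _ (by exact_mod_cast le_top),
    iteratedFDeriv_comp_add_left]
  simp

end FamAux

theorem Close.mono {k k' : ℕ} {ε ε' : ℝ} {T T' : TT → TT} (h : Close k ε T T') (hk : k' ≤ k)
    (hε : ε ≤ ε') : Close k' ε' T T' := by
  obtain ⟨D, ⟨h1, h2⟩, h3⟩ := h
  exact ⟨D, ⟨h1, fun j hj x => (h2 j (hj.trans hk) x).trans hε⟩, h3⟩

theorem Close.refl (k : ℕ) {ε : ℝ} (hε : 0 ≤ ε) (T : TT → TT) : Close k ε T T := by
  refine ⟨fun _ => 0, ⟨contDiff_const, fun j _ x => ?_⟩, fun x => by simp [pr_zero]⟩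
  simpa using hε

theorem Close.trans {k : ℕ} {ε ε' : ℝ} {T T' T'' : TT → TT} (h : Close k ε T T')
    (h' : Close k ε' T' T'') : Close k (ε + ε') T T'' := by
  obtain ⟨D, ⟨h1, h2⟩, h3⟩ := h
  obtain ⟨D', ⟨h1', h2'⟩, h3'⟩ := h'
  refine ⟨D + D', ⟨h1.add h1', fun j hj x => ?_⟩, fun x => ?_⟩
  · rw [iteratedFDeriv_add_apply (h1.contDiffAt.of_le (by exact_mod_cast le_top))
      (h1'.contDiffAt.of_le (by exact_mod_cast le_top))]
    exact (norm_add_le _ _).trans (add_le_add (h2 j hj x) (h2' j hj x))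
  · rw [h3', h3, Pi.add_apply, pr_add, add_assoc]

theorem Close.dist_le {k : ℕ} {ε : ℝ} {T T' : TT → TT} (h : Close k ε T T') (z : TT) :
    dist (T z) (T' z) ≤ ε := by
  obtain ⟨D, ⟨-, h2⟩, h3⟩ := h
  obtain ⟨x, rfl⟩ := pr_surjective z
  rw [h3, dist_self_add_right]
  refine (norm_pr_le _).trans ?_
  simpa using h2 0 (Nat.zero_le _) x

theorem Close2.mono {k k' : ℕ} {ε ε' : ℝ} {T T' : NG} (h : Close2 k ε T T') (hk : k' ≤ k)
    (hε : ε ≤ ε') : Close2 k' ε' T T' :=
  ⟨h.1.mono hk hε, h.2.mono hk hε⟩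

theorem Close2.refl (k : ℕ) {ε : ℝ} (hε : 0 ≤ ε) (T : NG) : Close2 k ε T T :=
  ⟨Close.refl k hε _, Close.refl k hε _⟩

theorem Close2.trans {k : ℕ} {ε ε' : ℝ} {T T' T'' : NG} (h : Close2 k ε T T')
    (h' : Close2 k ε' T' T'') : Close2 k (ε + ε') T T'' :=
  ⟨h.1.trans h'.1, h.2.trans h'.2⟩

theorem St.Near.mono {k : ℕ} {ε ε' : ℝ} {σ σ' : St} (h : σ.Near k ε σ') (hε : ε ≤ ε') :
    σ.Near k ε' σ' :=
  ⟨h.1.mono le_rfl hε, h.2.trans hε⟩

theorem St.Near.trans {k : ℕ} {ε ε' : ℝ} {σ σ' σ'' : St} (h : σ.Near k ε σ')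
    (h' : σ'.Near k ε' σ'') : σ.Near k (ε + ε') σ'' := by
  refine ⟨h.1.trans h'.1, ?_⟩
  have := norm_sub_le_norm_sub_add_norm_sub σ''.Gp σ'.Gp σ.Gp
  linarith [h.2, h'.2]

theorem fam_close {P : Type} [NormedAddCommGroup P] [NormedSpace ℝ P] (H : NG)
    (Fam : P × R3 → R3) (hs : ContDiff ℝ (⊤ : ℕ∞) Fam)
    (hc : ∀ p x x', pr x = pr x' → pr (Fam (p, x)) = pr (Fam (p, x'))) (p₀ : P) (k : ℕ) {ε : ℝ}
    (hε : 0 < ε) :
    ∀ᶠ p in 𝓝 p₀, ∀ T T' : TT → TT, (∀ x, T (pr x) = pr (Fam (p₀, x))) →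
      (∀ x, T' (pr x) = pr (Fam (p, x))) →
      Close k ε (fun z => H.1 (T ((H⁻¹).1 z))) (fun z => H.1 (T' ((H⁻¹).1 z))) := by
  obtain ⟨FH, hF, hF'⟩ := NG_lifts H
  obtain ⟨GH, hG, hG'⟩ := NG_lifts H⁻¹
  let D : P × R3 → R3 := fun q => FH (Fam (q.1, GH q.2)) - FH (Fam (p₀, GH q.2))
  have hD : ContDiff ℝ (⊤ : ℕ∞) D :=
    (hF.comp (hs.comp (contDiff_fst.prodMk (hG.comp contDiff_snd)))).sub
      (hF.comp (hs.comp (contDiff_const.prodMk (hG.comp contDiff_snd))))
  have hD0 : ∀ x, D (p₀, x) = 0 := fun x => sub_self _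
  have hper : ∀ p x x', pr x = pr x' → D (p, x) = D (p, x') := by
    intro p x x' hx
    have h1 : ∀ p, pr (FH (Fam (p, GH x))) = pr (FH (Fam (p, GH x'))) := by
      intro p
      rw [← hF', ← hF', hc p (GH x) (GH x') (by rw [← hG', ← hG', hx])]
    have h2 := FamAux.pr_valued_zero (g := fun p => D (p, x) - D (p, x'))
      ((hD.continuous.comp (continuous_id.prodMk continuous_const)).sub
        (hD.continuous.comp (continuous_id.prodMk continuous_const)))
      (fun p => by simp only [D, pr_sub, h1, sub_self]) (p₀ := p₀) (by simp [hD0]) p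
    exact sub_eq_zero.1 h2
  have hev : ∀ j : ℕ, ∀ᶠ p in 𝓝 p₀, ∀ x ∈ Metric.closedBall (0 : R3) 1,
      ‖iteratedFDeriv ℝ j (fun x => D (p, x)) x‖ ≤ ε := by
    intro j
    refine (isCompact_closedBall (0 : R3) 1).eventually_forall_of_forall_eventually
      (P := fun p x => ‖iteratedFDeriv ℝ j (fun x => D (p, x)) x‖ ≤ ε) fun y _ => ?_
    have hcont : Continuous fun z : P × R3 => ‖iteratedFDeriv ℝ j (fun x => D (z.1, x)) z.2‖ := by
      simp only [FamAux.iter_slice hD]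
      exact ((ContinuousMultilinearMap.compContinuousLinearMapL
        (fun _ : Fin j => ContinuousLinearMap.inr ℝ P R3)).continuous.comp
        (hD.continuous_iteratedFDeriv (by exact_mod_cast le_top))).norm
    have h0 : ‖iteratedFDeriv ℝ j (fun x => D ((p₀, y).1, x)) (p₀, y).2‖ < ε := by
      simp only [hD0]
      simpa using hε
    exact (hcont.continuousAt.eventually_lt continuousAt_const h0).mono fun z hz => hz.le
  have hall : ∀ᶠ p in 𝓝 p₀, ∀ j ∈ Finset.range (k + 1), ∀ x ∈ Metric.closedBall (0 : R3) 1,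
      ‖iteratedFDeriv ℝ j (fun x => D (p, x)) x‖ ≤ ε :=
    (Finset.eventually_all _).2 fun j _ => hev j
  filter_upwards [hall] with p hp T T' hT hT'
  refine ⟨fun x => D (p, x), ⟨hD.comp (contDiff_const.prodMk contDiff_id), fun j hj x => ?_⟩,
    fun x => ?_⟩
  · set x₀ : R3 := (rep (pr x).1, rep (pr x).2.1, rep (pr x).2.2) with hx₀
    have h1 : pr x₀ = pr x := pr_rep _
    have h2 : x₀ ∈ Metric.closedBall (0 : R3) 1 := by
      have h : ∀ z, ‖rep z‖ ≤ 1 := fun z => by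
        have := rep_mem z
        rw [Real.norm_eq_abs, abs_le]
        constructor <;> linarith [this.1, this.2]
      simp only [mem_closedBall_zero_iff, hx₀, Prod.norm_def]
      exact max_le (h _) (max_le (h _) (h _))
    have h3 : (fun z => D (p, z + (x - x₀))) = fun z => D (p, z) := by
      funext z
      exact hper p _ _ (by rw [pr_add, pr_sub, h1, sub_self, add_zero])
    have h4 := iteratedFDeriv_comp_add_right (𝕜 := ℝ) (f := fun z => D (p, z)) j (x - x₀) x₀
    rw [h3, add_sub_cancel] at h4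
    rw [← h4]
    exact hp j (Finset.mem_range.2 (Nat.lt_succ_of_le hj)) x₀ h2
  · simp only [hG', hT, hT', hF', D, pr_sub]
    abel

end Crest.Agent.R81
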