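import Crest.Agent.R81.Basic

/-!
# R81 / Fill1

One-dimensional filling of the gaps.
Take `n` large and `η = 1/(8 n²)`-like tiny; cells `α' j = j/(2n) + η`, `β' j = (j + 1)/(2n) - η`,
`j < n`, all inside `(0, 1/2)` and pairwise disjoint.  `J` = the `j < n` such that no `t' ∈ [α' j, β' j]`,
`b ∈ s`, `t ∈ [α b, β b]`, `k : ℤ` satisfy `t + t' = k` or `t - t' = k`.  If `j` is bad through `b, t`, then
`j* = ⌊2 n t⌋ ∈ Finset.Icc ⌊2 n α b⌋ ⌊2 n β b⌋` and `j = fold j*` where `fold i = i % (2n)` if this is `< n`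
and `2n - 1 - i % (2n)` otherwise.  So the number of bad cells is at most
`∑_b (2 n (β b - α b) + 2)`, and the new total length is
`#J (1/(2n) - 2η) ≥ 1/2 - ∑ (β - α) - #s/n - 2 n η`.

Auxiliary lemmas: put them in the namespace `Crest.Agent.R81.Fill1Aux` (avoid name clashes).
-/

set_option autoImplicit false

open MeasureTheory Set Filter Topology
open scoped InnerProductSpace ComplexConjugate

namespace Crest.Agent.R81

namespace Fill1Aux

/-- folding of `ℤ` onto `{0, …, n - 1}` -/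
def fold (n : ℕ) (i : ℤ) : ℕ :=
  (if i % (2 * n) < n then i % (2 * n) else 2 * n - 1 - i % (2 * n)).toNat

theorem fold_pos {n j : ℕ} (hj : j < n) (k : ℤ) : fold n (j + 2 * n * k) = j := by
  rw [fold, Int.add_mul_emod_self_left, Int.emod_eq_of_lt (by omega) (by omega),
    if_pos (by omega), Int.toNat_natCast]

theorem fold_neg {n j : ℕ} (hj : j < n) (k : ℤ) : fold n (2 * n * k - j - 1) = j := by
  rw [show 2 * n * k - j - 1 = (2 * n - 1 - j : ℤ) + 2 * n * (k - 1) by ring, fold,
    Int.add_mul_emod_self_left, Int.emod_eq_of_lt (by omega) (by omega), if_neg (by omega)]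
  omega

theorem card_Icc_floor {a b : ℝ} (h : a ≤ b) : ((Finset.Icc ⌊a⌋ ⌊b⌋).card : ℝ) ≤ b - a + 2 := by
  have h1 : ⌊a⌋ ≤ ⌊b⌋ := Int.floor_mono h
  rw [Int.card_Icc, ← Int.cast_natCast, Int.toNat_of_nonneg (by omega)]
  push_cast
  linarith [Int.floor_le b, Int.lt_floor_add_one a]

theorem not_int {t : ℝ} {n : ℤ} (h0 : 0 < t) (h1 : t < 1) : t ≠ n := by
  rintro rfl
  have : 0 < n := by exact_mod_cast h0
  have : n < 1 := by exact_mod_cast h1
  omega

end Fill1Aux

open Fill1Aux in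
theorem fill1D {ι : Type} (s : Finset ι) (α β : ι → ℝ) (h : SepI s α β)
    (hle : ∀ b ∈ s, α b ≤ β b) {γ : ℝ} (hγ : 0 < γ) :
    ∃ (J : Finset ℕ) (α' β' : ℕ → ℝ), (∀ j ∈ J, α' j ≤ β' j ∧ β' j - α' j ≤ 1) ∧
      SepI (s.disjSum J) (Sum.elim α α') (Sum.elim β β') ∧
      1 - γ ≤ 2 * ∑ b ∈ s, (β b - α b) + 2 * ∑ j ∈ J, (β' j - α' j) := by
  classical
  obtain ⟨n, hn⟩ := exists_nat_ge ((2 * s.card + 1) / γ)
  have hx : (0 : ℝ) < n := lt_of_lt_of_le (by positivity) hn
  have hx1 : (1 : ℝ) ≤ n := by exact_mod_cast (by exact_mod_cast hx : 0 < n)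
  set ε : ℝ := 1 / (2 * n) with hε
  have e0 : 0 < ε := by positivity
  have e1 : ε * (2 * n) = 1 := by rw [hε]; field_simp
  have e2 : ε ≤ 1 / 2 := by nlinarith
  let α' : ℕ → ℝ := fun j => (j + ε) * ε
  let β' : ℕ → ℝ := fun j => (j + 1 - ε) * ε
  have hm : ∀ j t, t ∈ Icc (α' j) (β' j) → (j : ℝ) < 2 * n * t ∧ 2 * n * t < j + 1 := by
    intro j t ht
    have h1 := mul_le_mul_of_nonneg_right ht.1 (show (0 : ℝ) ≤ 2 * n by positivity)
    have h2 := mul_le_mul_of_nonneg_right ht.2 (show (0 : ℝ) ≤ 2 * n by positivity)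
    simp only [α', β', mul_assoc, e1] at h1 h2
    constructor <;> linarith
  have hm' : ∀ j < n, ∀ t, t ∈ Icc (α' j) (β' j) → 0 < t ∧ t < 1 / 2 := by
    intro j hj t ht
    obtain ⟨h1, h2⟩ := hm j t ht
    have h3 : (j : ℝ) + 1 ≤ n := by exact_mod_cast hj
    have h4 : (0 : ℝ) ≤ j := Nat.cast_nonneg j
    constructor <;> nlinarith
  let bad : ℕ → Prop := fun j => ∃ b ∈ s, ∃ t ∈ Icc (α b) (β b), ∃ t' ∈ Icc (α' j) (β' j),
    ∃ k : ℤ, t + t' = k ∨ t - t' = k
  refine ⟨(Finset.range n).filter fun j => ¬ bad j, α', β', fun j _ => ?_, ?_, ?_⟩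
  · simp only [α', β']
    constructor <;> nlinarith
  · rintro (b | j) hb (b' | j') hb' t ht t' ht' k
    · obtain ⟨h1, h2⟩ := h b (by simpa using hb) b' (by simpa using hb') t ht t' ht' k
      exact ⟨h1, fun e => ⟨by rw [(h2 e).1], (h2 e).2⟩⟩
    · rw [Finset.inr_mem_disjSum, Finset.mem_filter] at hb'
      rw [Finset.inl_mem_disjSum] at hb
      exact ⟨fun e => hb'.2 ⟨b, hb, t, ht, t', ht', k, Or.inl e⟩,
        fun e => (hb'.2 ⟨b, hb, t, ht, t', ht', k, Or.inr e⟩).elim⟩
    · rw [Finset.inr_mem_disjSum, Finset.mem_filter] at hb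
      rw [Finset.inl_mem_disjSum] at hb'
      exact ⟨fun e => hb.2 ⟨b', hb', t', ht', t, ht, k, Or.inl (by linarith)⟩,
        fun e => (hb.2 ⟨b', hb', t', ht', t, ht, -k, Or.inr (by push_cast; linarith)⟩).elim⟩
    · rw [Finset.inr_mem_disjSum, Finset.mem_filter, Finset.mem_range] at hb hb'
      obtain ⟨a1, a2⟩ := hm' j hb.1 t ht
      obtain ⟨a3, a4⟩ := hm' j' hb'.1 t' ht'
      refine ⟨not_int (by linarith) (by linarith), fun e => ?_⟩
      have k1 : (-1 : ℤ) < k := by exact_mod_cast (show (-1 : ℝ) < k by linarith)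
      have k2 : k < 1 := by exact_mod_cast (show (k : ℝ) < 1 by linarith)
      have k3 : k = 0 := by omega
      rw [k3, Int.cast_zero, sub_eq_zero] at e
      subst e
      obtain ⟨c1, c2⟩ := hm j t ht
      obtain ⟨c3, c4⟩ := hm j' t ht'
      have c5 : j < j' + 1 := by exact_mod_cast c1.trans c4
      have c6 : j' < j + 1 := by exact_mod_cast c3.trans c2
      exact ⟨by rw [show j = j' by omega], k3⟩
  · have h1 : (Finset.range n).filter bad ⊆ s.biUnion fun b =>
        (Finset.Icc ⌊2 * n * α b⌋ ⌊2 * n * β b⌋).image (fold n) := by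
      intro j hj
      obtain ⟨hj, b, hb, t, ht, t', ht', k, hk⟩ := Finset.mem_filter.1 hj
      rw [Finset.mem_range] at hj
      obtain ⟨c1, c2⟩ := hm j t' ht'
      refine Finset.mem_biUnion.2 ⟨b, hb, Finset.mem_image.2 ⟨⌊2 * n * t⌋, Finset.mem_Icc.2
        ⟨Int.floor_mono (mul_le_mul_of_nonneg_left ht.1 (by positivity)),
          Int.floor_mono (mul_le_mul_of_nonneg_left ht.2 (by positivity))⟩, ?_⟩⟩
      rcases hk with hk | hk
      · rw [← fold_neg hj k]
        congr 1
        rw [Int.floor_eq_iff, eq_sub_of_add_eq hk]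
        push_cast
        constructor <;> linarith
      · rw [← fold_pos hj k]
        congr 1
        rw [Int.floor_eq_iff, eq_add_of_sub_eq hk]
        push_cast
        constructor <;> linarith
    have h2 : (((Finset.range n).filter bad).card : ℝ) ≤
        2 * n * ∑ b ∈ s, (β b - α b) + 2 * s.card := by
      have h3 : (((Finset.range n).filter bad).card : ℝ) ≤
          ∑ b ∈ s, ((Finset.Icc ⌊2 * n * α b⌋ ⌊2 * n * β b⌋).card : ℝ) := by
        exact_mod_cast (Finset.card_le_card h1).trans (Finset.card_biUnion_le.trans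
          (Finset.sum_le_sum fun b _ => Finset.card_image_le))
      refine h3.trans ((Finset.sum_le_sum fun b hb => card_Icc_floor
        (mul_le_mul_of_nonneg_left (hle b hb) (by positivity))).trans (le_of_eq ?_))
      simp only [← mul_sub, Finset.sum_add_distrib, ← Finset.mul_sum, Finset.sum_const,
        nsmul_eq_mul]
      ring
    have h3 : (((Finset.range n).filter bad).card : ℝ) +
        ((Finset.range n).filter fun j => ¬ bad j).card = n := by
      exact_mod_cast (Finset.card_filter_add_card_filter_not (s := Finset.range n) bad).trans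
        (Finset.card_range n)
    have h4 : ∀ j, β' j - α' j = (1 - 2 * ε) * ε := fun j => by simp only [α', β']; ring
    simp only [h4, Finset.sum_const, nsmul_eq_mul]
    have h5 : (0 : ℝ) ≤ ((Finset.range n).filter bad).card := Nat.cast_nonneg _
    generalize (((Finset.range n).filter bad).card : ℝ) = B at h2 h3 h5
    generalize (((Finset.range n).filter fun j => ¬ bad j).card : ℝ) = G at h3 ⊢
    generalize ∑ b ∈ s, (β b - α b) = L at h2 ⊢
    rw [div_le_iff₀ hγ] at hn
    refine le_of_mul_le_mul_right ?_ hx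
    have h6 : 2 * (G * ((1 - 2 * ε) * ε)) * n = G * (1 - 2 * ε) := by
      linear_combination G * (1 - 2 * ε) * e1
    have h7 : G * (2 * ε) ≤ 1 := by nlinarith
    nlinarith

end Crest.Agent.R81
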