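import Crest.Agent.R81.Spec
import Crest.Agent.R81.Fill1

/-!
# R81 / Fill

Filling the spectral gap with new modes.  Apply `fill1D` to `σ.sep`.  Let `L₀ : ℕ` exceed all `b.1`
(`b ∈ B`) and satisfy `2 a L₀ λ ≥ 2`.  The new modes are `md j = (L₀ + j, 1)`, `j ∈ J`: not parallel to each
other nor to any `b ∈ B` (`det (ℓ, 1) b = ℓ b.2 - b.1`, `0 < b.1 < ℓ`), in particular not in `B`.
`θ (md j)` is affine with slope `(L₀ + j) λ` and maps `[-a, a]` onto an interval of length `≥ 2`, so there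
are an integer `n` and `-a ≤ l ≤ r ≤ a` with `θ l = α' j + n`, `θ r = β' j + n`
(`n = ⌈θ (-a) - α' j⌉`).  Define `l, r, amp` by `if b ∈ σ.B then old else new`, where for the new modes
the index is `(b.1 - L₀).toNat` and `amp b = fun _ => √(b.1 λ)`.  Separation:
`B' = (B.disjSum J).image (Sum.elim id md)` and `SepI.image`.  Then `gap_eq`, `massB_eq`.

Auxiliary lemmas: put them in the namespace `Crest.Agent.R81.FillAux` (avoid name clashes).
-/

set_option autoImplicit false

open MeasureTheory Set Filter Topology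
open scoped InnerProductSpace ComplexConjugate

namespace Crest.Agent.R81

theorem fill (σ : St) {γ : ℝ} (hγ : 0 < γ) : ∃ σ' : St, σ.Ext σ' ∧ σ'.gap ≤ γ := by
  classical
  have ha0 := σ.prof.pos
  have hl := σ.lam_pos
  have hle : ∀ b ∈ σ.B, σ.θ b (σ.l b) ≤ σ.θ b (σ.r b) := fun b hb =>
    th_mono σ.φ σ.β σ.lam_pos.le (σ.pos b hb).le (σ.lr b hb).2.1
  obtain ⟨J, α', β', hJ, hsep, hlen⟩ :=
    fill1D σ.B (fun b => σ.θ b (σ.l b)) (fun b => σ.θ b (σ.r b)) σ.sep hle hγ
  have e1 : ∀ᶠ L : ℕ in atTop, ∀ b ∈ σ.B, b.1 < L := (Finset.eventually_all _).2 fun b _ =>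
    (tendsto_natCast_atTop_atTop (R := ℤ)).eventually_gt_atTop _
  have e2 : ∀ᶠ L : ℕ in atTop, 1 / (σ.a * σ.lam) ≤ L :=
    (tendsto_natCast_atTop_atTop (R := ℝ)).eventually_ge_atTop _
  obtain ⟨L, hL1, hL2, hL3⟩ := (e1.and (e2.and (eventually_gt_atTop 0))).exists
  let md : ℕ → Md := fun j => (L + j, 1)
  have hmdB : ∀ j, md j ∉ σ.B := fun j hb => by
    have := hL1 _ hb
    simp only [md] at this
    omega
  have hex : ∀ j : ℕ, ∃ (n : ℤ) (l r : ℝ), j ∈ J → (-σ.a ≤ l ∧ l ≤ r ∧ r ≤ σ.a) ∧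
      σ.θ (md j) l = α' j + n ∧ σ.θ (md j) r = β' j + n := by
    intro j
    set c : ℝ := (L + j) * σ.lam with hc
    have hc0 : 0 < c := by positivity
    have hc1 : 1 ≤ σ.a * c := by
      rw [div_le_iff₀ (by positivity)] at hL2
      have : 0 ≤ j * (σ.a * σ.lam) := by positivity
      rw [hc]; nlinarith
    set t₀ := σ.θ (md j) (-σ.a) with ht₀
    have hθ : ∀ x, σ.θ (md j) x = t₀ + c * (x + σ.a) := fun x => by
      simp only [ht₀, St.θ, th, md, hc]; push_cast; ring
    refine ⟨⌈t₀ - α' j⌉, (α' j + ⌈t₀ - α' j⌉ - t₀) / c - σ.a, (β' j + ⌈t₀ - α' j⌉ - t₀) / c - σ.a,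
      fun hj => ⟨⟨?_, ?_, ?_⟩, ?_, ?_⟩⟩
    · have := Int.le_ceil (t₀ - α' j)
      have : 0 ≤ (α' j + ⌈t₀ - α' j⌉ - t₀) / c := div_nonneg (by linarith) hc0.le
      linarith
    · have := (hJ j hj).1
      gcongr
    · have := Int.ceil_lt_add_one (t₀ - α' j)
      have := (hJ j hj).2
      have : (β' j + ⌈t₀ - α' j⌉ - t₀) / c ≤ 2 * σ.a := by
        rw [div_le_iff₀ hc0]; linarith
      linarith
    · rw [hθ]; field_simp; ring
    · rw [hθ]; field_simp; ring
  choose n l r hlr using hex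
  let ix : Md → ℕ := fun b => (b.1 - L).toNat
  have hix : ∀ j, ix (md j) = j := fun j => by simp only [ix, md]; omega
  let f : Md ⊕ ℕ → Md := Sum.elim id md
  let B' : Finset Md := (σ.B.disjSum J).image f
  have hB' : ∀ b, b ∈ B' ↔ b ∈ σ.B ∨ ∃ j ∈ J, md j = b := fun b => by
    simp only [B', Finset.mem_image]
    constructor
    · rintro ⟨c | j, hc, rfl⟩
      · exact Or.inl (Finset.inl_mem_disjSum.1 hc)
      · exact Or.inr ⟨j, Finset.inr_mem_disjSum.1 hc, rfl⟩
    · rintro (h | ⟨j, hj, rfl⟩)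
      · exact ⟨Sum.inl b, Finset.inl_mem_disjSum.2 h, rfl⟩
      · exact ⟨Sum.inr j, Finset.inr_mem_disjSum.2 hj, rfl⟩
  let l' : Md → ℝ := fun b => if b ∈ σ.B then σ.l b else l (ix b)
  let r' : Md → ℝ := fun b => if b ∈ σ.B then σ.r b else r (ix b)
  let amp' : Md → ℝ → ℂ := fun b => if b ∈ σ.B then σ.amp b else fun _ => Real.sqrt (b.1 * σ.lam)
  have hl' : ∀ j, l' (md j) = l j := fun j => by simp only [l', if_neg (hmdB j), hix]
  have hr' : ∀ j, r' (md j) = r j := fun j => by simp only [r', if_neg (hmdB j), hix]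
  have hnp : ∀ b ∈ σ.B, ∀ j, ¬ Par (md j) b := fun b hb j hp => by
    have h1 := hL1 b hb
    have h2 := σ.pos b hb
    simp only [Par, det, md] at hp
    rcases lt_trichotomy b.2 0 with h | h | h
    · nlinarith
    · rw [h] at hp; omega
    · nlinarith
  let σ' : St := { σ with
    B := B'
    l := l'
    r := r'
    amp := amp'
    pos := fun b hb => by
      rcases (hB' b).1 hb with h | ⟨j, -, rfl⟩
      · exact σ.pos b h
      · simp only [md]; omega
    npar := fun b hb b' hb' hp => by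
      rcases (hB' b).1 hb with h | ⟨j, -, rfl⟩ <;> rcases (hB' b').1 hb' with h' | ⟨j', -, rfl⟩
      · exact σ.npar b h b' h' hp
      · exact absurd hp.symm (hnp b h j')
      · exact absurd hp (hnp b' h' j)
      · simp only [Par, det, md] at hp
        rw [show j = j' by omega]
    lr := fun b hb => by
      rcases (hB' b).1 hb with h | ⟨j, hj, rfl⟩
      · simp only [l', r', if_pos h]; exact σ.lr b h
      · rw [hl', hr']; exact (hlr j hj).1
    smooth := fun b => by
      simp only [amp']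
      split_ifs
      · exact σ.smooth b
      · exact contDiff_const
    norm_amp := fun b hb x => by
      rcases (hB' b).1 hb with h | ⟨j, hj, rfl⟩
      · simp only [amp', if_pos h]; exact σ.norm_amp b h x
      · simp only [amp', if_neg (hmdB j), Complex.norm_real, Real.norm_eq_abs, sq_abs]
        exact Real.sq_sqrt (by simp only [md]; push_cast; positivity)
    sep := hsep.image f _ _ (by
      rintro (b | j) hb
      · have h := Finset.inl_mem_disjSum.1 hb
        refine ⟨0, ?_⟩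
        simp [f, l', r', h, St.θ]
      · have h := Finset.inr_mem_disjSum.1 hb
        refine ⟨n j, ?_⟩
        simp only [f, Sum.elim_inr, hl', hr']
        exact ⟨(hlr j h).2.1.ge, (hlr j h).2.2.le⟩) }
  have hext : σ.Ext σ' := ⟨rfl, rfl, rfl, rfl, rfl, rfl, fun b hb => (hB' b).2 (Or.inl hb),
    fun b hb => if_pos hb, fun b hb => if_pos hb, fun b hb => if_pos hb⟩
  refine ⟨σ', hext, ?_⟩
  have hinj : Set.InjOn f (σ.B.disjSum J) := by
    rintro (b | j) hb (b' | j') hb' h
    · exact congrArg _ h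
    · have h1 : b = md j' := h
      exact absurd (h1 ▸ Finset.inl_mem_disjSum.1 hb : md j' ∈ σ.B) (hmdB j')
    · have h1 : b' = md j := h.symm
      exact absurd (h1 ▸ Finset.inl_mem_disjSum.1 hb' : md j ∈ σ.B) (hmdB j)
    · have := congrArg ix h
      simp only [f, Sum.elim_inr, hix] at this
      rw [this]
  have hsum : ∑ b ∈ σ'.B, σ'.massB b =
      ∑ b ∈ σ.B, (σ.θ b (σ.r b) - σ.θ b (σ.l b)) + ∑ j ∈ J, (β' j - α' j) := by
    change ∑ b ∈ B', _ = _
    rw [Finset.sum_image hinj, Finset.sum_disjSum]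
    congr 1
    · refine Finset.sum_congr rfl fun b hb => ?_
      simp only [f, Sum.elim_inl, id, St.massB_eq, hext.θ, hext.l b hb, hext.r b hb]
    · refine Finset.sum_congr rfl fun j hj => ?_
      simp only [f, Sum.elim_inr, St.massB_eq, hext.θ]
      change σ.θ _ (r' _) - σ.θ _ (l' _) = _
      rw [hl', hr', (hlr j hj).2.1, (hlr j hj).2.2]; ring
  rw [σ'.gap_eq, hsum]
  linarith

end Crest.Agent.R81
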