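import Crest.Agent.R81.Koop

/-!
# R81 / Final

From the `L²` statement to the statement about functions.  `g = ⇑G`.
Orthonormality: `∫ g (T^m x) g (T^n x) = ⟪Ur (T^m) G, Ur (T^n) G⟫ = ⟪Ur (T^(m-n)) G, G⟫`
(`T^m = T^(m-n) * T^n`, `Ur_mul`, `LinearIsometry.inner_map_map`).
Completeness: let `hr = toLp (re h)`, `hi = toLp (im h)` in `L2R`; both are orthogonal to all `Ur (T^n) G`
(real and imaginary part of the hypothesis), hence to all `poly c T G`, hence to `cR f` for mean zero `f`,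
and to the constants, so to all `cR f`; these are dense (`ContinuousMap.toLp_denseRange`), so `hr = hi = 0`.

Auxiliary lemmas: put them in the namespace `Crest.Agent.R81.FinalAux` (avoid name clashes).
-/

set_option autoImplicit false

open MeasureTheory Set Filter Topology
open scoped InnerProductSpace ComplexConjugate

namespace Crest.Agent.R81

namespace FinalAux

theorem eq_zero (T : NG) (G : L2R)
    (hd : ∀ f : C(TT, ℝ), ∫ z, f z = 0 → ∀ η : ℝ, 0 < η →
      ∃ c : ℤ →₀ ℝ, ‖cR f - poly c T G‖ ≤ η)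
    (v : L2R) (h0 : ∫ z, v z = 0) (h : ∀ n : ℤ, ⟪v, Ur (T ^ n) G⟫_ℝ = 0) : v = 0 := by
  have hint : ∀ f : C(TT, ℝ), Integrable f volume := fun f =>
    (BoundedContinuousFunction.mkOfCompact f).integrable _
  have h1 : ∀ c : ℤ →₀ ℝ, ⟪v, poly c T G⟫_ℝ = 0 := fun c => by
    simp only [poly, Finsupp.sum, inner_sum, inner_smul_right, h, mul_zero, Finset.sum_const_zero]
  have h2 : ∀ f : C(TT, ℝ), ∫ z, f z = 0 → ⟪v, cR f⟫_ℝ = 0 := fun f hf => by
    refine abs_nonpos_iff.1 (le_of_forall_pos_le_add fun ε hε => ?_)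
    obtain ⟨c, hc⟩ := hd f hf (ε / (‖v‖ + 1)) (by positivity)
    have h3 : ⟪v, cR f⟫_ℝ = ⟪v, cR f - poly c T G⟫_ℝ := by rw [inner_sub_right, h1, sub_zero]
    rw [h3, zero_add]
    refine (abs_real_inner_le_norm _ _).trans ?_
    calc _ ≤ (‖v‖ + 1) * (ε / (‖v‖ + 1)) := by gcongr; linarith
      _ = ε := by field_simp
  have h3 : ∀ c : ℝ, ⟪v, cR (ContinuousMap.const TT c)⟫_ℝ = 0 := fun c => by
    rw [L2.inner_def]
    have : ∫ z, ⟪v z, cR (ContinuousMap.const TT c) z⟫_ℝ = ∫ z, c * v z := by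
      refine integral_congr_ae ?_
      filter_upwards [cR_coe (ContinuousMap.const TT c)] with z hz
      rw [hz]; simp
    rw [this, integral_const_mul, h0, mul_zero]
  have h4 : ∀ f : C(TT, ℝ), ⟪v, cR f⟫_ℝ = 0 := fun f => by
    have h5 := h2 (f - ContinuousMap.const TT (∫ z, f z)) (by
      simp only [ContinuousMap.sub_apply, ContinuousMap.const_apply]
      rw [integral_sub (hint _) (integrable_const _)]
      simp)
    have h6 : cR (f - ContinuousMap.const TT (∫ z, f z)) =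
        cR f - cR (ContinuousMap.const TT (∫ z, f z)) := by simp only [cR, map_sub]
    rwa [h6, inner_sub_right, h3, sub_zero] at h5
  have hdense : DenseRange (ContinuousMap.toLp (E := ℝ) 2 (volume : Measure TT) ℝ) :=
    ContinuousMap.toLp_denseRange ℝ volume ℝ (by norm_num)
  have h7 : ∀ w : L2R, ⟪v, w⟫_ℝ = 0 := fun w =>
    hdense.induction_on (p := fun w => ⟪v, w⟫_ℝ = 0) w
      (isClosed_eq (continuous_const.inner continuous_id) continuous_const) h4
  exact inner_self_eq_zero.1 (h7 v)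

end FinalAux

open FinalAux

theorem final_TT (T : NG) (G : L2R) (h1 : ‖G‖ = 1) (h0 : ∫ z, G z = 0)
    (hc : ∀ k : ℤ, k ≠ 0 → ⟪Ur (T ^ k) G, G⟫_ℝ = 0)
    (hd : ∀ f : C(TT, ℝ), ∫ z, f z = 0 → ∀ η : ℝ, 0 < η →
      ∃ c : ℤ →₀ ℝ, ‖cR f - poly c T G‖ ≤ η) :
    ∃ g : TT → ℝ, MemLp g 2 volume ∧ ∫ x, g x = 0 ∧
      (∀ m n : ℤ, ∫ x, g ((T.1 ^ m) x) * g ((T.1 ^ n) x) = if m = n then 1 else 0) ∧
      (∀ h : TT → ℂ, MemLp h 2 volume → ∫ x, h x = 0 →
        (∀ n : ℤ, ∫ x, h x * (g ((T.1 ^ n) x) : ℂ) = 0) → h =ᵐ[volume] 0) := by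
  have hU : ∀ n : ℤ, Ur (T ^ n) G =ᵐ[volume] fun x => G ((T.1 ^ n) x) := fun n => by
    have := Ur_coe (T ^ n) G
    rwa [Subgroup.coe_zpow] at this
  refine ⟨G, Lp.memLp G, h0, fun m n => ?_, fun h hh hh0 hhn => ?_⟩
  · have e1 : ∫ x, G ((T.1 ^ m) x) * G ((T.1 ^ n) x) = ⟪Ur (T ^ m) G, Ur (T ^ n) G⟫_ℝ := by
      rw [L2.inner_def]
      refine integral_congr_ae ?_
      filter_upwards [hU m, hU n] with z h1 h2
      rw [h1, h2]; simp [mul_comm]
    have e2 : T ^ m = T ^ (m - n) * T ^ n := by rw [← zpow_add]; simp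
    rw [e1, e2, Ur_mul, LinearIsometry.inner_map_map]
    split_ifs with hmn
    · subst hmn
      rw [sub_self, zpow_zero, Ur_one, real_inner_self_eq_norm_sq, h1]; simp
    · exact hc _ (sub_ne_zero.2 hmn)
  · have key : ∀ φ : ℂ →L[ℝ] ℝ, (fun z => φ (h z)) =ᵐ[volume] 0 := by
      intro φ
      have hm : MemLp (fun z => φ (h z)) 2 volume := φ.comp_memLp' hh
      have hv := eq_zero T G hd hm.toLp ?_ fun n => ?_
      · have := hm.coeFn_toLp
        rw [hv] at this
        exact this.symm.trans (Lp.coeFn_zero _ _ _)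
      · rw [integral_congr_ae hm.coeFn_toLp, φ.integral_comp_comm (hh.integrable one_le_two), hh0,
          map_zero]
      · have hg : MemLp (fun x => (G ((T.1 ^ n) x) : ℂ)) 2 volume :=
          Complex.ofRealCLM.comp_memLp' ((memLp_congr_ae (hU n)).1 (Lp.memLp _))
        have hi : Integrable (fun x => h x * (G ((T.1 ^ n) x) : ℂ)) volume := hh.integrable_mul hg
        have := φ.integral_comp_comm hi
        rw [hhn n, map_zero] at this
        rw [L2.inner_def, ← this]
        refine integral_congr_ae ?_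
        filter_upwards [hU n, hm.coeFn_toLp] with z h1 h2
        rw [h1, h2, mul_comm, ← Complex.real_smul, map_smul]
        simp
    filter_upwards [key Complex.reCLM, key Complex.imCLM] with z h1 h2
    exact Complex.ext h1 h2

end Crest.Agent.R81
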