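import Crest.Agent.R81.Sep

/-!
# R81 / Freq

Frequencies of the lines.  With `φ' = -p/N² + φ/N`, `β' = p/N + δ/(m N)`, `ℓ = N a.1 + a.2`:
`th φ' λ' β' (ℓ, a.1 + N R i) u = ℓ φ/N - a.2 p/N² + a.1 δ/(mN) + i δ/P + ℓ λ' u + R i p`
(use `m = P R`).  Since `i δ/P = (i μ) ℓ λ/N` (`step_eq`),
`cen (a, i) - θ a (i μ) = (a.2/N)(φ + λ i μ) + a.2 (-p/N² - β) + a.1 δ/(m N)`.

Auxiliary lemmas: put them in the namespace `Crest.Agent.R81.FreqAux` (avoid name clashes).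
-/

set_option autoImplicit false

open MeasureTheory Set Filter Topology
open scoped InnerProductSpace ComplexConjugate

namespace Crest.Agent.R81

theorem freq_eq {L : LS} {B A : Finset Md} (h : L.OK B A) (φ : ℝ) (p : ℤ)
    (hϑ : ∀ a, L.ϑ a = ell L.N a * φ / L.N - a.2 * p / (L.N : ℝ) ^ 2 + a.1 * L.δ / (L.m * L.N))
    (q : Md × ℤ) (hq : q.1 ∈ A) : ∃ n : ℤ, ∀ u : ℝ,
      th (-(p : ℝ) / (L.N : ℝ) ^ 2 + φ / L.N) L.lam' (p / L.N + L.δ / (L.m * L.N)) (L.ln q) u =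
        L.cen q + ell L.N q.1 * L.lam' * u + n := by
  refine ⟨L.R q.1 * q.2 * p, fun u => ?_⟩
  have hN : (L.N : ℝ) ≠ 0 := by exact_mod_cast h.N_pos.ne'
  have hP : (L.P q.1 : ℝ) ≠ 0 := by exact_mod_cast (h.P_pos hq).ne'
  have hm : (L.m : ℝ) = L.P q.1 * L.R q.1 := by exact_mod_cast (h.PR _ hq).symm
  have hR : (L.R q.1 : ℝ) ≠ 0 := by simp only [LS.R]; positivity
  simp only [th, LS.ln, line, LS.cen, hϑ, ell, hm]
  push_cast
  field_simp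
  ring

theorem cen_sub_le {L : LS} {B A : Finset Md} (h : L.OK B A) (φ β : ℝ) (p : ℤ)
    (hp : |-(p : ℝ) / (L.N : ℝ) ^ 2 - β| ≤ 1 / L.N)
    (hϑ : ∀ a, L.ϑ a = ell L.N a * φ / L.N - a.2 * p / (L.N : ℝ) ^ 2 + a.1 * L.δ / (L.m * L.N))
    {a : Md} (ha : a ∈ A) (i : ℤ) (hi : |i * L.μ a| ≤ 1 / 2) :
    |L.cen (a, i) - th φ L.lam β a (i * L.μ a)| ≤
      |(a.2 : ℝ)| * (|φ| + L.lam + 1) / L.N + |(a.1 : ℝ)| * L.δ := by
  have hN : (0 : ℝ) < L.N := by exact_mod_cast h.N_pos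
  have hN1 : (1 : ℝ) ≤ L.N := by exact_mod_cast h.N_pos
  have hm1 : (1 : ℝ) ≤ L.m := by exact_mod_cast h.m_pos
  have hδ := h.δ_pos
  have hl := h.lam_pos
  have key : L.cen (a, i) - th φ L.lam β a (i * L.μ a) =
      a.2 * ((φ + L.lam * (i * L.μ a)) / L.N + (-(p : ℝ) / (L.N : ℝ) ^ 2 - β)) +
        a.1 * (L.δ / (L.m * L.N)) := by
    simp only [LS.cen, hϑ, h.step_eq ha, th, ell]
    push_cast
    field_simp
    ring
  rw [key]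
  refine (abs_add_le _ _).trans (add_le_add ?_ ?_)
  · rw [abs_mul, mul_div_assoc]
    refine mul_le_mul_of_nonneg_left ((abs_add_le _ _).trans ?_) (abs_nonneg _)
    have h1 : |(φ + L.lam * (i * L.μ a)) / L.N| ≤ (|φ| + L.lam) / L.N := by
      rw [abs_div, abs_of_pos hN]
      refine div_le_div_of_nonneg_right ((abs_add_le _ _).trans ?_) hN.le
      rw [abs_mul, abs_of_pos hl]
      nlinarith
    calc _ ≤ (|φ| + L.lam) / L.N + 1 / L.N := add_le_add h1 hp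
      _ = _ := by ring
  · rw [abs_mul]
    refine mul_le_mul_of_nonneg_left ?_ (abs_nonneg _)
    rw [abs_of_pos (by positivity)]
    exact div_le_self hδ.le (by nlinarith)

theorem exists_p (β : ℝ) {N : ℕ} (hN : 0 < N) :
    ∃ p : ℤ, |-(p : ℝ) / (N : ℝ) ^ 2 - β| ≤ 1 / N := by
  have hN' : (0 : ℝ) < N := by exact_mod_cast hN
  have hN1 : (1 : ℝ) ≤ N := by exact_mod_cast hN
  refine ⟨-⌊β * (N : ℝ) ^ 2⌋, ?_⟩
  have h1 := Int.floor_le (β * (N : ℝ) ^ 2)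
  have h2 := Int.lt_floor_add_one (β * (N : ℝ) ^ 2)
  have : -((-⌊β * (N : ℝ) ^ 2⌋ : ℤ) : ℝ) / (N : ℝ) ^ 2 - β =
      (⌊β * (N : ℝ) ^ 2⌋ - β * (N : ℝ) ^ 2) / (N : ℝ) ^ 2 := by
    push_cast; field_simp
  rw [this, abs_div, abs_of_pos (by positivity : (0 : ℝ) < (N : ℝ) ^ 2),
    div_le_div_iff₀ (by positivity) hN']
  have h3 : |(⌊β * (N : ℝ) ^ 2⌋ : ℝ) - β * (N : ℝ) ^ 2| ≤ 1 := abs_le.2 ⟨by linarith, by linarith⟩
  nlinarith

end Crest.Agent.R81
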