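import Crest.Agent.R81.Prof

/-!
# R81 / Quot

Smooth difference quotient (Hadamard): `Q (δ, x) = ∫₀¹ Ω'(x + t δ) dt`.
`δ Q (δ, x) = Ω (x + δ) - Ω x` by the fundamental theorem of calculus.
Joint smoothness, either
* by induction on `n`: for every smooth `g : ℝ → ℝ` and every continuous weight `w`, the function
  `(δ, x) ↦ ∫₀¹ w t * g (x + t δ) dt` is `C^n` (its Frechet derivative is
  `(∫ w t * t * g'(..)) • fst + (∫ w t * g'(..)) • snd`, by
  `intervalIntegral.hasFDerivAt_integral_of_dominated_of_fderiv_le`; use `contDiff_succ_iff_fderiv`,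
  `contDiff_infty`), or
* by `contDiffOn_convolution_right_with_param` with `f = indicator [0,1]` and the compactly supported
  kernel `g p t = χ(-t) Ω'(x - t δ)` evaluated at `0`.

Auxiliary lemmas: put them in the namespace `Crest.Agent.R81.QuotAux` (avoid name clashes).
-/

set_option autoImplicit false

open MeasureTheory Set Filter Topology
open scoped InnerProductSpace ComplexConjugate

namespace Crest.Agent.R81

namespace QuotAux

open scoped Convolution in
theorem smooth {g : ℝ → ℝ} (hg : ContDiff ℝ (⊤ : ℕ∞) g) :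
    ContDiff ℝ (⊤ : ℕ∞) fun p : ℝ × ℝ => ∫ t in (0 : ℝ)..1, g (p.2 + t * p.1) := by
  obtain ⟨χ, c1, -, c2, c3⟩ := exists_cutoff (-2) 1 1 one_pos
  have h := contDiffOn_convolution_right_with_param_comp (𝕜 := ℝ) (n := (⊤ : ℕ∞))
    (μ := (volume : Measure ℝ)) (ContinuousLinearMap.lsmul ℝ ℝ) (s := (univ : Set (ℝ × ℝ)))
    (v := fun _ => (0 : ℝ)) contDiffOn_const (f := indicator (Ioc (0 : ℝ) 1) fun _ => (1 : ℝ))
    (g := fun p s => χ s * g (p.2 - s * p.1)) (k := Icc (-2) 1) isOpen_univ isCompact_Icc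
    (fun p x _ hx => by simp only [c2 x hx, zero_mul])
    ((locallyIntegrable_const 1).indicator measurableSet_Ioc)
    (ContDiff.contDiffOn ((c1.comp contDiff_snd).mul (hg.comp
      ((contDiff_snd.comp contDiff_fst).sub (contDiff_snd.mul (contDiff_fst.comp contDiff_fst))))))
  rw [contDiffOn_univ] at h
  convert h using 2 with p
  rw [convolution_def, intervalIntegral.integral_of_le zero_le_one,
    ← integral_indicator measurableSet_Ioc]
  congr 1
  funext t
  by_cases ht : t ∈ Ioc (0 : ℝ) 1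
  · rw [indicator_of_mem ht, indicator_of_mem ht,
      c3 (0 - t) ⟨by linarith [ht.2], by linarith [ht.1]⟩]
    simp
  · rw [indicator_of_notMem ht, indicator_of_notMem ht]
    simp

end QuotAux

theorem exists_quot {Ω : ℝ → ℝ} (hΩ : ContDiff ℝ (⊤ : ℕ∞) Ω) (hper : Function.Periodic Ω 1) :
    ∃ Q : ℝ × ℝ → ℝ, ContDiff ℝ (⊤ : ℕ∞) Q ∧ (∀ δ x, δ * Q (δ, x) = Ω (x + δ) - Ω x) ∧
      (∀ x, Q (0, x) = deriv Ω x) ∧ ∀ δ x, Q (δ, x + 1) = Q (δ, x) := by
  have hd : ContDiff ℝ (⊤ : ℕ∞) (deriv Ω) := (contDiff_infty_iff_deriv.1 hΩ).2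
  have hd' : Differentiable ℝ Ω := (contDiff_infty_iff_deriv.1 hΩ).1
  refine ⟨_, QuotAux.smooth hd, fun δ x => ?_, fun x => by simp, fun δ x => ?_⟩
  · have h1 : ∀ t ∈ uIcc (0 : ℝ) 1,
        HasDerivAt (fun t => Ω (x + t * δ)) (δ * deriv Ω (x + t * δ)) t := fun t _ => by
      have := (hd' (x + t * δ)).hasDerivAt.comp t (((hasDerivAt_id t).mul_const δ).const_add x)
      rw [one_mul, mul_comm] at this
      exact this
    have h2 : Continuous fun t => δ * deriv Ω (x + t * δ) :=
      continuous_const.mul (hd.continuous.comp (by fun_prop))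
    rw [← intervalIntegral.integral_const_mul,
      intervalIntegral.integral_eq_sub_of_hasDerivAt h1 (h2.intervalIntegrable _ _)]
    simp
  · have h1 : ∀ y, deriv Ω (y + 1) = deriv Ω y := fun y => by
      rw [← deriv_comp_add_const Ω 1 y, funext hper]
    simp only [add_right_comm x 1, h1]

end Crest.Agent.R81
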