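import Crest.Agent.R81.Conj
import Crest.Agent.R81.Prof
import Crest.Agent.R81.Quot
import Crest.Agent.R81.Fam

/-!
# R81 / Geo

The geometric part of a stage.  Write `f x = φ + λ Ω' x` (`Ω' = deriv σ.Ω`), `ς = ±1`, `M = m N`.

Step 1 (choice of `N₀`).  `Fam₁ ς ((t₁, t₂), (x, y₁, y₂)) = (x, y₁ + ς f x, y₂ + ς (β + t₁ + t₂ f x))`
is smooth, compatible with `pr`, and lifts `S^ς` at `t = 0` (`σ.shear`, `shear_inv_apply`).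
`fam_close σ.H (Fam₁ ς) .. 0 k (ε/2)` gives a radius `r`; take `N₀ > 1/r` and
`t N = (-p/N² - β, 1/N)`; let `Tm ς` be the map with lift `Fam₁ ς (t N, ·)` (`exists_descend`).

Step 2 (fixed `N p m Z Θ a' Ω₁`).  `Ψ` from `exists_psi σ.prof.pos σ.prof.lt m Θ`, `Q` from
`exists_quot`.  With `s = y₁ - N y₂`, `u = x - M s`, `ω = deriv Ω₁`, `φ' = -p/N² + φ/N`,
`D = ς (φ' + δ Z/m * ω u) + (λ/N) ς Q (ς δ, x) + Ψ (ω u + M s + ς δ) - Ψ (ω u + M s)` put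
`Fam₂ ς (δ, (x, y₁, y₂)) = (x + ς δ, y₁ + N D + ς (p/N + δ/M), y₂ + D)`.  It is smooth, compatible with
`pr` (integer shifts of `x, y₁, y₂` shift `s`, `u` by integers and `M s` by multiples of `m`, so `D` is
unchanged), and `Fam₂ ς (0, ·) = Fam₁ ς (t N, ·)`.  `fam_close σ.H (Fam₂ ς) .. 0 k (ε/2)`.
For `δ > 0` let `V u s = (λ/N) Ω (u + M s)/δ + Ψ (ω u + M s)`, `K` from `exists_K N M V`, `S'` from
`exists_shear`.  `conj_apply`, `conj_inv_apply` show that `Fam₂ ς (δ, ·)` lifts `K S'^ς K⁻¹`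
(`M β' = p m + δ`; `Ω (x + ς(p m + δ)) = Ω (x + ς δ)`, `Ψ (· + ς p m) = Ψ`,
`(Ω (x + ς δ) - Ω x)/δ = ς Q (ς δ, x)`).  Finally `(H K) S' (H K)⁻¹ = H (K S' K⁻¹) H⁻¹`, and the
inverse is `H (K S'⁻¹ K⁻¹) H⁻¹` (`group`); `Close.trans`.
`KForm`: for `|u| ≤ a'`, `ω u = u`, so `V u s = (λ/N) Ω (j + x)/δ + Ψ (j + x) = λ/(2Nδ) x² + Θ j`.

Auxiliary lemmas: put them in the namespace `Crest.Agent.R81.GeoAux` (avoid name clashes).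
-/

set_option autoImplicit false

open MeasureTheory Set Filter Topology
open scoped InnerProductSpace ComplexConjugate

namespace Crest.Agent.R81

namespace GeoAux

theorem per_deriv {Ω : ℝ → ℝ} (h : Function.Periodic Ω 1) : Function.Periodic (deriv Ω) 1 := by
  intro x
  have : (fun y => Ω (y + 1)) = Ω := funext h
  rw [← deriv_comp_add_const, this]

theorem per_int {Ω : ℝ → ℝ} (h : Function.Periodic Ω 1) (x : ℝ) (n : ℤ) : Ω (x + n) = Ω x := by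
  simpa using (h.int_mul n) x

theorem smooth_deriv {Ω : ℝ → ℝ} (h : ContDiff ℝ (⊤ : ℕ∞) Ω) : ContDiff ℝ (⊤ : ℕ∞) (deriv Ω) :=
  (contDiff_infty_iff_deriv.1 h).2

/-- first family -/
def Fam₁ (f : ℝ → ℝ) (β ς : ℝ) (q : (ℝ × ℝ) × R3) : R3 :=
  (q.2.1, q.2.2.1 + ς * f q.2.1, q.2.2.2 + ς * (β + q.1.1 + q.1.2 * f q.2.1))

theorem Fam₁_smooth {f : ℝ → ℝ} (hf : ContDiff ℝ (⊤ : ℕ∞) f) (β ς : ℝ) :
    ContDiff ℝ (⊤ : ℕ∞) (Fam₁ f β ς) := by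
  unfold Fam₁
  fun_prop

theorem Fam₁_compat {f : ℝ → ℝ} (hf : Function.Periodic f 1) (β ς : ℝ) (p : ℝ × ℝ) (x x' : R3)
    (h : pr x = pr x') : pr (Fam₁ f β ς (p, x)) = pr (Fam₁ f β ς (p, x')) := by
  obtain ⟨n₁, n₂, n₃, h1, h2, h3⟩ := pr_eq_iff.1 h
  refine pr_eq_iff.2 ⟨n₁, n₂, n₃, h1, ?_, ?_⟩
  · simp only [Fam₁, h1, h2, per_int hf]
    ring
  · simp only [Fam₁, h1, h3, per_int hf]
    ring

/-- displacement of the second family -/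
noncomputable def Dv (N m Z : ℕ) (φ' lam : ℝ) (ω Ψ : ℝ → ℝ) (Q : ℝ × ℝ → ℝ) (ς : ℝ) (q : ℝ × R3) : ℝ :=
  ς * (φ' + q.1 * Z / m * ω (q.2.1 - (m * N : ℕ) * (q.2.2.1 - N * q.2.2.2))) +
    lam / N * ς * Q (ς * q.1, q.2.1) +
    Ψ (ω (q.2.1 - (m * N : ℕ) * (q.2.2.1 - N * q.2.2.2)) + (m * N : ℕ) * (q.2.2.1 - N * q.2.2.2) +
      ς * q.1) -
    Ψ (ω (q.2.1 - (m * N : ℕ) * (q.2.2.1 - N * q.2.2.2)) + (m * N : ℕ) * (q.2.2.1 - N * q.2.2.2))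

/-- second family -/
noncomputable def Fam₂ (N m Z : ℕ) (p : ℤ) (φ' lam : ℝ) (ω Ψ : ℝ → ℝ) (Q : ℝ × ℝ → ℝ) (ς : ℝ)
    (q : ℝ × R3) : R3 :=
  (q.2.1 + ς * q.1, q.2.2.1 + N * Dv N m Z φ' lam ω Ψ Q ς q + ς * (p / N + q.1 / (m * N)),
    q.2.2.2 + Dv N m Z φ' lam ω Ψ Q ς q)

theorem Fam₂_smooth (N m Z : ℕ) (p : ℤ) (φ' lam : ℝ) {ω Ψ : ℝ → ℝ} {Q : ℝ × ℝ → ℝ}
    (hω : ContDiff ℝ (⊤ : ℕ∞) ω) (hΨ : ContDiff ℝ (⊤ : ℕ∞) Ψ) (hQ : ContDiff ℝ (⊤ : ℕ∞) Q) (ς : ℝ) :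
    ContDiff ℝ (⊤ : ℕ∞) (Fam₂ N m Z p φ' lam ω Ψ Q ς) := by
  have hD : ContDiff ℝ (⊤ : ℕ∞) (Dv N m Z φ' lam ω Ψ Q ς) := by
    unfold Dv
    fun_prop
  unfold Fam₂
  fun_prop

theorem Fam₂_compat (N m Z : ℕ) (p : ℤ) (φ' lam : ℝ) {ω Ψ : ℝ → ℝ} {Q : ℝ × ℝ → ℝ}
    (hω : Function.Periodic ω 1) (hΨ : Function.Periodic Ψ (m : ℝ))
    (hQ : ∀ δ x, Q (δ, x + 1) = Q (δ, x)) (ς δ : ℝ) (x x' : R3) (h : pr x = pr x') :
    pr (Fam₂ N m Z p φ' lam ω Ψ Q ς (δ, x)) = pr (Fam₂ N m Z p φ' lam ω Ψ Q ς (δ, x')) := by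
  obtain ⟨n₁, n₂, n₃, h1, h2, h3⟩ := pr_eq_iff.1 h
  have hD : Dv N m Z φ' lam ω Ψ Q ς (δ, x) = Dv N m Z φ' lam ω Ψ Q ς (δ, x') := by
    have e1 : x.1 - (m * N : ℕ) * (x.2.1 - N * x.2.2) =
        x'.1 - (m * N : ℕ) * (x'.2.1 - N * x'.2.2) + ((n₁ - m * N * (n₂ - N * n₃) : ℤ) : ℝ) := by
      rw [h1, h2, h3]
      push_cast
      ring
    have e2 : ∀ w c : ℝ, Ψ (w + (m * N : ℕ) * (x.2.1 - N * x.2.2) + c) =
        Ψ (w + (m * N : ℕ) * (x'.2.1 - N * x'.2.2) + c) := by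
      intro w c
      rw [← hΨ.int_mul (N * (n₂ - N * n₃)) (w + (m * N : ℕ) * (x'.2.1 - N * x'.2.2) + c), h2, h3]
      congr 1
      push_cast
      ring
    have e3 : ∀ w : ℝ, Ψ (w + (m * N : ℕ) * (x.2.1 - N * x.2.2)) =
        Ψ (w + (m * N : ℕ) * (x'.2.1 - N * x'.2.2)) := fun w => by simpa using e2 w 0
    have e4 : Q (ς * δ, x.1) = Q (ς * δ, x'.1) := by
      rw [h1]
      exact per_int (Ω := fun y => Q (ς * δ, y)) (fun y => hQ _ y) _ _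
    simp only [Dv, e1, per_int hω, e2, e3, e4]
  refine pr_eq_iff.2 ⟨n₁, n₂, n₃, ?_, ?_, ?_⟩
  · simp only [Fam₂, h1]
    ring
  · simp only [Fam₂, hD, h2]
    ring
  · simp only [Fam₂, hD, h3]
    ring

theorem Fam₂_zero {N : ℕ} (hN : 0 < N) (m Z : ℕ) (p : ℤ) (φ lam β : ℝ) {Ω ω Ψ : ℝ → ℝ}
    {Q : ℝ × ℝ → ℝ} (hQ : ∀ x, Q (0, x) = deriv Ω x) (ς : ℝ) (x : R3) :
    Fam₂ N m Z p (-(p : ℝ) / (N : ℝ) ^ 2 + φ / N) lam ω Ψ Q ς (0, x) =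
      Fam₁ (fun y => φ + lam * deriv Ω y) β ς ((-(p : ℝ) / (N : ℝ) ^ 2 - β, 1 / N), x) := by
  have hN' : (N : ℝ) ≠ 0 := by exact_mod_cast hN.ne'
  simp only [Fam₂, Fam₁, Dv, mul_zero, add_zero, zero_mul, zero_div, hQ, Prod.mk.injEq, true_and]
  constructor
  · field_simp
    ring
  · field_simp
    ring

theorem step1 (σ : St) (k : ℕ) {ε : ℝ} (hε : 0 < ε) (ς : ℝ) :
    ∃ N₀ : ℕ, ∀ N : ℕ, N₀ ≤ N → 0 < N → ∀ t : ℝ, |t| ≤ 1 / N → ∀ T T' : TT → TT,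
      (∀ x, T (pr x) = pr (Fam₁ (fun y => σ.φ + σ.lam * deriv σ.Ω y) σ.β ς (0, x))) →
      (∀ x, T' (pr x) = pr (Fam₁ (fun y => σ.φ + σ.lam * deriv σ.Ω y) σ.β ς ((t, 1 / N), x))) →
      Close k ε (fun z => σ.H.1 (T ((σ.H⁻¹).1 z))) (fun z => σ.H.1 (T' ((σ.H⁻¹).1 z))) := by
  have hd := smooth_deriv σ.prof.smooth
  have h := fam_close σ.H (Fam₁ (fun y => σ.φ + σ.lam * deriv σ.Ω y) σ.β ς)
    (Fam₁_smooth (by fun_prop) _ _)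
    (Fam₁_compat (fun y => by simp only [per_deriv σ.prof.per y]) _ _) 0 k hε
  obtain ⟨r, hr, h⟩ := Metric.eventually_nhds_iff.1 h
  obtain ⟨N₀, hN₀⟩ := exists_nat_one_div_lt hr
  refine ⟨N₀ + 1, fun N hN hN0 t ht => h ?_⟩
  have h1 : (1 : ℝ) / N ≤ 1 / ((N₀ : ℝ) + 1) :=
    one_div_le_one_div_of_le (by positivity) (by exact_mod_cast hN)
  rw [dist_zero_right, Prod.norm_def]
  refine max_lt (lt_of_le_of_lt (ht.trans h1) hN₀) ?_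
  rw [Real.norm_eq_abs, abs_of_nonneg (by positivity)]
  exact h1.trans_lt hN₀

end GeoAux

open GeoAux in
theorem geo (σ : St) (k : ℕ) {ε : ℝ} (hε : 0 < ε) :
    ∃ N₀ : ℕ, ∀ N : ℕ, N₀ ≤ N → 0 < N → ∀ p : ℤ, |-(p : ℝ) / (N : ℝ) ^ 2 - σ.β| ≤ 1 / N →
      ∀ (m Z : ℕ) (Θ : ℤ → ℝ) (a' : ℝ) (Ω₁ : ℝ → ℝ), 0 < m → Function.Periodic Θ (m : ℤ) →
        IsProf a' Ω₁ → ∀ᶠ δ in 𝓝[>] (0 : ℝ), ∃ K S' : NG,
          KForm K.1 N m σ.a a' (σ.lam / (2 * N * δ)) Θ ∧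
          IsShear S'.1 Ω₁ (-(p : ℝ) / (N : ℝ) ^ 2 + σ.φ / N) (δ * Z / m) (p / N + δ / (m * N)) ∧
          Close2 k ε σ.T (σ.H * K * S' * (σ.H * K)⁻¹) := by
  obtain ⟨N₁, h₁⟩ := step1 σ k (half_pos hε) 1
  obtain ⟨N₂, h₂⟩ := step1 σ k (half_pos hε) (-1)
  refine ⟨max N₁ N₂, fun N hN hN0 p hp m Z Θ a' Ω₁ hm hΘ hΩ₁ => ?_⟩
  have hN' : (N : ℝ) ≠ 0 := by exact_mod_cast hN0.ne'
  have hm' : (m : ℝ) ≠ 0 := by exact_mod_cast hm.ne'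
  obtain ⟨Ψ, hΨs, hΨp, hΨv⟩ := exists_psi σ.prof.pos σ.prof.lt m Θ hΘ
  obtain ⟨Q, hQs, hQd, hQ0, hQp⟩ := exists_quot σ.prof.smooth σ.prof.per
  set f : ℝ → ℝ := fun y => σ.φ + σ.lam * deriv σ.Ω y with hf
  have hfp : Function.Periodic f 1 := fun y => by simp only [hf, per_deriv σ.prof.per y]
  set φ' : ℝ := -(p : ℝ) / (N : ℝ) ^ 2 + σ.φ / N with hφ'
  have hωs := smooth_deriv hΩ₁.smooth
  have hωp := per_deriv hΩ₁.per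
  have hΩs := σ.prof.smooth
  have hcl : ∀ ς : ℝ, ∀ᶠ δ in 𝓝[>] (0 : ℝ), ∀ T T' : TT → TT,
      (∀ x, T (pr x) = pr (Fam₂ N m Z p φ' σ.lam (deriv Ω₁) Ψ Q ς (0, x))) →
      (∀ x, T' (pr x) = pr (Fam₂ N m Z p φ' σ.lam (deriv Ω₁) Ψ Q ς (δ, x))) →
      Close k (ε / 2) (fun z => σ.H.1 (T ((σ.H⁻¹).1 z))) (fun z => σ.H.1 (T' ((σ.H⁻¹).1 z))) :=
    fun ς => (fam_close σ.H _ (Fam₂_smooth N m Z p φ' σ.lam hωs hΨs hQs ς)
      (Fam₂_compat N m Z p φ' σ.lam hωp hΨp hQp ς) 0 k (half_pos hε)).filter_mono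
      nhdsWithin_le_nhds
  have hTm : ∀ ς : ℝ, ∃ Tm : TT → TT,
      ∀ x, Tm (pr x) = pr (Fam₁ f σ.β ς ((-(p : ℝ) / (N : ℝ) ^ 2 - σ.β, 1 / N), x)) :=
    fun ς => exists_descend _ (Fam₁_compat hfp _ _ _)
  filter_upwards [hcl 1, hcl (-1), self_mem_nhdsWithin] with δ hc₁ hc₂ (hδ : 0 < δ)
  let V : ℝ → ℝ → ℝ := fun u s =>
    σ.lam / N * σ.Ω (u + (m * N : ℕ) * s) / δ + Ψ (deriv Ω₁ u + (m * N : ℕ) * s)
  obtain ⟨K, hK⟩ := exists_K N (m * N) V (by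
      simp only [V]
      unfold Function.uncurry
      fun_prop)
    (fun u s => by
      simp only [V, hωp u, add_right_comm u 1, σ.prof.per _])
    (fun u s => by
      have e1 : σ.Ω (u + (m * N : ℕ) * (s + 1)) = σ.Ω (u + (m * N : ℕ) * s) := by
        rw [← per_int σ.prof.per (u + (m * N : ℕ) * s) (m * N : ℕ)]
        congr 1
        push_cast
        ring
      have e2 : Ψ (deriv Ω₁ u + (m * N : ℕ) * (s + 1)) = Ψ (deriv Ω₁ u + (m * N : ℕ) * s) := by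
        rw [← hΨp.nat_mul N (deriv Ω₁ u + (m * N : ℕ) * s)]
        congr 1
        push_cast
        ring
      simp only [V, e1, e2])
  obtain ⟨S', hS'⟩ := exists_shear hΩ₁.smooth hΩ₁.per φ' (δ * Z / m) (p / N + δ / (m * N))
  have hMβ : ((m * N : ℕ) : ℝ) * (p / N + δ / (m * N)) = δ + ((p * m : ℤ) : ℝ) := by
    push_cast
    field_simp
    ring
  -- increments of `V`
  have hV : ∀ (ς : ℤ) (u s : ℝ), V u (s + ς * (p / N + δ / (m * N))) - V u s =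
      σ.lam / N * ς * Q (ς * δ, u + (m * N : ℕ) * s) +
        Ψ (deriv Ω₁ u + (m * N : ℕ) * s + ς * δ) - Ψ (deriv Ω₁ u + (m * N : ℕ) * s) := by
    intro ς u s
    have e0 : ∀ w : ℝ, w + (m * N : ℕ) * (s + ς * (p / N + δ / (m * N))) =
        w + (m * N : ℕ) * s + ς * δ + ((ς * p : ℤ) : ℝ) * m := by
      intro w
      rw [mul_add, mul_left_comm, hMβ]
      push_cast
      ring
    have e1 : σ.Ω (u + (m * N : ℕ) * (s + ς * (p / N + δ / (m * N)))) =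
        σ.Ω (u + (m * N : ℕ) * s + ς * δ) := by
      rw [e0, ← per_int σ.prof.per (u + (m * N : ℕ) * s + ς * δ) (ς * p * m)]
      congr 1
      push_cast
      ring
    have e2 : Ψ (deriv Ω₁ u + (m * N : ℕ) * (s + ς * (p / N + δ / (m * N)))) =
        Ψ (deriv Ω₁ u + (m * N : ℕ) * s + ς * δ) := by
      rw [e0, hΨp.int_mul (ς * p)]
    have e3 := hQd (ς * δ) (u + (m * N : ℕ) * s)
    simp only [V, e1, e2]
    have e4 : σ.Ω (u + (m * N : ℕ) * s + ς * δ) =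
        σ.Ω (u + (m * N : ℕ) * s) + ς * δ * Q (ς * δ, u + (m * N : ℕ) * s) := by linarith
    rw [e4]
    field_simp
    ring
  refine ⟨K, S', ⟨V, hK, fun u s x j hu hx hj => ?_⟩, hS', ?_, ?_⟩
  · simp only [V]
    rw [hΩ₁.der u (abs_le.1 hu), hj, hΨv j x hx, add_comm (j : ℝ) x, per_int σ.prof.per,
      σ.prof.val x (abs_le.1 hx)]
    field_simp
  · obtain ⟨Tm, hTm⟩ := hTm 1
    have c1 := h₁ N (le_of_max_le_left hN) hN0 _ hp σ.S.1 Tm (fun x => by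
      obtain ⟨x, y₁, y₂⟩ := x
      rw [σ.shear x y₁ y₂]
      simp [Fam₁, hf]) hTm
    have c2 := hc₁ Tm (K * S' * K⁻¹).1 (fun x => by
      rw [hTm, hφ', Fam₂_zero hN0 m Z p σ.φ σ.lam σ.β hQ0]) (fun x => by
      obtain ⟨x, y₁, y₂⟩ := x
      rw [conj_apply K S' N (m * N) V hK hS' x y₁ y₂ _ _
        (Dv N m Z φ' σ.lam (deriv Ω₁) Ψ Q 1 (δ, x, y₁, y₂)) rfl rfl ?_]
      · refine pr_eq_iff.2 ⟨p * m, 0, 0, ?_, ?_, ?_⟩
        · simp only [Fam₂, hMβ]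
          ring
        · simp [Fam₂]
        · simp [Fam₂]
      · have := hV 1 (x - (m * N : ℕ) * (y₁ - N * y₂)) (y₁ - N * y₂)
        simp only [Int.cast_one, one_mul, mul_one, sub_add_cancel] at this
        simp only [Dv, one_mul, mul_one]
        linarith)
    have := c1.trans c2
    rw [add_halves] at this
    have e : σ.H * K * S' * (σ.H * K)⁻¹ = σ.H * (K * S' * K⁻¹) * σ.H⁻¹ := by group
    rw [e]
    exact this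
  · obtain ⟨Tm, hTm⟩ := hTm (-1)
    have c1 := h₂ N (le_of_max_le_right hN) hN0 _ hp (σ.S⁻¹).1 Tm (fun x => by
      obtain ⟨x, y₁, y₂⟩ := x
      rw [shear_inv_apply σ.S σ.shear x y₁ y₂]
      simp [Fam₁, hf, sub_eq_add_neg]) hTm
    have c2 := hc₂ Tm (K * S'⁻¹ * K⁻¹).1 (fun x => by
      rw [hTm, hφ', Fam₂_zero hN0 m Z p σ.φ σ.lam σ.β hQ0]) (fun x => by
      obtain ⟨x, y₁, y₂⟩ := x
      rw [conj_inv_apply K S' N (m * N) V hK hS' x y₁ y₂ _ _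
        (Dv N m Z φ' σ.lam (deriv Ω₁) Ψ Q (-1) (δ, x, y₁, y₂)) rfl rfl ?_]
      · refine pr_eq_iff.2 ⟨-(p * m), 0, 0, ?_, ?_, ?_⟩
        · simp only [Fam₂, hMβ]
          push_cast
          ring
        · simp only [Fam₂]
          push_cast
          ring
        · simp [Fam₂]
      · have := hV (-1) (x - (m * N : ℕ) * (y₁ - N * y₂)) (y₁ - N * y₂)
        simp only [Int.cast_neg, Int.cast_one, neg_mul, one_mul, mul_neg, mul_one, sub_add_cancel,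
          ← sub_eq_add_neg] at this
        simp only [Dv, neg_mul, one_mul, mul_neg, mul_one, ← sub_eq_add_neg]
        linarith)
    have := c1.trans c2
    rw [add_halves] at this
    have e : (σ.H * K * S' * (σ.H * K)⁻¹)⁻¹ = σ.H * (K * S'⁻¹ * K⁻¹) * σ.H⁻¹ := by group
    have e' : σ.T⁻¹ = σ.H * σ.S⁻¹ * σ.H⁻¹ := by
      unfold St.T
      group
    rw [e, e']
    exact this

end Crest.Agent.R81
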