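import Crest.Agent.R81.Inner
import Crest.Agent.R81.Comb

/-!
# R81 / Line

Approximation of the pull back of a mode by its lines.
Let `J = ∫_l^r ‖A‖²`; take `A₀, ε₀` from `comb1D` with a small `ε'`, and `ε₁ = min ε₀ ε'`.
`‖W (cut A l r) b - W A₀ b‖² = ∫_l^r ‖A - A₀‖² ≤ ε'` (`A₀ = cut A₀ l r`, `W_cut_sub`, `norm_W_cut_sq`).
Let `v = Uc K (W A₀ b)`, `‖v‖² ≤ J`, `w i = W (cut (fun u => e (i u/P)) (-a') a') (line N R b i)`:
orthogonal (`inner_W`; `i ↦ line N R b i` is injective), `‖w i‖² = 2a'`, and by `inner_line` with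
`κ = R i` (`R i/m = i/P`) `⟪w i, v⟫ = 2a' D̃ i`, `D̃ i = dft m w (R i) * chirp A₀ (ℓ g) (i/P)`.
With `D i = τ i √μ A (iμ)`:
`‖v - ∑ D i • w i‖² = ‖v‖² - 2a' ∑‖D i‖² - 4a' Re ∑ conj (D i) (D̃ i - D i)
  ≤ J - 2a'(J - ε') + 2 √(J + ε') √ε' ≤ ε' J + ε' + 2 √((J + ε') ε')`
(Cauchy-Schwarz `Finset.inner_mul_le_norm_mul_norm`/`Finset.sum_mul_sq_le_sq_mul_sq`, or avoid it with
`2|x y| ≤ t |x|² + |y|²/t`).  `γ = ℓ g → ∞` (`Tendsto.const_mul_atTop`).

Auxiliary lemmas: put them in the namespace `Crest.Agent.R81.LineAux` (avoid name clashes).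
-/

set_option autoImplicit false

open MeasureTheory Set Filter Topology
open scoped InnerProductSpace ComplexConjugate

namespace Crest.Agent.R81

namespace LineAux

theorem hilb {E : Type} [NormedAddCommGroup E] [InnerProductSpace ℂ E] {ι : Type} [DecidableEq ι]
    (I : Finset ι) (v : E) (w : ι → E) (D Dt : ι → ℂ) {c J η t : ℝ} (hc0 : 0 ≤ c) (hc1 : c ≤ 1)
    (hc : 1 - c ≤ η) (hJ : 0 ≤ J) (ht : 0 < t)
    (hw : ∀ i j, ⟪w i, w j⟫_ℂ = if i = j then (c : ℂ) else 0) (hv : ∀ i, ⟪w i, v⟫_ℂ = c * Dt i)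
    (h1 : ‖v‖ ^ 2 ≤ J) (h2 : ∑ i ∈ I, ‖Dt i - D i‖ ^ 2 ≤ η) (h3 : J - η ≤ ∑ i ∈ I, ‖D i‖ ^ 2)
    (h4 : ∑ i ∈ I, ‖D i‖ ^ 2 ≤ J + η) :
    ‖v - ∑ i ∈ I, D i • w i‖ ^ 2 ≤ η * J + η + t * (J + η) + η / t := by
  have e1 : ‖∑ i ∈ I, D i • w i‖ ^ 2 = c * ∑ i ∈ I, ‖D i‖ ^ 2 := by
    rw [← @inner_self_eq_norm_sq ℂ, sum_inner, map_sum, Finset.mul_sum]
    refine Finset.sum_congr rfl fun i hi => ?_
    rw [inner_sum, Finset.sum_eq_single i (fun j _ hj => by
      rw [inner_smul_left, inner_smul_right, hw, if_neg hj.symm, mul_zero, mul_zero])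
      (fun h => absurd hi h), inner_smul_left, inner_smul_right, hw, if_pos rfl, ← mul_assoc,
      Complex.conj_mul', ← Complex.ofReal_pow, ← Complex.ofReal_mul, mul_comm]
    exact Complex.ofReal_re _
  have e2 : c * ∑ i ∈ I, (‖D i‖ ^ 2 - (t * ‖D i‖ ^ 2 + ‖Dt i - D i‖ ^ 2 / t) / 2) ≤
      RCLike.re ⟪∑ i ∈ I, D i • w i, v⟫_ℂ := by
    rw [sum_inner, map_sum, Finset.mul_sum]
    refine Finset.sum_le_sum fun i _ => ?_
    have a1 : ⟪D i • w i, v⟫_ℂ = ((c * ‖D i‖ ^ 2 : ℝ) : ℂ) + c * (conj (D i) * (Dt i - D i)) := by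
      rw [inner_smul_left, hv]
      push_cast
      rw [← Complex.conj_mul']
      ring
    have a2 : -(‖D i‖ * ‖Dt i - D i‖) ≤ (conj (D i) * (Dt i - D i)).re := by
      have := Complex.abs_re_le_norm (conj (D i) * (Dt i - D i))
      rw [norm_mul, Complex.norm_conj] at this
      exact (abs_le.1 this).1
    have a3 : ‖D i‖ * ‖Dt i - D i‖ ≤ (t * ‖D i‖ ^ 2 + ‖Dt i - D i‖ ^ 2 / t) / 2 := by
      have : 0 ≤ (t * ‖D i‖ - ‖Dt i - D i‖) ^ 2 / t := by positivity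
      have e : (t * ‖D i‖ - ‖Dt i - D i‖) ^ 2 / t =
          t * ‖D i‖ ^ 2 + ‖Dt i - D i‖ ^ 2 / t - 2 * (‖D i‖ * ‖Dt i - D i‖) := by
        field_simp
        ring
      linarith
    rw [a1, RCLike.re_to_complex, Complex.add_re, Complex.ofReal_re, Complex.re_ofReal_mul]
    nlinarith
  rw [norm_sub_rev, @norm_sub_sq ℂ, e1]
  rw [Finset.sum_sub_distrib, ← Finset.sum_div, Finset.sum_add_distrib, ← Finset.mul_sum,
    ← Finset.sum_div] at e2
  set S := ∑ i ∈ I, ‖D i‖ ^ 2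
  set T := ∑ i ∈ I, ‖Dt i - D i‖ ^ 2
  have S0 : 0 ≤ S := Finset.sum_nonneg fun _ _ => sq_nonneg _
  have T0 : 0 ≤ T := Finset.sum_nonneg fun _ _ => sq_nonneg _
  have b1 : T / t ≤ η / t := by gcongr
  have b2 : t * S ≤ t * (J + η) := by gcongr
  have b3 : 0 ≤ t * S + T / t := by positivity
  have b4 : c * (t * S + T / t) ≤ t * S + T / t := mul_le_of_le_one_left b3 hc1
  have b5 : c * (J - η) ≤ c * S := by gcongr
  have η0 : 0 ≤ η := by linarith
  have b6 : (1 - c) * J ≤ η * J := by gcongr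
  have b7 : c * η ≤ η := mul_le_of_le_one_left η0 hc1
  nlinarith

theorem params {J κ : ℝ} (hJ : 0 ≤ J) (hκ : 0 < κ) :
    ∃ η t : ℝ, 0 < η ∧ 0 < t ∧ η ≤ κ ∧ η * J + η + t * (J + η) + η / t ≤ κ := by
  set t := κ / (4 * (J + 1)) with ht
  have t0 : 0 < t := by positivity
  have t1 : t * (J + 1) = κ / 4 := by rw [ht]; field_simp
  refine ⟨min 1 (min t (κ * t / 4)), t, by positivity, t0, ?_, ?_⟩
  · refine ((min_le_right _ _).trans (min_le_left _ _)).trans ?_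
    nlinarith
  · set η := min 1 (min t (κ * t / 4))
    have a1 : η ≤ 1 := min_le_left _ _
    have a2 : η ≤ t := (min_le_right _ _).trans (min_le_left _ _)
    have a3 : η ≤ κ * t / 4 := (min_le_right _ _).trans (min_le_right _ _)
    have a4 : η / t ≤ κ / 4 := by
      rw [div_le_iff₀ t0]
      linarith
    have a5 : η * J ≤ t * J := by gcongr
    have a6 : t * (J + η) ≤ t * (J + 1) := by gcongr
    nlinarith

end LineAux

theorem lineApprox {a : ℝ} (ha : a < 1 / 2) (A : ℝ → ℂ) (hA : ContDiff ℝ (⊤ : ℕ∞) A) {l r : ℝ}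
    (hl : -a ≤ l) (hlr : l ≤ r) (hr : r ≤ a) {ε : ℝ} (hε : 0 < ε) :
    ∃ ε₁ : ℝ, 0 < ε₁ ∧ ∀ (b : Md) (N m P R : ℕ) (Θ : ℤ → ℝ) (z : ℤ → ℂ) (a' : ℝ),
      0 < N → 0 < m → P * R = m → 0 < ell N b → 0 < a' → a' < 1 / 2 → 1 - 2 * a' ≤ ε₁ →
      Function.Periodic Θ (m : ℤ) → (∀ j, ‖e (ell N b * Θ j) - z j‖ ≤ ε₁) →
      (∀ i : ℤ, ‖dft m z (R * i)‖ = 1 / Real.sqrt P) →
      ∀ᶠ g : ℝ in atTop, ∀ K : NG, KForm K.1 N m a a' g Θ →
        LineOK K N R P (1 / (2 * (ell N b * g) * P)) a' A l r b ε₁ ε := by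
  have hl' : -1 / 2 < l := by linarith
  have hr' : r < 1 / 2 := by linarith
  set J := ∫ x in l..r, ‖A x‖ ^ 2 with hJ
  have hJ0 : 0 ≤ J := intervalIntegral.integral_nonneg hlr fun _ _ => sq_nonneg _
  obtain ⟨η, t, η0, t0, η1, η2⟩ := LineAux.params hJ0 (κ := (ε / 2) ^ 2) (by positivity)
  obtain ⟨A₀, c0, s0, d1, d2, ε₀, ε0, H⟩ := comb1D A hA hl' hlr hr' η0
  refine ⟨min ε₀ η, lt_min ε0 η0, fun b N m P R Θ z a' hN hm hPR hℓ a0 a1 a2 hΘ hz hd => ?_⟩
  have hℓ' : (0 : ℝ) < ell N b := by exact_mod_cast hℓ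
  have hP : 0 < P := Nat.pos_of_mul_pos_right (hPR ▸ hm)
  have hR : 0 < R := Nat.pos_of_mul_pos_left (hPR ▸ hm)
  have hP' : (0 : ℝ) < P := by exact_mod_cast hP
  have hR' : (0 : ℝ) < R := by exact_mod_cast hR
  have hev := (Tendsto.const_mul_atTop hℓ' tendsto_id).eventually
    (H m P R (fun j => e (ell N b * Θ j)) z hm hPR (fun j => (hz j).trans (min_le_left _ _)) hd)
  filter_upwards [hev, eventually_gt_atTop 0] with g hg g0 K hK
  obtain ⟨τ, hτ, hI⟩ := hg _ rfl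
  simp only [id] at hI
  set μ : ℝ := 1 / (2 * (ell N b * g) * P) with hμ
  have μ0 : 0 < μ := by positivity
  refine ⟨τ, hτ, fun I I1 I2 => ?_⟩
  obtain ⟨k1, k2, k3⟩ := hI I I1 (I2.trans (min_le_left _ _))
  have gA : Good A₀ := good_of_supp c0 s0
  have eA : cut A₀ l r = A₀ := funext fun x => by
    by_cases hx : x ∈ Icc l r
    · exact indicator_of_mem hx _
    · rw [s0 x hx]; exact indicator_of_notMem hx _
  have ce : ∀ i : ℤ, Continuous fun u : ℝ => e (i * u / P) := fun i => by fun_prop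
  let w : ℤ → L2 := fun i => W (cut (fun u => e (i * u / P)) (-a') a') (line N R b i)
  have one : ∀ i : ℤ, ∀ F : ℝ → ℂ, (∀ u ∈ Icc (-a') a', F u = e (i * u / P)) →
      ∫ u in (-1 / 2 : ℝ)..(1 / 2), conj (cut (fun u => e (i * u / P)) (-a') a' u) * F u =
        ((2 * a' : ℝ) : ℂ) := fun i F hF => by
    have : (fun u => conj (cut (fun u => e (i * u / P)) (-a') a' u) * F u) =
        indicator (Icc (-a') a') fun _ => (1 : ℂ) := funext fun u => by
      by_cases hu : u ∈ Icc (-a') a'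
      · rw [indicator_of_mem hu, cut, indicator_of_mem hu, hF u hu, ← e_neg, mul_comm, e_mul_e_neg]
      · rw [indicator_of_notMem hu, cut, indicator_of_notMem hu, map_zero, zero_mul]
    rw [this, integral_indicator_Icc _ (by linarith) (by linarith) a1]
    simp [two_mul]
  have hw : ∀ i j, ⟪w i, w j⟫_ℂ = if i = j then ((2 * a' : ℝ) : ℂ) else 0 := fun i j => by
    simp only [w]
    rw [inner_W (good_cut (ce i) _ _) (good_cut (ce j) _ _)]
    by_cases hij : i = j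
    · subst hij
      rw [if_pos rfl, if_pos rfl]
      exact one i _ fun u hu => indicator_of_mem hu _
    · rw [if_neg hij, if_neg]
      intro h
      have h2 := congrArg Prod.snd h
      simp only [line, add_right_inj] at h2
      exact hij (mul_left_cancel₀ (by positivity) h2)
  have hv : ∀ i, ⟪w i, Uc K (W A₀ b)⟫_ℂ = ((2 * a' : ℝ) : ℂ) *
      (dft m (fun j => e (ell N b * Θ j)) (R * i) * chirp A₀ (ell N b * g) (i / P)) := fun i => by
    have e1 : (((R : ℤ) * i : ℤ) : ℝ) / m = i / P := by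
      rw [← hPR]
      push_cast
      field_simp
    have := inner_line K hK hN hm hΘ gA
      (fun x hx => s0 x fun h => hx ⟨hl.trans h.1, h.2.trans hr⟩) (good_cut (ce i) (-a') a')
      (fun u hu => indicator_of_notMem hu _) b (R * i)
    rw [one i _ fun u _ => by rw [mul_div_right_comm, e1, mul_div_right_comm], e1,
      ← mul_assoc (N : ℤ)] at this
    exact this
  have hD : ∑ i ∈ I, ‖τ i * (Real.sqrt μ : ℂ) * A (i * μ)‖ ^ 2 = μ * ∑ i ∈ I, ‖A (i * μ)‖ ^ 2 := by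
    rw [Finset.mul_sum]
    refine Finset.sum_congr rfl fun i _ => ?_
    rw [norm_mul, norm_mul, hτ, one_mul, mul_pow, Complex.norm_real, Real.norm_eq_abs, sq_abs,
      Real.sq_sqrt μ0.le]
  have hn : ‖Uc K (W A₀ b)‖ ^ 2 ≤ J := by
    rw [LinearIsometry.norm_map, ← eA, norm_W_cut_sq c0 hl' hlr hr']
    exact d2
  have main := (LineAux.hilb I (Uc K (W A₀ b)) w (fun i => τ i * (Real.sqrt μ : ℂ) * A (i * μ)) _
    (by linarith) (by linarith) (a2.trans (min_le_right _ _)) hJ0 t0 hw hv hn k1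
    (hD ▸ k2) (hD ▸ k3)).trans η2
  have m1 := le_of_sq_le_sq main (by positivity)
  have m2 : ‖Uc K (W (cut A l r) b) - Uc K (W A₀ b)‖ ≤ ε / 2 := by
    refine le_of_sq_le_sq ?_ (by positivity)
    rw [← map_sub, LinearIsometry.norm_map, ← eA, ← W_cut_sub hA.continuous c0,
      norm_W_cut_sq (A := fun x => A x - A₀ x) (hA.continuous.sub c0) hl' hlr hr']
    exact d1.trans η1
  rw [Finset.sum_congr rfl fun i _ => W_cut_smul (ce i) _ _ _ _]
  calc _ ≤ _ := norm_sub_le_norm_sub_add_norm_sub _ (Uc K (W A₀ b)) _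
    _ ≤ ε / 2 + ε / 2 := add_le_add m2 m1
    _ = ε := by ring

end Crest.Agent.R81
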