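import Crest.Agent.R81.Build
import Crest.Agent.R81.Freq
import Crest.Agent.R81.Geo
import Crest.Agent.R81.Arith
import Crest.Agent.R81.Line

/-!
# R81 / GS

The general stage lemma: choice of the parameters.
`ε₂ = ε/(4 (#A + 1))`.  From `lineApprox` (for each `b ∈ B` with `amp b, l b, r b`, each `a ∈ A` with
`F a, -a, a`) get finitely many thresholds; `ε₁ > 0` below all of them, below `ε²/4` and `ε`
(monotonicity: `LineOK` for a threshold implies `LineOK` for a smaller one).  `a' = max (1/4) (1/2 - ε₁/2)`,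
`Ω₁` from `exists_prof`.  `N` large: `≥ N₀`, `exists_nbig`, `geo`, `2π|a.2|/N ≤ ε₁`,
`|a.2| (|φ| + λ + 1)/N ≤ d/2`, `2 b.1 λ ((|b.2| + 3)/N)² ≤ ε₂²` (use `∀ᶠ N in atTop` and
`Finset.eventually_all`); `p` from `exists_p`.  Given the labels, `arith` gives `Z m P Θ z`.
Eventually in `δ`: `geo`, `lineApprox` composed with `g = λ/(2 N δ) → ∞`
(`1/(2 (ℓ g) P) = μ`), `|a.1| δ ≤ d/2`, `μ b ≤ 1`.  `ϑ a = ℓ φ/N - a.2 p/N² + a.1 δ/(m N)`; then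
`cen_sub_le`, `freq_eq`, `ratio_le`, `build` (`KForm → KShape` with `M = m N`).

Auxiliary lemmas: put them in the namespace `Crest.Agent.R81.GSAux` (avoid name clashes).
-/

set_option autoImplicit false

open MeasureTheory Set Filter Topology
open scoped InnerProductSpace ComplexConjugate

namespace Crest.Agent.R81

namespace GSAux

theorem lineOK_mono {K : NG} {N R P : ℕ} {μ a' : ℝ} {A : ℝ → ℂ} {l r : ℝ} {b : Md} {ε₁ ε₁' ε : ℝ}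
    (h : LineOK K N R P μ a' A l r b ε₁ ε) (hle : ε₁' ≤ ε₁) :
    LineOK K N R P μ a' A l r b ε₁' ε := by
  obtain ⟨τ, h1, h2⟩ := h
  exact ⟨τ, h1, fun I hI hm => h2 I hI (hm.trans hle)⟩

/-- the conclusion of `lineApprox` -/
def LA (a : ℝ) (A : ℝ → ℂ) (l r ε₁ ε : ℝ) : Prop :=
  ∀ (b : Md) (N m P R : ℕ) (Θ : ℤ → ℝ) (z : ℤ → ℂ) (a' : ℝ),
      0 < N → 0 < m → P * R = m → 0 < ell N b → 0 < a' → a' < 1 / 2 → 1 - 2 * a' ≤ ε₁ →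
      Function.Periodic Θ (m : ℤ) → (∀ j, ‖e (ell N b * Θ j) - z j‖ ≤ ε₁) →
      (∀ i : ℤ, ‖dft m z (R * i)‖ = 1 / Real.sqrt P) →
      ∀ᶠ g : ℝ in atTop, ∀ K : NG, KForm K.1 N m a a' g Θ →
        LineOK K N R P (1 / (2 * (ell N b * g) * P)) a' A l r b ε₁ ε

theorem la_ev {a : ℝ} (ha : a < 1 / 2) (A : ℝ → ℂ) (hA : ContDiff ℝ (⊤ : ℕ∞) A) {l r : ℝ}
    (hl : -a ≤ l) (hlr : l ≤ r) (hr : r ≤ a) {ε : ℝ} (hε : 0 < ε) :
    ∀ᶠ ε₁ in 𝓝[>] (0 : ℝ), LA a A l r ε₁ ε := by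
  obtain ⟨ε₀, h0, h⟩ := lineApprox ha A hA hl hlr hr hε
  filter_upwards [Ioc_mem_nhdsGT h0] with ε₁ h1
  intro b N m P R Θ z a' hN hm hP hb ha0 ha1 hw hΘ hz hd
  filter_upwards [h b N m P R Θ z a' hN hm hP hb ha0 ha1 (hw.trans h1.2) hΘ
    (fun j => (hz j).trans h1.2) hd] with g hg K hK
  exact lineOK_mono (hg K hK) h1.2

theorem ev_div (c : ℝ) {η : ℝ} (hη : 0 < η) : ∀ᶠ N : ℕ in atTop, c / N ≤ η :=
  (tendsto_const_div_atTop_nhds_zero_nat c).eventually (ge_mem_nhds hη)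

theorem ev_mul (c : ℝ) {η : ℝ} (hη : 0 < η) : ∀ᶠ δ in 𝓝[>] (0 : ℝ), c * δ ≤ η := by
  have : Tendsto (fun δ : ℝ => c * δ) (𝓝[>] 0) (𝓝 0) := by
    have h : Tendsto (fun δ : ℝ => c * δ) (𝓝 0) (𝓝 (c * 0)) :=
      (continuous_const.mul continuous_id).tendsto 0
    rw [mul_zero] at h
    exact h.mono_left nhdsWithin_le_nhds
  exact this.eventually (ge_mem_nhds hη)

theorem tendsto_g {c : ℝ} (hc : 0 < c) {N : ℕ} (hN : 0 < N) :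
    Tendsto (fun δ : ℝ => c / (2 * N * δ)) (𝓝[>] 0) atTop := by
  have h := (tendsto_inv_nhdsGT_zero (𝕜 := ℝ)).const_mul_atTop
    (show 0 < c / (2 * N) by positivity)
  refine h.congr fun δ => ?_
  field_simp

end GSAux

open GSAux

theorem gs (σ : St) (D : FD) (hB : σ.B ⊆ D.A) (k : ℕ) {ε d : ℝ} (hε : 0 < ε) (hd : 0 < d)
    (N₀ : ℕ) :
    ∃ ε₁ : ℝ, 0 < ε₁ ∧ ∃ N : ℕ, N₀ ≤ N ∧ 0 < N ∧ NBig D.A N ∧
      ∀ n : Md → ℕ, Label σ.B D.A N n → ∃ (Z m : ℕ) (P : Md → ℕ), 0 < Z ∧ 0 < m ∧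
        (∀ a ∈ D.A, P a * (Z * n a + 1) = m) ∧ ∀ᶠ δ in 𝓝[>] (0 : ℝ), ∃ ϑ : Md → ℝ,
          GSout σ D k ε ε₁ d ⟨N, Z, m, n, P, δ, ϑ, σ.lam⟩ := by
  classical
  set ε₂ : ℝ := ε / (4 * (D.A.card + 1)) with hε₂def
  have hε₂ : 0 < ε₂ := by positivity
  have ha0 := σ.prof.pos
  have ha1 := σ.prof.lt
  have hlam := σ.lam_pos
  have e1 : ∀ᶠ ε₁ in 𝓝[>] (0 : ℝ), ∀ b ∈ σ.B, LA σ.a (σ.amp b) (σ.l b) (σ.r b) ε₁ ε₂ :=
    (Finset.eventually_all _).2 fun b hb =>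
      la_ev ha1 _ (σ.smooth b) (σ.lr b hb).1 (σ.lr b hb).2.1 (σ.lr b hb).2.2 hε₂
  have e2 : ∀ᶠ ε₁ in 𝓝[>] (0 : ℝ), ∀ a ∈ D.A, LA σ.a (D.F a) (-σ.a) σ.a ε₁ ε₂ :=
    (Finset.eventually_all _).2 fun a _ =>
      la_ev ha1 _ (D.smooth a) le_rfl (by linarith) le_rfl hε₂
  have e3 : ∀ᶠ ε₁ in 𝓝[>] (0 : ℝ), ε₁ ∈ Ioc 0 ε := Ioc_mem_nhdsGT hε
  have e4 : ∀ᶠ ε₁ in 𝓝[>] (0 : ℝ), ε₁ ∈ Ioc 0 ((ε / 2) ^ 2) :=
    Ioc_mem_nhdsGT (show (0 : ℝ) < (ε / 2) ^ 2 by positivity)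
  obtain ⟨ε₁, hLB, hLF, h1, h2⟩ := (e1.and (e2.and (e3.and e4))).exists
  have hε₁ : 0 < ε₁ := h1.1
  refine ⟨ε₁, hε₁, ?_⟩
  set a' : ℝ := max (1 / 4) (1 / 2 - ε₁ / 2) with ha'
  have ha'0 : 0 < a' := lt_of_lt_of_le (by norm_num) (le_max_left _ _)
  have ha'1 : a' < 1 / 2 := max_lt (by norm_num) (by linarith)
  have ha'2 : 1 - 2 * a' ≤ ε₁ := by have := le_max_right (1 / 4) (1 / 2 - ε₁ / 2); linarith
  obtain ⟨Ω₁, hΩ₁⟩ := exists_prof ha'0 ha'1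
  obtain ⟨N₁, hN₁⟩ := exists_nbig D.A
  obtain ⟨N₂, hN₂⟩ := geo σ k hε
  have n1 : ∀ᶠ N : ℕ in atTop, ∀ a ∈ D.A, 2 * Real.pi * |(a.2 : ℝ)| / N ≤ ε₁ :=
    (Finset.eventually_all _).2 fun a _ => ev_div _ hε₁
  have n2 : ∀ᶠ N : ℕ in atTop, ∀ a ∈ D.A, |(a.2 : ℝ)| * (|σ.φ| + σ.lam + 1) / N ≤ d / 2 :=
    (Finset.eventually_all _).2 fun a _ => ev_div _ (by positivity)
  have n3 : ∀ᶠ N : ℕ in atTop, ∀ b ∈ σ.B,
      2 * (b.1 * σ.lam) * ((|(b.2 : ℝ)| + 3) / N) ^ 2 ≤ ε₂ ^ 2 := by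
    refine (Finset.eventually_all _).2 fun b _ => ?_
    have h := (((tendsto_const_div_atTop_nhds_zero_nat (|(b.2 : ℝ)| + 3)).pow 2).const_mul
      (2 * (b.1 * σ.lam)))
    simp only [ne_eq, OfNat.ofNat_ne_zero, not_false_eq_true, zero_pow, mul_zero] at h
    exact h.eventually (ge_mem_nhds (by positivity))
  obtain ⟨N, hn1, hn2, hn3, hN0, hN1, hN2⟩ := (n1.and (n2.and (n3.and ((eventually_ge_atTop N₀).and
    ((eventually_ge_atTop N₁).and (eventually_ge_atTop N₂)))))).exists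
  obtain ⟨hNpos, hbig⟩ := hN₁ N hN1
  refine ⟨N, hN0, hNpos, hbig, fun n hn => ?_⟩
  obtain ⟨p, hp⟩ := exists_p σ.β hNpos
  obtain ⟨Z, m, P, Θ, z, hZ, hm, hΘ, har⟩ := arith D.A N hNpos n hn.par
  refine ⟨Z, m, P, hZ, hm, fun a ha => (har a ha).1, ?_⟩
  have hg := tendsto_g hlam hNpos
  have hell : ∀ a ∈ D.A, 0 < ell N a := fun a ha => ell_pos hbig ha (D.pos a ha)
  have d1 := hN₂ N hN2 hNpos p hp m Z Θ a' Ω₁ hm hΘ hΩ₁
  have d2 : ∀ᶠ δ in 𝓝[>] (0 : ℝ), ∀ b ∈ σ.B, ∀ K : NG,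
      KForm K.1 N m σ.a a' (σ.lam / (2 * N * δ)) Θ →
      LineOK K N (Z * n b + 1) (P b) (1 / (2 * (ell N b * (σ.lam / (2 * N * δ))) * P b)) a'
        (σ.amp b) (σ.l b) (σ.r b) b ε₁ ε₂ := by
    refine (Finset.eventually_all _).2 fun b hb => ?_
    have hb' := hB hb
    exact hg.eventually (hLB b hb b N m (P b) (Z * n b + 1) Θ (z b) a' hNpos hm (har b hb').1
      (hell b hb') ha'0 ha'1 ha'2 hΘ (fun j => ((har b hb').2.1 j).trans (hn1 b hb'))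
      (har b hb').2.2)
  have d3 : ∀ᶠ δ in 𝓝[>] (0 : ℝ), ∀ b ∈ D.A, ∀ K : NG,
      KForm K.1 N m σ.a a' (σ.lam / (2 * N * δ)) Θ →
      LineOK K N (Z * n b + 1) (P b) (1 / (2 * (ell N b * (σ.lam / (2 * N * δ))) * P b)) a'
        (D.F b) (-σ.a) σ.a b ε₁ ε₂ := by
    refine (Finset.eventually_all _).2 fun b hb' => ?_
    exact hg.eventually (hLF b hb' b N m (P b) (Z * n b + 1) Θ (z b) a' hNpos hm (har b hb').1
      (hell b hb') ha'0 ha'1 ha'2 hΘ (fun j => ((har b hb').2.1 j).trans (hn1 b hb'))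
      (har b hb').2.2)
  have d4 : ∀ᶠ δ in 𝓝[>] (0 : ℝ), ∀ a ∈ D.A, |(a.1 : ℝ)| * δ ≤ d / 2 :=
    (Finset.eventually_all _).2 fun a _ => ev_mul _ (by positivity)
  have d5 : ∀ᶠ δ in 𝓝[>] (0 : ℝ), ∀ a ∈ D.A, N / (ell N a * σ.lam * P a) * δ ≤ 1 :=
    (Finset.eventually_all _).2 fun a _ => ev_mul _ one_pos
  filter_upwards [d1, d2, d3, d4, d5, self_mem_nhdsWithin] with δ ⟨K, S', hK, hS, hcl⟩ hd2 hd3 hd4
    hd5 hδ
  have hδ : 0 < δ := hδ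
  refine ⟨fun a => ell N a * σ.φ / N - a.2 * p / (N : ℝ) ^ 2 + a.1 * δ / (m * N), ?_⟩
  set L : LS := ⟨N, Z, m, n, P, δ,
    fun a => ell N a * σ.φ / N - a.2 * p / (N : ℝ) ^ 2 + a.1 * δ / (m * N), σ.lam⟩ with hLdef
  have hL : L.OK σ.B D.A :=
    ⟨hNpos, hbig, hn, hZ, hm, fun a ha => (har a ha).1, hδ, hlam, D.pos⟩
  have hμ : ∀ a ∈ D.A, 1 / (2 * (ell N a * (σ.lam / (2 * N * δ))) * P a) = L.μ a := by
    intro a ha
    have h1 : (0 : ℝ) < ell N a := by exact_mod_cast hell a ha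
    have h2 : (0 : ℝ) < P a := by exact_mod_cast hL.P_pos ha
    have h3 : (0 : ℝ) < N := by exact_mod_cast hNpos
    simp only [LS.μ, hLdef]
    field_simp
  refine ⟨fun a ha i hi => ?_, fun KB KF hkept => ?_⟩
  · have := cen_sub_le hL σ.φ σ.β p hp (fun _ => rfl) ha i hi
    have h2 := hn2 a ha
    have h4 := hd4 a ha
    exact this.trans (by change _ / (N : ℝ) + _ * δ ≤ d; linarith)
  · refine build σ D hB L hL rfl K S' hΩ₁ hS (fun q hq => freq_eq hL σ.φ p (fun _ => rfl) q hq)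
      ?_ k (ε₂ := ε₂) hcl (ha'2.trans h1.2) hε₂.le (fun b hb => ?_) (fun a ha => ?_)
      (fun b hb => ?_) (fun b hb => ?_) ?_ KB KF hkept
    · obtain ⟨V, hV, -⟩ := hK
      exact ⟨m * N, V, Nat.mul_pos hm hNpos, hV⟩
    · rw [← hμ b (hB hb)]; exact hd2 b hb K hK
    · rw [← hμ a ha]; exact hd3 a ha K hK
    · have := hd5 b (hB hb)
      simp only [LS.μ, hLdef]
      calc δ * N / (ell N b * σ.lam * P b) = N / (ell N b * σ.lam * P b) * δ := by ring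
        _ ≤ 1 := this
    · have h := hL.ratio_le hB hb (σ.pos b hb)
      have h3 := hn3 b hb
      refine le_trans ?_ h3
      have hb1 : (0 : ℝ) < b.1 := by exact_mod_cast σ.pos b hb
      refine mul_le_mul_of_nonneg_left ?_ (by change 0 ≤ 2 * (b.1 * σ.lam); positivity)
      rw [← sq_abs]
      exact pow_le_pow_left₀ (abs_nonneg _) h 2
    · have h3 : Real.sqrt ε₁ ≤ ε / 2 := Real.sqrt_le_iff.2 ⟨by positivity, h2.2⟩
      have h4 : 2 * D.A.card * ε₂ ≤ ε / 2 := by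
        rw [hε₂def, mul_div_assoc', div_le_div_iff₀ (by positivity) (by positivity)]
        nlinarith [show (0 : ℝ) ≤ D.A.card by positivity]
      linarith

end Crest.Agent.R81
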