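import Crest.Agent.R81.Basic

/-!
# R81 / Gauss

Quadratic Gauss sums have flat discrete Fourier transform.
`gauss`: let `f j = e ((u j² - i j)/P)`, which is `P`-periodic on `ℤ`.  `‖∑ f‖² = ∑_j ∑_h f (j + h) conj (f j)`
(reindex the inner sum by periodicity, e.g. work in `ZMod P` or use
`Function.Periodic`-sums / `Finset.sum_range` shifting) `= ∑_h e((u h² - i h)/P) ∑_j e (2 u h j/P)`, and the
geometric sum vanishes unless `P ∣ 2 u h`, i.e. `h = 0` (`P` odd, `u` coprime to `P`).
`gauss_dft`: `m = P R`; the summand `e (u j²/P) e (-(R i j/m)) = f j` is `P`-periodic, so the sum over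
`range (P R)` is `R` times the sum over `range P`; `(1/m) R √P = 1/√P`.

Auxiliary lemmas: put them in the namespace `Crest.Agent.R81.GaussAux` (avoid name clashes).
-/

set_option autoImplicit false

open MeasureTheory Set Filter Topology
open scoped InnerProductSpace ComplexConjugate

namespace Crest.Agent.R81

namespace GaussAux

theorem e_nat_mul (t : ℝ) (j : ℕ) : e (j * t) = e t ^ j := by
  induction j with
  | zero => simp [e_zero]
  | succ j ih => rw [Nat.cast_succ, add_mul, one_mul, e_add, ih, pow_succ]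

theorem geom {P : ℕ} (hP : 0 < P) {k : ℤ} (hk : ¬ (P : ℤ) ∣ k) :
    ∑ j ∈ Finset.range P, e (j * (k / P)) = 0 := by
  have hP' : (P : ℝ) ≠ 0 := by positivity
  have h1 : e (k / P) ≠ 1 := fun h => by
    obtain ⟨n, hn⟩ := (e_eq_one_iff _).1 h
    rw [div_eq_iff hP'] at hn
    exact hk ⟨n, by rw [mul_comm]; exact_mod_cast hn⟩
  simp only [e_nat_mul]
  rw [geom_sum_eq h1, ← e_nat_mul, mul_div_cancel₀ _ hP', e_int, sub_self, zero_div]

theorem shift {f : ℕ → ℂ} {P : ℕ} (hf : ∀ j, f (j + P) = f j) (j : ℕ) :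
    ∑ h ∈ Finset.range P, f (j + h) = ∑ h ∈ Finset.range P, f h := by
  induction j with
  | zero => simp
  | succ j ih =>
    rw [← ih]
    have h1 := Finset.sum_range_succ (fun h => f (j + h)) P
    have h2 := Finset.sum_range_succ' (fun h => f (j + h)) P
    simp only [hf, add_zero] at h1 h2
    have h3 : ∀ h, f (j + 1 + h) = f (j + (h + 1)) := fun h => by congr 1; ring
    simp only [h3]
    linear_combination h1 - h2

theorem sum_mul {f : ℕ → ℂ} {P : ℕ} (hf : ∀ j, f (j + P) = f j) (R : ℕ) :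
    ∑ h ∈ Finset.range (P * R), f h = R * ∑ h ∈ Finset.range P, f h := by
  induction R with
  | zero => simp
  | succ R ih => rw [Nat.mul_succ, Finset.sum_range_add, ih, shift hf]; push_cast; ring

theorem per {P : ℕ} (hP : 0 < P) (u i : ℤ) (j : ℕ) :
    e ((u * ((j + P : ℕ) : ℝ) ^ 2 - i * (j + P : ℕ)) / P) = e ((u * (j : ℝ) ^ 2 - i * j) / P) := by
  have hP' : (P : ℝ) ≠ 0 := by positivity
  rw [← e_add_int ((u * (j : ℝ) ^ 2 - i * j) / P) (2 * u * j + u * P - i)]
  congr 1
  push_cast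
  field_simp
  ring

end GaussAux

theorem gauss (P : ℕ) (hP : Odd P) (u : ℤ) (hu : IsCoprime u (P : ℤ)) (i : ℤ) :
    ‖∑ j ∈ Finset.range P, e ((u * (j : ℝ) ^ 2 - i * j) / P)‖ ^ 2 = P := by
  have hP0 : 0 < P := hP.pos
  have hP' : (P : ℝ) ≠ 0 := by positivity
  set f : ℕ → ℂ := fun j => e ((u * (j : ℝ) ^ 2 - i * j) / P) with hf
  have hper : ∀ j, f (j + P) = f j := GaussAux.per hP0 u i
  have h1 : ∀ j h : ℕ, f (j + h) * conj (f j) = f h * e (j * ((2 * u * h : ℤ) / P)) := fun j h => by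
    simp only [hf]
    rw [← e_neg, ← e_add, ← e_add]
    congr 1
    push_cast
    field_simp
    ring
  have h2 : (∑ j ∈ Finset.range P, f j) * conj (∑ j ∈ Finset.range P, f j) = P := by
    rw [map_sum, Finset.mul_sum]
    rw [Finset.sum_congr rfl fun j _ => by
      rw [← GaussAux.shift hper j, Finset.sum_mul, Finset.sum_congr rfl fun h _ => h1 j h]]
    rw [Finset.sum_comm, Finset.sum_eq_single 0]
    · simp [hf, e_zero]
    · intro h hh h0
      rw [← Finset.mul_sum, GaussAux.geom hP0, mul_zero]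
      intro hd
      have c2 : IsCoprime (P : ℤ) 2 := by
        obtain ⟨k, rfl⟩ := hP
        exact ⟨1, -k, by push_cast; ring⟩
      have h3 : (P : ℤ) ∣ h := (c2.mul_right hu.symm).dvd_of_dvd_mul_left hd
      have h4 := Nat.le_of_dvd (Nat.pos_of_ne_zero h0) (Int.natCast_dvd_natCast.1 h3)
      exact absurd (Finset.mem_range.1 hh) (not_lt.2 h4)
    · intro h
      exact absurd (Finset.mem_range.2 hP0) h
  rw [Complex.mul_conj, Complex.normSq_eq_norm_sq] at h2
  exact_mod_cast h2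

theorem gauss_dft (P R m : ℕ) (hm : P * R = m) (hR : 0 < R) (hP : Odd P) (u : ℤ)
    (hu : IsCoprime u (P : ℤ)) (i : ℤ) :
    ‖dft m (fun j => e (u * (j : ℝ) ^ 2 / P)) (R * i)‖ = 1 / Real.sqrt P := by
  subst hm
  have hP0 : 0 < P := hP.pos
  have hP' : (0 : ℝ) < P := by positivity
  have hR' : (0 : ℝ) < R := by positivity
  have h1 : ∀ j : ℕ, e (u * ((j : ℤ) : ℝ) ^ 2 / P) * e (-(((R * i : ℤ) : ℝ) * j / (P * R : ℕ))) =
      e ((u * (j : ℝ) ^ 2 - i * j) / P) := fun j => by
    rw [← e_add]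
    congr 1
    push_cast
    field_simp
    ring
  unfold dft
  simp only [h1]
  rw [GaussAux.sum_mul (GaussAux.per hP0 u i), norm_mul, norm_mul]
  have h2 : ‖∑ j ∈ Finset.range P, e ((u * (j : ℝ) ^ 2 - i * j) / P)‖ = Real.sqrt P := by
    rw [eq_comm, Real.sqrt_eq_iff_mul_self_eq hP'.le (norm_nonneg _), ← sq]
    exact (gauss P hP u hu i).symm
  have h3 : Real.sqrt P * Real.sqrt P = P := Real.mul_self_sqrt hP'.le
  have h4 : 0 < Real.sqrt P := Real.sqrt_pos.2 hP'
  rw [h2, norm_div, norm_one, Complex.norm_natCast, Complex.norm_natCast]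
  push_cast
  field_simp
  nlinarith

end Crest.Agent.R81
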