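import Crest.Agent.R81.Bessel

/-!
# R81 / Inner

The inner product of the pull back of a mode with a line.
Let `ℓ = ell N b`, `M = m N`, `Φ X = e (ℓ Θ ⌈X - 1/2⌉) * (A x * e (ℓ g x²))` with `x = X - ⌈X - 1/2⌉`
(so `Φ (j + x) = e (ℓ Θ j) * B x` on `(-1/2, 1/2]`).  For `|u| ≤ a'`:
`wv A b (K (pr (u, v, s))) = e (ℓ v) e (b.1 s) Φ (u + M s)`  (write `u + M s = j + x` with
`x = rep ↑(u + M s)` by `exists_int_rep`; if `A x ≠ 0` then `|x| ≤ a` and `V u s = g x² + Θ j`;
`b.1 (N (v + V) + s) + b.2 (v + V) = ℓ v + b.1 s + ℓ V`).  So at `z = pr (rep z.1, rep z.2.1, rep z.2.2)`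
the integrand `conj (wv f ..) * wv A b (K z)` equals
`conj (f u) * (Φ (u + M s) * e (-(N κ s)))`, independent of `z.2.1` (if `f u ≠ 0` then `|u| ≤ a'`).
`L2.inner_def`, `Uc_coe`, `W_coe`; Fubini `integral_prod` (the integrand is bounded and measurable,
`NG_continuous`), `integral_rep`, `comb_coeff`.

Auxiliary lemmas: put them in the namespace `Crest.Agent.R81.InnerAux` (avoid name clashes).
-/

set_option autoImplicit false

open MeasureTheory Set Filter Topology
open scoped InnerProductSpace ComplexConjugate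

namespace Crest.Agent.R81

open BesselAux in
theorem inner_line (K : NG) {N m : ℕ} {a a' g : ℝ} {Θ : ℤ → ℝ} (hK : KForm K.1 N m a a' g Θ)
    (hN : 0 < N) (hm : 0 < m) (hΘ : Function.Periodic Θ (m : ℤ)) {A : ℝ → ℂ} (hA : Good A)
    (hAs : ∀ x ∉ Icc (-a) a, A x = 0) {f : ℝ → ℂ} (hf : Good f)
    (hfs : ∀ u ∉ Icc (-a') a', f u = 0) (b : Md) (κ : ℤ) :
    ⟪W f (ell N b, b.1 + N * κ), Uc K (W A b)⟫_ℂ =
      (∫ u in (-1 / 2 : ℝ)..(1 / 2), conj (f u) * e (κ * u / m)) *
        (dft m (fun j => e (ell N b * Θ j)) κ * chirp A (ell N b * g) (κ / m)) := by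
  obtain ⟨V, hKV, hV⟩ := hK
  set ℓ : ℤ := ell N b with hℓ
  let B : ℝ → ℂ := fun x => A x * e (ℓ * g * x ^ 2)
  have hB : Good B := hA.mul (good_e (by fun_prop))
  let zz : ℤ → ℂ := fun j => e (ℓ * Θ j)
  have hzz : Function.Periodic zz (m : ℤ) := fun j => by simp only [zz, hΘ j]
  let Φ : ℝ → ℂ := fun X => zz ⌈X - 1 / 2⌉ * B (X - (⌈X - 1 / 2⌉ : ℤ))
  have hΦ : ∀ (j : ℤ) (x : ℝ), x ∈ Ioc (-1 / 2 : ℝ) (1 / 2) → Φ (j + x) = zz j * B x := by
    intro j x hx
    simp only [Φ, ceil_eq j hx, add_sub_cancel_left]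
  have hG := comb_good hm hzz hB hΦ
  let F : ℝ → ℝ → ℂ := fun u s => conj (f u) * (Φ (u + (m * N : ℕ) * s) * e (-(N * κ * s)))
  have hpt : ∀ z : TT, conj (wv f (ℓ, b.1 + N * κ) z) * wv A b (K.1 z) =
      F (rep z.1) (rep z.2.2) := by
    intro z
    set u := rep z.1 with hu
    set v := rep z.2.1 with hv
    set s := rep z.2.2 with hs
    by_cases hfu : f u = 0
    · simp [F, wv, ← hu, hfu]
    have hu' : |u| ≤ a' := by
      by_contra h
      exact hfu (hfs u fun h' => h (abs_le.2 h'))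
    obtain ⟨j, hj⟩ := exists_int_rep (u + (m * N : ℕ) * s)
    set x := rep ((u + (m * N : ℕ) * s : ℝ) : S1) with hx
    have h1 : wv f (ℓ, b.1 + N * κ) z = f u * e (ℓ * v) * e ((b.1 + N * κ : ℤ) * s) := by
      rw [wv, ← fourier_coe, ← fourier_coe, hv, hs, coe_rep, coe_rep]
    have h2 : wv A b (K.1 z) =
        A x * e (b.1 * (N * (v + V u s) + s)) * e (b.2 * (v + V u s)) := by
      conv_lhs => rw [← pr_rep z, hKV]
      simp only [wv, pr, fourier_coe]
      rfl
    have h3 : Φ (u + (m * N : ℕ) * s) = zz j * B x := by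
      rw [hj]
      exact hΦ j x (rep_mem _)
    simp only [F, h1, h2, h3, B, zz]
    by_cases hAx : A x = 0
    · simp [hAx]
    have hx' : |x| ≤ a := by
      by_contra h
      exact hAx (hAs x fun h' => h (abs_le.2 h'))
    rw [hV u s x j hu' hx' hj]
    simp only [map_mul, ← e_neg]
    have h4 : e (-(ℓ * v)) * e (-((b.1 + N * κ : ℤ) * s)) *
        (e (b.1 * (N * (v + (g * x ^ 2 + Θ j)) + s)) * e (b.2 * (v + (g * x ^ 2 + Θ j)))) =
        e (ℓ * Θ j) * e (ℓ * g * x ^ 2) * e (-(N * κ * s)) := by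
      simp only [← e_add]
      congr 1
      simp only [hℓ, ell]
      push_cast
      ring
    linear_combination (conj (f u) * A x) * h4
  have h1 : ⟪W f (ℓ, b.1 + N * κ), Uc K (W A b)⟫_ℂ = ∫ z : TT, F (rep z.1) (rep z.2.2) := by
    rw [L2.inner_def]
    refine integral_congr_ae ?_
    filter_upwards [W_coe hf (ℓ, b.1 + N * κ), Uc_coe K (W A b), KoopAux.ae_comp K (W_coe hA b)]
      with z h1 h2 h3
    rw [h1, h2, h3, ← hpt]
    simp [mul_comm]
  have hint : Integrable (fun z : TT => F (rep z.1) (rep z.2.2)) (volume.prod volume) := by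
    obtain ⟨hf1, Cf, hCf⟩ := hf.conj
    obtain ⟨hG1, CG, hCG⟩ := hG
    have hr1 : Measurable fun z : TT => rep z.1 := measurable_rep.comp measurable_fst
    have hr2 : Measurable fun z : TT => rep z.2.2 :=
      measurable_rep.comp (measurable_snd.comp measurable_snd)
    refine Integrable.of_bound (C := Cf * CG) (Measurable.aestronglyMeasurable ?_)
      (Eventually.of_forall fun z => ?_)
    · exact (hf1.comp hr1).mul ((hG1.comp (hr1.add (hr2.const_mul _))).mul
        (continuous_e.measurable.comp (hr2.const_mul _).neg))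
    · simp only [F, norm_mul, norm_e, mul_one]
      exact mul_le_mul (hCf _) (hCG _) (norm_nonneg _) ((norm_nonneg _).trans (hCf 0))
  rw [h1, Measure.volume_eq_prod, integral_prod _ hint]
  have h2 : ∀ x : S1, ∫ y : S1 × S1, F (rep x) (rep y.2) =
      conj (f (rep x)) * e (κ * rep x / m) *
        (dft m zz κ * ∫ x in (-1 / 2 : ℝ)..(1 / 2), B x * e (-(κ * x / m))) := by
    intro x
    rw [Measure.volume_eq_prod, integral_fun_snd (fun y : S1 => F (rep x) (rep y)),
      integral_rep (F (rep x))]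
    simp only [F, probReal_univ, one_smul]
    rw [intervalIntegral.integral_const_mul, comb_coeff m N hm hN zz hzz hB Φ hΦ, mul_assoc]
  simp only [h2]
  rw [integral_mul_const, integral_rep fun u => conj (f u) * e (κ * u / m)]
  congr 2
  unfold chirp
  congr 1
  funext x
  simp only [B]
  rw [mul_assoc, ← e_add]
  congr 2
  ring

end Crest.Agent.R81
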