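import Crest.Agent.R81.Basic

/-!
# R81 / Koop

Koopman operators, `Re2`, `mk`, `cR`, `cC`, `poly`.
Everything is proved by `Lp.ext` and a.e. computations (`Lp.coeFn_compMeasurePreserving`,
`ContinuousLinearMap.coeFn_compLpL`, `MeasurePreserving.quasiMeasurePreserving.ae_eq_comp`,
`ContinuousMap.coeFn_toLp`, `L2.inner_def`).
`inner_Re2`: pointwise `2 re f * 2 re g = 2 re (conj f * g) + 2 re (f * g)`; integrability of the
products from `MemLp.integrable_mul` / `L2.integrable_inner`.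

Auxiliary lemmas: put them in the namespace `Crest.Agent.R81.KoopAux` (avoid name clashes).
-/

set_option autoImplicit false

open MeasureTheory Set Filter Topology
open scoped InnerProductSpace ComplexConjugate

namespace Crest.Agent.R81

namespace KoopAux

theorem ae_comp (T : NG) {β : Type} {f g : TT → β} (h : f =ᵐ[volume] g) :
    (fun z => f (T.1 z)) =ᵐ[volume] fun z => g (T.1 z) :=
  (NG_mp T).quasiMeasurePreserving.ae_eq_comp h

theorem integral_comp (T : NG) {E : Type} [NormedAddCommGroup E] [NormedSpace ℝ E] {f : TT → E}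
    (hf : AEStronglyMeasurable f volume) : ∫ z, f (T.1 z) = ∫ z, f z := by
  have h := (NG_mp T).map_eq
  rw [← integral_map (NG_mp T).measurable.aemeasurable (by rw [h]; exact hf), h]

theorem norm_le_of_ae {E : Type} [NormedAddCommGroup E] (f : Lp E 2 (volume : Measure TT)) {C : ℝ}
    (hC : 0 ≤ C) (h : ∀ᵐ z, ‖f z‖ ≤ C) : ‖f‖ ≤ C := by
  have := Lp.norm_le_of_ae_bound hC h
  simpa [measureUnivNNReal] using this

end KoopAux

open KoopAux

theorem Uc_coe (T : NG) (f : L2) : Uc T f =ᵐ[volume] fun z => f (T.1 z) := by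
  exact Lp.coeFn_compMeasurePreserving f _

theorem Ur_coe (T : NG) (f : L2R) : Ur T f =ᵐ[volume] fun z => f (T.1 z) := by
  exact Lp.coeFn_compMeasurePreserving f _

theorem Uc_mul (S T : NG) (f : L2) : Uc (S * T) f = Uc T (Uc S f) := by
  refine Lp.ext ((Uc_coe _ _).trans ((Uc_coe T _).trans (ae_comp T (Uc_coe S f))).symm)

theorem Ur_mul (S T : NG) (f : L2R) : Ur (S * T) f = Ur T (Ur S f) := by
  refine Lp.ext ((Ur_coe _ _).trans ((Ur_coe T _).trans (ae_comp T (Ur_coe S f))).symm)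

theorem Uc_one (f : L2) : Uc 1 f = f := by
  exact Lp.ext (Uc_coe 1 f)

theorem Ur_one (f : L2R) : Ur 1 f = f := by
  exact Lp.ext (Ur_coe 1 f)

theorem Re2_coe (f : L2) : Re2 f =ᵐ[volume] fun z => 2 * (f z).re := by
  have h1 := Lp.coeFn_smul (2 : ℝ) (Complex.reCLM.compLpL 2 (volume : Measure TT) f)
  have h2 := Complex.reCLM.coeFn_compLpL (p := 2) (μ := (volume : Measure TT)) f
  filter_upwards [h1, h2] with z h1 h2
  simp only [Re2, smul_apply]
  rw [h1, Pi.smul_apply, h2]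
  simp

theorem Ur_Re2 (T : NG) (f : L2) : Ur T (Re2 f) = Re2 (Uc T f) := by
  refine Lp.ext ?_
  filter_upwards [Ur_coe T (Re2 f), ae_comp T (Re2_coe f), Re2_coe (Uc T f), Uc_coe T f]
    with z h1 h2 h3 h4
  rw [h1, h2, h3, h4]

theorem norm_Re2_le (f : L2) : ‖Re2 f‖ ≤ 2 * ‖f‖ := by
  have : ‖(2 : ℂ) • f‖ = 2 * ‖f‖ := by rw [norm_smul]; simp
  rw [← this]
  refine Lp.norm_le_norm_of_ae_le ?_
  filter_upwards [Re2_coe f, Lp.coeFn_smul (2 : ℂ) f] with z h1 h2
  rw [h1, h2, Pi.smul_apply, norm_smul, norm_mul]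
  simp only [Real.norm_ofNat, Complex.norm_ofNat, Real.norm_eq_abs]
  have := Complex.abs_re_le_norm (f z)
  linarith

theorem inner_Re2 (f g : L2) :
    ⟪Re2 f, Re2 g⟫_ℝ = 2 * (⟪f, g⟫_ℂ).re + 2 * (∫ z, f z * g z).re := by
  have i1 : Integrable (fun z => ⟪f z, g z⟫_ℂ) volume := L2.integrable_inner f g
  have i2 : Integrable (fun z => f z * g z) volume :=
    (Lp.memLp f).integrable_mul (Lp.memLp g)
  rw [L2.inner_def, L2.inner_def]
  have h1 : (∫ z, ⟪f z, g z⟫_ℂ).re = ∫ z, (⟪f z, g z⟫_ℂ).re := (integral_re i1).symm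
  have h2 : (∫ z, f z * g z).re = ∫ z, (f z * g z).re := (integral_re i2).symm
  have j1 : Integrable (fun z => 2 * (⟪f z, g z⟫_ℂ).re) volume := i1.re.const_mul 2
  have j2 : Integrable (fun z => 2 * (f z * g z).re) volume := i2.re.const_mul 2
  rw [h1, h2, ← integral_const_mul, ← integral_const_mul, ← integral_add j1 j2]
  refine integral_congr_ae ?_
  filter_upwards [Re2_coe f, Re2_coe g] with z h1 h2
  rw [h1, h2]
  simp
  ring

theorem Re2_ofReal_smul (c : ℝ) (f : L2) : Re2 ((c : ℂ) • f) = c • Re2 f := by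
  rw [← map_smul]
  congr 1

theorem mk_coe {f : TT → ℂ} (h : MemLp f 2 volume) : mk f =ᵐ[volume] f := by
  simp only [mk, dif_pos h]
  exact h.coeFn_toLp

theorem Uc_mk (T : NG) {f : TT → ℂ} (h : MemLp f 2 volume) :
    Uc T (mk f) = mk (fun z => f (T.1 z)) := by
  refine Lp.ext ((Uc_coe _ _).trans ((ae_comp T (mk_coe h)).trans ?_))
  exact (mk_coe (h.comp_measurePreserving (NG_mp T))).symm

theorem cC_coe (f : C(TT, ℂ)) : cC f =ᵐ[volume] f := by
  exact ContinuousMap.coeFn_toLp _ f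

theorem cR_coe (f : C(TT, ℝ)) : cR f =ᵐ[volume] f := by
  exact ContinuousMap.coeFn_toLp _ f

theorem norm_cC_le (f : C(TT, ℂ)) : ‖cC f‖ ≤ ‖f‖ := by
  refine norm_le_of_ae _ (norm_nonneg _) ?_
  filter_upwards [cC_coe f] with z hz
  rw [hz]; exact f.norm_coe_le_norm z

theorem norm_cR_le (f : C(TT, ℝ)) : ‖cR f‖ ≤ ‖f‖ := by
  refine norm_le_of_ae _ (norm_nonneg _) ?_
  filter_upwards [cR_coe f] with z hz
  rw [hz]; exact f.norm_coe_le_norm z

theorem Uc_cC (T : NG) (f : C(TT, ℂ)) :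
    Uc T (cC f) = cC (f.comp ⟨T.1, NG_continuous T⟩) := by
  exact Lp.ext ((Uc_coe _ _).trans ((ae_comp T (cC_coe f)).trans (cC_coe (f.comp ⟨T.1, NG_continuous T⟩)).symm))

theorem Ur_cR (T : NG) (f : C(TT, ℝ)) :
    Ur T (cR f) = cR (f.comp ⟨T.1, NG_continuous T⟩) := by
  exact Lp.ext ((Ur_coe _ _).trans ((ae_comp T (cR_coe f)).trans (cR_coe (f.comp ⟨T.1, NG_continuous T⟩)).symm))

theorem Re2_cC_cx (f : C(TT, ℝ)) : Re2 (cC (cx f)) = (2 : ℝ) • cR f := by
  refine Lp.ext ?_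
  filter_upwards [Re2_coe (cC (cx f)), cC_coe (cx f), cR_coe f, Lp.coeFn_smul (2 : ℝ) (cR f)]
    with z h1 h2 h3 h4
  rw [h1, h2, h4, Pi.smul_apply, h3]
  simp [cx]

theorem integral_Uc (T : NG) (f : L2) : ∫ z, Uc T f z = ∫ z, f z := by
  rw [integral_congr_ae (Uc_coe T f), integral_comp T (Lp.aestronglyMeasurable f)]

theorem integral_Ur (T : NG) (f : L2R) : ∫ z, Ur T f z = ∫ z, f z := by
  rw [integral_congr_ae (Ur_coe T f), integral_comp T (Lp.aestronglyMeasurable f)]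

theorem integral_Re2 (f : L2) : ∫ z, Re2 f z = 2 * (∫ z, f z).re := by
  rw [integral_congr_ae (Re2_coe f), integral_const_mul]
  congr 1
  exact integral_re ((Lp.memLp f).integrable one_le_two)

theorem abs_integral_le (f : L2R) : |∫ z, f z| ≤ ‖f‖ := by
  have h1 : ⟪cR (ContinuousMap.const TT 1), f⟫_ℝ = ∫ z, f z := by
    rw [L2.inner_def]
    refine integral_congr_ae ?_
    filter_upwards [cR_coe (ContinuousMap.const TT 1)] with z hz
    rw [hz]; simp
  have h2 : ‖cR (ContinuousMap.const TT 1)‖ ≤ 1 :=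
    (norm_cR_le _).trans ((ContinuousMap.norm_le _ zero_le_one).2 fun _ => by simp)
  rw [← h1]
  refine (abs_real_inner_le_norm _ _).trans ?_
  nlinarith [norm_nonneg f]

theorem norm_poly_sub_le (c : ℤ →₀ ℝ) (T : NG) (G G' : L2R) :
    ‖poly c T G - poly c T G'‖ ≤ (∑ k ∈ c.support, |c k|) * ‖G - G'‖ := by
  simp only [poly, Finsupp.sum]
  rw [← Finset.sum_sub_distrib, Finset.sum_mul]
  refine (norm_sum_le _ _).trans (Finset.sum_le_sum fun k _ => ?_)
  rw [← smul_sub, ← map_sub, norm_smul, LinearIsometry.norm_map, Real.norm_eq_abs]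

end Crest.Agent.R81
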