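import Crest.Agent.R81.Rec
import Crest.Agent.R81.Conv

/-!
# R81 / Limit

Passage to the limit.  Let `g j` be a dense sequence of `C(TT, ℝ)` (`TopologicalSpace.denseSeq`),
`f n = g (unpair n).1 - const (∫ g ..)`, `η n = 1/((unpair n).2 + 1)`.  `exists_seq`, `exists_limit`.
`G n` is Cauchy (`‖G (n+1) - G n‖ ≤ 3 u n`, `u n ≤ u 0/2^n`; `cauchySeq_of_le_geometric`..) with limit `G` and
`‖G - G n‖ ≤ 6 u n`.  `‖G‖ = 1` from `0 ≤ gap ≤ u n² → 0`; `∫ G = 0` from `abs_integral_le` applied to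
`G - G n`; the correlations: `‖Ur (T n ^ k) (G n) - Ur (T ^ k) G‖ ≤ ‖G n - G‖ + ‖Ur (T n ^ k) G - Ur (T ^ k) G‖ → 0`
(`ur_cont`, `Close0.symm`), `St.corr_G`.

Auxiliary lemmas: put them in the namespace `Crest.Agent.R81.LimitAux` (avoid name clashes).
-/

set_option autoImplicit false

open MeasureTheory Set Filter Topology
open scoped InnerProductSpace ComplexConjugate

namespace Crest.Agent.R81

namespace LimitAux

theorem le_geom {u : ℕ → ℝ} (h : ∀ n, u (n + 1) ≤ u n / 2) (n j : ℕ) :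
    u (n + j) ≤ u n * (1 / 2) ^ j := by
  induction j with
  | zero => simp
  | succ j ih => rw [← add_assoc, pow_succ]; have := h (n + j); linarith

theorem tendsto_zero {u : ℕ → ℝ} (h0 : ∀ n, 0 < u n) (h : ∀ n, u (n + 1) ≤ u n / 2) :
    Tendsto u atTop (𝓝 0) := by
  have h1 : Tendsto (fun j : ℕ => u 0 * (1 / 2 : ℝ) ^ j) atTop (𝓝 0) := by
    simpa using (tendsto_pow_atTop_nhds_zero_of_lt_one (r := (1 / 2 : ℝ)) (by norm_num)
      (by norm_num)).const_mul (u 0)
  exact squeeze_zero (fun n => (h0 n).le) (fun n => by simpa using le_geom h 0 n) h1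

theorem exists_lim {E : Type} [NormedAddCommGroup E] [CompleteSpace E] (G : ℕ → E) {u : ℕ → ℝ}
    (h0 : ∀ n, 0 < u n) (h : ∀ n, u (n + 1) ≤ u n / 2) (hG : ∀ n, ‖G (n + 1) - G n‖ ≤ 3 * u n) :
    ∃ g : E, ∀ n, ‖g - G n‖ ≤ 6 * u n := by
  have h1 : ∀ n j, ‖G (n + j) - G n‖ ≤ 6 * u n - 6 * u (n + j) := by
    intro n j
    induction j with
    | zero => simp
    | succ j ih =>
      calc ‖G (n + (j + 1)) - G n‖ = ‖(G (n + j + 1) - G (n + j)) + (G (n + j) - G n)‖ := by
            congr 1; rw [← add_assoc]; abel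
        _ ≤ _ := norm_add_le _ _
        _ ≤ _ := by
          have := hG (n + j); have := h (n + j); rw [← add_assoc]; linarith
  have hc : CauchySeq G := by
    refine cauchySeq_of_le_geometric (1 / 2) (3 * u 0) (by norm_num) fun n => ?_
    rw [dist_comm, dist_eq_norm]
    have := le_geom h 0 n
    rw [zero_add] at this
    have := hG n
    linarith
  obtain ⟨g, hg⟩ := cauchySeq_tendsto_of_complete hc
  refine ⟨g, fun n => ?_⟩
  have h2 : Tendsto (fun j => ‖G (n + j) - G n‖) atTop (𝓝 ‖g - G n‖) := by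
    have := (hg.comp (tendsto_add_atTop_nat n)).sub_const (G n)
    simpa [Function.comp_def, add_comm] using this.norm
  refine le_of_tendsto' h2 fun j => ?_
  have := h1 n j
  have := h0 (n + j)
  linarith

theorem eq_zero_of_le {x : ℝ} {v : ℕ → ℝ} (hv : Tendsto v atTop (𝓝 0))
    (h : ∀ᶠ n in atTop, |x| ≤ v n) : x = 0 :=
  abs_nonpos_iff.1 (ge_of_tendsto hv h)

end LimitAux

open LimitAux

theorem limit : ∃ (T : NG) (G : L2R), ‖G‖ = 1 ∧ ∫ z, G z = 0 ∧
    (∀ k : ℤ, k ≠ 0 → ⟪Ur (T ^ k) G, G⟫_ℝ = 0) ∧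
    ∀ f : C(TT, ℝ), ∫ z, f z = 0 → ∀ η : ℝ, 0 < η → ∃ c : ℤ →₀ ℝ, ‖cR f - poly c T G‖ ≤ η := by
  let g : ℕ → C(TT, ℝ) := TopologicalSpace.denseSeq C(TT, ℝ)
  have hg : DenseRange g := TopologicalSpace.denseRange_denseSeq _
  have hint : ∀ f : C(TT, ℝ), Integrable f volume := fun f =>
    (BoundedContinuousFunction.mkOfCompact f).integrable _
  let f : ℕ → C(TT, ℝ) := fun n =>
    g (Nat.unpair n).1 - ContinuousMap.const _ (∫ z, g (Nat.unpair n).1 z)
  have hf : ∀ n, ∫ z, f n z = 0 := fun n => by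
    simp only [f, ContinuousMap.sub_apply, ContinuousMap.const_apply]
    rw [integral_sub (hint _) (integrable_const _)]
    simp
  obtain ⟨σ, t, u, c, h⟩ := exists_seq f hf (fun n => 1 / (((Nat.unpair n).2 : ℝ) + 1))
    (fun n => by positivity)
  have ht0 : ∀ n, 0 < t n := fun n => (h n).1
  have hu0 : ∀ n, 0 < u n := fun n => (h n).2.1
  have ht : ∀ n, t (n + 1) ≤ t n / 2 := fun n => (h n).2.2.1
  have hu : ∀ n, u (n + 1) ≤ u n / 2 := fun n => (h n).2.2.2.1
  obtain ⟨T, hT⟩ := exists_limit (fun n => (σ n).T) t (fun n => (ht0 n).le) ht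
    fun n => (h n).2.2.2.2.2.1
  obtain ⟨G, hG⟩ := exists_lim (fun n => (σ n).G) hu0 hu fun n => (h n).2.2.2.2.2.2.1
  have tu := tendsto_zero hu0 hu
  have tt := tendsto_zero ht0 ht
  have tG : Tendsto (fun n => (σ n).G) atTop (𝓝 G) := by
    rw [tendsto_iff_norm_sub_tendsto_zero]
    refine squeeze_zero (fun _ => norm_nonneg _) (fun n => ?_) (by simpa using tu.const_mul 6)
    rw [norm_sub_rev]; exact hG n
  have tgap : Tendsto (fun n => (σ n).gap) atTop (𝓝 0) :=
    squeeze_zero (fun n => (σ n).gap_nonneg) (fun n => (h n).2.2.2.2.1) (by simpa using tu.pow 2)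
  refine ⟨T, G, ?_, ?_, fun k hk => ?_, fun f₀ hf₀ η hη => ?_⟩
  · have h1 : Tendsto (fun n => (σ n).gap) atTop (𝓝 (1 - ‖G‖ ^ 2)) :=
      (tG.norm.pow 2).const_sub 1
    have h2 := tendsto_nhds_unique h1 tgap
    have h3 : ‖G‖ ^ 2 = 1 := by linarith
    exact (pow_eq_one_iff_of_nonneg (norm_nonneg _) two_ne_zero).1 h3
  · refine eq_zero_of_le (v := fun n => 6 * u n) (by simpa using tu.const_mul 6)
      (Eventually.of_forall fun n => ?_)
    have h1 := abs_integral_le (G - (σ n).G)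
    have h2 : ∫ z, (G - (σ n).G) z = ∫ z, G z := by
      rw [integral_congr_ae (Lp.coeFn_sub G (σ n).G)]
      simp only [Pi.sub_apply]
      rw [integral_sub ((Lp.memLp G).integrable one_le_two)
        ((Lp.memLp (σ n).G).integrable one_le_two), (σ n).integral_G, sub_zero]
    rw [h2] at h1
    exact h1.trans (hG n)
  · have h1 : Tendsto (fun n => Ur ((σ n).T ^ k) (σ n).G) atTop (𝓝 (Ur (T ^ k) G)) := by
      rw [Metric.tendsto_atTop]
      intro ε hε
      obtain ⟨s, hs, hs'⟩ := ur_cont T G k (show 0 < ε / 3 by positivity)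
      have e1 : ∀ᶠ n in atTop, 2 * t n ≤ s := by
        have : Tendsto (fun n => 2 * t n) atTop (𝓝 0) := by simpa using tt.const_mul 2
        exact this.eventually (ge_mem_nhds hs)
      have e2 : ∀ᶠ n in atTop, 6 * u n ≤ ε / 3 := by
        have : Tendsto (fun n => 6 * u n) atTop (𝓝 0) := by simpa using tu.const_mul 6
        exact this.eventually (ge_mem_nhds (by positivity))
      obtain ⟨n₀, hn₀⟩ := eventually_atTop.1 (e1.and e2)
      refine ⟨n₀, fun n hn => ?_⟩
      have h2 := hs' (σ n).T ((hT n).symm.mono (hn₀ n hn).1)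
      have h3 : ‖Ur ((σ n).T ^ k) (σ n).G - Ur ((σ n).T ^ k) G‖ ≤ ε / 3 := by
        rw [← map_sub, LinearIsometry.norm_map, norm_sub_rev]
        exact (hG n).trans (hn₀ n hn).2
      rw [dist_eq_norm]
      calc _ = ‖(Ur ((σ n).T ^ k) (σ n).G - Ur ((σ n).T ^ k) G) +
            (Ur ((σ n).T ^ k) G - Ur (T ^ k) G)‖ := by congr 1; abel
        _ ≤ _ := norm_add_le _ _
        _ < ε := by linarith
    have h2 := (h1.inner (𝕜 := ℝ) tG).abs
    exact abs_nonpos_iff.1 (le_of_tendsto_of_tendsto' h2 tgap fun n => (σ n).corr_G hk)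
  · obtain ⟨j, hj⟩ := hg.exists_dist_lt f₀ (show 0 < η / 3 by positivity)
    obtain ⟨i, hi⟩ := exists_nat_one_div_lt (show 0 < η / 3 by positivity)
    have h1 := (h (Nat.pair j i)).2.2.2.2.2.2.2 T G (hT _) (hG _)
    simp only [Nat.unpair_pair] at h1
    refine ⟨c (Nat.pair j i), ?_⟩
    have h2 : ‖f₀ - f (Nat.pair j i)‖ ≤ 2 * (η / 3) := by
      rw [dist_eq_norm] at hj
      have h3 : |∫ z, g j z| ≤ η / 3 := by
        have h4 : ∫ z, (f₀ - g j) z = -∫ z, g j z := by
          simp only [ContinuousMap.sub_apply]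
          rw [integral_sub (hint _) (hint _), hf₀, zero_sub]
        rw [← abs_neg, ← h4, ← Real.norm_eq_abs]
        refine (norm_integral_le_of_norm_le_const (C := η / 3)
          (Eventually.of_forall fun z => ((f₀ - g j).norm_coe_le_norm z).trans hj.le)).trans ?_
        simp
      have h5 : ‖ContinuousMap.const TT (∫ z, g j z)‖ ≤ η / 3 :=
        (ContinuousMap.norm_le _ (by positivity)).2 fun _ => h3
      simp only [f, Nat.unpair_pair]
      calc _ = ‖(f₀ - g j) + ContinuousMap.const TT (∫ z, g j z)‖ := by congr 1; abel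
        _ ≤ _ := norm_add_le _ _
        _ ≤ _ := by linarith
    have h6 : ‖cR f₀ - cR (f (Nat.pair j i))‖ ≤ 2 * (η / 3) := by
      have : cR f₀ - cR (f (Nat.pair j i)) = cR (f₀ - f (Nat.pair j i)) := by
        simp only [cR, map_sub]
      rw [this]
      exact (norm_cR_le _).trans h2
    calc _ = ‖(cR f₀ - cR (f (Nat.pair j i))) + (cR (f (Nat.pair j i)) -
          poly (c (Nat.pair j i)) T G)‖ := by congr 1; abel
      _ ≤ _ := norm_add_le _ _
      _ ≤ η := by linarith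

end Crest.Agent.R81
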