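import Crest.Agent.R81.WApi
import Crest.Agent.R81.Trig

/-!
# R81 / Mix

After a stage with large `N`, a mean zero function is almost orthogonal to all functions of the first
coordinate.
Take `s, q` from `exists_trig h (ε/2)`, `N₀ > |n.2.2|` for all `n ∈ s`.  Let `p = ∑ q n chr n` (continuous).
`⟪W A 0, Uc K (cC h)⟫ = ⟪W A 0, Uc K (cC (h - p))⟫ + ∑ q n ⟪W A 0, Uc K (cC (chr n))⟫`; the first term is at most
`‖W A 0‖ ε/2`.  For `n = (n₀, a)`:
`chr n (K (pr (u, v, s))) = e (n₀ (u + M s)) e (ℓ (v + V u s) + a.1 s)`, `ℓ = N a.1 + a.2`.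
* `a ≠ 0`: then `ℓ ≠ 0`, and the integral in `v = z.2.1` vanishes.  Cleanest: the integral `I` of
  `conj (A (rep z.1)) * chr n (K z)` is invariant under the translation `z ↦ z + (0, ↑t, 0)`
  (`integral_add_right_eq_self`), which multiplies the integrand by `e (ℓ t)`; take `t = 1/(2ℓ)`: `I = -I`.
* `a = 0`, `n₀ ≠ 0`: the integrand is `conj (A u) e (n₀ (u + M s))`; translate `s` by `1/(2 n₀ M)`.
* `n = 0`: `|q 0| ≤ ε/2` because `∫ h = 0` and `∫ chr n = 0` for `n ≠ 0`; `|⟪W A 0, 1⟫| ≤ ‖W A 0‖`.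

Auxiliary lemmas: put them in the namespace `Crest.Agent.R81.MixAux` (avoid name clashes).
-/

set_option autoImplicit false

open MeasureTheory Set Filter Topology
open scoped InnerProductSpace ComplexConjugate

namespace Crest.Agent.R81

namespace MixAux

theorem e_half : e (1 / 2) = -1 := by
  simp only [e]
  rw [← Complex.exp_pi_mul_I]; congr 1; push_cast; ring

theorem integral_eq_zero (f : TT → ℂ) (w : TT) (h : ∀ z, f (z + w) = -f z) : ∫ z, f z = 0 := by
  have : (volume : Measure (S1 × S1)).IsAddRightInvariant := by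
    rw [Measure.volume_eq_prod]; infer_instance
  have : (volume : Measure TT).IsAddRightInvariant :=
    Measure.prod.instIsAddRightInvariant
  have h1 := integral_add_right_eq_self (μ := (volume : Measure TT)) f w
  simp only [h, integral_neg] at h1
  linear_combination (-1 / 2 : ℂ) * h1

theorem chr_pr (n : ℤ × Md) (u v s : ℝ) :
    chr n (pr (u, v, s)) = e (n.1 * u + n.2.1 * v + n.2.2 * s) := by
  simp only [chr, pr, fourier_coe, e_add]

theorem continuous_chr (n : ℤ × Md) : Continuous (chr n) := by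
  unfold chr; fun_prop

theorem norm_chr (n : ℤ × Md) (z : TT) : ‖chr n z‖ = 1 := by
  obtain ⟨⟨u, v, s⟩, rfl⟩ := pr_surjective z
  rw [chr_pr, norm_e]

theorem chr_zero (z : TT) : chr 0 z = 1 := by simp [chr]

theorem shape_id (n : ℤ × Md) (hn : n ≠ 0) : ∫ z, chr n z = 0 := by
  have key : ∀ w : R3, (n.1 * w.1 + n.2.1 * w.2.1 + n.2.2 * w.2.2 : ℝ) = 1 / 2 →
      ∫ z, chr n z = 0 := fun w hw => by
    refine integral_eq_zero _ (pr w) fun z => ?_
    obtain ⟨⟨u, v, s⟩, rfl⟩ := pr_surjective z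
    obtain ⟨a, b, c⟩ := w
    rw [← pr_add, Prod.mk_add_mk, Prod.mk_add_mk, chr_pr, chr_pr, ← mul_neg_one, ← e_half, ← e_add,
      ← hw]
    congr 1; ring
  obtain ⟨a, b, c⟩ := n
  by_cases ha : a = 0
  · by_cases hb : b = 0
    · have hc : (c : ℝ) ≠ 0 := by
        have : c ≠ 0 := by rintro rfl; exact hn (by simp [ha, hb])
        exact_mod_cast this
      exact key (0, 0, 1 / (2 * c)) (by simp only; field_simp; ring)
    · have hb' : (b : ℝ) ≠ 0 := by exact_mod_cast hb
      exact key (0, 1 / (2 * b), 0) (by simp only; field_simp; ring)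
  · have ha' : (a : ℝ) ≠ 0 := by exact_mod_cast ha
    exact key (1 / (2 * a), 0, 0) (by simp only; field_simp; ring)

theorem vanish {K : TT → TT} {N : ℕ} (hK : KShape K N) (B : S1 → ℂ) (n : ℤ × Md) (hn : n ≠ 0)
    (hN : |n.2.2| < N) : ∫ z : TT, B z.1 * chr n (K z) = 0 := by
  obtain ⟨M, V, hM, hK⟩ := hK
  obtain ⟨a, b, c⟩ := n
  by_cases h : b = 0 ∧ c = 0
  · obtain ⟨rfl, rfl⟩ := h
    have ha : (a : ℝ) ≠ 0 := by
      have : a ≠ 0 := by rintro rfl; exact hn rfl
      exact_mod_cast this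
    have hM' : (M : ℝ) ≠ 0 := by exact_mod_cast hM.ne'
    refine integral_eq_zero _ (pr (0, 0, 1 / (2 * a * M))) fun z => ?_
    obtain ⟨⟨u, v, s⟩, rfl⟩ := pr_surjective z
    rw [← pr_add, Prod.mk_add_mk, Prod.mk_add_mk, hK, hK, chr_pr, chr_pr, ← mul_neg_one, ← e_half,
      mul_assoc (B _), ← e_add]
    simp only [add_zero, pr]
    congr 2
    push_cast
    field_simp
    ring
  · have hl : (N * b + c : ℤ) ≠ 0 := by
      intro h0
      simp only at hN
      have hc : c = -(N * b) := by linarith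
      by_cases hb : b = 0
      · exact h ⟨hb, by simp [hc, hb]⟩
      · rw [hc, abs_neg, abs_mul, Nat.abs_cast] at hN
        have : 1 ≤ |b| := Int.one_le_abs hb
        nlinarith [Int.natCast_nonneg N]
    have hl' : (N * b + c : ℝ) ≠ 0 := by exact_mod_cast hl
    refine integral_eq_zero _ (pr (0, 1 / (2 * (N * b + c)), 0)) fun z => ?_
    obtain ⟨⟨u, v, s⟩, rfl⟩ := pr_surjective z
    rw [← pr_add, Prod.mk_add_mk, Prod.mk_add_mk, hK, hK, chr_pr, chr_pr, ← mul_neg_one, ← e_half,
      mul_assoc (B _), ← e_add]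
    simp only [add_zero, pr]
    congr 2
    have : (N * b + c : ℝ) * (1 / (2 * (N * b + c))) = 1 / 2 := by field_simp
    linear_combination this

end MixAux

open MixAux

theorem mix (h : C(TT, ℂ)) (h0 : ∫ z, h z = 0) {ε : ℝ} (hε : 0 < ε) :
    ∃ N₀ : ℕ, ∀ (N : ℕ) (K : NG), N₀ ≤ N → KShape K.1 N → ∀ A : ℝ → ℂ, Good A →
      ‖⟪W A 0, Uc K (cC h)⟫_ℂ‖ ≤ ε * ‖W A 0‖ := by
  classical
  obtain ⟨s, q, hq⟩ := exists_trig h (half_pos hε)
  let c : ℤ × Md → C(TT, ℂ) := fun n => ⟨chr n, continuous_chr n⟩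
  let s' := s.erase 0
  let p : C(TT, ℂ) := ∑ n ∈ s', q n • c n
  let q0 : ℂ := if 0 ∈ s then q 0 else 0
  have pa : ∀ z, p z = ∑ n ∈ s', q n * chr n z := fun z => by
    simp [p, c, ContinuousMap.sum_apply]
  have hs : ∀ z, ∑ n ∈ s, q n * chr n z = q0 + p z := fun z => by
    rw [pa]
    by_cases h : 0 ∈ s
    · simp only [q0, s', if_pos h]
      rw [← Finset.add_sum_erase s _ h, chr_zero, mul_one]
    · simp only [q0, s', if_neg h, Finset.erase_eq_of_notMem h, zero_add]
  have ic : ∀ f : C(TT, ℂ), Integrable f := fun f =>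
    f.continuous.integrable_of_hasCompactSupport (HasCompactSupport.of_compactSpace _)
  have ip : ∫ z, p z = 0 := by
    simp only [pa]
    rw [integral_finsetSum (f := fun n z => q n * chr n z) _
      fun n _ => (ic (c n)).const_mul (q n)]
    refine Finset.sum_eq_zero fun n hn => ?_
    rw [integral_const_mul, shape_id n (Finset.ne_of_mem_erase hn), mul_zero]
  have hq0 : ‖q0‖ ≤ ε / 2 := by
    have h1 : ∫ z, (h z - (q0 + p z)) = -q0 := by
      rw [integral_sub (g := fun z => q0 + p z) (ic h) ((integrable_const q0).add (ic p)),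
        integral_add (integrable_const q0) (ic p), h0, ip]
      simp
    have h2 := norm_integral_le_of_norm_le_const (μ := (volume : Measure TT))
      (f := fun z => h z - (q0 + p z)) (C := ε / 2) (ae_of_all _ fun z => by rw [← hs]; exact hq z)
    rw [h1, norm_neg] at h2
    simpa using h2
  have hhp : ‖h - p‖ ≤ ε := (ContinuousMap.norm_le _ hε.le).2 fun z => by
    have h1 := hq z
    rw [hs] at h1
    have : (h - p) z = (h z - (q0 + p z)) + q0 := by simp only [ContinuousMap.sub_apply]; ring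
    rw [this]
    linarith [norm_add_le (h z - (q0 + p z)) q0]
  refine ⟨s.sup (fun n => n.2.2.natAbs) + 1, fun N K hN hK A hA => ?_⟩
  have h1 : ∀ n ∈ s', ⟪W A 0, Uc K (cC (c n))⟫_ℂ = 0 := fun n hn => by
    have hN' : |n.2.2| < N := by
      have := Finset.le_sup (f := fun n : ℤ × Md => n.2.2.natAbs) (Finset.mem_of_mem_erase hn)
      rw [Int.abs_eq_natAbs]
      exact_mod_cast (by omega : n.2.2.natAbs < N)
    rw [← vanish hK (fun x => conj (A (rep x))) n (Finset.ne_of_mem_erase hn) hN', L2.inner_def,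
      Uc_cC]
    refine integral_congr_ae ?_
    filter_upwards [W_coe hA 0, cC_coe ((c n).comp ⟨K.1, NG_continuous K⟩)] with z a b
    rw [a, b]
    simp [wv, c, mul_comm]
  have h2 : ⟪W A 0, Uc K (cC p)⟫_ℂ = 0 := by
    simp only [p, cC, map_sum, map_smul, inner_sum, inner_smul_right]
    exact Finset.sum_eq_zero fun n hn => mul_eq_zero_of_right _ (h1 n hn)
  have h3 : ⟪W A 0, Uc K (cC h)⟫_ℂ = ⟪W A 0, Uc K (cC (h - p))⟫_ℂ := by
    rw [cC, cC, map_sub, map_sub, inner_sub_right]
    exact (sub_eq_self.2 h2).symm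
  rw [h3]
  refine (norm_inner_le_norm _ _).trans ?_
  rw [LinearIsometry.norm_map, mul_comm]
  exact mul_le_mul_of_nonneg_right ((norm_cC_le _).trans hhp) (norm_nonneg _)

end Crest.Agent.R81
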