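import Crest.Agent.R81.Round
import Crest.Agent.R81.Cont

/-!
# R81 / Rec

The recursion.  `step`: given `(σ, t, u)` with `0 < t ≤ u²`, `u ≤ 1`, `gap ≤ u²`: `round σ f k (η/3) t` gives `c`;
let `C = ∑ |c k| + 1`, `u' = min (u/2) (η/(18 C))`, `γ = u'²`, get `σ'`; `poly_cont σ'.T σ'.G c (η/3)` gives
`t₁`; `t' = min (t/2) (min (t₁/2) (u'²))`.  `‖G' - G‖ ≤ t + √(u² + 2t) ≤ u + √3 u ≤ 3u`.
`‖cR f - poly c T G‖ ≤ η/3 + ‖poly c σ'.T σ'.G - poly c T σ'.G‖ + ‖poly c T σ'.G - poly c T G‖`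
(`norm_poly_sub_le`).  `exists_seq`: `choose` the step on the subtype of admissible triples and iterate
(`Nat.rec`), starting from `exists_init`, `t = u = 1` (`gap ≤ 1` by definition).

Auxiliary lemmas: put them in the namespace `Crest.Agent.R81.RecAux` (avoid name clashes).
-/

set_option autoImplicit false

open MeasureTheory Set Filter Topology
open scoped InnerProductSpace ComplexConjugate

namespace Crest.Agent.R81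

theorem step (σ : St) (t u : ℝ) (ht : 0 < t) (hu : 0 < u) (htu : t ≤ u ^ 2) (hu1 : u ≤ 1)
    (hgap : σ.gap ≤ u ^ 2) (f : C(TT, ℝ)) (hf : ∫ z, f z = 0) (k : ℕ) {η : ℝ} (hη : 0 < η) :
    ∃ (σ' : St) (t' u' : ℝ) (c : ℤ →₀ ℝ), 0 < t' ∧ 0 < u' ∧ t' ≤ u' ^ 2 ∧ t' ≤ t / 2 ∧ u' ≤ u / 2 ∧
      σ'.gap ≤ u' ^ 2 ∧ Close2 k t σ.T σ'.T ∧ ‖σ'.G - σ.G‖ ≤ 3 * u ∧
      ∀ (T : NG) (G : L2R), Close0 (2 * t') σ'.T T → ‖G - σ'.G‖ ≤ 6 * u' →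
        ‖cR f - poly c T G‖ ≤ η := by
  obtain ⟨c, hc⟩ := round σ f hf k (show 0 < η / 3 by positivity) ht
  set C : ℝ := (∑ j ∈ c.support, |c j|) + 1 with hC
  have hs : 0 ≤ ∑ j ∈ c.support, |c j| := Finset.sum_nonneg fun _ _ => abs_nonneg _
  have hC0 : 0 < C := by linarith
  set u' : ℝ := min (u / 2) (η / (18 * C)) with hu'
  have hu'0 : 0 < u' := by positivity
  obtain ⟨σ', h1, h2, h3, h4⟩ := hc (u' ^ 2) (by positivity)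
  obtain ⟨t₁, ht₁, h5⟩ := poly_cont σ'.T σ'.G c (show 0 < η / 3 by positivity)
  refine ⟨σ', min (t / 2) (min (t₁ / 2) (u' ^ 2)), u', c, by positivity, hu'0,
    (min_le_right _ _).trans (min_le_right _ _), min_le_left _ _, min_le_left _ _, h3, h1, ?_,
    fun T G hT hG => ?_⟩
  · have h6 : Real.sqrt (σ.gap + 2 * t) ≤ 2 * u :=
      Real.sqrt_le_iff.2 ⟨by positivity, by nlinarith⟩
    nlinarith
  · have h6 := h5 T (hT.mono (by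
      have := (min_le_right (t / 2) _).trans (min_le_left (t₁ / 2) (u' ^ 2)); linarith))
    have h7 := norm_poly_sub_le c T G σ'.G
    have h8 : (∑ j ∈ c.support, |c j|) * ‖G - σ'.G‖ ≤ η / 3 := by
      have h9 : u' ≤ η / (18 * C) := min_le_right _ _
      rw [le_div_iff₀ (by positivity)] at h9
      calc _ ≤ C * (6 * u') := mul_le_mul (by linarith) hG (norm_nonneg _) hC0.le
        _ ≤ η / 3 := by nlinarith
    calc ‖cR f - poly c T G‖ = ‖(cR f - poly c σ'.T σ'.G) - (poly c T σ'.G - poly c σ'.T σ'.G) -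
          (poly c T G - poly c T σ'.G)‖ := by congr 1; abel
      _ ≤ ‖(cR f - poly c σ'.T σ'.G) - (poly c T σ'.G - poly c σ'.T σ'.G)‖ +
          ‖poly c T G - poly c T σ'.G‖ := norm_sub_le _ _
      _ ≤ ‖cR f - poly c σ'.T σ'.G‖ + ‖poly c T σ'.G - poly c σ'.T σ'.G‖ +
          ‖poly c T G - poly c T σ'.G‖ := by gcongr; exact norm_sub_le _ _
      _ ≤ η := by linarith

theorem exists_seq (f : ℕ → C(TT, ℝ)) (hf : ∀ n, ∫ z, f n z = 0) (η : ℕ → ℝ)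
    (hη : ∀ n, 0 < η n) :
    ∃ (σ : ℕ → St) (t u : ℕ → ℝ) (c : ℕ → ℤ →₀ ℝ), ∀ n, 0 < t n ∧ 0 < u n ∧
      t (n + 1) ≤ t n / 2 ∧ u (n + 1) ≤ u n / 2 ∧ (σ n).gap ≤ u n ^ 2 ∧
      Close2 n (t n) (σ n).T (σ (n + 1)).T ∧ ‖(σ (n + 1)).G - (σ n).G‖ ≤ 3 * u n ∧
      ∀ (T : NG) (G : L2R), Close0 (2 * t (n + 1)) (σ (n + 1)).T T →
        ‖G - (σ (n + 1)).G‖ ≤ 6 * u (n + 1) → ‖cR (f n) - poly (c n) T G‖ ≤ η n := by
  let X := {p : St × ℝ × ℝ // 0 < p.2.1 ∧ 0 < p.2.2 ∧ p.2.1 ≤ p.2.2 ^ 2 ∧ p.2.2 ≤ 1 ∧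
    p.1.gap ≤ p.2.2 ^ 2}
  have hstep : ∀ (n : ℕ) (p : X), ∃ (q : X) (c : ℤ →₀ ℝ), q.1.2.1 ≤ p.1.2.1 / 2 ∧
      q.1.2.2 ≤ p.1.2.2 / 2 ∧ Close2 n p.1.2.1 p.1.1.T q.1.1.T ∧
      ‖q.1.1.G - p.1.1.G‖ ≤ 3 * p.1.2.2 ∧
      ∀ (T : NG) (G : L2R), Close0 (2 * q.1.2.1) q.1.1.T T → ‖G - q.1.1.G‖ ≤ 6 * q.1.2.2 →
        ‖cR (f n) - poly c T G‖ ≤ η n := by
    rintro n ⟨⟨σ, t, u⟩, h1, h2, h3, h4, h5⟩
    obtain ⟨σ', t', u', c, g1, g2, g3, g4, g5, g6, g7, g8, g9⟩ :=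
      step σ t u h1 h2 h3 h4 h5 (f n) (hf n) n (hη n)
    exact ⟨⟨⟨σ', t', u'⟩, g1, g2, g3, by dsimp only at *; linarith, g6⟩, c, g4, g5, g7, g8, g9⟩
  choose nx c hnx using hstep
  obtain ⟨σ₀⟩ := exists_init
  let p₀ : X := ⟨⟨σ₀, 1, 1⟩, one_pos, one_pos, by norm_num, le_rfl, by
    simp only [St.gap]; nlinarith [sq_nonneg ‖σ₀.G‖]⟩
  let p : ℕ → X := fun n => Nat.rec p₀ (fun n q => nx n q) n
  have hp : ∀ n, p (n + 1) = nx n (p n) := fun _ => rfl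
  refine ⟨fun n => (p n).1.1, fun n => (p n).1.2.1, fun n => (p n).1.2.2, fun n => c n (p n),
    fun n => ?_⟩
  obtain ⟨g1, g2, g3, g4, g5⟩ := hnx n (p n)
  simp only [hp]
  exact ⟨(p n).2.1, (p n).2.2.1, g1, g2, (p n).2.2.2.2.2, g3, g4, g5⟩

end Crest.Agent.R81
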