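import Crest.Agent.R81.De
import Crest.Agent.R81.Add
import Crest.Agent.R81.Mix
import Crest.Agent.R81.Approx
import Crest.Agent.R81.Drop
import Crest.Agent.R81.Fill
import Crest.Agent.R81.Capture

/-!
# R81 / Round

One round of the construction.
`de_iter`: induction on `r` (apply the hypothesis with `ε/2`, then `stageDe` with `ε/2`;
`3/4 ((3/4)^(r+1) Γ + ε/2) + ε/2 ≤ ..`).
`round`: let `ε' > 0` be small (`ε' ≤ ε/8`, `ε' ≤ η/20`, `‖f‖ √ε' ≤ η/10`..).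
0. `mix` for `h = (cx f) ∘ σ.H` (`integral` invariance under `H`) gives `N₀`; `stageDe σ ⟨σ.B, 0, ..⟩` gives `σ₁`
   with `1 - 2 σ₁.a ≤ ε'` and `σ₁.H = σ.H * K` (`Uc_mul`, `Uc_cC`);
1. `approx σ₁ f` gives `D₁`;
2. `de_iter r` with `(3/4)^(r+1) Γ ≤ ε'²/2` and error `min ε' (ε'²/2)` gives `σ₂, D₂` with `Gam ≤ ε'²`;
3. `drop` gives `σ₃, D₃` (same `T`, `Close2.refl`), 4. `stageAdd` gives `σ₄, κ`;
5. `capture σ₄ κ` gives `c`; 6. given `γ`, `fill σ₄` gives `σ₅`.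
`‖σ₄.Gp - σ.Gp‖ ≤ 4 ε' ≤ ε/2`, so `‖σ₄.G - σ.G‖ ≤ ε`, `σ₄.gap ≤ σ.gap + 2 ε`,
`‖σ₅.G - σ₄.G‖² = σ₄.gap - σ₅.gap ≤ σ₄.gap`.

Auxiliary lemmas: put them in the namespace `Crest.Agent.R81.RoundAux` (avoid name clashes).
-/

set_option autoImplicit false

open MeasureTheory Set Filter Topology
open scoped InnerProductSpace ComplexConjugate

namespace Crest.Agent.R81

theorem de_iter (r : ℕ) : ∀ (σ : St) (D : FD), σ.B ⊆ D.A → ∀ (k : ℕ) (ε : ℝ), 0 < ε →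
    ∃ (σ' : St) (D' : FD), σ'.B ⊆ D'.A ∧ σ.Near k ε σ' ∧ ‖fv σ' D' - fv σ D‖ ≤ ε ∧ σ'.Full ∧
      Gam σ' D' ≤ (3 / 4) ^ (r + 1) * Gam σ D + ε ∧ ∀ a ∈ D'.A, σ'.SelfSep a := by
  induction r with
  | zero =>
    intro σ D hB k ε hε
    obtain ⟨σ', D', h1, h2, h3, h4, -, h6, h7, -⟩ := stageDe σ D hB k hε 0
    exact ⟨σ', D', h1, h2, h3, h4, by simpa using h6, h7⟩
  | succ r ih =>
    intro σ D hB k ε hε
    obtain ⟨σ₁, D₁, h1, h2, h3, -, h5, -⟩ := ih σ D hB k (ε / 2) (half_pos hε)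
    obtain ⟨σ₂, D₂, g1, g2, g3, g4, -, g6, g7, -⟩ := stageDe σ₁ D₁ h1 k (half_pos hε) 0
    refine ⟨σ₂, D₂, g1, ?_, ?_, g4, ?_, g7⟩
    · simpa using h2.trans g2
    · calc ‖fv σ₂ D₂ - fv σ D‖ = ‖(fv σ₂ D₂ - fv σ₁ D₁) + (fv σ₁ D₁ - fv σ D)‖ := by
            congr 1; abel
        _ ≤ _ := norm_add_le _ _
        _ ≤ ε := by linarith
    · rw [pow_succ]
      nlinarith

theorem round (σ : St) (f : C(TT, ℝ)) (hf : ∫ z, f z = 0) (k : ℕ) {η ε : ℝ} (hη : 0 < η)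
    (hε : 0 < ε) :
    ∃ c : ℤ →₀ ℝ, ∀ γ : ℝ, 0 < γ → ∃ σ' : St, Close2 k ε σ.T σ'.T ∧
      ‖σ'.G - σ.G‖ ≤ ε + Real.sqrt (σ.gap + 2 * ε) ∧ σ'.gap ≤ γ ∧
      ‖cR f - poly c σ'.T σ'.G‖ ≤ η := by
  classical
  -- the basic small parameter
  have e1 : ∀ᶠ x in 𝓝[>] (0 : ℝ), ‖f‖ * Real.sqrt x ≤ η / 4 := by
    have h : Tendsto (fun x : ℝ => ‖f‖ * Real.sqrt x) (𝓝 0) (𝓝 (‖f‖ * Real.sqrt 0)) :=
      (continuous_const.mul Real.continuous_sqrt).tendsto 0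
    rw [Real.sqrt_zero, mul_zero] at h
    exact (h.mono_left nhdsWithin_le_nhds).eventually (ge_mem_nhds (by positivity))
  have e2 : ∀ᶠ x in 𝓝[>] (0 : ℝ), x ∈ Ioc 0 (min (ε / 8) (η / 40)) :=
    Ioc_mem_nhdsGT (by positivity)
  obtain ⟨x, hx1, hx0, hx2⟩ := (e1.and e2).exists
  have hxε : x ≤ ε / 8 := hx2.trans (min_le_left _ _)
  have hxη : x ≤ η / 40 := hx2.trans (min_le_right _ _)
  -- step 0
  have hint : ∫ z, ((cx f).comp ⟨σ.H.1, NG_continuous σ.H⟩ : C(TT, ℂ)) z = 0 := by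
    have h1 : ∫ z, (cx f) (σ.H.1 z) = ∫ z, cx f z := by
      rw [← integral_map (NG_mp σ.H).measurable.aemeasurable
        (cx f).continuous.aestronglyMeasurable, (NG_mp σ.H).map_eq]
    have h2 : ∫ z, cx f z = 0 := by
      simp only [cx, ContinuousMap.coe_mk]
      rw [integral_complex_ofReal, hf]; simp
    exact h1.trans h2
  obtain ⟨N₀, hN₀⟩ := mix _ hint hx0
  obtain ⟨σ₁, D₀, -, n1, -, -, w1, -, -, K, N, hN, hK1, hK2⟩ :=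
    stageDe σ ⟨σ.B, fun _ _ => 0, fun _ => contDiff_const, fun a ha => Or.inl (σ.pos a ha)⟩
      le_rfl k hx0 N₀
  -- step 1
  obtain ⟨D₁, hB₁, ap⟩ := approx σ₁ f hx0 fun A hA => by
    rw [hK1, Uc_mul, Uc_cC σ.H]; exact hN₀ N K hN hK2 A hA
  -- step 2
  have ht : Tendsto (fun r : ℕ => (3 / 4 : ℝ) ^ (r + 1) * Gam σ₁ D₁) atTop (𝓝 0) := by
    have := ((tendsto_pow_atTop_nhds_zero_of_lt_one (r := (3 / 4 : ℝ)) (by norm_num)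
      (by norm_num)).comp (tendsto_add_atTop_nat 1)).mul_const (Gam σ₁ D₁)
    simpa using this
  obtain ⟨r, hr⟩ := (ht.eventually (ge_mem_nhds (show (0 : ℝ) < x ^ 2 / 2 by positivity))).exists
  obtain ⟨σ₂, D₂, hB₂, n2, f2, full2, g2, ss2⟩ :=
    de_iter r σ₁ D₁ hB₁ k (min x (x ^ 2 / 2)) (by positivity)
  have hG2 : Gam σ₂ D₂ ≤ x ^ 2 := by
    have := min_le_right x (x ^ 2 / 2); linarith
  have n2' := n2.mono (min_le_left _ _)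
  have f2' := f2.trans (min_le_left _ _)
  -- step 3
  obtain ⟨σ₃, D₃, ext3, hB₃, hA₃, np3, g3, f3⟩ := drop σ₂ D₂ hB₂
  have g3' : ‖σ₃.Gp - σ₂.Gp‖ ≤ x :=
    (pow_le_pow_iff_left₀ (norm_nonneg _) hx0.le two_ne_zero).1 (g3.trans hG2)
  have f3' : ‖fv σ₃ D₃ - fv σ₂ D₂‖ ≤ x :=
    (pow_le_pow_iff_left₀ (norm_nonneg _) hx0.le two_ne_zero).1 (f3.trans hG2)
  have n3 : σ₂.Near k x σ₃ := ⟨by rw [ext3.T]; exact Close2.refl k hx0.le _, g3'⟩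
  -- step 4
  obtain ⟨σ₄, κ, n4, f4⟩ := stageAdd σ₃ D₃ hB₃ (ext3.full full2) np3
    (fun a ha => ext3.selfSep (ss2 a (hA₃ ha))) k hx0
  -- step 5
  obtain ⟨c, hc⟩ := capture σ₄ κ (show 0 < η / 4 by positivity)
  refine ⟨c, fun γ hγ => ?_⟩
  obtain ⟨σ₅, ext5, g5⟩ := fill σ₄ hγ
  have n04 := ((n1.trans n2').trans n3).trans n4
  have hG4 : ‖σ₄.G - σ.G‖ ≤ ε := by
    have := σ.norm_G_sub_le σ₄
    have := n04.2
    linarith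
  refine ⟨σ₅, ?_, ?_, g5, ?_⟩
  · rw [ext5.T]; exact n04.1.mono le_rfl (by linarith)
  · have h1 : ‖σ₅.G - σ₄.G‖ ≤ Real.sqrt (σ.gap + 2 * ε) := by
      refine Real.le_sqrt_of_sq_le ?_
      rw [ext5.norm_G]
      have := σ₅.gap_nonneg
      have := σ.gap_le σ₄
      linarith
    calc ‖σ₅.G - σ.G‖ = ‖(σ₄.G - σ.G) + (σ₅.G - σ₄.G)‖ := by congr 1; abel
      _ ≤ _ := norm_add_le _ _
      _ ≤ _ := add_le_add hG4 h1
  · set v := Uc σ₄.H⁻¹ (∑ b ∈ σ₄.B, κ b • σ₄.w b) with hv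
    have h1 : ‖fv σ₁ D₁ - v‖ ≤ 3 * x := by
      calc ‖fv σ₁ D₁ - v‖ = ‖-((fv σ₂ D₂ - fv σ₁ D₁) + (fv σ₃ D₃ - fv σ₂ D₂) + (v - fv σ₃ D₃))‖ := by
            congr 1; abel
        _ ≤ ‖fv σ₂ D₂ - fv σ₁ D₁‖ + ‖fv σ₃ D₃ - fv σ₂ D₂‖ + ‖v - fv σ₃ D₃‖ := by
            rw [norm_neg]; exact norm_add₃_le
        _ ≤ 3 * x := by linarith
    have h2 : ‖Re2 (fv σ₁ D₁) - Re2 v‖ ≤ 6 * x := by
      rw [← map_sub]
      have := norm_Re2_le (fv σ₁ D₁ - v)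
      linarith
    have h3 : ‖f‖ * Real.sqrt (1 - 2 * σ₁.a) ≤ η / 4 :=
      (mul_le_mul_of_nonneg_left (Real.sqrt_le_sqrt w1) (norm_nonneg _)).trans hx1
    have h4 := hc σ₅ ext5
    calc ‖cR f - poly c σ₅.T σ₅.G‖ = ‖(cR f - Re2 (fv σ₁ D₁)) + (Re2 (fv σ₁ D₁) - Re2 v) +
          (Re2 v - poly c σ₅.T σ₅.G)‖ := by congr 1; abel
      _ ≤ _ := norm_add₃_le
      _ ≤ η := by linarith

end Crest.Agent.R81
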