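import Crest.Agent.R81.Par
import Crest.Agent.R81.Riem

/-!
# R81 / Sep

The separation predicate `SepI` and elementary formulas for a system of lines.
* `SepI.image`: `choose n` as a function of `b`, then shift the points back by `n b`.
* `SepI.thicken`: for a pair `b, b'` the interval `[α + α', β + β']` contains no integer, for `b ≠ b'` the
  interval `[α - β', β - α']` contains no integer, and `β b - α b < 1`.  "A compact interval without
  integers (resp. with `0` as only integer) keeps this property after a small thickening" holds for all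
  small `d` (use `⌊·⌋` of the left end point); combine with `Finset.eventually_all` on `𝓝[>] 0`.
* `sep_lines`: a point `t` of the arc of `(a, i)` is within `d` of `θ a (i μ) ∈ [θ a (l a), θ a (r a)]`
  (`th_mono`, `mem_grid`), so `hs` applies; if `a = a'` and `t = t'` then
  `|i - i'| δ/P ≤ 2 hw < δ/P` (`two_hw_lt`).
Formulas: `μ = δ N/(ℓ λ P)`, `λ' = δ Z/m`, `m = P R`, `R = Z n + 1`.
`ratio_le`: `ℓ λ'/(μ b.1 λ) = (Z ℓ/(Z ℓ + 1)) (ℓ/(N b.1)) = (1 - x)(1 + y)`, `0 ≤ x ≤ 2/N`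
(as `ℓ ≥ N/2`), `|y| ≤ |b.2|/N ≤ 1/2`.

Auxiliary lemmas: put them in the namespace `Crest.Agent.R81.SepAux` (avoid name clashes).
-/

set_option autoImplicit false

open MeasureTheory Set Filter Topology
open scoped InnerProductSpace ComplexConjugate

namespace Crest.Agent.R81

namespace SepAux

theorem thick_none {x y : ℝ} (hxy : x ≤ y) (h : ∀ n : ℤ, ∀ t ∈ Icc x y, t ≠ n) :
    ∀ᶠ d in 𝓝[>] (0 : ℝ), ∀ n : ℤ, ∀ t ∈ Icc (x - d) (y + d), t ≠ n := by
  have h1 : (⌊x⌋ : ℝ) < x := lt_of_le_of_ne (Int.floor_le x) (h _ x ⟨le_rfl, hxy⟩).symm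
  have h2 : y < ⌊x⌋ + 1 := by
    by_contra hc
    push Not at hc
    exact h (⌊x⌋ + 1) _ ⟨(Int.lt_floor_add_one x).le, hc⟩ (by push_cast; rfl)
  have : (0 : ℝ) < min (x - ⌊x⌋) (⌊x⌋ + 1 - y) := lt_min (by linarith) (by linarith)
  filter_upwards [Ioo_mem_nhdsGT this] with d hd n t ht htn
  have h3 := hd.2.trans_le (min_le_left _ _)
  have h4 := hd.2.trans_le (min_le_right _ _)
  have h5 : (⌊x⌋ : ℝ) < n := by linarith [ht.1]
  have h6 : (n : ℝ) < ⌊x⌋ + 1 := by linarith [ht.2]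
  have h7 : ⌊x⌋ < n := by exact_mod_cast h5
  have h8 : n < ⌊x⌋ + 1 := by exact_mod_cast h6
  omega

theorem ev_two {p : ℝ → Prop} (h : ∀ᶠ d in 𝓝[>] (0 : ℝ), p d) :
    ∀ᶠ d in 𝓝[>] (0 : ℝ), p (2 * d) := by
  have : Tendsto (fun d : ℝ => 2 * d) (𝓝[>] 0) (𝓝[>] 0) := by
    refine tendsto_nhdsWithin_iff.2 ⟨?_, ?_⟩
    · have h : Tendsto (fun δ : ℝ => 2 * δ) (𝓝 0) (𝓝 (2 * 0)) :=
        (continuous_const.mul continuous_id).tendsto 0
      rw [mul_zero] at h
      exact h.mono_left nhdsWithin_le_nhds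
    · filter_upwards [self_mem_nhdsWithin] with δ hδ
      exact mul_pos (two_pos : (0 : ℝ) < 2) (show 0 < δ from hδ)
  exact this.eventually h

/-- a sum of points of two intervals is attained -/
theorem exists_add {x y x' y' t : ℝ} (h : x ≤ y) (h' : x' ≤ y') (ht : t ∈ Icc (x + x') (y + y')) :
    ∃ s ∈ Icc x y, ∃ s' ∈ Icc x' y', s + s' = t := by
  by_cases hc : t - x' ≤ y
  · exact ⟨t - x', ⟨by linarith [ht.1], hc⟩, x', ⟨le_rfl, h'⟩, by ring⟩
  · push Not at hc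
    exact ⟨y, ⟨h, le_rfl⟩, t - y, ⟨by linarith, by linarith [ht.2]⟩, by ring⟩

end SepAux

open SepAux

theorem SepI.mono {ι : Type} {s s' : Finset ι} {α β α' β' : ι → ℝ} (h : SepI s α β) (hs : s' ⊆ s)
    (hle : ∀ b ∈ s', α b ≤ α' b ∧ β' b ≤ β b) : SepI s' α' β' := by
  intro b hb b' hb' t ht t' ht' n
  exact h b (hs hb) b' (hs hb') t ⟨(hle b hb).1.trans ht.1, ht.2.trans (hle b hb).2⟩ t'
    ⟨(hle b' hb').1.trans ht'.1, ht'.2.trans (hle b' hb').2⟩ n

theorem SepI.image {ι κ : Type} [DecidableEq κ] {s : Finset ι} {α β : ι → ℝ} (h : SepI s α β)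
    (f : ι → κ) (α' β' : κ → ℝ)
    (hf : ∀ b ∈ s, ∃ n : ℤ, α b + n ≤ α' (f b) ∧ β' (f b) ≤ β b + n) :
    SepI (s.image f) α' β' := by
  choose! n hn using hf
  intro c hc c' hc' t ht t' ht' k
  obtain ⟨b, hb, rfl⟩ := Finset.mem_image.1 hc
  obtain ⟨b', hb', rfl⟩ := Finset.mem_image.1 hc'
  have h1 : t - n b ∈ Icc (α b) (β b) :=
    ⟨by linarith [ht.1, (hn b hb).1], by linarith [ht.2, (hn b hb).2]⟩
  have h2 : t' - n b' ∈ Icc (α b') (β b') :=
    ⟨by linarith [ht'.1, (hn b' hb').1], by linarith [ht'.2, (hn b' hb').2]⟩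
  refine ⟨fun e => (h b hb b' hb' _ h1 _ h2 (k - n b - n b')).1 (by push_cast; linarith),
    fun e => ?_⟩
  obtain ⟨h3, h4⟩ := (h b hb b' hb' _ h1 _ h2 (k - n b + n b')).2 (by push_cast; linarith)
  subst h3
  exact ⟨rfl, by omega⟩

theorem SepI.thicken {ι : Type} {s : Finset ι} {α β : ι → ℝ} (h : SepI s α β)
    (hle : ∀ b ∈ s, α b ≤ β b) :
    ∀ᶠ d in 𝓝[>] (0 : ℝ), SepI s (fun b => α b - d) (fun b => β b + d) := by
  refine (Finset.eventually_all _).2 fun b hb => (Finset.eventually_all _).2 fun b' hb' => ?_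
  have h1 := ev_two (thick_none (x := α b + α b') (y := β b + β b')
    (add_le_add (hle b hb) (hle b' hb')) fun n t ht => by
      obtain ⟨s, hs, s', hs', rfl⟩ := exists_add (hle b hb) (hle b' hb') ht
      exact (h b hb b' hb' s hs s' hs' n).1)
  by_cases hbb : b = b'
  · subst hbb
    have h2 : β b - α b < 1 := by
      by_contra hc
      push Not at hc
      have := (h b hb b hb (α b + 1) ⟨by linarith, by linarith⟩ (α b) ⟨le_rfl, hle b hb⟩ 1).2
        (by push_cast; ring)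
      omega
    filter_upwards [h1, Ioo_mem_nhdsGT (show (0 : ℝ) < (1 - (β b - α b)) / 2 by linarith)]
      with d hd hd' t ht t' ht' n
    refine ⟨hd n _ ⟨by linarith [ht.1, ht'.1], by linarith [ht.2, ht'.2]⟩, fun e => ⟨rfl, ?_⟩⟩
    have h3 : (n : ℝ) < 1 := by linarith [ht.2, ht'.1, hd'.2]
    have h4 : (-1 : ℝ) < n := by linarith [ht.1, ht'.2, hd'.2]
    have h5 : n < 1 := by exact_mod_cast h3
    have h6 : -1 < n := by exact_mod_cast h4
    omega
  · have h2 := ev_two (thick_none (x := α b + -β b') (y := β b + -α b')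
      (add_le_add (hle b hb) (neg_le_neg (hle b' hb'))) fun n t ht e => by
        obtain ⟨s, hs, s', hs', rfl⟩ := exists_add (hle b hb) (neg_le_neg (hle b' hb')) ht
        exact hbb ((h b hb b' hb' s hs (-s') ⟨by linarith [hs'.2], by linarith [hs'.1]⟩ n).2
          (by linarith)).1)
    filter_upwards [h1, h2] with d hd hd' t ht t' ht' n
    exact ⟨hd n _ ⟨by linarith [ht.1, ht'.1], by linarith [ht.2, ht'.2]⟩, fun e =>
      absurd e (hd' n _ ⟨by linarith [ht.1, ht'.2], by linarith [ht.2, ht'.1]⟩)⟩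

theorem th_mono (φ β : ℝ) {lam : ℝ} (hl : 0 ≤ lam) {b : Md} (hb : 0 ≤ b.1) :
    Monotone (th φ lam β b) := by
  intro x y hxy
  have : (0 : ℝ) ≤ b.1 := by exact_mod_cast hb
  simp only [th]
  gcongr

namespace LS.OK

variable {L : LS} {B A : Finset Md}

theorem P_pos (h : L.OK B A) {a : Md} (ha : a ∈ A) : 0 < L.P a := by
  have h1 := h.PR a ha
  have h2 := h.m_pos
  exact Nat.pos_of_ne_zero fun h0 => by rw [h0] at h1; omega

theorem ell_pos' (h : L.OK B A) {a : Md} (ha : a ∈ A) : (0 : ℝ) < ell L.N a := by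
  exact_mod_cast ell_pos h.big ha (h.pos a ha)

theorem one_le_ell (h : L.OK B A) {a : Md} (ha : a ∈ A) : (1 : ℝ) ≤ ell L.N a := by
  exact_mod_cast ell_pos h.big ha (h.pos a ha)

theorem μ_pos (h : L.OK B A) {a : Md} (ha : a ∈ A) : 0 < L.μ a := by
  have := h.ell_pos' ha; have := h.P_pos ha; have := h.δ_pos; have := h.N_pos; have := h.lam_pos
  simp only [LS.μ]; positivity

theorem lam'_pos (h : L.OK B A) : 0 < L.lam' := by
  have := h.δ_pos; have := h.Z_pos; have := h.m_pos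
  simp only [LS.lam']; positivity

theorem hw_pos (h : L.OK B A) {a : Md} (ha : a ∈ A) : 0 < L.hw a := by
  have := h.ell_pos' ha; have := h.lam'_pos
  simp only [LS.hw]; positivity

theorem step_eq (h : L.OK B A) {a : Md} (ha : a ∈ A) :
    L.δ / L.P a = L.μ a * (ell L.N a * L.lam / L.N) := by
  have := h.ell_pos' ha; have := h.P_pos ha; have := h.δ_pos; have := h.N_pos; have := h.lam_pos
  simp only [LS.μ]; field_simp

theorem lam'_le_step (h : L.OK B A) {a : Md} (ha : a ∈ A) : L.lam' ≤ L.δ / L.P a := by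
  have hP : (0 : ℝ) < L.P a := by exact_mod_cast h.P_pos ha
  have hδ := h.δ_pos
  have hm : (L.m : ℝ) = L.P a * (L.Z * L.n a + 1) := by exact_mod_cast (h.PR a ha).symm
  have hn : (1 : ℝ) ≤ L.n a := by exact_mod_cast h.label.one_le a ha
  have hZ : (0 : ℝ) < L.Z := by exact_mod_cast h.Z_pos
  simp only [LS.lam', hm]
  rw [div_le_div_iff₀ (by positivity) hP]
  have : (L.Z : ℝ) ≤ L.Z * L.n a + 1 := by nlinarith
  have := mul_le_mul_of_nonneg_left this (mul_pos hδ hP).le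
  linarith

theorem two_hw_lt (h : L.OK B A) {a : Md} (ha : a ∈ A) (hn : ell L.N a ≤ L.n a) :
    2 * L.hw a < L.δ / L.P a := by
  have hP : (0 : ℝ) < L.P a := by exact_mod_cast h.P_pos ha
  have hδ := h.δ_pos
  have hm : (L.m : ℝ) = L.P a * (L.Z * L.n a + 1) := by exact_mod_cast (h.PR a ha).symm
  have hn' : (ell L.N a : ℝ) ≤ L.n a := by exact_mod_cast hn
  have hZ : (0 : ℝ) < L.Z := by exact_mod_cast h.Z_pos
  have : 2 * L.hw a = L.δ * (ell L.N a * L.Z) / (L.P a * (L.Z * L.n a + 1)) := by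
    simp only [LS.hw, LS.lam', hm]; ring
  rw [this, div_lt_div_iff₀ (by positivity) hP]
  have : ell L.N a * L.Z < (L.Z * L.n a + 1 : ℝ) := by nlinarith
  have := mul_lt_mul_of_pos_left this (mul_pos hδ hP)
  linarith

theorem old_le (h : L.OK B A) (hBA : B ⊆ A) {b : Md} (hb : b ∈ B) (hb1 : 0 < b.1) :
    ell L.N b * L.lam' ≤ 3 / 2 * (L.μ b * (b.1 * L.lam)) := by
  have ha := hBA hb
  have h1 := (h.two_hw_lt ha (h.label.old b hb).ge).le
  have h2 := h.step_eq ha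
  have h3 := h.μ_pos ha
  have hl := h.lam_pos
  have hN : (0 : ℝ) < L.N := by exact_mod_cast h.N_pos
  have h4 : (2 : ℝ) * |(b.2 : ℝ)| < L.N := by exact_mod_cast (h.big b ha b ha).1
  have h5 : (1 : ℝ) ≤ b.1 := by exact_mod_cast hb1
  have h6 : (ell L.N b : ℝ) ≤ 3 / 2 * (L.N * b.1) := by
    simp only [ell]; push_cast
    nlinarith [le_abs_self (b.2 : ℝ)]
  simp only [LS.hw] at h1
  calc ell L.N b * L.lam' ≤ L.μ b * (ell L.N b * L.lam / L.N) := by linarith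
    _ ≤ L.μ b * (3 / 2 * (L.N * b.1) * L.lam / L.N) := by gcongr
    _ = _ := by field_simp

theorem ratio_le (h : L.OK B A) (hBA : B ⊆ A) {b : Md} (hb : b ∈ B) (hb1 : 0 < b.1) :
    |1 - ell L.N b * L.lam' / (L.μ b * (b.1 * L.lam))| ≤ (|(b.2 : ℝ)| + 3) / L.N := by
  have ha := hBA hb
  have hP : (0 : ℝ) < L.P b := by exact_mod_cast h.P_pos ha
  have hδ := h.δ_pos
  have hl := h.lam_pos
  have hell := h.ell_pos' ha
  have hn : (L.n b : ℝ) = ell L.N b := by exact_mod_cast h.label.old b hb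
  have hm : (L.m : ℝ) = L.P b * (L.Z * ell L.N b + 1) := by
    rw [← hn]; exact_mod_cast (h.PR b ha).symm
  have hZ : (1 : ℝ) ≤ L.Z := by exact_mod_cast h.Z_pos
  have hN : (0 : ℝ) < L.N := by exact_mod_cast h.N_pos
  have h4 : (2 : ℝ) * |(b.2 : ℝ)| < L.N := by exact_mod_cast (h.big b ha b ha).1
  have h5 : (1 : ℝ) ≤ b.1 := by exact_mod_cast hb1
  have he : (ell L.N b : ℝ) = L.N * b.1 + b.2 := by simp only [ell]; push_cast; rfl
  set x : ℝ := 1 / (L.Z * ell L.N b + 1) with hx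
  set y : ℝ := b.2 / (L.N * b.1) with hy
  have key : 1 - ell L.N b * L.lam' / (L.μ b * (b.1 * L.lam)) = x * (1 + y) - y := by
    have e1 : 1 + y = ell L.N b / (L.N * b.1) := by rw [hy, he]; field_simp
    have e2 : y = ell L.N b / (L.N * b.1) - 1 := by rw [← e1]; ring
    rw [e1, e2, hx]
    simp only [LS.lam', LS.μ, hm]
    field_simp
    ring
  have hx0 : 0 ≤ x := by positivity
  have hx1 : x ≤ 2 / L.N := by
    rw [hx, div_le_div_iff₀ (by positivity) hN]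
    have : L.N ≤ 2 * (ell L.N b : ℝ) := by nlinarith [neg_abs_le (b.2 : ℝ)]
    nlinarith
  have hy1 : |y| ≤ |(b.2 : ℝ)| / L.N := by
    rw [hy, abs_div, abs_of_pos (by positivity : (0 : ℝ) < L.N * b.1)]
    exact div_le_div_of_nonneg_left (abs_nonneg _) hN (by nlinarith)
  have hy2 : |(b.2 : ℝ)| / L.N ≤ 1 / 2 := by rw [div_le_iff₀ hN]; linarith
  rw [key]
  refine (abs_sub _ _).trans ?_
  have h7 : |x * (1 + y)| ≤ 2 / L.N * (3 / 2) := by
    rw [abs_mul, abs_of_nonneg hx0]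
    refine mul_le_mul hx1 ((abs_add_le _ _).trans ?_) (abs_nonneg _) (by positivity)
    rw [abs_one]; linarith
  calc _ ≤ 2 / L.N * (3 / 2) + |(b.2 : ℝ)| / L.N := add_le_add h7 hy1
    _ = _ := by ring

theorem new_le (h : L.OK B A) {a : Md} (ha : a ∈ A) :
    ell L.N a * L.lam' * L.n a ≤ L.μ a * ((ell L.N a : ℝ) ^ 2 * L.lam) := by
  have hP : (0 : ℝ) < L.P a := by exact_mod_cast h.P_pos ha
  have hδ := h.δ_pos
  have hl := h.lam_pos
  have hell := h.ell_pos' ha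
  have hm : (L.m : ℝ) = L.P a * (L.Z * L.n a + 1) := by exact_mod_cast (h.PR a ha).symm
  have hZ : (0 : ℝ) < L.Z := by exact_mod_cast h.Z_pos
  have hN : (1 : ℝ) ≤ L.N := by exact_mod_cast h.N_pos
  have h1 : L.lam' * L.n a ≤ L.δ / L.P a := by
    simp only [LS.lam', hm]
    rw [div_mul_eq_mul_div, div_le_div_iff₀ (by positivity) hP]
    nlinarith [mul_pos hδ hP]
  have h2 : L.μ a * ((ell L.N a : ℝ) ^ 2 * L.lam) = ell L.N a * (L.δ / L.P a) * L.N := by
    simp only [LS.μ]; field_simp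
  rw [h2, mul_assoc]
  have h3 : 0 < ell L.N a * (L.δ / L.P a) := by positivity
  nlinarith

theorem μ_le (h : L.OK B A) {a a' : Md} (ha : a ∈ A) (ha' : a' ∈ A) {ρ : ℕ}
    (hρ : ρ * L.n a ≤ L.n a') : L.μ a * ρ ≤ 2 * ell L.N a' * L.μ a' := by
  have hP : (0 : ℝ) < L.P a := by exact_mod_cast h.P_pos ha
  have hP' : (0 : ℝ) < L.P a' := by exact_mod_cast h.P_pos ha'
  have hδ := h.δ_pos
  have hl := h.lam_pos
  have hell := h.one_le_ell ha
  have hell' := h.ell_pos' ha'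
  have hm : (L.m : ℝ) = L.P a * (L.Z * L.n a + 1) := by exact_mod_cast (h.PR a ha).symm
  have hm' : (L.m : ℝ) = L.P a' * (L.Z * L.n a' + 1) := by exact_mod_cast (h.PR a' ha').symm
  have hZ : (1 : ℝ) ≤ L.Z := by exact_mod_cast h.Z_pos
  have hN : (0 : ℝ) < L.N := by exact_mod_cast h.N_pos
  have hn : (1 : ℝ) ≤ L.n a := by exact_mod_cast h.label.one_le a ha
  have hρ' : (ρ : ℝ) * L.n a ≤ L.n a' := by exact_mod_cast hρ
  have hρ0 : (0 : ℝ) ≤ ρ := by positivity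
  have h1 : ρ * (L.P a' : ℝ) ≤ 2 * L.P a := by
    have h2 : (0 : ℝ) < L.Z * L.n a' + 1 := by positivity
    apply le_of_mul_le_mul_right _ h2
    have h3 : ρ * (L.Z * L.n a + 1 : ℝ) ≤ 2 * (L.Z * L.n a' + 1) := by
      have : (1 : ℝ) ≤ L.Z * L.n a := by nlinarith
      nlinarith
    calc ρ * (L.P a' : ℝ) * (L.Z * L.n a' + 1) = L.P a * (ρ * (L.Z * L.n a + 1)) := by
          rw [mul_assoc, ← hm', hm]; ring
      _ ≤ L.P a * (2 * (L.Z * L.n a' + 1)) := by gcongr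
      _ = _ := by ring
  have h4 : 2 * ell L.N a' * L.μ a' = 2 * (L.δ * L.N / L.lam) / L.P a' := by
    simp only [LS.μ]; field_simp
  have h5 : L.μ a * ρ = (L.δ * L.N / L.lam) * ρ / (ell L.N a * L.P a) := by
    simp only [LS.μ]; field_simp
  rw [h4, h5, div_le_div_iff₀ (by positivity) hP']
  have h6 : 0 < L.δ * L.N / L.lam := by positivity
  have h7 : ρ * (L.P a' : ℝ) ≤ 2 * (ell L.N a * L.P a) := by nlinarith
  nlinarith

end LS.OK

theorem sep_lines (σ : St) {L : LS} {B A : Finset Md} (h : L.OK B A) (s : Finset Md) (hsA : s ⊆ A)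
    (l r : Md → ℝ) (hlr : ∀ a ∈ s, -1 / 2 ≤ l a ∧ r a ≤ 1 / 2) {d : ℝ}
    (hs : SepI s (fun a => σ.θ a (l a) - d) (fun a => σ.θ a (r a) + d))
    (hcen : ∀ a ∈ s, ∀ i : ℤ, |i * L.μ a| ≤ 1 / 2 → |L.cen (a, i) - σ.θ a (i * L.μ a)| ≤ d / 2)
    (hhw : ∀ a ∈ s, L.hw a ≤ d / 2) (hn : ∀ a ∈ s, ell L.N a ≤ L.n a) (K : Finset (Md × ℤ))
    (hK : ∀ q ∈ K, q.1 ∈ s ∧ q.2 ∈ grid (L.μ q.1) (l q.1) (r q.1)) :
    SepI K (fun q => L.cen q - L.hw q.1) (fun q => L.cen q + L.hw q.1) := by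
  have key : ∀ q ∈ K, ∀ t ∈ Icc (L.cen q - L.hw q.1) (L.cen q + L.hw q.1),
      t ∈ Icc (σ.θ q.1 (l q.1) - d) (σ.θ q.1 (r q.1) + d) := by
    intro q hq t ht
    obtain ⟨h1, h2⟩ := hK q hq
    have hA := hsA h1
    obtain ⟨h3, h4⟩ := (mem_grid (h.μ_pos hA)).1 h2
    have h5 := abs_le.1 (hcen q.1 h1 q.2 (abs_le.2 ⟨by linarith [(hlr _ h1).1],
      by linarith [(hlr _ h1).2]⟩))
    have hm := th_mono σ.φ σ.β σ.lam_pos.le (h.pos _ hA).fst_nonneg
    have h6 : σ.θ q.1 (l q.1) ≤ σ.θ q.1 (q.2 * L.μ q.1) := hm h3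
    have h7 : σ.θ q.1 (q.2 * L.μ q.1) ≤ σ.θ q.1 (r q.1) := hm h4
    have h8 := hhw _ h1
    exact ⟨by linarith [ht.1, h5.1], by linarith [ht.2, h5.2]⟩
  intro q hq q' hq' t ht t' ht' n
  have h1 := hs q.1 (hK q hq).1 q'.1 (hK q' hq').1 t (key q hq t ht) t' (key q' hq' t' ht') n
  refine ⟨h1.1, fun e => ⟨?_, (h1.2 e).2⟩⟩
  obtain ⟨h2, h3⟩ := h1.2 e
  obtain ⟨a, i⟩ := q
  obtain ⟨a', i'⟩ := q'
  simp only at h2
  subst h2 h3
  have hA := hsA (hK _ hq).1
  have h4 := h.two_hw_lt hA (hn _ (hK _ hq).1)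
  have h5 : 0 < L.δ / L.P a := by have := h.hw_pos hA; simp only at *; linarith
  simp only [LS.cen, mem_Icc, Int.cast_zero] at ht ht' e h4
  have h6 : ((i - i' : ℤ) : ℝ) < 1 := by
    push_cast
    by_contra hc
    push Not at hc
    nlinarith [ht.1, ht'.2]
  have h7 : (-1 : ℝ) < ((i - i' : ℤ) : ℝ) := by
    push_cast
    by_contra hc
    push Not at hc
    nlinarith [ht.2, ht'.1]
  have h8 : i - i' < 1 := by exact_mod_cast h6
  have h9 : -1 < i - i' := by exact_mod_cast h7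
  congr 1
  omega

end Crest.Agent.R81
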