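import Crest.Agent.R81.Basic

/-!
# R81 / Shear

Construction of elements of `NG`.
Plan: first prove a general generator lemma: for `V : ℝ → ℝ → ℝ` with `uncurry V` smooth and
`V (u + 1) s - V u s`, `V u (s + 1) - V u s` integers, the map
`(z₁, z₂, z₃) ↦ (z₁, z₂ + ↑(V (rep z₁) (rep z₃)), z₃)` is a permutation (inverse: `-V`) in `NG` with
lift `(u, v, s) ↦ (u, v + V u s, s)`.  (By `Int` induction `V (u + i) (s + j) - V u s ∈ ℤ`.)  Measure
preservation: conjugate by a swap so that the moving coordinate is last and use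
`MeasurePreserving.skew_product` with `map_add_right_eq_self`, or use `measurePreserving_prodAssoc`,
`Measure.measurePreserving_swap`.  The coordinate swaps `(z₁, z₂, z₃) ↦ (z₁, z₃, z₂)` and
`(z₁, z₂, z₃) ↦ (z₂, z₁, z₃)` are in `NG`.  Then
`S = sh (φ + λ Ω' u) ∘ swap₂₃ ∘ sh β ∘ swap₂₃` and
`K : (u, v, s) ↦ (u, v + V, s) ↦ (u + M s, v', s) ↦ (x, v', s + N v') ↦ (x, s + N v', v')`.
(`deriv Ω` is smooth and periodic: `ContDiff.iterate_deriv`/`contDiff_infty_iff_deriv`,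
`Function.Periodic.deriv` or by hand with `deriv_comp_add_const`.)

Auxiliary lemmas: put them in the namespace `Crest.Agent.R81.ShearAux` (avoid name clashes).
-/

set_option autoImplicit false

open MeasureTheory Set Filter Topology
open scoped InnerProductSpace ComplexConjugate

namespace Crest.Agent.R81

namespace ShearAux

theorem int_shift {V : ℝ → ℝ} (h : ∀ u, ∃ n : ℤ, V (u + 1) = V u + n) (u : ℝ) (i : ℤ) :
    ∃ n : ℤ, V (u + i) = V u + n := by
  induction i using Int.induction_on with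
  | zero => exact ⟨0, by simp⟩
  | succ k ih =>
    obtain ⟨n, hn⟩ := ih
    obtain ⟨m, hm⟩ := h (u + (k : ℤ))
    refine ⟨n + m, ?_⟩
    push_cast at hn hm ⊢
    rw [← add_assoc, hm, hn]; ring
  | pred k ih =>
    obtain ⟨n, hn⟩ := ih
    obtain ⟨m, hm⟩ := h (u + (-(k : ℤ) - 1 : ℤ))
    refine ⟨n - m, ?_⟩
    push_cast at hn hm ⊢
    rw [show u + (-(k : ℝ) - 1) + 1 = u + -k by ring, hn] at hm
    linarith

/-- the basic shear -/
noncomputable def shF (V : ℝ → ℝ → ℝ) (z : TT) : TT :=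
  (z.1, z.2.1 + ((V (rep z.1) (rep z.2.2) : ℝ) : S1), z.2.2)

theorem shF_pr {V : ℝ → ℝ → ℝ} (h1 : ∀ u s, ∃ n : ℤ, V (u + 1) s = V u s + n)
    (h2 : ∀ u s, ∃ n : ℤ, V u (s + 1) = V u s + n) (u v s : ℝ) :
    shF V (pr (u, v, s)) = pr (u, v + V u s, s) := by
  obtain ⟨i, hi⟩ := exists_int_rep u
  obtain ⟨j, hj⟩ := exists_int_rep s
  obtain ⟨n, hn⟩ := int_shift (V := fun u => V u s) (fun u => h1 u s) (rep (u : S1)) i
  obtain ⟨m, hm⟩ := int_shift (V := V (rep (u : S1))) (h2 _) (rep (s : S1)) j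
  rw [add_comm, ← hi] at hn
  rw [add_comm, ← hj] at hm
  have : ((V (rep (u : S1)) (rep (s : S1)) : ℝ) : S1) = (V u s : ℝ) :=
    (coe_eq_coe_iff.2 ⟨m + n, by rw [hn, hm]; push_cast; ring⟩).symm
  simp only [shF, pr, this, AddCircle.coe_add]

theorem shF_mp {V : ℝ → ℝ → ℝ} (hV : Continuous (Function.uncurry V)) :
    MeasurePreserving (shF V) volume volume := by
  have hm : Measurable fun z : S1 × S1 => ((V (rep z.1) (rep z.2) : ℝ) : S1) :=
    (AddCircle.continuous_mk' 1).measurable.comp (hV.measurable.comp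
      ((measurable_rep.comp measurable_fst).prodMk (measurable_rep.comp measurable_snd)))
  have h1 : ∀ x : S1, MeasurePreserving
      (fun y : S1 × S1 => (y.1 + ((V (rep x) (rep y.2) : ℝ) : S1), y.2)) volume volume := by
    intro x
    have h2 : MeasurePreserving
        (fun y : S1 × S1 => (y.1, y.2 + ((V (rep x) (rep y.1) : ℝ) : S1)))
        (volume.prod volume) (volume.prod volume) :=
      (MeasurePreserving.id _).skew_product
        (g := fun (a b : S1) => b + ((V (rep x) (rep a) : ℝ) : S1))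
        (measurable_snd.add (hm.comp (measurable_const.prodMk measurable_fst)))
        (ae_of_all _ fun a => map_add_right_eq_self _ _)
    exact Measure.measurePreserving_swap.comp (h2.comp Measure.measurePreserving_swap)
  exact (MeasurePreserving.id (volume : Measure S1)).skew_product
    (g := fun (x : S1) (y : S1 × S1) => (y.1 + ((V (rep x) (rep y.2) : ℝ) : S1), y.2))
    ((measurable_snd.fst.add (hm.comp (measurable_fst.prodMk measurable_snd.snd))).prodMk
      measurable_snd.snd) (ae_of_all _ fun x => (h1 x).map_eq)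

theorem exists_sh (V : ℝ → ℝ → ℝ) (hV : ContDiff ℝ (⊤ : ℕ∞) (Function.uncurry V))
    (h1 : ∀ u s, ∃ n : ℤ, V (u + 1) s = V u s + n)
    (h2 : ∀ u s, ∃ n : ℤ, V u (s + 1) = V u s + n) :
    ∃ S : NG, ∀ u v s : ℝ, S.1 (pr (u, v, s)) = pr (u, v + V u s, s) := by
  have hV' : ContDiff ℝ (⊤ : ℕ∞) (Function.uncurry fun u s => -V u s) := hV.neg
  have h1' : ∀ u s, ∃ n : ℤ, -V (u + 1) s = -V u s + n := fun u s => by
    obtain ⟨n, hn⟩ := h1 u s
    exact ⟨-n, by rw [hn]; push_cast; ring⟩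
  have h2' : ∀ u s, ∃ n : ℤ, -V u (s + 1) = -V u s + n := fun u s => by
    obtain ⟨n, hn⟩ := h2 u s
    exact ⟨-n, by rw [hn]; push_cast; ring⟩
  let E : Equiv.Perm TT :=
    { toFun := shF V
      invFun := shF fun u s => -V u s
      left_inv := fun z => by simp [shF]
      right_inv := fun z => by simp [shF] }
  have lift : ∀ {V : ℝ → ℝ → ℝ}, ContDiff ℝ (⊤ : ℕ∞) (Function.uncurry V) →
      ContDiff ℝ (⊤ : ℕ∞) fun x : R3 => ((x.1, x.2.1 + V x.1 x.2.2, x.2.2) : R3) := fun hV =>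
    contDiff_fst.prodMk ((contDiff_snd.fst.add
      (hV.comp (contDiff_fst.prodMk contDiff_snd.snd))).prodMk contDiff_snd.snd)
  exact ⟨⟨E, ⟨_, lift hV, fun x => shF_pr h1 h2 _ _ _⟩,
    ⟨_, lift hV', fun x => shF_pr (V := fun u s => -V u s) h1' h2' _ _ _⟩,
    shF_mp hV.continuous, shF_mp hV'.continuous⟩, shF_pr h1 h2⟩

theorem exists_swap23 : ∃ S : NG, ∀ u v s : ℝ, S.1 (pr (u, v, s)) = pr (u, s, v) := by
  let E : Equiv.Perm TT :=
    { toFun := fun z => (z.1, z.2.2, z.2.1)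
      invFun := fun z => (z.1, z.2.2, z.2.1)
      left_inv := fun z => rfl
      right_inv := fun z => rfl }
  have l : ContDiff ℝ (⊤ : ℕ∞) fun x : R3 => ((x.1, x.2.2, x.2.1) : R3) := by fun_prop
  have m : MeasurePreserving (fun z : TT => ((z.1, z.2.2, z.2.1) : TT)) volume volume :=
    (MeasurePreserving.id (volume : Measure S1)).prod Measure.measurePreserving_swap
  exact ⟨⟨E, ⟨_, l, fun x => rfl⟩, ⟨_, l, fun x => rfl⟩, m, m⟩, fun _ _ _ => rfl⟩

theorem exists_swap12 : ∃ S : NG, ∀ u v s : ℝ, S.1 (pr (u, v, s)) = pr (v, u, s) := by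
  let E : Equiv.Perm TT :=
    { toFun := fun z => (z.2.1, z.1, z.2.2)
      invFun := fun z => (z.2.1, z.1, z.2.2)
      left_inv := fun z => rfl
      right_inv := fun z => rfl }
  have l : ContDiff ℝ (⊤ : ℕ∞) fun x : R3 => ((x.2.1, x.1, x.2.2) : R3) := by fun_prop
  have a := measurePreserving_prodAssoc (volume : Measure S1) (volume : Measure S1)
    (volume : Measure S1)
  have m : MeasurePreserving (fun z : TT => ((z.2.1, z.1, z.2.2) : TT)) volume volume :=
    a.comp ((Measure.measurePreserving_swap.prod (MeasurePreserving.id (volume : Measure S1))).comp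
      (a.symm _))
  exact ⟨⟨E, ⟨_, l, fun x => rfl⟩, ⟨_, l, fun x => rfl⟩, m, m⟩, fun _ _ _ => rfl⟩

end ShearAux

open ShearAux

theorem exists_shear {Ω : ℝ → ℝ} (hΩ : ContDiff ℝ (⊤ : ℕ∞) Ω) (hper : Function.Periodic Ω 1)
    (φ lam β : ℝ) : ∃ S : NG, IsShear S.1 Ω φ lam β := by
  have hd : ContDiff ℝ (⊤ : ℕ∞) (deriv Ω) := (contDiff_infty_iff_deriv.1 hΩ).2
  have hp : ∀ u, deriv Ω (u + 1) = deriv Ω u := fun u => by
    rw [← deriv_comp_add_const]
    congr 1
    exact funext hper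
  obtain ⟨A, hA⟩ := exists_sh (fun u _ => φ + lam * deriv Ω u)
    (contDiff_const.add (contDiff_const.mul (hd.comp contDiff_fst)))
    (fun u s => ⟨0, by simp [hp]⟩) (fun u s => ⟨0, by simp⟩)
  obtain ⟨B, hB⟩ := exists_sh (fun _ _ => β) contDiff_const (fun u s => ⟨0, by simp⟩)
    (fun u s => ⟨0, by simp⟩)
  obtain ⟨P, hP⟩ := exists_swap23
  refine ⟨A * (P * (B * P)), fun x y₁ y₂ => ?_⟩
  simp only [NG_mul_apply, hP, hB, hA]

theorem exists_K (N M : ℕ) (V : ℝ → ℝ → ℝ) (hV : ContDiff ℝ (⊤ : ℕ∞) (Function.uncurry V))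
    (h1 : ∀ u s, V (u + 1) s = V u s) (h2 : ∀ u s, V u (s + 1) = V u s) :
    ∃ K : NG, ∀ u v s : ℝ,
      K.1 (pr (u, v, s)) = pr (u + M * s, N * (v + V u s) + s, v + V u s) := by
  obtain ⟨A, hA⟩ := exists_sh V hV (fun u s => ⟨0, by simp [h1]⟩) (fun u s => ⟨0, by simp [h2]⟩)
  have lin : ∀ M : ℕ, ∃ S : NG, ∀ u v s : ℝ, S.1 (pr (u, v, s)) = pr (u, v + M * s, s) := fun M =>
    exists_sh (fun _ s => M * s) (contDiff_const.mul contDiff_snd) (fun u s => ⟨0, by simp⟩)
      (fun u s => ⟨M, by push_cast; ring⟩)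
  obtain ⟨B, hB⟩ := lin M
  obtain ⟨C, hC⟩ := lin N
  obtain ⟨P, hP⟩ := exists_swap23
  obtain ⟨Q, hQ⟩ := exists_swap12
  refine ⟨C * (P * (Q * (B * (Q * A)))), fun u v s => ?_⟩
  simp only [NG_mul_apply, hA, hQ, hB, hP, hC]
  rw [add_comm s]

theorem shear_inv_apply (S : NG) {Ω : ℝ → ℝ} {φ lam β : ℝ} (hS : IsShear S.1 Ω φ lam β)
    (x y₁ y₂ : ℝ) :
    (S⁻¹).1 (pr (x, y₁, y₂)) = pr (x, y₁ - (φ + lam * deriv Ω x), y₂ - β) := by
  have := hS x (y₁ - (φ + lam * deriv Ω x)) (y₂ - β)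
  simp only [sub_add_cancel] at this
  rw [← this, NG_inv_apply]

end Crest.Agent.R81
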