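import Crest.Agent.R81.WApi
import Crest.Agent.R81.Arc
import Crest.Agent.R81.Sep
import Crest.Agent.R81.Shear
import Crest.Agent.R81.Prof

/-!
# R81 / Spec

Spectral properties of a state.
`‖w b‖² = ∫_l^r ‖amp‖² = massB b = θ b (r b) - θ b (l b)`.
`poly_G`: `T ^ k = H S^k H⁻¹` (`conj_zpow`), so `Uc (T^k) (Uc H⁻¹ v) = Uc (H⁻¹ * T^k) v = Uc (S^k * H⁻¹) v
= Uc H⁻¹ (Uc (S^k) v)`; `Uc_shear_zpow`, `Ur_Re2`, `Re2_ofReal_smul`, `W_sum`, `W_smul`.
`corr_G`: `⟪Ur (T^k) G, G⟫ = ⟪Re2 (∑ W (e (kθ) cut amp)), Re2 (∑ W (cut amp))⟫ = 2 re ∑_b ∫_l^r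
conj (e (k θ_b x)) b.1 λ dx`, substitute `t = θ_b x` (`intervalIntegral.integral_comp_mul_add`), and use
`corr_le` with `-k` (or symmetry of `re` under `conj`).
`exists_init`: `H = 1`, `B = ∅`, `a = 1/4`.

Auxiliary lemmas: put them in the namespace `Crest.Agent.R81.SpecAux` (avoid name clashes).
-/

set_option autoImplicit false

open MeasureTheory Set Filter Topology
open scoped InnerProductSpace ComplexConjugate

namespace Crest.Agent.R81

namespace SpecAux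

theorem lo (σ : St) {b : Md} (hb : b ∈ σ.B) : -1 / 2 < σ.l b := by
  have := σ.prof.lt; have := (σ.lr b hb).1; linarith

theorem hi (σ : St) {b : Md} (hb : b ∈ σ.B) : σ.r b < 1 / 2 := by
  have := σ.prof.lt; have := (σ.lr b hb).2.2; linarith

theorem posB (σ : St) : ∀ b ∈ σ.B, Pos b := fun b hb => Or.inl (σ.pos b hb)

theorem norm_Re2_Uc (T : NG) (v : L2) : ‖Re2 (Uc T v)‖ = ‖Re2 v‖ := by
  rw [← Ur_Re2, LinearIsometry.norm_map]

theorem Uc_T_zpow (σ : St) (k : ℤ) (v : L2) :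
    Uc (σ.T ^ k) (Uc σ.H⁻¹ v) = Uc σ.H⁻¹ (Uc (σ.S ^ k) v) := by
  rw [← Uc_mul, ← Uc_mul, St.T, conj_zpow]
  congr 1
  group

theorem continuous_θ (σ : St) (b : Md) : Continuous (σ.θ b) := by
  unfold St.θ th; fun_prop

theorem Uc_w (σ : St) (k : ℤ) {b : Md} (hb : b ∈ σ.B) :
    Uc (σ.S ^ k) (σ.w b) =
      W (cut (fun x => e (k * σ.θ b x) * σ.amp b x) (σ.l b) (σ.r b)) b := by
  rw [St.w, Uc_shear_zpow σ.S σ.prof σ.shear (good_cut (σ.smooth b).continuous _ _)]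
  · congr 1
    funext x
    by_cases hx : x ∈ Icc (σ.l b) (σ.r b) <;> simp [cut, hx, St.θ]
  · intro x hx
    have := σ.lr b hb
    exact indicator_of_notMem (fun h => hx ⟨this.1.trans h.1, h.2.trans this.2.2⟩) _

theorem integral_subst (σ : St) {b : Md} (hb : b ∈ σ.B) (f : ℝ → ℂ) :
    ∫ x in σ.l b..σ.r b, f (σ.θ b x) * ((b.1 * σ.lam : ℝ) : ℂ) =
      ∫ t in σ.θ b (σ.l b)..σ.θ b (σ.r b), f t := by
  have hc : (b.1 * σ.lam : ℝ) ≠ 0 := by
    have : (0 : ℝ) < b.1 := by exact_mod_cast σ.pos b hb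
    have := σ.lam_pos
    positivity
  have h1 : ∀ x, σ.θ b x = (b.1 * σ.lam) * x + (b.1 * σ.φ + b.2 * σ.β) := fun x => by
    simp only [St.θ, th]; ring
  simp only [h1]
  rw [intervalIntegral.integral_mul_const, intervalIntegral.integral_comp_mul_add _ hc,
    Complex.real_smul, mul_comm, ← mul_assoc, ← Complex.ofReal_mul, mul_inv_cancel₀ hc]
  simp

end SpecAux

open SpecAux

theorem St.good_w (σ : St) (b : Md) : Good (cut (σ.amp b) (σ.l b) (σ.r b)) := by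
  exact good_cut (σ.smooth b).continuous _ _

theorem St.massB_eq (σ : St) (b : Md) : σ.massB b = σ.θ b (σ.r b) - σ.θ b (σ.l b) := by
  simp only [St.massB, St.θ, th]; ring

theorem St.massB_nonneg (σ : St) {b : Md} (hb : b ∈ σ.B) : 0 ≤ σ.massB b := by
  have : (0 : ℝ) < b.1 := by exact_mod_cast σ.pos b hb
  have := σ.lam_pos
  have := sub_nonneg.2 (σ.lr b hb).2.1
  simp only [St.massB]; positivity

theorem St.norm_w_sq (σ : St) {b : Md} (hb : b ∈ σ.B) : ‖σ.w b‖ ^ 2 = σ.massB b := by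
  rw [St.w, norm_W_cut_sq (σ.smooth b).continuous (lo σ hb) (σ.lr b hb).2.1 (hi σ hb)]
  simp only [σ.norm_amp b hb, intervalIntegral.integral_const, smul_eq_mul, St.massB]

theorem St.gap_eq (σ : St) : σ.gap = 1 - 2 * ∑ b ∈ σ.B, σ.massB b := by
  rw [St.gap, St.G, St.Gp, norm_Re2_Uc, St.gp]
  simp only [St.w]
  rw [norm_Re2_sum_sq _ (posB σ) fun b _ => σ.good_w b]
  congr 2
  exact Finset.sum_congr rfl fun b hb => σ.norm_w_sq hb

theorem St.gap_nonneg (σ : St) : 0 ≤ σ.gap := by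
  have := len_le σ.sep fun b hb => th_mono σ.φ σ.β σ.lam_pos.le (σ.pos b hb).le (σ.lr b hb).2.1
  rw [σ.gap_eq]
  simp only [St.massB_eq, St.θ]
  linarith

theorem St.norm_G_le (σ : St) : ‖σ.G‖ ≤ 1 := by
  have := σ.gap_nonneg
  simp only [St.gap] at this
  nlinarith [norm_nonneg σ.G]

theorem St.integral_G (σ : St) : ∫ z, σ.G z = 0 := by
  rw [St.G, St.Gp, ← Ur_Re2, integral_Ur, St.gp, map_sum,
    integral_congr_ae (Lp.coeFn_finsetSum _ _)]
  simp only [Finset.sum_apply]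
  rw [integral_finsetSum _ fun b _ => (Lp.memLp _).integrable one_le_two]
  refine Finset.sum_eq_zero fun b hb => ?_
  rw [integral_Re2, St.w, integral_W (σ.good_w b) (posB σ b hb).ne_zero]
  simp

theorem St.norm_G_sub_le (σ σ' : St) : ‖σ'.G - σ.G‖ ≤ 2 * ‖σ'.Gp - σ.Gp‖ := by
  rw [St.G, St.G, ← map_sub]; exact norm_Re2_le _

theorem St.gap_le (σ σ' : St) : σ'.gap ≤ σ.gap + 2 * ‖σ'.G - σ.G‖ := by
  have h1 := σ.norm_G_le
  have h2 := σ'.norm_G_le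
  have h3 : ‖σ.G‖ - ‖σ'.G‖ ≤ ‖σ'.G - σ.G‖ := by
    rw [norm_sub_rev]; exact norm_sub_norm_le _ _
  simp only [St.gap]
  nlinarith [norm_nonneg σ.G, norm_nonneg σ'.G, norm_nonneg (σ'.G - σ.G)]

theorem St.poly_G (σ : St) (c : ℤ →₀ ℝ) :
    poly c σ.T σ.G = Re2 (Uc σ.H⁻¹ (∑ b ∈ σ.B,
      W (cut (fun x => trig c (σ.θ b x) * σ.amp b x) (σ.l b) (σ.r b)) b)) := by
  have hc : ∀ (k : ℤ) (b : Md), Continuous fun x => e (k * σ.θ b x) * σ.amp b x := fun k b =>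
    (continuous_e.comp (continuous_const.mul (continuous_θ σ b))).mul (σ.smooth b).continuous
  have h1 : ∀ b ∈ σ.B, W (cut (fun x => trig c (σ.θ b x) * σ.amp b x) (σ.l b) (σ.r b)) b =
      ∑ k ∈ c.support, (c k : ℂ) • Uc (σ.S ^ k) (σ.w b) := by
    intro b hb
    simp only [Uc_w σ _ hb, ← W_cut_smul (hc _ b)]
    have hc' : ∀ k : ℤ, Continuous fun x => (c k : ℂ) * (e (k * σ.θ b x) * σ.amp b x) := fun k =>
      continuous_const.mul (hc k b)
    rw [← W_sum _ fun k _ => good_cut (hc' k) _ _]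
    congr 1
    funext x
    by_cases hx : x ∈ Icc (σ.l b) (σ.r b)
    · simp only [cut, indicator_of_mem hx, trig, Finsupp.sum, Finset.sum_mul, mul_assoc]
    · simp [cut, hx]
  rw [Finset.sum_congr rfl h1, Finset.sum_comm]
  simp only [poly, Finsupp.sum, St.G, St.Gp, Ur_Re2, Uc_T_zpow]
  rw [map_sum, map_sum]
  refine Finset.sum_congr rfl fun k _ => ?_
  rw [← Finset.smul_sum, ← map_sum, map_smul, Re2_ofReal_smul, St.gp]

theorem St.corr_G (σ : St) {k : ℤ} (hk : k ≠ 0) : |⟪Ur (σ.T ^ k) σ.G, σ.G⟫_ℝ| ≤ σ.gap := by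
  have hc : ∀ (b : Md), Continuous fun x => e (k * σ.θ b x) * σ.amp b x := fun b =>
    (continuous_e.comp (continuous_const.mul (continuous_θ σ b))).mul (σ.smooth b).continuous
  have h1 : ⟪Ur (σ.T ^ k) σ.G, σ.G⟫_ℝ =
      2 * (∑ b ∈ σ.B, ∫ t in σ.θ b (σ.l b)..σ.θ b (σ.r b), e (k * t)).re := by
    rw [real_inner_comm, St.G, St.Gp, Ur_Re2, Uc_T_zpow, ← Ur_Re2, ← Ur_Re2,
      LinearIsometry.inner_map_map, St.gp, map_sum (Uc (σ.S ^ k)),
      Finset.sum_congr rfl fun b hb => Uc_w σ k hb]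
    simp only [St.w]
    rw [inner_Re2_sum _ _ (posB σ) (posB σ) (fun b _ => σ.good_w b)
      fun b _ => good_cut (hc b) _ _, sum_inner]
    congr 2
    refine Finset.sum_congr rfl fun b hb => ?_
    rw [inner_sum, Finset.sum_eq_single_of_mem b hb fun b' _ hne => by
      rw [inner_W (σ.good_w b) (good_cut (hc b') _ _), if_neg (Ne.symm hne)],
      inner_W (σ.good_w b) (good_cut (hc b) _ _), if_pos rfl, ← integral_subst σ hb,
      ← integral_indicator_Icc _ (lo σ hb) (σ.lr b hb).2.1 (hi σ hb)]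
    congr 1
    funext x
    by_cases hx : x ∈ Icc (σ.l b) (σ.r b)
    · simp only [cut, indicator_of_mem hx]
      rw [← σ.norm_amp b hb x, mul_left_comm, Complex.conj_mul']
      push_cast; rfl
    · simp [cut, hx]
  rw [h1, σ.gap_eq]
  simp only [St.massB_eq]
  exact corr_le σ.sep
    (fun b hb => th_mono σ.φ σ.β σ.lam_pos.le (σ.pos b hb).le (σ.lr b hb).2.1) hk

theorem St.Ext.T {σ σ' : St} (h : σ.Ext σ') : σ'.T = σ.T := by
  simp only [St.T, h.H, h.S]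

theorem St.Ext.θ {σ σ' : St} (h : σ.Ext σ') : σ'.θ = σ.θ := by
  funext b x
  simp only [St.θ, h.φ, h.lam, h.β]

theorem St.Ext.w {σ σ' : St} (h : σ.Ext σ') {b : Md} (hb : b ∈ σ.B) : σ'.w b = σ.w b := by
  simp only [St.w, h.l b hb, h.r b hb, h.amp b hb]

theorem St.Ext.full {σ σ' : St} (h : σ.Ext σ') (hf : σ'.Full) : σ.Full := by
  intro b hb
  rw [← h.l b hb, ← h.r b hb, ← h.a]
  exact hf b (h.sub hb)

theorem St.Ext.selfSep {σ σ' : St} (h : σ.Ext σ') {b : Md} (hb : σ'.SelfSep b) : σ.SelfSep b := by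
  simpa only [St.SelfSep, h.θ, h.a] using hb

theorem St.Ext.norm_Gp {σ σ' : St} (h : σ.Ext σ') :
    ‖σ'.Gp - σ.Gp‖ ^ 2 = ∑ b ∈ σ'.B \ σ.B, σ'.massB b := by
  have h1 : σ'.gp - σ.gp = ∑ b ∈ σ'.B \ σ.B, σ'.w b := by
    rw [St.gp, St.gp, ← Finset.sum_sdiff h.sub, Finset.sum_congr rfl fun b hb => h.w hb]
    abel
  rw [St.Gp, St.Gp, h.H, ← map_sub, LinearIsometry.norm_map, h1]
  simp only [St.w]
  rw [norm_sum_W_sq _ (fun b => b) (fun _ _ _ _ h => h) fun b _ => σ'.good_w b]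
  exact Finset.sum_congr rfl fun b hb => σ'.norm_w_sq (Finset.mem_sdiff.1 hb).1

theorem St.Ext.norm_G {σ σ' : St} (h : σ.Ext σ') : ‖σ'.G - σ.G‖ ^ 2 = σ.gap - σ'.gap := by
  have h1 : σ'.gp - σ.gp = ∑ b ∈ σ'.B \ σ.B, σ'.w b := by
    rw [St.gp, St.gp, ← Finset.sum_sdiff h.sub, Finset.sum_congr rfl fun b hb => h.w hb]
    abel
  rw [St.G, St.G, St.Gp, St.Gp, h.H, ← map_sub, ← map_sub, norm_Re2_Uc, h1]
  simp only [St.w]
  rw [norm_Re2_sum_sq _ (fun b hb => posB σ' b (Finset.mem_sdiff.1 hb).1) fun b _ => σ'.good_w b,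
    σ.gap_eq, σ'.gap_eq, ← Finset.sum_sdiff h.sub]
  have h2 : ∑ b ∈ σ.B, σ'.massB b = ∑ b ∈ σ.B, σ.massB b :=
    Finset.sum_congr rfl fun b hb => by simp only [St.massB, h.l b hb, h.r b hb, h.lam]
  have h3 : ∑ b ∈ σ'.B \ σ.B, ‖W (cut (σ'.amp b) (σ'.l b) (σ'.r b)) b‖ ^ 2 =
      ∑ b ∈ σ'.B \ σ.B, σ'.massB b :=
    Finset.sum_congr rfl fun b hb => σ'.norm_w_sq (Finset.mem_sdiff.1 hb).1
  rw [h2, h3]; ring

theorem exists_init : Nonempty St := by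
  obtain ⟨Ω, hΩ⟩ := exists_prof (a := 1 / 4) (by norm_num) (by norm_num)
  obtain ⟨S, hS⟩ := exists_shear hΩ.smooth hΩ.per 0 1 0
  exact ⟨⟨1, S, 1 / 4, Ω, 0, 1, 0, ∅, fun _ => 0, fun _ => 0, fun _ _ => 0, hΩ, one_pos, hS,
    by simp, by simp [NPar], by simp, fun _ => contDiff_const, by simp, by simp [SepI]⟩⟩

end Crest.Agent.R81
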