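import Crest.Agent.R81.Basic
import Crest.Prelude.Def_Torus3

/-!
# R81 / Transfer

Transfer from `S1 × S1 × S1` to `Fin 3 → S1`.
Let `E : T3 ≃ TT`, `E x = (x 0, x 1, x 2)`, a measurable equivalence preserving `volume`
(`volume_preserving_piFinSuccAbove _ 0` or `measurePreserving_piFinSuccAbove`, composed with
`volume_preserving_piFinTwo`/`finTwoArrow`; or `Measure.pi_eq` on boxes), and `Er : (Fin 3 → ℝ) ≃L R3` with
`E (proj x) = pr (Er x)`.  `T' = E.symm.permCongr T` (so `(T' ^ n) x = E.symm ((T ^ n) (E x))`, e.g. via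
`Equiv.permCongrHom`/`map_zpow`), `g' = g ∘ E`; lifts `Er.symm ∘ F ∘ Er`;
`MeasurePreserving.integral_comp'`, `MemLp.comp_measurePreserving`.

Auxiliary lemmas: put them in the namespace `Crest.Agent.R81.TransferAux` (avoid name clashes).
-/

set_option autoImplicit false

open MeasureTheory Set Filter Topology
open scoped InnerProductSpace ComplexConjugate

namespace Crest.Agent.R81

namespace TransferAux

open Crest.AnalysisR.Torus3

/-- the identification of the two models of the torus -/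
noncomputable def E : T3 ≃ᵐ TT :=
  (MeasurableEquiv.piFinSuccAbove (fun _ : Fin 3 => S1) 0).trans
    ((MeasurableEquiv.refl S1).prodCongr MeasurableEquiv.finTwoArrow)

theorem E_apply (x : T3) : E x = (x 0, x 1, x 2) := rfl

theorem E_mp : MeasurePreserving E volume volume :=
  ((MeasurePreserving.id (volume : Measure S1)).prod (volume_preserving_finTwoArrow S1)).comp
    (volume_preserving_piFinSuccAbove (fun _ : Fin 3 => S1) 0)

/-- coordinates -/
def toR (x : Fin 3 → ℝ) : R3 := (x 0, x 1, x 2)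

/-- coordinates -/
def ofR (x : R3) : Fin 3 → ℝ := ![x.1, x.2.1, x.2.2]

theorem E_proj (x : Fin 3 → ℝ) : E (proj x) = pr (toR x) := rfl

theorem E_symm_pr (x : R3) : E.symm (pr x) = proj (ofR x) := by
  apply E.injective
  rw [E.apply_symm_apply, E_proj]
  rfl

theorem contDiff_toR : ContDiff ℝ (⊤ : ℕ∞) toR := by
  unfold toR; fun_prop

theorem contDiff_ofR : ContDiff ℝ (⊤ : ℕ∞) ofR := by
  refine contDiff_pi.2 fun i => ?_
  fin_cases i
  · exact contDiff_fst
  · exact contDiff_fst.comp contDiff_snd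
  · exact contDiff_snd.comp contDiff_snd

theorem lift {T : TT → TT} {F : R3 → R3} (h : Lifts T F) :
    IsSmoothLift (fun x => E.symm (T (E x))) (ofR ∘ F ∘ toR) :=
  ⟨contDiff_ofR.comp (h.1.comp contDiff_toR), fun x => by
    simp only [E_proj, h.2, E_symm_pr, Function.comp]⟩

theorem zpow_apply (T : Equiv.Perm TT) (n : ℤ) (x : T3) :
    E ((E.toEquiv.symm.permCongr T ^ n) x) = (T ^ n) (E x) := by
  have : E.toEquiv.symm.permCongr T ^ n = E.toEquiv.symm.permCongr (T ^ n) :=
    (map_zpow (E.toEquiv.symm.permCongrHom) T n).symm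
  rw [this]
  simp

end TransferAux

open TransferAux

open Crest.AnalysisR.Torus3 in
theorem transfer (T : NG) (g : TT → ℝ) (hg : MemLp g 2 volume) (h0 : ∫ x, g x = 0)
    (ho : ∀ m n : ℤ, ∫ x, g ((T.1 ^ m) x) * g ((T.1 ^ n) x) = if m = n then 1 else 0)
    (hc : ∀ h : TT → ℂ, MemLp h 2 volume → ∫ x, h x = 0 →
        (∀ n : ℤ, ∫ x, h x * (g ((T.1 ^ n) x) : ℂ) = 0) → h =ᵐ[volume] 0) :
    ∃ (T : Equiv.Perm T3) (g : T3 → ℝ), IsSmoothDiffeo T ∧
      MeasureTheory.MeasurePreserving T MeasureTheory.volume MeasureTheory.volume ∧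
      MeasureTheory.MemLp g 2 MeasureTheory.volume ∧ ∫ x, g x = 0 ∧
      (∀ m n : ℤ, ∫ x, g ((T ^ m) x) * g ((T ^ n) x) = if m = n then 1 else 0) ∧
      (∀ h : T3 → ℂ, MeasureTheory.MemLp h 2 MeasureTheory.volume → ∫ x, h x = 0 →
        (∀ n : ℤ, ∫ x, h x * (g ((T ^ n) x) : ℂ) = 0) → h =ᵐ[MeasureTheory.volume] 0) := by
  refine ⟨E.toEquiv.symm.permCongr T.1, fun x => g (E x), ⟨?_, ?_⟩, ?_,
    hg.comp_measurePreserving E_mp, ?_, fun m n => ?_, fun h hh hh0 hhn => ?_⟩
  · obtain ⟨F, hF⟩ := T.2.1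
    exact ⟨_, lift hF⟩
  · obtain ⟨F, hF⟩ := T.2.2.1
    exact ⟨_, lift hF⟩
  · exact (E_mp.symm E).comp ((NG_mp T).comp E_mp)
  · rw [E_mp.integral_comp' g, h0]
  · simp only [zpow_apply]
    rw [E_mp.integral_comp' (fun z => g ((T.1 ^ m) z) * g ((T.1 ^ n) z)), ho]
  · have h1 := hc (fun z => h (E.symm z)) (hh.comp_measurePreserving (E_mp.symm E))
      (by rw [(E_mp.symm E).integral_comp' h, hh0]) fun n => by
        rw [← E_mp.integral_comp', ← hhn n]
        simp only [zpow_apply, E.symm_apply_apply]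
    have h2 := E_mp.quasiMeasurePreserving.ae_eq_comp h1
    filter_upwards [h2] with z hz
    simpa using hz

end Crest.Agent.R81
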