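import Crest.Agent.R81.Koop

/-!
# R81 / WApi

The vectors `W A b = A(x) e(b · y)`.
* `memLp_wv`: bounded measurable (`MemLp.of_bound`, `measurable_rep`, `fourier n` is continuous of
  norm one: `fourier_apply`/`Circle.norm_coe`).
* `integral_wv_mul`-type computations: the integrand is a product `f z.1 * (g z.2.1 * h z.2.2)`; use
  `Measure.volume_eq_prod`, `integral_prod_mul` twice, `integral_rep`, `integral_fourier`,
  `fourier_add`, `fourier_neg`.
* `Uc_shear_zpow`: by `Int.induction_on`, `(S ^ k).1 (pr (x, y₁, y₂)) =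
  pr (x, y₁ + k (φ + λ Ω' x), y₂ + k β)` (for the inverse step apply `S` to both sides); then compare
  pointwise at `z = pr (rep z.1, rep z.2.1, rep z.2.2)`: if `A (rep z.1) ≠ 0` then
  `deriv Ω (rep z.1) = rep z.1`.  Use `Uc_mk`.

Auxiliary lemmas: put them in the namespace `Crest.Agent.R81.WApiAux` (avoid name clashes).
-/

set_option autoImplicit false

open MeasureTheory Set Filter Topology
open scoped InnerProductSpace ComplexConjugate

namespace Crest.Agent.R81

namespace WApiAux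

theorem norm_fourier (n : ℤ) (z : S1) : ‖fourier n z‖ = 1 := by
  rw [fourier_apply]; exact Circle.norm_coe _

theorem norm_wv (A : ℝ → ℂ) (b : Md) (z : TT) : ‖wv A b z‖ = ‖A (rep z.1)‖ := by
  simp only [wv, norm_mul, norm_fourier, mul_one]

theorem measurable_wv {A : ℝ → ℂ} (hA : Measurable A) (b : Md) : Measurable (wv A b) := by
  unfold wv
  exact ((hA.comp (measurable_rep.comp measurable_fst)).mul
    ((fourier b.1).continuous.measurable.comp (measurable_fst.comp measurable_snd))).mul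
    ((fourier b.2).continuous.measurable.comp (measurable_snd.comp measurable_snd))

theorem integral_wv (A : ℝ → ℂ) (b : Md) :
    ∫ z, wv A b z = if b = 0 then ∫ x in (-1 / 2 : ℝ)..(1 / 2), A x else 0 := by
  have h1 : ∫ z, wv A b z = (∫ z : S1, A (rep z)) *
      ((∫ z : S1, fourier b.1 z) * ∫ z : S1, fourier b.2 z) := by
    rw [← integral_prod_mul, ← integral_prod_mul]
    simp only [wv, mul_assoc]
    rfl
  rw [h1, integral_rep, integral_fourier, integral_fourier]
  obtain ⟨b1, b2⟩ := b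
  by_cases h1 : b1 = 0 <;> by_cases h2 : b2 = 0 <;> simp [h1, h2, Prod.ext_iff]

theorem wv_mul (A B : ℝ → ℂ) (a b : Md) (z : TT) :
    wv A a z * wv B b z = wv (fun x => A x * B x) (a + b) z := by
  simp only [wv, Prod.fst_add, Prod.snd_add, fourier_add]; ring

theorem conj_wv (A : ℝ → ℂ) (a : Md) (z : TT) :
    conj (wv A a z) = wv (fun x => conj (A x)) (-a) z := by
  simp only [wv, map_mul, Prod.fst_neg, Prod.snd_neg, fourier_neg]

theorem shear_zpow (S : NG) {Ω : ℝ → ℝ} {φ lam β : ℝ} (hS : IsShear S.1 Ω φ lam β) (k : ℤ)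
    (x y₁ y₂ : ℝ) :
    (S ^ k).1 (pr (x, y₁, y₂)) = pr (x, y₁ + k * (φ + lam * deriv Ω x), y₂ + k * β) := by
  induction k using Int.induction_on generalizing y₁ y₂ with
  | zero => simp
  | succ k ih =>
    rw [zpow_add_one, NG_mul_apply, hS, ih]
    congr 1; push_cast; ext <;> simp only <;> ring
  | pred k ih =>
    have h1 : (S⁻¹).1 (pr (x, y₁, y₂)) = pr (x, y₁ - (φ + lam * deriv Ω x), y₂ - β) := by
      have := hS x (y₁ - (φ + lam * deriv Ω x)) (y₂ - β)
      simp only [sub_add_cancel] at this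
      rw [← this, NG_inv_apply]
    rw [zpow_sub_one, NG_mul_apply, h1, ih]
    congr 1; push_cast; ext <;> simp only <;> ring

end WApiAux

open WApiAux

theorem Good.mul {A B : ℝ → ℂ} (hA : Good A) (hB : Good B) : Good fun x => A x * B x := by
  obtain ⟨h1, C, hC⟩ := hA
  obtain ⟨h2, D, hD⟩ := hB
  refine ⟨h1.mul h2, C * D, fun x => ?_⟩
  rw [norm_mul]
  exact mul_le_mul (hC x) (hD x) (norm_nonneg _) ((norm_nonneg _).trans (hC x))

theorem Good.add {A B : ℝ → ℂ} (hA : Good A) (hB : Good B) : Good fun x => A x + B x := by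
  obtain ⟨h1, C, hC⟩ := hA
  obtain ⟨h2, D, hD⟩ := hB
  exact ⟨h1.add h2, C + D, fun x => (norm_add_le _ _).trans (add_le_add (hC x) (hD x))⟩

theorem Good.sub {A B : ℝ → ℂ} (hA : Good A) (hB : Good B) : Good fun x => A x - B x := by
  obtain ⟨h1, C, hC⟩ := hA
  obtain ⟨h2, D, hD⟩ := hB
  exact ⟨h1.sub h2, C + D, fun x => (norm_sub_le _ _).trans (add_le_add (hC x) (hD x))⟩

theorem Good.conj {A : ℝ → ℂ} (hA : Good A) : Good fun x => conj (A x) := by
  obtain ⟨h1, C, hC⟩ := hA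
  exact ⟨Complex.continuous_conj.measurable.comp h1, C, fun x => by simpa using hC x⟩

theorem good_const (c : ℂ) : Good fun _ => c := by
  exact ⟨measurable_const, ‖c‖, fun _ => le_rfl⟩

theorem good_e {f : ℝ → ℝ} (hf : Measurable f) : Good fun x => e (f x) := by
  exact ⟨continuous_e.measurable.comp hf, 1, fun x => (norm_e _).le⟩

theorem good_cut {A : ℝ → ℂ} (hA : Continuous A) (l r : ℝ) : Good (cut A l r) := by
  obtain ⟨C, hC⟩ := isCompact_Icc.exists_bound_of_continuousOn (hA.continuousOn (s := Icc l r))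
  refine ⟨hA.measurable.indicator measurableSet_Icc, max C 0, fun x => ?_⟩
  by_cases hx : x ∈ Icc l r
  · simp only [cut, indicator_of_mem hx]; exact (hC x hx).trans (le_max_left _ _)
  · simp only [cut, indicator_of_notMem hx, norm_zero]; exact le_max_right _ _

theorem good_of_supp {A : ℝ → ℂ} (hA : Continuous A) {l r : ℝ} (h : ∀ x ∉ Icc l r, A x = 0) :
    Good A := by
  have : A = cut A l r := by
    funext x
    by_cases hx : x ∈ Icc l r
    · simp [cut, hx]
    · simp [cut, hx, h x hx]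
  rw [this]; exact good_cut hA l r

theorem Good.intervalIntegrable {A : ℝ → ℂ} (hA : Good A) (s t : ℝ) :
    IntervalIntegrable A volume s t := by
  obtain ⟨h1, C, hC⟩ := hA
  exact (intervalIntegrable_const (c := C)).mono_fun' h1.aestronglyMeasurable
    (Eventually.of_forall hC)

theorem Good.intervalIntegrable_normSq {A : ℝ → ℂ} (hA : Good A) (s t : ℝ) :
    IntervalIntegrable (fun x => ‖A x‖ ^ 2) volume s t := by
  obtain ⟨h1, C, hC⟩ := hA
  refine (intervalIntegrable_const (c := C ^ 2)).mono_fun'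
    (h1.norm.pow_const 2).aestronglyMeasurable (Eventually.of_forall fun x => ?_)
  simp only [norm_pow, norm_norm]
  exact pow_le_pow_left₀ (norm_nonneg _) (hC x) 2

theorem integral_indicator_Icc {E : Type} [NormedAddCommGroup E] [NormedSpace ℝ E] (f : ℝ → E)
    {l r : ℝ} (hl : -1 / 2 < l) (hlr : l ≤ r) (hr : r < 1 / 2) :
    ∫ x in (-1 / 2 : ℝ)..(1 / 2), indicator (Icc l r) f x = ∫ x in l..r, f x := by
  rw [intervalIntegral.integral_of_le (by norm_num), intervalIntegral.integral_of_le hlr,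
    integral_indicator measurableSet_Icc, Measure.restrict_restrict measurableSet_Icc,
    ← integral_Icc_eq_integral_Ioc]
  congr 2
  exact inter_eq_left.2 fun x hx => ⟨hl.trans_le hx.1, hx.2.trans hr.le⟩

theorem memLp_wv {A : ℝ → ℂ} (hA : Good A) (b : Md) : MemLp (wv A b) 2 volume := by
  obtain ⟨h1, C, hC⟩ := hA
  exact MemLp.of_bound (measurable_wv h1 b).aestronglyMeasurable C
    (Eventually.of_forall fun z => by rw [norm_wv]; exact hC _)

theorem W_coe {A : ℝ → ℂ} (hA : Good A) (b : Md) : W A b =ᵐ[volume] wv A b := by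
  exact mk_coe (memLp_wv hA b)

theorem W_zero (b : Md) : W (fun _ => 0) b = 0 := by
  refine Lp.ext ?_
  filter_upwards [W_coe (good_const 0) b, Lp.coeFn_zero ℂ 2 (volume : Measure TT)] with z h1 h2
  rw [h1, h2]; simp [wv]

theorem W_smul {A : ℝ → ℂ} (hA : Good A) (c : ℂ) (b : Md) :
    W (fun x => c * A x) b = c • W A b := by
  refine Lp.ext ?_
  filter_upwards [W_coe ((good_const c).mul hA) b, W_coe hA b, Lp.coeFn_smul c (W A b)]
    with z h1 h2 h3
  rw [h1, h3, Pi.smul_apply, h2]; simp only [wv, smul_eq_mul]; ring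

theorem W_add {A B : ℝ → ℂ} (hA : Good A) (hB : Good B) (b : Md) :
    W (fun x => A x + B x) b = W A b + W B b := by
  refine Lp.ext ?_
  filter_upwards [W_coe (hA.add hB) b, W_coe hA b, W_coe hB b, Lp.coeFn_add (W A b) (W B b)]
    with z h1 h2 h3 h4
  rw [h1, h4, Pi.add_apply, h2, h3]; simp only [wv]; ring

theorem W_sub {A B : ℝ → ℂ} (hA : Good A) (hB : Good B) (b : Md) :
    W (fun x => A x - B x) b = W A b - W B b := by
  refine Lp.ext ?_
  filter_upwards [W_coe (hA.sub hB) b, W_coe hA b, W_coe hB b, Lp.coeFn_sub (W A b) (W B b)]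
    with z h1 h2 h3 h4
  rw [h1, h4, Pi.sub_apply, h2, h3]; simp only [wv]; ring

theorem W_sum {ι : Type} (s : Finset ι) {A : ι → ℝ → ℂ} (hA : ∀ i ∈ s, Good (A i)) (b : Md) :
    W (fun x => ∑ i ∈ s, A i x) b = ∑ i ∈ s, W (A i) b := by
  classical
  suffices h : (Good fun x => ∑ i ∈ s, A i x) ∧
    W (fun x => ∑ i ∈ s, A i x) b = ∑ i ∈ s, W (A i) b from h.2
  induction s using Finset.induction_on with
  | empty => simpa using ⟨good_const 0, W_zero b⟩
  | insert i s hi ih =>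
    have h1 := ih fun j hj => hA j (Finset.mem_insert_of_mem hj)
    have h2 := hA i (Finset.mem_insert_self _ _)
    simp only [Finset.sum_insert hi]
    exact ⟨h2.add h1.1, by rw [W_add h2 h1.1, h1.2]⟩

theorem W_cut_smul {A : ℝ → ℂ} (hA : Continuous A) (c : ℂ) (l r : ℝ) (b : Md) :
    W (cut (fun x => c * A x) l r) b = c • W (cut A l r) b := by
  rw [← W_smul (good_cut hA l r)]
  congr 1
  funext x
  by_cases hx : x ∈ Icc l r <;> simp [cut, hx]

theorem W_cut_sub {A B : ℝ → ℂ} (hA : Continuous A) (hB : Continuous B) (l r : ℝ) (b : Md) :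
    W (cut (fun x => A x - B x) l r) b = W (cut A l r) b - W (cut B l r) b := by
  rw [← W_sub (good_cut hA l r) (good_cut hB l r)]
  congr 1
  funext x
  by_cases hx : x ∈ Icc l r <;> simp [cut, hx]

theorem inner_W {A B : ℝ → ℂ} (hA : Good A) (hB : Good B) (a b : Md) :
    ⟪W A a, W B b⟫_ℂ =
      if a = b then ∫ x in (-1 / 2 : ℝ)..(1 / 2), conj (A x) * B x else 0 := by
  rw [L2.inner_def]
  have : ∫ z, ⟪W A a z, W B b z⟫_ℂ = ∫ z, wv (fun x => conj (A x) * B x) (-a + b) z := by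
    refine integral_congr_ae ?_
    filter_upwards [W_coe hA a, W_coe hB b] with z h1 h2
    rw [h1, h2, ← wv_mul, ← conj_wv]
    simp [mul_comm]
  rw [this, integral_wv]
  simp only [neg_add_eq_zero]

theorem norm_W_sq {A : ℝ → ℂ} (hA : Good A) (a : Md) :
    ‖W A a‖ ^ 2 = ∫ x in (-1 / 2 : ℝ)..(1 / 2), ‖A x‖ ^ 2 := by
  have h1 := inner_W hA hA a a
  rw [if_pos rfl, inner_self_eq_norm_sq_to_K] at h1
  have h2 : ∫ x in (-1 / 2 : ℝ)..(1 / 2), conj (A x) * A x =
      ((∫ x in (-1 / 2 : ℝ)..(1 / 2), ‖A x‖ ^ 2 : ℝ) : ℂ) := by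
    rw [← intervalIntegral.integral_ofReal]
    congr 1
    funext x
    rw [Complex.conj_mul']; push_cast; rfl
  rw [h2] at h1
  apply Complex.ofReal_injective
  rw [← h1]; push_cast; rfl

theorem norm_W_cut_sq {A : ℝ → ℂ} (hA : Continuous A) {l r : ℝ} (hl : -1 / 2 < l) (hlr : l ≤ r)
    (hr : r < 1 / 2) (a : Md) : ‖W (cut A l r) a‖ ^ 2 = ∫ x in l..r, ‖A x‖ ^ 2 := by
  rw [norm_W_sq (good_cut hA l r), ← integral_indicator_Icc _ hl hlr hr]
  congr 1
  funext x
  by_cases hx : x ∈ Icc l r <;> simp [cut, hx]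

theorem norm_sum_W_sq {ι : Type} (s : Finset ι) (md : ι → Md) (hmd : Set.InjOn md s)
    {A : ι → ℝ → ℂ} (hA : ∀ i ∈ s, Good (A i)) :
    ‖∑ i ∈ s, W (A i) (md i)‖ ^ 2 = ∑ i ∈ s, ‖W (A i) (md i)‖ ^ 2 := by
  have h1 : ⟪∑ i ∈ s, W (A i) (md i), ∑ i ∈ s, W (A i) (md i)⟫_ℂ =
      ∑ i ∈ s, ⟪W (A i) (md i), W (A i) (md i)⟫_ℂ := by
    rw [sum_inner]
    refine Finset.sum_congr rfl fun i hi => ?_
    rw [inner_sum]
    refine Finset.sum_eq_single_of_mem i hi fun j hj hji => ?_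
    rw [inner_W (hA i hi) (hA j hj), if_neg fun h => hji (hmd hj hi h.symm)]
  simp only [inner_self_eq_norm_sq_to_K] at h1
  exact_mod_cast h1

theorem integral_W {A : ℝ → ℂ} (hA : Good A) {a : Md} (ha : a ≠ 0) : ∫ z, W A a z = 0 := by
  rw [integral_congr_ae (W_coe hA a), integral_wv, if_neg ha]

theorem integral_W_mul_W {A B : ℝ → ℂ} (hA : Good A) (hB : Good B) {a b : Md} (h : a + b ≠ 0) :
    ∫ z, W A a z * W B b z = 0 := by
  have : ∫ z, W A a z * W B b z = ∫ z, wv (fun x => A x * B x) (a + b) z := by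
    refine integral_congr_ae ?_
    filter_upwards [W_coe hA a, W_coe hB b] with z h1 h2
    rw [h1, h2, wv_mul]
  rw [this, integral_wv, if_neg h]

theorem Re2_W_neg {A : ℝ → ℂ} (hA : Good A) (a : Md) :
    Re2 (W (fun x => conj (A x)) (-a)) = Re2 (W A a) := by
  refine Lp.ext ?_
  filter_upwards [Re2_coe (W (fun x => conj (A x)) (-a)), Re2_coe (W A a), W_coe hA.conj (-a),
    W_coe hA a] with z h1 h2 h3 h4
  rw [h1, h2, h3, h4, ← conj_wv, Complex.conj_re]

theorem inner_Re2_sum (s s' : Finset Md) (hs : ∀ a ∈ s, Pos a) (hs' : ∀ a ∈ s', Pos a)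
    {A B : Md → ℝ → ℂ} (hA : ∀ a ∈ s, Good (A a)) (hB : ∀ a ∈ s', Good (B a)) :
    ⟪Re2 (∑ a ∈ s, W (A a) a), Re2 (∑ a ∈ s', W (B a) a)⟫_ℝ =
      2 * (⟪∑ a ∈ s, W (A a) a, ∑ a ∈ s', W (B a) a⟫_ℂ).re := by
  have hne : ∀ a ∈ s, ∀ b ∈ s', a + b ≠ 0 := by
    intro a ha b hb h
    have h1 := congrArg Prod.fst h
    have h2 := congrArg Prod.snd h
    simp only [Prod.fst_add, Prod.snd_add, Prod.fst_zero, Prod.snd_zero] at h1 h2
    rcases hs a ha with h3 | h3 <;> rcases hs' b hb with h4 | h4 <;> omega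
  simp only [map_sum, sum_inner, inner_sum, Complex.re_sum, Finset.mul_sum]
  refine Finset.sum_congr rfl fun b hb => Finset.sum_congr rfl fun a ha => ?_
  rw [inner_Re2, integral_W_mul_W (hA a ha) (hB b hb) (hne a ha b hb)]
  simp

theorem norm_Re2_sum_sq (s : Finset Md) (hs : ∀ a ∈ s, Pos a) {A : Md → ℝ → ℂ}
    (hA : ∀ a ∈ s, Good (A a)) :
    ‖Re2 (∑ a ∈ s, W (A a) a)‖ ^ 2 = 2 * ∑ a ∈ s, ‖W (A a) a‖ ^ 2 := by
  rw [← real_inner_self_eq_norm_sq, inner_Re2_sum s s hs hs hA hA,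
    ← norm_sum_W_sq s (fun a => a) (fun _ _ _ _ h => h) hA, inner_self_eq_norm_sq_to_K]
  norm_cast

theorem Uc_shear_zpow (S : NG) {a : ℝ} {Ω : ℝ → ℝ} {φ lam β : ℝ} (hΩ : IsProf a Ω)
    (hS : IsShear S.1 Ω φ lam β) {A : ℝ → ℂ} (hA : Good A) (hs : ∀ x ∉ Icc (-a) a, A x = 0)
    (k : ℤ) (b : Md) :
    Uc (S ^ k) (W A b) = W (fun x => e (k * th φ lam β b x) * A x) b := by
  rw [W, Uc_mk _ (memLp_wv hA b), W]
  congr 1
  funext z
  conv_lhs => rw [← pr_rep z, shear_zpow S hS]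
  by_cases hx : rep z.1 ∈ Icc (-a) a
  · rw [hΩ.der _ hx]
    simp only [wv, pr, coe_rep]
    conv_rhs => rw [← coe_rep z.2.1, ← coe_rep z.2.2]
    simp only [fourier_coe]
    have : e (b.1 * (rep z.2.1 + k * (φ + lam * rep z.1))) * e (b.2 * (rep z.2.2 + k * β)) =
        e (k * th φ lam β b (rep z.1)) * (e (b.1 * rep z.2.1) * e (b.2 * rep z.2.2)) := by
      simp only [← e_add, th]; congr 1; ring
    rw [mul_assoc, this]; ring
  · simp [wv, pr, coe_rep, hs _ hx]

end Crest.Agent.R81
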